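import Crest.Agent.Henry.ZOps

/-!
# The marked cylinder (S0382, section 1) (helper3)

For a globular presheaf `A` with whisker operations `W`, parameters `n` (marks forced below `n`) and `j`
(level: no `H` datum above `j`):

* `Cy A m`: raw cells: `marked z`; `un0 z0 z1 H`, `un σ τ z0 z1 H`;
* `Cy.p0 Cy.p1 Cy.hof Cy.csrc Cy.ctgt`;
* `TrRaw W k σ τ h w` raw transport;
* `Cy.Valid W n j`;
* `cyl W n j : GlobSet`, `cylConx W n j : Conx A` with `cylConx_good`, so that `Conx.TrG_bdry`,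
  `Conx.TrG_natural` of `Transport.lean` apply; `TrG_eq_raw`;
* functoriality: `Cy.map`, `Cy.map_valid`, `cylMor`.
-/

set_option autoImplicit false
set_option linter.unusedVariables false

open CategoryTheory CategoryTheory.Limits Opposite
open Crest.GeometryTopology.Coherator
open Crest.GeometryTopology.Coherator.GlobTheory Crest.GeometryTopology.Coherator.GlobTheory.GlobModel

universe u

namespace Crest.Agent.Henry

/-- Raw cells of the cylinder. -/
inductive Cy (A : GlobPsh.{u}) : ℕ → Type u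
  | marked {m : ℕ} (z : Cell A m) : Cy A m
  | un0 (z0 z1 : Cell A 0) (H : Option (Cell A 1)) : Cy A 0
  | un {k : ℕ} (σ τ : Cy A k) (z0 z1 : Cell A (k + 1)) (H : Option (Cell A (k + 2))) : Cy A (k + 1)

namespace Cy

variable {A : GlobPsh.{u}}

/-- The `0`-end. -/
def p0 : {m : ℕ} → Cy A m → Cell A m
  | _, .marked z => z
  | _, .un0 z0 _ _ => z0
  | _, .un _ _ z0 _ _ => z0

/-- The `1`-end. -/
def p1 : {m : ℕ} → Cy A m → Cell A m
  | _, .marked z => z
  | _, .un0 _ z1 _ => z1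
  | _, .un _ _ _ z1 _ => z1

/-- The optional homotopy cell. -/
def hof : {m : ℕ} → Cy A m → Option (Cell A (m + 1))
  | _, .marked _ => none
  | _, .un0 _ _ H => H
  | _, .un _ _ _ _ H => H

/-- Source. -/
def csrc {k : ℕ} : Cy A (k + 1) → Cy A k
  | .marked z => .marked (sr A k z)
  | .un σ _ _ _ _ => σ

/-- Target. -/
def ctgt {k : ℕ} : Cy A (k + 1) → Cy A k
  | .marked z => .marked (tg A k z)
  | .un _ τ _ _ _ => τ

/-- Is a cell marked? -/
def IsMarked : {m : ℕ} → Cy A m → Prop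
  | _, .marked _ => True
  | _, .un0 _ _ _ => False
  | _, .un _ _ _ _ _ => False

/-- Parallel raw pairs. -/
def Par : (k : ℕ) → Cy A k → Cy A k → Prop
  | 0, _, _ => True
  | k + 1, σ, τ => csrc σ = csrc τ ∧ ctgt σ = ctgt τ

end Cy

variable {A : GlobPsh.{u}} (W : WOps A)

/-- Raw transport. -/
def TrRaw : (k : ℕ) → Cy A k → Cy A k → ∀ h, Cell A h → Cell A h
  | 0, σ, τ, h, w => rw' W 0 h (lw W 0 h σ.hof w) τ.hof
  | k + 1, σ, τ, h, w =>
    rw' W (k + 1) h (lw W (k + 1) h σ.hof (TrRaw k σ.csrc σ.ctgt h w)) τ.hof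

/-- Validity of raw cells. -/
def Cy.Valid (n j : ℕ) : {m : ℕ} → Cy A m → Prop
  | _, .marked _ => True
  | _, .un0 z0 z1 H => n = 0 ∧ ∃ H0, H = some H0 ∧ sr A 0 H0 = z0 ∧ tg A 0 H0 = z1
  | _, .un (k := k) σ τ z0 z1 H =>
    Cy.Valid n j σ ∧ Cy.Valid n j τ ∧ Cy.Par k σ τ ∧ n ≤ k + 1 ∧
      sr A k z0 = σ.p0 ∧ tg A k z0 = τ.p0 ∧ sr A k z1 = σ.p1 ∧ tg A k z1 = τ.p1 ∧
      ((k + 1 ≤ j ∧ ∃ H0, H = some H0 ∧ sr A (k + 1) H0 = TrRaw W k σ τ (k + 1) z0 ∧
        tg A (k + 1) H0 = z1) ∨ (j < k + 1 ∧ H = none))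

variable {W}

namespace Cy

theorem sr_sr (A : GlobPsh.{u}) (k : ℕ) (z : Cell A (k + 2)) : sr A k (sr A (k + 1) z) = sr A k (tg A (k + 1) z) := by
  show Cell.face A _ false (Cell.face A _ false z) = Cell.face A _ false (Cell.face A _ true z)
  rw [Cell.face_face, Cell.face_face]

theorem tg_tg (A : GlobPsh.{u}) (k : ℕ) (z : Cell A (k + 2)) : tg A k (sr A (k + 1) z) = tg A k (tg A (k + 1) z) := by
  show Cell.face A _ true (Cell.face A _ false z) = Cell.face A _ true (Cell.face A _ true z)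
  rw [Cell.face_face, Cell.face_face]

theorem valid_csrc {n j k : ℕ} {x : Cy A (k + 1)} (h : Cy.Valid W n j x) : Cy.Valid W n j x.csrc := by
  cases x with
  | marked z => trivial
  | un σ τ z0 z1 H => exact h.1

theorem valid_ctgt {n j k : ℕ} {x : Cy A (k + 1)} (h : Cy.Valid W n j x) : Cy.Valid W n j x.ctgt := by
  cases x with
  | marked z => trivial
  | un σ τ z0 z1 H => exact h.2.1

theorem par_of_valid {n j k : ℕ} {x : Cy A (k + 1)} (h : Cy.Valid W n j x) : Cy.Par k x.csrc x.ctgt := by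
  cases x with
  | marked z =>
    cases k with
    | zero => trivial
    | succ k => exact ⟨congrArg Cy.marked (sr_sr A k z), congrArg Cy.marked (tg_tg A k z)⟩
  | un σ τ z0 z1 H => exact h.2.2.1

theorem p0_csrc {n j k : ℕ} {x : Cy A (k + 1)} (h : Cy.Valid W n j x) : x.csrc.p0 = sr A k x.p0 := by
  cases x with
  | marked z => rfl
  | un σ τ z0 z1 H => exact h.2.2.2.2.1.symm

theorem p0_ctgt {n j k : ℕ} {x : Cy A (k + 1)} (h : Cy.Valid W n j x) : x.ctgt.p0 = tg A k x.p0 := by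
  cases x with
  | marked z => rfl
  | un σ τ z0 z1 H => exact h.2.2.2.2.2.1.symm

theorem p1_csrc {n j k : ℕ} {x : Cy A (k + 1)} (h : Cy.Valid W n j x) : x.csrc.p1 = sr A k x.p1 := by
  cases x with
  | marked z => rfl
  | un σ τ z0 z1 H => exact h.2.2.2.2.2.2.1.symm

theorem p1_ctgt {n j k : ℕ} {x : Cy A (k + 1)} (h : Cy.Valid W n j x) : x.ctgt.p1 = tg A k x.p1 := by
  cases x with
  | marked z => rfl
  | un σ τ z0 z1 H => exact h.2.2.2.2.2.2.2.1.symm

end Cy

variable (W)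

/-- The cylinder, as a globular set. -/
def cyl (n j : ℕ) : GlobSet.{u} where
  cell m := { x : Cy A m // Cy.Valid W n j x }
  src k x := ⟨x.1.csrc, Cy.valid_csrc x.2⟩
  tgt k x := ⟨x.1.ctgt, Cy.valid_ctgt x.2⟩
  src_src k x := Subtype.ext (Cy.par_of_valid x.2).1
  tgt_tgt k x := Subtype.ext (Cy.par_of_valid x.2).2

/-- The cylinder as a connection. -/
def cylConx (n j : ℕ) : Conx A where
  C := cyl W n j
  pa m x := x.1.p0
  pb m x := x.1.p1
  pa_s k x := Cy.p0_csrc x.2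
  pa_t k x := Cy.p0_ctgt x.2
  pb_s k x := Cy.p1_csrc x.2
  pb_t k x := Cy.p1_ctgt x.2
  Hof m x := x.1.hof

theorem TrG_eq_raw (n j k : ℕ) (σ τ : (cyl W n j).cell k) (h : ℕ) (w : Cell A h) :
    (cylConx W n j).TrG W k σ τ h w = TrRaw W k σ.1 τ.1 h w := by
  induction k with
  | zero => rfl
  | succ k ih =>
    show rw' W (k + 1) h (lw W (k + 1) h σ.1.hof ((cylConx W n j).TrG W k _ _ h w)) τ.1.hof = _
    rw [ih]
    rfl

theorem cylConx_good (n j : ℕ) : (cylConx W n j).Good W j := by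
  intro m hm x
  obtain ⟨x, hx⟩ := x
  cases x with
  | marked z =>
    have e0 : (cylConx W n j).Hof m ⟨Cy.marked z, hx⟩ = none := rfl
    refine ⟨fun _ => rfl, ?_, ?_, ?_⟩
    · intro k hk b _
      cases m with
      | zero => omega
      | succ m' =>
        obtain rfl : m' = k := by omega
        cases b <;> rfl
    · intro H e
      rw [e0] at e
      cases e
    · intro H e
      rw [e0] at e
      cases e
  | un0 z0 z1 H =>
    obtain ⟨-, H0, rfl, h1, h2⟩ := hx
    have e0 : (cylConx W n j).Hof 0 ⟨Cy.un0 z0 z1 (some H0), ⟨by assumption, H0, rfl, h1, h2⟩⟩ = some H0 := rfl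
    refine ⟨?_, ?_, ?_, ?_⟩
    · intro e
      rw [e0] at e
      cases e
    · intro k hk
      omega
    · intro H e
      rw [e0] at e
      cases e
      exact h1
    · intro H e
      rw [e0] at e
      cases e
      exact h2
  | un σ τ z0 z1 H =>
    rename_i k
    obtain ⟨h1, h2, h3, h4, h5, h6, h7, h8, h9⟩ := hx
    rcases h9 with ⟨-, H0, rfl, h10, h11⟩ | ⟨h9, -⟩
    · have e0 : ∀ hx, (cylConx W n j).Hof (k + 1) ⟨Cy.un σ τ z0 z1 (some H0), hx⟩ = some H0 :=
        fun hx => rfl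
      refine ⟨?_, ?_, ?_, ?_⟩
      · intro e
        rw [e0] at e
        cases e
      · intro k' hk' b e
        rw [e0] at e
        cases e
      · intro H e
        rw [e0] at e
        cases e
        refine h10.trans ?_
        exact (TrG_eq_raw W n j k ⟨σ, h1⟩ ⟨τ, h2⟩ (k + 1) z0).symm
      · intro H e
        rw [e0] at e
        cases e
        exact h11
    · omega

/-- Boundary and faces of a raw transport. -/
theorem TrRaw_bdry {W : WOps A} (L : WLaws W) {n j k : ℕ} (hk : k ≤ j) {σ τ : Cy A k}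
    (hσ : Cy.Valid W n j σ) (hτ : Cy.Valid W n j τ) (hpar : Cy.Par k σ τ) {h : ℕ} (hkh : k < h)
    (w : Cell A h) (h0 : Cell.face A hkh false w = σ.p0) (h1 : Cell.face A hkh true w = τ.p0) :
    Cell.face A hkh false (TrRaw W k σ τ h w) = σ.p1 ∧
      Cell.face A hkh true (TrRaw W k σ τ h w) = τ.p1 ∧
      ∀ (i : ℕ) (hki : k < i) (hih : i < h) (b : Bool),
        Cell.face A hih b (TrRaw W k σ τ h w) = TrRaw W k σ τ i (Cell.face A hih b w) := by
  have hpar' : (cylConx W n j).Par k ⟨σ, hσ⟩ ⟨τ, hτ⟩ := by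
    cases k with
    | zero => trivial
    | succ k => exact ⟨Subtype.ext hpar.1, Subtype.ext hpar.2⟩
  have := (cylConx W n j).TrG_bdry L (cylConx_good W n j) hk ⟨σ, hσ⟩ ⟨τ, hτ⟩ hpar' hkh w h0 h1
  simp only [TrG_eq_raw] at this
  exact this

section Map

variable {A' : GlobPsh.{u}} {W' : WOps A'}

/-- Functoriality of raw cells. -/
def Cy.map (f : A ⟶ A') : {m : ℕ} → Cy A m → Cy A' m
  | _, .marked z => .marked (f.app _ z)
  | _, .un0 z0 z1 H => .un0 (f.app _ z0) (f.app _ z1) (H.map (f.app _))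
  | _, .un σ τ z0 z1 H => .un (Cy.map f σ) (Cy.map f τ) (f.app _ z0) (f.app _ z1) (H.map (f.app _))

@[simp] theorem Cy.map_p0 (f : A ⟶ A') {m : ℕ} (x : Cy A m) : (x.map f).p0 = f.app _ x.p0 := by
  cases x <;> rfl

@[simp] theorem Cy.map_p1 (f : A ⟶ A') {m : ℕ} (x : Cy A m) : (x.map f).p1 = f.app _ x.p1 := by
  cases x <;> rfl

@[simp] theorem Cy.map_hof (f : A ⟶ A') {m : ℕ} (x : Cy A m) :
    (x.map f).hof = x.hof.map (f.app _) := by
  cases x <;> rfl

theorem Cy.map_csrc (f : A ⟶ A') {k : ℕ} (x : Cy A (k + 1)) : (x.map f).csrc = x.csrc.map f := by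
  cases x with
  | marked z => exact congrArg Cy.marked (Conx.face_natural f _ _ z).symm
  | un σ τ z0 z1 H => rfl

theorem Cy.map_ctgt (f : A ⟶ A') {k : ℕ} (x : Cy A (k + 1)) : (x.map f).ctgt = x.ctgt.map f := by
  cases x with
  | marked z => exact congrArg Cy.marked (Conx.face_natural f _ _ z).symm
  | un σ τ z0 z1 H => rfl

theorem Cy.map_par (f : A ⟶ A') {k : ℕ} {σ τ : Cy A k} (h : Cy.Par k σ τ) :
    Cy.Par k (σ.map f) (τ.map f) := by
  cases k with
  | zero => trivial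
  | succ k =>
    refine ⟨?_, ?_⟩
    · rw [Cy.map_csrc, Cy.map_csrc, h.1]
    · rw [Cy.map_ctgt, Cy.map_ctgt, h.2]

theorem Cy.map_isMarked (f : A ⟶ A') {m : ℕ} (x : Cy A m) : (x.map f).IsMarked ↔ x.IsMarked := by
  cases x <;> exact Iff.rfl

/-- The pushforward of the cylinder connection along a map of presheaves. -/
def pushConx (W : WOps A) (n j : ℕ) (f : A ⟶ A') : Conx A' where
  C := cyl W n j
  pa m x := f.app _ x.1.p0
  pb m x := f.app _ x.1.p1
  pa_s k x := by
    show f.app _ x.1.csrc.p0 = _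
    rw [Cy.p0_csrc x.2]
    exact Conx.face_natural f _ _ _
  pa_t k x := by
    show f.app _ x.1.ctgt.p0 = _
    rw [Cy.p0_ctgt x.2]
    exact Conx.face_natural f _ _ _
  pb_s k x := by
    show f.app _ x.1.csrc.p1 = _
    rw [Cy.p1_csrc x.2]
    exact Conx.face_natural f _ _ _
  pb_t k x := by
    show f.app _ x.1.ctgt.p1 = _
    rw [Cy.p1_ctgt x.2]
    exact Conx.face_natural f _ _ _
  Hof m x := x.1.hof.map (f.app _)

theorem pushConx_TrG (W : WOps A) (n j : ℕ) (f : A ⟶ A') (k : ℕ) (σ τ : (cyl W n j).cell k) (h : ℕ)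
    (w : Cell A' h) :
    (pushConx W n j f).TrG W' k σ τ h w = TrRaw W' k (σ.1.map f) (τ.1.map f) h w := by
  induction k with
  | zero =>
    show rw' W' 0 h (lw W' 0 h (σ.1.hof.map (f.app _)) w) (τ.1.hof.map (f.app _)) =
      rw' W' 0 h (lw W' 0 h (σ.1.map f).hof w) (τ.1.map f).hof
    rw [Cy.map_hof, Cy.map_hof]
  | succ k ih =>
    show rw' W' (k + 1) h (lw W' (k + 1) h (σ.1.hof.map (f.app _))
        ((pushConx W n j f).TrG W' k _ _ h w)) (τ.1.hof.map (f.app _)) =
      rw' W' (k + 1) h (lw W' (k + 1) h (σ.1.map f).hof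
        (TrRaw W' k (σ.1.map f).csrc (σ.1.map f).ctgt h w)) (τ.1.map f).hof
    rw [ih, Cy.map_hof, Cy.map_hof, Cy.map_csrc, Cy.map_ctgt]
    rfl

/-- Raw transport is natural, on cells over the right boundary. -/
theorem TrRaw_natural {W : WOps A} (L : WLaws W) {f : A ⟶ A'} (hf : Conx.WNat W W' f) {n j k : ℕ}
    (hk : k ≤ j) {σ τ : Cy A k} (hσ : Cy.Valid W n j σ) (hτ : Cy.Valid W n j τ)
    (hpar : Cy.Par k σ τ) {h : ℕ} (hkh : k < h) (w : Cell A h)
    (h0 : Cell.face A hkh false w = σ.p0) (h1 : Cell.face A hkh true w = τ.p0) :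
    f.app _ (TrRaw W k σ τ h w) = TrRaw W' k (σ.map f) (τ.map f) h (f.app _ w) := by
  have hpar' : (cylConx W n j).Par k ⟨σ, hσ⟩ ⟨τ, hτ⟩ := by
    cases k with
    | zero => trivial
    | succ k => exact ⟨Subtype.ext hpar.1, Subtype.ext hpar.2⟩
  let φ : Conx.Mor (cylConx W n j) (pushConx W n j f) f :=
    { c := fun m x => x
      c_src := fun k x => rfl
      c_tgt := fun k x => rfl
      pa := fun m x => rfl
      pb := fun m x => rfl
      Hof := fun m x => rfl }
  have := (cylConx W n j).TrG_natural L hf φ (cylConx_good W n j) hk ⟨σ, hσ⟩ ⟨τ, hτ⟩ hpar' hkh w h0 h1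
  rw [TrG_eq_raw, pushConx_TrG] at this
  exact this

theorem Cy.map_valid {W : WOps A} (L : WLaws W) {f : A ⟶ A'} (hf : Conx.WNat W W' f) {n j m : ℕ}
    (x : Cy A m) (hx : Cy.Valid W n j x) : Cy.Valid W' n j (x.map f) := by
  induction x with
  | marked z => trivial
  | un0 z0 z1 H =>
    obtain ⟨h1, H0, rfl, h2, h3⟩ := hx
    exact ⟨h1, f.app _ H0, rfl, by rw [← h2]; exact (Conx.face_natural f _ _ H0).symm,
      by rw [← h3]; exact (Conx.face_natural f _ _ H0).symm⟩
  | un σ τ z0 z1 H ihσ ihτ =>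
    rename_i k
    obtain ⟨h1, h2, h3, h4, h5, h6, h7, h8, h9⟩ := hx
    refine ⟨ihσ h1, ihτ h2, Cy.map_par f h3, h4, ?_, ?_, ?_, ?_, ?_⟩
    · rw [Cy.map_p0, ← h5]; exact (Conx.face_natural f _ _ z0).symm
    · rw [Cy.map_p0, ← h6]; exact (Conx.face_natural f _ _ z0).symm
    · rw [Cy.map_p1, ← h7]; exact (Conx.face_natural f _ _ z1).symm
    · rw [Cy.map_p1, ← h8]; exact (Conx.face_natural f _ _ z1).symm
    · rcases h9 with ⟨hk, H0, rfl, h10, h11⟩ | ⟨hk, rfl⟩
      · refine Or.inl ⟨hk, f.app _ H0, rfl, ?_, ?_⟩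
        · have e1 : sr A' (k + 1) (f.app _ H0) = f.app _ (sr A (k + 1) H0) :=
            (Conx.face_natural f _ _ H0).symm
          rw [e1, h10]
          exact TrRaw_natural L hf (Nat.le_of_succ_le hk) h1 h2 h3 (Nat.lt_succ_self k) z0 h5 h6
        · rw [← h11]; exact (Conx.face_natural f _ _ H0).symm
      · exact Or.inr ⟨hk, rfl⟩

/-- The map of connections induced by a map of presheaves. -/
def cylMor {W : WOps A} (L : WLaws W) {f : A ⟶ A'} (hf : Conx.WNat W W' f) (n j : ℕ) :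
    Conx.Mor (cylConx W n j) (cylConx W' n j) f where
  c m x := ⟨x.1.map f, Cy.map_valid L hf x.1 x.2⟩
  c_src k x := Subtype.ext (Cy.map_csrc f x.1).symm
  c_tgt k x := Subtype.ext (Cy.map_ctgt f x.1).symm
  pa m x := Cy.map_p0 f x.1
  pb m x := Cy.map_p1 f x.1
  Hof m x := Cy.map_hof f x.1

end Map

/-! ### The cylinder as a presheaf -/

section Psh

variable (n j : ℕ)

/-- The presheaf of the cylinder. -/
def cylPsh : GlobPsh.{u} := GlobSetPsh.toPsh (cyl W n j)

theorem cylPsh_σ (m : ℕ) (x : (cyl W n j).cell (m + 1)) :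
    (cylPsh W n j).map (GlobeObj.σ m).op x = (cyl W n j).src m x :=
  GlobSetPsh.toGlobSet_src _ m x

theorem cylPsh_τ (m : ℕ) (x : (cyl W n j).cell (m + 1)) :
    (cylPsh W n j).map (GlobeObj.τ m).op x = (cyl W n j).tgt m x :=
  GlobSetPsh.toGlobSet_tgt _ m x

/-- The `0`-end as a map of presheaves. -/
def cylP0 : cylPsh W n j ⟶ A :=
  natOfFaces (fun m x => (x : (cyl W n j).cell m).1.p0)
    (fun m x => by
      show Cy.p0 ((cylPsh W n j).map (GlobeObj.σ m).op x : (cyl W n j).cell m).1 = _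
      rw [cylPsh_σ]
      exact Cy.p0_csrc (W := W) (n := n) (j := j) (x := (x : (cyl W n j).cell (m + 1)).1) x.2)
    (fun m x => by
      show Cy.p0 ((cylPsh W n j).map (GlobeObj.τ m).op x : (cyl W n j).cell m).1 = _
      rw [cylPsh_τ]
      exact Cy.p0_ctgt (W := W) (n := n) (j := j) (x := (x : (cyl W n j).cell (m + 1)).1) x.2)

/-- The `1`-end as a map of presheaves. -/
def cylP1 : cylPsh W n j ⟶ A :=
  natOfFaces (fun m x => (x : (cyl W n j).cell m).1.p1)
    (fun m x => by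
      show Cy.p1 ((cylPsh W n j).map (GlobeObj.σ m).op x : (cyl W n j).cell m).1 = _
      rw [cylPsh_σ]
      exact Cy.p1_csrc (W := W) (n := n) (j := j) (x := (x : (cyl W n j).cell (m + 1)).1) x.2)
    (fun m x => by
      show Cy.p1 ((cylPsh W n j).map (GlobeObj.τ m).op x : (cyl W n j).cell m).1 = _
      rw [cylPsh_τ]
      exact Cy.p1_ctgt (W := W) (n := n) (j := j) (x := (x : (cyl W n j).cell (m + 1)).1) x.2)

/-- The marked cells, as a map of presheaves. -/
def cylD : A ⟶ cylPsh W n j :=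
  natOfFaces (fun m z => (⟨Cy.marked z, trivial⟩ : (cyl W n j).cell m))
    (fun m x => by
      show _ = (cylPsh W n j).map (GlobeObj.σ m).op _
      rw [cylPsh_σ]
      rfl)
    (fun m x => by
      show _ = (cylPsh W n j).map (GlobeObj.τ m).op _
      rw [cylPsh_τ]
      rfl)

theorem cylD_P0 : cylD W n j ≫ cylP0 W n j = 𝟙 A := by
  apply NatTrans.ext; funext X; rcases X with ⟨⟨m⟩⟩; ext z; rfl

theorem cylD_P1 : cylD W n j ≫ cylP1 W n j = 𝟙 A := by
  apply NatTrans.ext; funext X; rcases X with ⟨⟨m⟩⟩; ext z; rfl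

end Psh

/-- The map of cylinders as presheaves. -/
def cylPshMap {A' : GlobPsh.{u}} {W' : WOps A'} {W : WOps A} (L : WLaws W) {f : A ⟶ A'}
    (hf : Conx.WNat W W' f) (n j : ℕ) : cylPsh W n j ⟶ cylPsh W' n j :=
  natOfFaces (fun m x => (cylMor L hf n j).c m x)
    (fun m x => by
      show (cylMor L hf n j).c m ((cylPsh W n j).map (GlobeObj.σ m).op x) =
        (cylPsh W' n j).map (GlobeObj.σ m).op _
      rw [cylPsh_σ, cylPsh_σ]
      exact (cylMor L hf n j).c_src m x)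
    (fun m x => by
      show (cylMor L hf n j).c m ((cylPsh W n j).map (GlobeObj.τ m).op x) =
        (cylPsh W' n j).map (GlobeObj.τ m).op _
      rw [cylPsh_τ, cylPsh_τ]
      exact (cylMor L hf n j).c_tgt m x)

end Crest.Agent.Henry
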