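import Mathlib
import Crest.Prelude.Def_GlobularCoherator

/-!
# Section 8 of the S0382 blueprint: the shell of the main theorem

* `exists_retraction`: from the pushout square, the retraction `r : Y ⟶ X` of `i`
  (which sends the new cell to the unit on `a`).
* `isWeakEquiv_of_retraction`: if `i` has a retraction `r` and every `0`-cell `y` of `Y` and every loop
  `l` at a base point of the image of `X` is either fixed by `i r`, or joined to its image under `i r`
  by a cell, then `i` is a weak equivalence.
-/

set_option autoImplicit false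

namespace Crest.Agent.Henry.Final

open CategoryTheory CategoryTheory.Limits Opposite
open Crest.GeometryTopology.Coherator
open GlobTheory GlobTheory.GlobModel

universe u

variable {C : GlobTheory.{u}}

lemma cellsMap_comp {X Y Z : C.GlobModel} (f : X ⟶ Y) (g : Y ⟶ Z) (k : ℕ) (x : X.cells.cell k) :
    (cellsMap (f ≫ g)).app k x = (cellsMap g).app k ((cellsMap f).app k x) := rfl

lemma cellsMap_id {X : C.GlobModel} (k : ℕ) (x : X.cells.cell k) :
    (cellsMap (𝟙 X)).app k x = x := rfl

lemma cellsMap_retract {X Y : C.GlobModel} {i : X ⟶ Y} {r : Y ⟶ X} (hr : i ≫ r = 𝟙 X) (k : ℕ)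
    (x : X.cells.cell k) : (cellsMap r).app k ((cellsMap i).app k x) = x := by
  rw [← cellsMap_comp, hr, cellsMap_id]

/-- Maps of models preserve base points. -/
lemma cellsMap_basePoint {X Y : C.GlobModel} (f : X ⟶ Y) (e : C.UnitChoice)
    (x : X.cells.cell 0) (k : ℕ) :
    (cellsMap f).app k (X.basePoint e x k) = Y.basePoint e ((cellsMap f).app 0 x) k := by
  induction k with
  | zero => rfl
  | succ k ih =>
    have h := types_congr_hom (f.naturality (Quiver.Hom.op
      (X := (⟨Shape.globe (k + 1)⟩ : C.Ob)) (Y := (⟨Shape.globe k⟩ : C.Ob)) (e.unit k)))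
      (X.basePoint e x k)
    change (cellsMap f).app (k + 1) (X.unitCell e k (X.basePoint e x k)) =
      Y.unitCell e k ((cellsMap f).app k (X.basePoint e x k)) at h
    rw [ih] at h
    exact h

/-- A retraction gives a left inverse on homotopy classes. -/
noncomputable def backMap {X Y : C.GlobModel} {i : X ⟶ Y} {r : Y ⟶ X} (hr : i ≫ r = 𝟙 X)
    (e : C.UnitChoice) (x : X.cells.cell 0) (n : ℕ) :
    Y.HomotopyClasses e ((cellsMap i).app 0 x) n → X.HomotopyClasses e x n :=
  Quot.map (fun z => ⟨(cellsMap r).app (n + 1) z.1,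
      by
        rw [← (cellsMap r).app_src, z.2.1, cellsMap_basePoint, cellsMap_retract hr],
      by
        rw [← (cellsMap r).app_tgt, z.2.2, cellsMap_basePoint, cellsMap_retract hr]⟩)
    (by
      rintro _ _ ⟨c, hs, ht⟩
      exact ⟨(cellsMap r).app (n + 2) c,
        by rw [← (cellsMap r).app_src, hs], by rw [← (cellsMap r).app_tgt, ht]⟩)

/-- **Section 8.** If `i` has a retraction `r`, and every `0`-cell `y` of `Y` and every loop `l` at a
base point of the image of `X` is either fixed by `r ≫ i` or joined to its image by a cell, then `i`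
is a weak equivalence. -/
theorem isWeakEquiv_of_retraction (e : C.UnitChoice) {X Y : C.GlobModel} (i : X ⟶ Y) (r : Y ⟶ X)
    (hr : i ≫ r = 𝟙 X)
    (h0 : ∀ y : Y.cells.cell 0, y = (cellsMap (r ≫ i)).app 0 y ∨
      Y.cells.Step 0 y ((cellsMap (r ≫ i)).app 0 y))
    (hL : ∀ (x : X.cells.cell 0) (L : ℕ) (l : Y.LoopsAt e ((cellsMap i).app 0 x) L),
      l.1 = (cellsMap (r ≫ i)).app _ l.1 ∨
        Y.cells.Step (L + 1) l.1 ((cellsMap (r ≫ i)).app _ l.1)) :
    IsWeakEquiv e i := by
  refine ⟨⟨?_, ?_⟩, fun x n => ⟨?_, ?_⟩⟩
  · -- injectivity on components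
    have hleft : Function.LeftInverse (componentsMap r) (componentsMap i) := by
      intro q
      induction q using Quot.ind with
      | mk x =>
        exact congrArg (Quot.mk _) (cellsMap_retract hr 0 x)
    exact hleft.injective
  · -- surjectivity on components
    intro q
    induction q using Quot.ind with
    | mk y =>
      refine ⟨Quot.mk _ ((cellsMap r).app 0 y), ?_⟩
      change Quot.mk _ ((cellsMap (r ≫ i)).app 0 y) = Quot.mk _ y
      rcases h0 y with h | h
      · rw [← h]
      · exact (Quot.sound h).symm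
  · -- injectivity on homotopy classes
    have hleft : Function.LeftInverse (backMap hr e x n) (homotopyMap i e x n) := by
      intro q
      induction q using Quot.ind with
      | mk z =>
        refine congrArg (Quot.mk _) (Subtype.ext ?_)
        exact cellsMap_retract hr _ z.1
    exact hleft.injective
  · -- surjectivity on homotopy classes
    intro q
    induction q using Quot.ind with
    | mk l =>
      refine ⟨backMap hr e x n (Quot.mk _ l), ?_⟩
      change Quot.mk _ _ = Quot.mk _ l
      rcases hL x n l with h | h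
      · refine congrArg (Quot.mk _) (Subtype.ext ?_)
        exact h.symm
      · refine (Quot.sound ?_).symm
        exact h

/-- The map of disks induced by the unit. -/
noncomputable def unitDisk (e : C.UnitChoice) (n : ℕ) : diskModel C (n + 1) ⟶ diskModel C n :=
  (yoneda.map (X := (⟨Shape.globe (n + 1)⟩ : C.Ob)) (Y := (⟨Shape.globe n⟩ : C.Ob)) (e.unit n) :
    (diskModel C (n + 1)).functor ⟶ (diskModel C n).functor)

lemma sourceIncl_unitDisk (e : C.UnitChoice) (n : ℕ) :
    sourceIncl C n ≫ unitDisk e n = 𝟙 (diskModel C n) := by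
  have h : (C.incl.map (Shape.σ n) ≫
      (show (⟨Shape.globe (n + 1)⟩ : C.Ob) ⟶ (⟨Shape.globe n⟩ : C.Ob) from e.unit n)) =
      𝟙 (⟨Shape.globe n⟩ : C.Ob) := e.src_unit n
  have h2 := congrArg (fun f => yoneda.map f) h
  simp only [yoneda.map_comp] at h2
  exact h2.trans (yoneda.map_id _)

/-- The retraction given by the pushout square: the new cell goes to the unit on `a`. -/
theorem exists_retraction (e : C.UnitChoice) {X Y : C.GlobModel} (n : ℕ)
    (a : diskModel C n ⟶ X) (i : X ⟶ Y) (b : diskModel C (n + 1) ⟶ Y)
    (sq : IsPushout a (sourceIncl C n) i b) :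
    ∃ r : Y ⟶ X, i ≫ r = 𝟙 X ∧ b ≫ r = unitDisk e n ≫ a := by
  refine ⟨sq.desc (𝟙 X) (unitDisk e n ≫ a) ?_, sq.inl_desc _ _ _, sq.inr_desc _ _ _⟩
  rw [Category.comp_id, ← Category.assoc, sourceIncl_unitDisk, Category.id_comp]

end Crest.Agent.Henry.Final
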