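import Mathlib
import Crest.Prelude.Def_GlobularCoherator

/-!
# Reflection of presheaves into models of a globular theory

For a globular theory `C`, the models form a reflective subcategory of presheaves on `C.Ob`:
they are the objects local with respect to the small family of comparison maps
`pushout ⟶ representable` of the designated gluing squares.  From the reflection we get
attachments of families of disks along their source faces (`exists_attach`).
-/

set_option autoImplicit false

open CategoryTheory CategoryTheory.Limits Opposite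
open Crest.GeometryTopology.Coherator

universe u

namespace Crest.Agent.Henry.Reflect

section abstract
variable {𝒞 : Type} [Category.{u} 𝒞] {A B K D : 𝒞} (f : A ⟶ B) (g : A ⟶ K) (l : B ⟶ D) (r : K ⟶ D)
  (w : f ≫ l = g ≫ r)

/-- comparison map from the pushout of representables. -/
noncomputable def cmp : pushout (yoneda.map f) (yoneda.map g) ⟶ yoneda.obj D :=
  pushout.desc (yoneda.map l) (yoneda.map r) (by
    rw [← yoneda.map_comp, ← yoneda.map_comp, w])

lemma local_iff_pullback (F : 𝒞ᵒᵖ ⥤ Type u) :
    Function.Bijective (fun (t : yoneda.obj D ⟶ F) => cmp f g l r w ≫ t) ↔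
      IsPullback (F.map l.op) (F.map r.op) (F.map f.op) (F.map g.op) := by
  have hw : F.map l.op ≫ F.map f.op = F.map r.op ≫ F.map g.op := by
    rw [← F.map_comp, ← F.map_comp, ← op_comp, ← op_comp, w]
  rw [Types.isPullback_iff]
  constructor
  · intro hb'
    refine ⟨hw, ?_, ?_⟩
    · rintro x y ⟨h₁, h₂⟩
      have : yonedaEquiv.symm x = yonedaEquiv.symm y := by
        apply hb'.1
        apply pushout.hom_ext
        · simp only [cmp, pushout.inl_desc_assoc]
          rw [yonedaEquiv_symm_naturality_left, yonedaEquiv_symm_naturality_left, h₁]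
        · simp only [cmp, pushout.inr_desc_assoc]
          rw [yonedaEquiv_symm_naturality_left, yonedaEquiv_symm_naturality_left, h₂]
      exact yonedaEquiv.symm.injective this
    · intro x₂ x₃ hx
      obtain ⟨t, ht⟩ := hb'.2 (pushout.desc (yonedaEquiv.symm x₂) (yonedaEquiv.symm x₃) (by
        rw [yonedaEquiv_symm_naturality_left, yonedaEquiv_symm_naturality_left, hx]))
      refine ⟨yonedaEquiv t, ?_, ?_⟩
      · have h3 := congrArg (fun k => pushout.inl _ _ ≫ k) ht
        simp only [cmp, pushout.inl_desc_assoc, pushout.inl_desc] at h3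
        rw [yonedaEquiv_naturality, h3, Equiv.apply_symm_apply]
      · have h3 := congrArg (fun k => pushout.inr _ _ ≫ k) ht
        simp only [cmp, pushout.inr_desc_assoc, pushout.inr_desc] at h3
        rw [yonedaEquiv_naturality, h3, Equiv.apply_symm_apply]
  · rintro ⟨_, hinj, hsurj⟩
    constructor
    · intro g₁ g₂ hg
      have h₁ : yonedaEquiv g₁ = yonedaEquiv g₂ := by
        apply hinj
        constructor
        · have h3 := congrArg (fun k => pushout.inl _ _ ≫ k) hg
          simp only [cmp, pushout.inl_desc_assoc] at h3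
          rw [yonedaEquiv_naturality, yonedaEquiv_naturality, h3]
        · have h3 := congrArg (fun k => pushout.inr _ _ ≫ k) hg
          simp only [cmp, pushout.inr_desc_assoc] at h3
          rw [yonedaEquiv_naturality, yonedaEquiv_naturality, h3]
      exact yonedaEquiv.injective h₁
    · intro k
      obtain ⟨x, hx₁, hx₂⟩ := hsurj (yonedaEquiv (pushout.inl _ _ ≫ k))
        (yonedaEquiv (pushout.inr _ _ ≫ k)) (by
          rw [yonedaEquiv_naturality, yonedaEquiv_naturality, ← Category.assoc, ← Category.assoc,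
            pushout.condition])
      refine ⟨yonedaEquiv.symm x, ?_⟩
      apply pushout.hom_ext
      · simp only [cmp, pushout.inl_desc_assoc]
        rw [yonedaEquiv_symm_naturality_left, hx₁, Equiv.symm_apply_apply]
      · simp only [cmp, pushout.inr_desc_assoc]
        rw [yonedaEquiv_symm_naturality_left, hx₂, Equiv.symm_apply_apply]

variable {f g l r w}

instance presentable_yoneda (X : 𝒞) (κ : Cardinal.{u}) [Fact κ.IsRegular] :
    IsCardinalPresentable (yoneda.obj X) κ where
  preservesColimitOfShape J _ _ := by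
    let e : coyoneda.obj (op (yoneda.obj X)) ≅ (evaluation 𝒞ᵒᵖ (Type u)).obj (op X) :=
      NatIso.ofComponents (fun P ↦ Equiv.toIso yonedaEquiv)
    exact preservesColimitsOfShape_of_natIso e.symm

lemma presentable_pushout {A B K : 𝒞} (f : A ⟶ B) (g : A ⟶ K) (κ : Cardinal.{u}) [Fact κ.IsRegular] :
    IsCardinalPresentable (pushout (yoneda.map f) (yoneda.map g)) κ := by
  have hκ : Cardinal.aleph0 ≤ κ := (Fact.out : κ.IsRegular).aleph0_le
  have hK : HasCardinalLT (Arrow WalkingSpan) κ :=
    hasCardinalLT_of_finite _ _ hκ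
  have hY : ∀ k, IsCardinalPresentable ((span (yoneda.map f) (yoneda.map g)).obj k) κ := by
    rintro (_ | (_ | _)) <;> exact presentable_yoneda _ κ
  exact isCardinalPresentable_of_isColimit (colimit.cocone _) (colimit.isColimit _) κ hK

end abstract

open GlobTheory

/-- Index of the designated gluing squares. -/
structure GlueIdx where
  S : Shape
  b : ℕ
  h : ℕ
  hb : b < S.last
  hh : b < h

theorem small_lift_aux : Small.{u} GlueIdx := ⟨ULift GlueIdx, ⟨Equiv.ulift.symm⟩⟩

variable (C : GlobTheory.{u})

/-- The comparison map of a gluing square. -/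
noncomputable def glueMor (i : GlueIdx) :
    pushout (yoneda.map (C.incl.map (i.S.hinge i.hb)))
      (yoneda.map (C.incl.map (Shape.faceMap i.hh false))) ⟶
      yoneda.obj (C.incl.obj (i.S.glue i.b i.h i.hb i.hh)) :=
  cmp _ _ _ _ (C.respectsSums i.S i.b i.h i.hb i.hh).w

/-- The family of comparison maps. -/
noncomputable def W : MorphismProperty (C.Obᵒᵖ ⥤ Type u) := MorphismProperty.ofHoms (glueMor C)

variable {C}

/-- A presheaf is local for the comparison maps iff it sends gluing squares to pullbacks. -/
lemma isLocal_iff_sums (F : C.Obᵒᵖ ⥤ Type u) :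
    (W C).isLocal F ↔ ∀ (S : Shape) (b h : ℕ) (hb : b < S.last) (hh : b < h),
      IsPullback (F.map (C.incl.map (S.inLeft b h hb hh)).op)
        (F.map (C.incl.map (S.inRight b h hb hh)).op)
        (F.map (C.incl.map (S.hinge hb)).op)
        (F.map (C.incl.map (Shape.faceMap hh false)).op) := by
  constructor
  · intro hF S b h hb hh
    exact (local_iff_pullback _ _ _ _ _ F).1 (hF _ (MorphismProperty.ofHoms.mk (⟨S, b, h, hb, hh⟩ : GlueIdx)))
  · intro hF X Y f hf
    obtain ⟨i⟩ := hf
    exact (local_iff_pullback _ _ _ _ _ F).2 (hF i.S i.b i.h i.hb i.hh)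

attribute [local instance] Cardinal.fact_isRegular_aleph0

instance : Small.{u} GlueIdx := small_lift_aux

instance : MorphismProperty.IsSmall.{u} (W C) := by
  unfold W; exact MorphismProperty.isSmall_ofHoms _

lemma isRightAdjoint : (W C).isLocal.ι.IsRightAdjoint := by
  refine MorphismProperty.isRightAdjoint_ι_isLocal (W C) (Cardinal.aleph0.{u}) ?_
  rintro X Y f ⟨i⟩
  exact ⟨presentable_pushout _ _ _, presentable_yoneda _ _⟩

/-- The model underlying a local presheaf. -/
def modelOfLocal (F : C.Obᵒᵖ ⥤ Type u) (hF : (W C).isLocal F) : GlobModel C where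
  functor := F
  sums := (isLocal_iff_sums F).1 hF

lemma model_isLocal (Z : GlobModel C) : (W C).isLocal Z.functor :=
  (isLocal_iff_sums _).2 Z.sums

/-- Reflection of a presheaf into models. -/
theorem exists_reflection (P : C.Obᵒᵖ ⥤ Type u) :
    ∃ (R : GlobModel C) (η : P ⟶ R.functor), ∀ (Z : GlobModel C) (f : P ⟶ Z.functor),
      ∃! g : R ⟶ Z, η ≫ g = f := by
  have := isRightAdjoint (C := C)
  let adj := Adjunction.ofIsRightAdjoint (W C).isLocal.ι
  let L := (W C).isLocal.ι.leftAdjoint
  let R₀ := L.obj P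
  refine ⟨modelOfLocal R₀.obj R₀.property, adj.unit.app P, fun Z f => ?_⟩
  let Z₀ : (W C).isLocal.FullSubcategory := ⟨Z.functor, model_isLocal Z⟩
  let e := adj.homEquiv P Z₀
  refine ⟨(e.symm f).hom, ?_, ?_⟩
  · have := e.apply_symm_apply f
    rw [Adjunction.homEquiv_unit] at this
    exact this
  · intro g hg
    have h : e.symm f = ObjectProperty.homMk g := by
      rw [Equiv.symm_apply_eq, Adjunction.homEquiv_unit]
      exact hg.symm
    rw [h]; rfl

lemma cells_src_eq (X : GlobModel C) (n : ℕ) :
    (GlobModel.cells X).src n = X.functor.map (C.incl.map (Shape.σ n)).op := rfl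

lemma cells_tgt_eq (X : GlobModel C) (n : ℕ) :
    (GlobModel.cells X).tgt n = X.functor.map (C.incl.map (Shape.τ n)).op := rfl

theorem exists_attach_aux (X : GlobModel C) {K : Type u} (d d' : K → C.Ob)
    (sg : ∀ k, d k ⟶ d' k)
    (a : ∀ k, X.functor.obj (op (d k))) :
    ∃ (Y : GlobModel C) (i : X.functor ⟶ Y.functor) (b : ∀ k, Y.functor.obj (op (d' k))),
      (∀ k, Y.functor.map (sg k).op (b k) = i.app _ (a k)) ∧
      ∀ (Z : GlobModel C) (g : X.functor ⟶ Z.functor) (z : ∀ k, Z.functor.obj (op (d' k))),
        (∀ k, Z.functor.map (sg k).op (z k) = g.app _ (a k)) →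
        ∃! h : Y.functor ⟶ Z.functor, i ≫ h = g ∧ ∀ k, h.app _ (b k) = z k := by
  let D : K → (C.Obᵒᵖ ⥤ Type u) := fun k => yoneda.obj (d k)
  let D' : K → (C.Obᵒᵖ ⥤ Type u) := fun k => yoneda.obj (d' k)
  let α : (∐ D) ⟶ X.functor := Sigma.desc (fun k => yonedaEquiv.symm (a k))
  let β : (∐ D) ⟶ (∐ D') := CategoryTheory.Limits.Sigma.map (fun k => yoneda.map (sg k))
  obtain ⟨R, η, hR⟩ := exists_reflection (pushout α β)
  let i : X.functor ⟶ R.functor := (pushout.inl α β ≫ η : X.functor ⟶ R.functor)
  let bb : ∀ k, yoneda.obj (d' k) ⟶ R.functor :=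
    fun k => Sigma.ι D' k ≫ pushout.inr α β ≫ η
  have hb : ∀ k, yoneda.map (sg k) ≫ bb k = yonedaEquiv.symm (a k) ≫ i := by
    intro k
    have h1 : Sigma.ι D k ≫ β = yoneda.map (sg k) ≫ Sigma.ι D' k := by
      simp [β, D, D']
    have h2 : Sigma.ι D k ≫ α = yonedaEquiv.symm (a k) := by simp [α, D]
    have h3 := pushout.condition (f := α) (g := β)
    calc yoneda.map (sg k) ≫ bb k
        = (yoneda.map (sg k) ≫ Sigma.ι D' k) ≫ pushout.inr α β ≫ η := by simp [bb]
      _ = Sigma.ι D k ≫ (β ≫ pushout.inr α β) ≫ η := by rw [← h1]; simp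
      _ = Sigma.ι D k ≫ (α ≫ pushout.inl α β) ≫ η := by rw [h3]
      _ = (Sigma.ι D k ≫ α) ≫ pushout.inl α β ≫ η := by simp
      _ = _ := by rw [h2]
  refine ⟨R, i, fun k => yonedaEquiv (bb k), ?_, ?_⟩
  · intro k
    rw [yonedaEquiv_naturality, hb k, yonedaEquiv_comp, Equiv.apply_symm_apply]
  · intro Z g z hz
    have hcond : α ≫ g = β ≫ Sigma.desc (fun k => yonedaEquiv.symm (z k)) := by
      apply Sigma.hom_ext
      intro k
      have h4 : yoneda.map (sg k) ≫ yonedaEquiv.symm (z k) = yonedaEquiv.symm (g.app _ (a k)) := by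
        rw [yonedaEquiv_symm_naturality_left, hz k]
      have h5 : yonedaEquiv.symm (a k) ≫ g = yonedaEquiv.symm (g.app _ (a k)) :=
        yonedaEquiv_symm_naturality_right _ _ _
      simp [α, β, D, D', h4, h5]
    let f : pushout α β ⟶ Z.functor := pushout.desc g (Sigma.desc (fun k => yonedaEquiv.symm (z k))) hcond
    obtain ⟨h, hh, hu⟩ := hR Z f
    refine ⟨h, ⟨?_, ?_⟩, ?_⟩
    · change pushout.inl α β ≫ η ≫ h = g
      have : η ≫ h = f := hh
      rw [this]; exact pushout.inl_desc _ _ _
    · intro k
      have hh' : η ≫ h = f := hh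
      have h6 : bb k ≫ h = yonedaEquiv.symm (z k) := by
        simp only [bb, Category.assoc]
        rw [hh']
        have h8 : pushout.inr α β ≫ f = Sigma.desc (fun k => yonedaEquiv.symm (z k)) :=
          pushout.inr_desc _ _ _
        rw [h8]
        exact Sigma.ι_desc _ _
      have h7 := congrArg yonedaEquiv h6
      rw [yonedaEquiv_comp, Equiv.apply_symm_apply] at h7
      exact h7
    · rintro h' ⟨h1, h2⟩
      apply hu
      apply pushout.hom_ext
      · simp only [f, pushout.inl_desc]
        exact h1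
      · apply Sigma.hom_ext
        intro k
        simp only [f, pushout.inr_desc, colimit.ι_desc, Cofan.mk_pt, Cofan.mk_ι_app]
        apply yonedaEquiv.injective
        rw [Equiv.apply_symm_apply, ← h2 k]
        have : (Sigma.ι D' k ≫ pushout.inr α β ≫ η ≫ h') = bb k ≫ h' := by simp [bb]
        rw [this, yonedaEquiv_comp]

/-- Attach a family of disks along their source faces: `Y = X[(c_k, b_k)]`, with `b_k` an
`(m_k + 1)`-cell whose source is the image of `a k`. A map out of `Y` is a map out of `X` with a
choice of `(m_k + 1)`-cells with the prescribed source. -/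
theorem exists_attach (X : GlobModel C) {K : Type u} (dim : K → ℕ)
    (a : ∀ k, (GlobModel.cells X).cell (dim k)) :
    ∃ (Y : GlobModel C) (i : X ⟶ Y) (b : ∀ k, (GlobModel.cells Y).cell (dim k + 1)),
      (∀ k, (GlobModel.cells Y).src _ (b k) = (GlobModel.cellsMap i).app _ (a k)) ∧
      ∀ (Z : GlobModel C) (g : X ⟶ Z) (z : ∀ k, (GlobModel.cells Z).cell (dim k + 1)),
        (∀ k, (GlobModel.cells Z).src _ (z k) = (GlobModel.cellsMap g).app _ (a k)) →
        ∃! h : Y ⟶ Z, i ≫ h = g ∧ ∀ k, (GlobModel.cellsMap h).app _ (b k) = z k :=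
  exists_attach_aux X (fun k => (⟨Shape.globe (dim k)⟩ : C.Ob))
    (fun k => (⟨Shape.globe (dim k + 1)⟩ : C.Ob)) (fun k => C.incl.map (Shape.σ (dim k))) a

end Crest.Agent.Henry.Reflect

namespace Crest.Agent.Henry

export Reflect (exists_reflection exists_attach_aux exists_attach)

end Crest.Agent.Henry
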