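import Crest.Agent.Henry.UnivDefs

/-!
# Section 4: transport is injective on `Step`-classes (S0382, helper3)

The reversed connection: for an unmarked `x`, `hb x : Tr̄_{∂x}(p1 x) → p0 x` is chosen
universally using `Conn_k` of the universal model of `(D_k, marks of x)`.

Main result: `transport_inverse`.
-/

set_option autoImplicit false
set_option linter.unusedVariables false

open CategoryTheory CategoryTheory.Limits Opposite
open Crest.GeometryTopology.Coherator
open Crest.GeometryTopology.Coherator.GlobTheory Crest.GeometryTopology.Coherator.GlobTheory.GlobModel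

universe u

namespace Crest.Agent.Henry

namespace TI

variable {C : GlobTheory.{u}} (hC : HasFillers C) (n j : ℕ)

/-- A cylinder cell as a tuple on the globe. -/
noncomputable def tupleOf {Z : GlobModel C} {k : ℕ} (x : (mcyl hC Z n j).cell k) :
    uL.obj (Shape.globe k).psh ⟶ mcylPsh hC Z n j :=
  repDesc (A := mcylPsh hC Z n j) (h := k) x

/-- The top cell of a tuple on the globe. -/
noncomputable def topOf {M : GlobModel C} {k : ℕ} (u : uL.obj (Shape.globe k).psh ⟶ mcylPsh hC M n j) :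
    (mcyl hC M n j).cell k :=
  cellAt u (topCell k)

variable {hC n j}

theorem topOf_tupleOf {Z : GlobModel C} {k : ℕ} (x : (mcyl hC Z n j).cell k) :
    topOf hC n j (tupleOf hC n j x) = x :=
  cellAt_repDesc_top (A := mcylPsh hC Z n j) (h := k) x

theorem tupleOf_ext {Z : GlobModel C} {k : ℕ} {t t' : uL.obj (Shape.globe k).psh ⟶ mcylPsh hC Z n j}
    (h : topOf hC n j t = topOf hC n j t') : t = t' :=
  rep_hom_ext h

/-- The image of a cylinder cell under a map of models. -/
noncomputable def mapc {Z Y : GlobModel C} (g : Z ⟶ Y) {k : ℕ} (x : (mcyl hC Z n j).cell k) :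
    (mcyl hC Y n j).cell k :=
  (mcylMap hC g n j).app (op (GlobeObj.mk k)) x

theorem mapc_val {Z Y : GlobModel C} (g : Z ⟶ Y) {k : ℕ} (x : (mcyl hC Z n j).cell k) :
    (mapc g x).1 = x.1.map (cmap g) := rfl

theorem topOf_comp {Z Y : GlobModel C} (g : Z ⟶ Y) {k : ℕ}
    (t : uL.obj (Shape.globe k).psh ⟶ mcylPsh hC Z n j) :
    topOf hC n j (t ≫ mcylMap hC g n j) = mapc g (topOf hC n j t) := rfl

theorem tupleOf_comp {Z Y : GlobModel C} (g : Z ⟶ Y) {k : ℕ} (x : (mcyl hC Z n j).cell k) :
    tupleOf hC n j x ≫ mcylMap hC g n j = tupleOf hC n j (mapc g x) := by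
  apply tupleOf_ext
  rw [topOf_comp, topOf_tupleOf, topOf_tupleOf]

variable (hC n j)

/-- The pattern of marks of a cylinder cell. -/
noncomputable def patt {Z : GlobModel C} {k : ℕ} (x : (mcyl hC Z n j).cell k) :
    ∀ m, Cell (Shape.globe k).psh m → Prop :=
  marksOf hC (tupleOf hC n j x)

variable {hC n j}

theorem patt_map {Z Y : GlobModel C} (g : Z ⟶ Y) {k : ℕ} (x : (mcyl hC Z n j).cell k) :
    patt hC n j (mapc g x) = patt hC n j x := by
  unfold patt
  rw [← tupleOf_comp, marksOf_comp]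

variable (hC n j)

/-- Transport over the boundary, as a family over all models. -/
abbrev TrSFun (k : ℕ) : Type (u + 1) :=
  ∀ (M : GlobModel C) (x : (mcyl hC M n j).cell k) (h : ℕ), Cell (cellsPsh M) h → Cell (cellsPsh M) h

/-- The chosen universal cell for a pattern. -/
structure Pk (k : ℕ) (trS : TrSFun hC n j k) (T : ∀ m, Cell (Shape.globe k).psh m → Prop) where
  M : GlobModel C
  u : uL.obj (Shape.globe k).psh ⟶ mcylPsh hC M n j
  w : Cell (cellsPsh M) (k + 1)
  univ : IsUniv hC n j (Shape.globe k) T M u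
  s : sr (cellsPsh M) k w = trS M (topOf hC n j u) k (topOf hC n j u).1.p1
  t : tg (cellsPsh M) k w = (topOf hC n j u).1.p0

open Classical in
/-- A global choice of universal cell for each pattern. -/
noncomputable def pick (k : ℕ) (trS : TrSFun hC n j k) (T : ∀ m, Cell (Shape.globe k).psh m → Prop) :
    Option (Pk hC n j k trS T) :=
  if h : Nonempty (Pk hC n j k trS T) then some h.some else none

variable {hC n j}

/-- The classifying map of a cell whose marks are those of a universal cell. -/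
noncomputable def Pk.cls {k : ℕ} {trS : TrSFun hC n j k} {T : ∀ m, Cell (Shape.globe k).psh m → Prop}
    (P : Pk hC n j k trS T) {Z : GlobModel C} (x : (mcyl hC Z n j).cell k)
    (hx : patt hC n j x = T) : P.M ⟶ Z :=
  (P.univ.univ Z (tupleOf hC n j x) hx).exists.choose

theorem Pk.cls_spec {k : ℕ} {trS : TrSFun hC n j k} {T : ∀ m, Cell (Shape.globe k).psh m → Prop}
    (P : Pk hC n j k trS T) {Z : GlobModel C} (x : (mcyl hC Z n j).cell k)
    (hx : patt hC n j x = T) : mapc (P.cls x hx) (topOf hC n j P.u) = x := by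
  have h := (P.univ.univ Z (tupleOf hC n j x) hx).exists.choose_spec
  have h2 := congrArg (topOf hC n j) h
  rw [topOf_comp, topOf_tupleOf] at h2
  exact h2

theorem Pk.cls_unique {k : ℕ} {trS : TrSFun hC n j k} {T : ∀ m, Cell (Shape.globe k).psh m → Prop}
    (P : Pk hC n j k trS T) {Z : GlobModel C} (x : (mcyl hC Z n j).cell k)
    (hx : patt hC n j x = T) (g : P.M ⟶ Z) (hg : mapc g (topOf hC n j P.u) = x) :
    g = P.cls x hx := by
  apply (P.univ.univ Z (tupleOf hC n j x) hx).unique
  · apply tupleOf_ext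
    rw [topOf_comp, topOf_tupleOf, hg]
  · exact (P.univ.univ Z (tupleOf hC n j x) hx).exists.choose_spec

/-- The value of the universal cell at a cell `x`. -/
noncomputable def Pk.eval {k : ℕ} {trS : TrSFun hC n j k} {T : ∀ m, Cell (Shape.globe k).psh m → Prop}
    (P : Pk hC n j k trS T) {Z : GlobModel C} (x : (mcyl hC Z n j).cell k)
    (hx : patt hC n j x = T) : Cell (cellsPsh Z) (k + 1) :=
  (cmap (P.cls x hx)).app _ P.w

theorem Pk.eval_natural {k : ℕ} {trS : TrSFun hC n j k} {T : ∀ m, Cell (Shape.globe k).psh m → Prop}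
    (P : Pk hC n j k trS T) {Z Y : GlobModel C} (g : Z ⟶ Y) (x : (mcyl hC Z n j).cell k)
    (hx : patt hC n j x = T) (hx' : patt hC n j (mapc g x) = T) :
    P.eval (mapc g x) hx' = (cmap g).app _ (P.eval x hx) := by
  have e : P.cls (mapc g x) hx' = P.cls x hx ≫ g := by
    symm
    apply P.cls_unique
    apply Subtype.ext
    show (topOf hC n j P.u).1.map (cmap (P.cls x hx ≫ g)) = _
    have e2 : cmap (P.cls x hx ≫ g) = cmap (P.cls x hx) ≫ cmap g := rfl
    rw [e2, Cy.map_comp]
    exact congrArg (fun y : (mcyl hC Z n j).cell k => Cy.map (cmap g) y.1) (P.cls_spec x hx)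
  unfold Pk.eval
  rw [e]
  rfl

variable (hC n j)

/-- The reversed homotopy cell at `x`. -/
noncomputable def mkHb (k : ℕ) (trS : TrSFun hC n j k) (Z : GlobModel C) (x : (mcyl hC Z n j).cell k) :
    Option (Cell (cellsPsh Z) (k + 1)) :=
  open Classical in
  if x.1.IsMarked then none
  else (pick hC n j k trS (patt hC n j x)).map (fun P => P.eval x rfl)

variable {hC n j}

theorem mkHb_marked {k : ℕ} (trS : TrSFun hC n j k) {Z : GlobModel C} (x : (mcyl hC Z n j).cell k)
    (h : x.1.IsMarked) : mkHb hC n j k trS Z x = none := by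
  unfold mkHb
  rw [if_pos h]

theorem mkHb_unmarked {k : ℕ} (trS : TrSFun hC n j k) {Z : GlobModel C} (x : (mcyl hC Z n j).cell k)
    (h : ¬ x.1.IsMarked) {T : ∀ m, Cell (Shape.globe k).psh m → Prop} (hT : patt hC n j x = T) :
    mkHb hC n j k trS Z x = (pick hC n j k trS T).map (fun P => P.eval x hT) := by
  unfold mkHb
  rw [if_neg h]
  subst hT
  rfl

theorem mkHb_natural {k : ℕ} (trS : TrSFun hC n j k) {Z Y : GlobModel C} (g : Z ⟶ Y)
    (x : (mcyl hC Z n j).cell k) :
    mkHb hC n j k trS Y (mapc g x) = (mkHb hC n j k trS Z x).map ((cmap g).app _) := by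
  by_cases h : x.1.IsMarked
  · have h' : (mapc g x).1.IsMarked := (Cy.map_isMarked (cmap g) x.1).2 h
    rw [mkHb_marked trS _ h', mkHb_marked trS _ h]
    rfl
  · have h' : ¬ (mapc g x).1.IsMarked := fun e => h ((Cy.map_isMarked (cmap g) x.1).1 e)
    rw [mkHb_unmarked trS x h rfl, mkHb_unmarked trS _ h' (patt_map g x)]
    cases pick hC n j k trS (patt hC n j x) with
    | none => rfl
    | some P =>
      exact congrArg some (P.eval_natural g x rfl (patt_map g x))

variable (hC n j)

/-- The data of the reversed connection up to dimension `k`. -/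
structure RD (k : ℕ) where
  hb : ∀ (Z : GlobModel C), (mcyl hC Z n j).cell k → Option (Cell (cellsPsh Z) (k + 1))
  trb : ∀ (Z : GlobModel C), (mcyl hC Z n j).cell k → (mcyl hC Z n j).cell k → ∀ h,
    Cell (cellsPsh Z) h → Cell (cellsPsh Z) h

/-- The recursive definition of the reversed connection. -/
noncomputable def rd : (k : ℕ) → RD hC n j k
  | 0 =>
    { hb := mkHb hC n j 0 (fun _ _ _ w => w)
      trb := fun Z σ τ h w => rw' (zOps hC Z) 0 h
        (lw (zOps hC Z) 0 h (mkHb hC n j 0 (fun _ _ _ w => w) Z σ) w)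
        (mkHb hC n j 0 (fun _ _ _ w => w) Z τ) }
  | k + 1 =>
    { hb := mkHb hC n j (k + 1) (fun M x h w =>
        (rd k).trb M ((mcyl hC M n j).src k x) ((mcyl hC M n j).tgt k x) h w)
      trb := fun Z σ τ h w => rw' (zOps hC Z) (k + 1) h
        (lw (zOps hC Z) (k + 1) h (mkHb hC n j (k + 1) (fun M x h w =>
          (rd k).trb M ((mcyl hC M n j).src k x) ((mcyl hC M n j).tgt k x) h w) Z σ)
          ((rd k).trb Z ((mcyl hC Z n j).src k σ) ((mcyl hC Z n j).tgt k σ) h w))
        (mkHb hC n j (k + 1) (fun M x h w =>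
          (rd k).trb M ((mcyl hC M n j).src k x) ((mcyl hC M n j).tgt k x) h w) Z τ) }

/-- The transport family used at dimension `m`. -/
noncomputable def trS : (m : ℕ) → TrSFun hC n j m
  | 0 => fun _ _ _ w => w
  | k + 1 => fun M x h w => (rd hC n j k).trb M ((mcyl hC M n j).src k x) ((mcyl hC M n j).tgt k x) h w

theorem rd_hb (m : ℕ) : (rd hC n j m).hb = mkHb hC n j m (trS hC n j m) := by
  cases m <;> rfl

/-- The reversed connection of a model. -/
noncomputable def revConx (Z : GlobModel C) : Conx (cellsPsh Z) where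
  C := mcyl hC Z n j
  pa m x := x.1.p1
  pb m x := x.1.p0
  pa_s k x := Cy.p1_csrc x.2
  pa_t k x := Cy.p1_ctgt x.2
  pb_s k x := Cy.p0_csrc x.2
  pb_t k x := Cy.p0_ctgt x.2
  Hof m x := mkHb hC n j m (trS hC n j m) Z x

theorem revConx_TrG (Z : GlobModel C) (k : ℕ) (σ τ : (mcyl hC Z n j).cell k) (h : ℕ)
    (w : Cell (cellsPsh Z) h) :
    (revConx hC n j Z).TrG (zOps hC Z) k σ τ h w = (rd hC n j k).trb Z σ τ h w := by
  induction k with
  | zero => rfl
  | succ k ih =>
    show rw' (zOps hC Z) (k + 1) h (lw (zOps hC Z) (k + 1) h _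
        ((revConx hC n j Z).TrG (zOps hC Z) k _ _ h w)) _ = _
    rw [ih]
    rfl

theorem revConx_TrS (Z : GlobModel C) (m : ℕ) (x : (mcyl hC Z n j).cell m) (h : ℕ)
    (w : Cell (cellsPsh Z) h) :
    (revConx hC n j Z).TrS (zOps hC Z) m x h w = trS hC n j m Z x h w := by
  cases m with
  | zero => rfl
  | succ k => exact revConx_TrG hC n j Z k _ _ h w

/-- The reversed connection is functorial. -/
noncomputable def revMor {Z Y : GlobModel C} (g : Z ⟶ Y) :
    Conx.Mor (revConx hC n j Z) (revConx hC n j Y) (cmap g) where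
  c m x := mapc g x
  c_src k x := (cylMor (zLaws hC Z) (zNat hC g) n j).c_src k x
  c_tgt k x := (cylMor (zLaws hC Z) (zNat hC g) n j).c_tgt k x
  pa m x := Cy.map_p1 (cmap g) x.1
  pb m x := Cy.map_p0 (cmap g) x.1
  Hof m x := mkHb_natural _ g x

variable {hC n j}

/-- Natural transport for the reversed connection. -/
theorem trb_natural {M Z : GlobModel C} (g : M ⟶ Z) {k : ℕ}
    (hG : (revConx hC n j M).Good (zOps hC M) k) (σ τ : (mcyl hC M n j).cell k)
    (hpar : (revConx hC n j M).Par k σ τ) {h : ℕ} (hkh : k < h) (w : Cell (cellsPsh M) h)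
    (h0 : Cell.face _ hkh false w = σ.1.p1) (h1 : Cell.face _ hkh true w = τ.1.p1) :
    (cmap g).app _ ((rd hC n j k).trb M σ τ h w) =
      (rd hC n j k).trb Z (mapc g σ) (mapc g τ) h ((cmap g).app _ w) := by
  have := (revConx hC n j M).TrG_natural (zLaws hC M) (zNat hC g) (revMor hC n j g) hG le_rfl σ τ hpar
    hkh w h0 h1
  rw [revConx_TrG, revConx_TrG] at this
  exact this

/-- The boundary of the reversed transport. -/
theorem trb_bdry {M : GlobModel C} {k : ℕ}
    (hG : (revConx hC n j M).Good (zOps hC M) k) (σ τ : (mcyl hC M n j).cell k)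
    (hpar : (revConx hC n j M).Par k σ τ) {h : ℕ} (hkh : k < h) (w : Cell (cellsPsh M) h)
    (h0 : Cell.face _ hkh false w = σ.1.p1) (h1 : Cell.face _ hkh true w = τ.1.p1) :
    Cell.face _ hkh false ((rd hC n j k).trb M σ τ h w) = σ.1.p0 ∧
      Cell.face _ hkh true ((rd hC n j k).trb M σ τ h w) = τ.1.p0 ∧
      ∀ (i : ℕ) (hki : k < i) (hih : i < h) (b : Bool),
        Cell.face _ hih b ((rd hC n j k).trb M σ τ h w) =
          (rd hC n j k).trb M σ τ i (Cell.face _ hih b w) := by
  have := (revConx hC n j M).TrG_bdry (zLaws hC M) hG le_rfl σ τ hpar hkh w h0 h1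
  simp only [revConx_TrG] at this
  exact this

theorem Cy.marked_of_lt {A : GlobPsh.{u}} {W : WOps A} {m : ℕ} {x : Cy A m}
    (hx : Cy.Valid W n j x) (hm : m < n) : x.IsMarked := by
  cases x with
  | marked z => trivial
  | un0 z0 z1 H => exact absurd hx.1 (by omega)
  | un σ τ z0 z1 H => exact absurd hx.2.2.2.1 (by omega)

theorem Cy.p0_eq_p1 {A : GlobPsh.{u}} {m : ℕ} {x : Cy A m} (hx : x.IsMarked) : x.p0 = x.p1 := by
  cases x with
  | marked z => rfl
  | un0 z0 z1 H => exact hx.elim
  | un σ τ z0 z1 H => exact hx.elim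

theorem Cy.csrc_marked {A : GlobPsh.{u}} {k : ℕ} {x : Cy A (k + 1)} (hx : x.IsMarked) :
    x.csrc.IsMarked := by
  cases x with
  | marked z => trivial
  | un σ τ z0 z1 H => exact hx.elim

theorem Cy.ctgt_marked {A : GlobPsh.{u}} {k : ℕ} {x : Cy A (k + 1)} (hx : x.IsMarked) :
    x.ctgt.IsMarked := by
  cases x with
  | marked z => trivial
  | un σ τ z0 z1 H => exact hx.elim

theorem isMarked_face {A : GlobPsh.{u}} {W : WOps A} {k m : ℕ} (h : k < m) (b : Bool)
    (x : (cyl W n j).cell m) (hx : x.1.IsMarked) :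
    (GlobSetPsh.face (cyl W n j) b m k h x).1.IsMarked := by
  induction m with
  | zero => exact absurd h (Nat.not_lt_zero _)
  | succ l ih =>
    by_cases e : k = l
    · subst e
      rw [GlobSetPsh.face_succ_self]
      cases b
      · exact Cy.csrc_marked hx
      · exact Cy.ctgt_marked hx
    · have h' : k < l := by omega
      rw [GlobSetPsh.face_succ_lt _ b h']
      exact ih h' _ (Cy.csrc_marked hx)

/-- The marks of a tuple form a marking. -/
theorem marksOf_isMarking {S : Shape} {Z : GlobModel C} (t : uL.obj S.psh ⟶ mcylPsh hC Z n j) :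
    IsMarking n S (marksOf hC t) where
  low m hm c := Cy.marked_of_lt (cellAt t c : (mcyl hC Z n j).cell m).2 hm
  down {k m} h b c hc := by
    show ((cellAt t (Cell.face S.psh h b c) : (mcyl hC Z n j).cell k)).1.IsMarked
    rw [cellAt_face]
    exact isMarked_face h b _ hc

theorem exists_Pk {m : ℕ} (hmj : m ≤ j) (hU : ConnAt hC n m)
    (ih : ∀ k, m = k + 1 → ∀ M : GlobModel C, (revConx hC n j M).Good (zOps hC M) k)
    (T : ∀ k, Cell (Shape.globe m).psh k → Prop) (hT : IsMarking n (Shape.globe m) T) :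
    Nonempty (Pk hC n j m (trS hC n j m) T) := by
  obtain ⟨M, u, hu, hconn⟩ := hU (Shape.globe m) T le_rfl hT j hmj
  have hpar : M.cells.AreParallel m (trS hC n j m M (topOf hC n j u) m (topOf hC n j u).1.p1)
      (topOf hC n j u).1.p0 := by
    cases m with
    | zero => trivial
    | succ k =>
      set x := topOf hC n j u with hx
      have hb := trb_bdry (ih k rfl M) ((mcyl hC M n j).src k x) ((mcyl hC M n j).tgt k x)
        ((revConx hC n j M).par_bdry k x) (Nat.lt_succ_self k) x.1.p1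
        (Cy.p1_csrc x.2).symm (Cy.p1_ctgt x.2).symm
      exact ⟨hb.1.trans (Cy.p0_csrc x.2), hb.2.1.trans (Cy.p0_ctgt x.2)⟩
  obtain ⟨w, hw1, hw2⟩ := hconn _ _ hpar
  exact ⟨⟨M, u, w, hu, hw1, hw2⟩⟩

theorem pick_some {k : ℕ} {trS : TrSFun hC n j k} {T : ∀ m, Cell (Shape.globe k).psh m → Prop}
    (h : Nonempty (Pk hC n j k trS T)) : ∃ P, pick hC n j k trS T = some P :=
  ⟨h.some, dif_pos h⟩

/-- The goodness of the reversed connection at dimension `m`. -/
theorem goodAt_rev {m : ℕ} (hmj : m ≤ j) (hU : ConnAt hC n m)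
    (ih : ∀ k, m = k + 1 → ∀ M : GlobModel C, (revConx hC n j M).Good (zOps hC M) k)
    (Z : GlobModel C) (x : (mcyl hC Z n j).cell m) :
    (revConx hC n j Z).GoodAt (zOps hC Z) m x := by
  by_cases hm : x.1.IsMarked
  · have e0 : (revConx hC n j Z).Hof m x = none := mkHb_marked _ x hm
    refine ⟨fun _ => (Cy.p0_eq_p1 hm).symm, ?_, ?_, ?_⟩
    · intro k hk b _
      cases m with
      | zero => omega
      | succ m' =>
        obtain rfl : m' = k := by omega
        cases b
        · exact mkHb_marked _ _ (Cy.csrc_marked hm)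
        · exact mkHb_marked _ _ (Cy.ctgt_marked hm)
    · intro H e
      rw [e0] at e
      cases e
    · intro H e
      rw [e0] at e
      cases e
  · obtain ⟨P, hP⟩ := pick_some (exists_Pk hmj hU ih (patt hC n j x) (marksOf_isMarking _))
    have e0 : (revConx hC n j Z).Hof m x = some (P.eval x rfl) := by
      show mkHb hC n j m (trS hC n j m) Z x = _
      rw [mkHb_unmarked _ x hm rfl, hP]
      rfl
    refine ⟨?_, ?_, ?_, ?_⟩
    · intro e
      rw [e0] at e
      cases e
    · intro k hk b e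
      rw [e0] at e
      cases e
    · intro H e
      rw [e0] at e
      cases e
      have hs : sr (cellsPsh Z) m (P.eval x rfl) =
          (cmap (P.cls x rfl)).app _ (sr (cellsPsh P.M) m P.w) :=
        (Conx.face_natural (cmap (P.cls x rfl)) _ _ P.w).symm
      rw [hs, P.s, revConx_TrS]
      have hspec := P.cls_spec x rfl
      cases m with
      | zero =>
        show (cmap (P.cls x rfl)).app _ (topOf hC n j P.u).1.p1 = x.1.p1
        exact (Cy.map_p1 _ _).symm.trans
          (congrArg (fun z : (mcyl hC Z n j).cell 0 => z.1.p1) hspec)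
      | succ k =>
        set y := topOf hC n j P.u with hy
        have hn := trb_natural (P.cls x rfl) (ih k rfl P.M) ((mcyl hC P.M n j).src k y)
          ((mcyl hC P.M n j).tgt k y) ((revConx hC n j P.M).par_bdry k y) (Nat.lt_succ_self k) y.1.p1
          (Cy.p1_csrc y.2).symm (Cy.p1_ctgt y.2).symm
        refine hn.trans ?_
        have e1 : mapc (P.cls x rfl) ((mcyl hC P.M n j).src k y) = (mcyl hC Z n j).src k x :=
          ((revMor hC n j (P.cls x rfl)).c_src k y).trans (congrArg ((mcyl hC Z n j).src k) hspec)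
        have e2 : mapc (P.cls x rfl) ((mcyl hC P.M n j).tgt k y) = (mcyl hC Z n j).tgt k x :=
          ((revMor hC n j (P.cls x rfl)).c_tgt k y).trans (congrArg ((mcyl hC Z n j).tgt k) hspec)
        have e3 : (cmap (P.cls x rfl)).app _ y.1.p1 = x.1.p1 :=
          (Cy.map_p1 _ _).symm.trans
            (congrArg (fun z : (mcyl hC Z n j).cell (k + 1) => z.1.p1) hspec)
        rw [e1, e2, e3]
        rfl
    · intro H e
      rw [e0] at e
      cases e
      have hs : tg (cellsPsh Z) m (P.eval x rfl) =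
          (cmap (P.cls x rfl)).app _ (tg (cellsPsh P.M) m P.w) :=
        (Conx.face_natural (cmap (P.cls x rfl)) _ _ P.w).symm
      rw [hs, P.t]
      have hspec := P.cls_spec x rfl
      show _ = x.1.p0
      exact (Cy.map_p0 _ _).symm.trans
        (congrArg (fun z : (mcyl hC Z n j).cell m => z.1.p0) hspec)

/-- The reversed connection is good up to `J`. -/
theorem rev_good {J : ℕ} (hJ : J ≤ j) (hU : ∀ k ≤ J, ConnAt hC n k) (Z : GlobModel C) :
    (revConx hC n j Z).Good (zOps hC Z) J := by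
  induction J generalizing Z with
  | zero =>
    intro m hm x
    obtain rfl : m = 0 := by omega
    exact goodAt_rev hJ (hU 0 le_rfl) (fun k hk => by omega) Z x
  | succ J ih =>
    intro m hm x
    by_cases e : m = J + 1
    · subst e
      refine goodAt_rev hJ (hU _ le_rfl) ?_ Z x
      intro k hk M
      obtain rfl : J = k := by omega
      exact ih (by omega) (fun k hk => hU k (by omega)) M
    · exact ih (by omega) (fun k hk => hU k (by omega)) Z m (by omega) x

theorem Cy.hof_marked {A : GlobPsh.{u}} {m : ℕ} {x : Cy A m} (hx : x.IsMarked) : x.hof = none := by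
  cases x with
  | marked z => rfl
  | un0 z0 z1 H => exact hx.elim
  | un σ τ z0 z1 H => exact hx.elim

theorem TrRaw_marked {A : GlobPsh.{u}} (W : WOps A) {k : ℕ} {σ τ : Cy A k} (hσ : σ.IsMarked)
    (hτ : τ.IsMarked) (h : ℕ) (w : Cell A h) : TrRaw W k σ τ h w = w := by
  induction k with
  | zero =>
    show rw' W 0 h (lw W 0 h σ.hof w) τ.hof = w
    rw [Cy.hof_marked hσ, Cy.hof_marked hτ]
    rfl
  | succ k ih =>
    show rw' W (k + 1) h (lw W (k + 1) h σ.hof (TrRaw W k σ.csrc σ.ctgt h w)) τ.hof = w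
    rw [Cy.hof_marked hσ, Cy.hof_marked hτ, ih (Cy.csrc_marked hσ) (Cy.ctgt_marked hσ)]
    rfl

theorem par_sub {Z : GlobModel C} {k : ℕ} {σ τ : (mcyl hC Z n j).cell k}
    (h : Cy.Par k σ.1 τ.1) : (revConx hC n j Z).Par k σ τ := by
  cases k with
  | zero => trivial
  | succ k => exact ⟨Subtype.ext h.1, Subtype.ext h.2⟩

/-- `T̄r Tr u` is joined to `u`. -/
theorem step_rev_tr {Z : GlobModel C} {k : ℕ} (hk : k + 1 ≤ j) (hU : ∀ i ≤ k + 1, ConnAt hC n i)
    (hn : n ≤ k + 1) (σ τ : (mcyl hC Z n j).cell k) (hpar : Cy.Par k σ.1 τ.1)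
    (u : Cell (cellsPsh Z) (k + 1)) (h0 : sr _ k u = σ.1.p0) (h1 : tg _ k u = τ.1.p0) :
    Z.cells.Step (k + 1)
      ((rd hC n j k).trb Z σ τ (k + 1) (TrRaw (zOps hC Z) k σ.1 τ.1 (k + 1) u)) u := by
  have hk' : k ≤ j := Nat.le_of_succ_le hk
  obtain ⟨hb1, hb2, -⟩ := TrRaw_bdry (zLaws hC Z) hk' σ.2 τ.2 hpar (Nat.lt_succ_self k) u h0 h1
  set Tu := TrRaw (zOps hC Z) k σ.1 τ.1 (k + 1) u with hTu
  have hvalid : Cy.Valid (zOps hC Z) n j
      (Cy.un σ.1 τ.1 u Tu (some (GM.unit hC (Z := Z) (n := k + 1) Tu))) :=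
    ⟨σ.2, τ.2, hpar, hn, h0, h1, hb1, hb2,
      Or.inl ⟨hk, _, rfl, GM.src_unit hC (Z := Z) (n := k + 1) Tu, GM.tgt_unit hC (Z := Z) (n := k + 1) Tu⟩⟩
  let xc : (mcyl hC Z n j).cell (k + 1) := ⟨_, hvalid⟩
  obtain ⟨M, uM, hu, hconn⟩ := hU (k + 1) le_rfl (Shape.globe (k + 1)) (patt hC n j xc) le_rfl
    (marksOf_isMarking _) j hk
  obtain ⟨g, hg, -⟩ := hu.univ Z (tupleOf hC n j xc) rfl
  have htop : mapc g (topOf hC n j uM) = xc := by
    have h2 := congrArg (topOf hC n j) hg
    rw [topOf_comp, topOf_tupleOf] at h2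
    exact h2
  generalize topOf hC n j uM = yc at htop
  obtain ⟨y, hy⟩ := yc
  have hmap : y.map (cmap g) = Cy.un σ.1 τ.1 u Tu (some (GM.unit hC (Z := Z) (n := k + 1) Tu)) :=
    congrArg Subtype.val htop
  cases y with
  | marked z => cases hmap
  | un σ' τ' u0 u1 H =>
    obtain ⟨hσ', hτ', hpar', hn', h5, h6, h7, h8, h9⟩ := hy
    injection hmap with _ hs1 hs2 hs3 hs4 hs5
    let σc : (mcyl hC M n j).cell k := ⟨σ', hσ'⟩
    let τc : (mcyl hC M n j).cell k := ⟨τ', hτ'⟩
    have hG : (revConx hC n j M).Good (zOps hC M) k :=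
      rev_good hk' (fun i hi => hU i (by omega)) M
    have hG' : (revConx hC n j M).Par k σc τc := par_sub hpar'
    obtain ⟨h10, h11, -⟩ := TrRaw_bdry (zLaws hC M) hk' hσ' hτ' hpar' (Nat.lt_succ_self k) u0 h5 h6
    obtain ⟨h12, h13, -⟩ := trb_bdry hG σc τc hG' (Nat.lt_succ_self k)
      (TrRaw (zOps hC M) k σ' τ' (k + 1) u0) h10 h11
    have hstep := hconn _ u0 (⟨h12.trans h5.symm, h13.trans h6.symm⟩ :
      M.cells.AreParallel (k + 1) ((rd hC n j k).trb M σc τc (k + 1) (TrRaw (zOps hC M) k σ' τ' (k + 1) u0)) u0)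
    have hstep' := GM.step_map g hstep
    have e1 := trb_natural g hG σc τc hG' (Nat.lt_succ_self k)
      (TrRaw (zOps hC M) k σ' τ' (k + 1) u0) h10 h11
    have e2 : (cmap g).app _ (TrRaw (zOps hC M) k σ' τ' (k + 1) u0) = Tu := by
      have := TrRaw_natural (zLaws hC M) (zNat hC g) hk' hσ' hτ' hpar' (Nat.lt_succ_self k) u0 h5 h6
      rw [this, hs1, hs2, hs3]
    have e3 : (cmap g).app _ u0 = u := hs3
    have e4 : mapc g σc = σ := Subtype.ext hs1
    have e5 : mapc g τc = τ := Subtype.ext hs2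
    rw [e4, e5, e2] at e1
    have hstep'' : Z.cells.Step (k + 1)
        ((cmap g).app _ ((rd hC n j k).trb M σc τc (k + 1) (TrRaw (zOps hC M) k σ' τ' (k + 1) u0)))
        ((cmap g).app _ u0) := hstep'
    rw [e1, e3] at hstep''
    exact hstep''

/-- Section 4: transport is injective on `Step`-classes of parallel cells. -/
theorem transport_inverse {Z : GlobModel C} {k : ℕ} (hk : k + 1 ≤ j)
    (hU : ∀ i ≤ k + 1, ConnAt hC n i) {σ τ : Cy (cellsPsh Z) k}
    (hσ : Cy.Valid (zOps hC Z) n j σ) (hτ : Cy.Valid (zOps hC Z) n j τ) (hpar : Cy.Par k σ τ)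
    {u v : Cell (cellsPsh Z) (k + 1)} (h0u : sr _ k u = σ.p0) (h1u : tg _ k u = τ.p0)
    (h0v : sr _ k v = σ.p0) (h1v : tg _ k v = τ.p0)
    (hstep : Z.cells.Step (k + 1) (TrRaw (zOps hC Z) k σ τ (k + 1) u)
      (TrRaw (zOps hC Z) k σ τ (k + 1) v)) :
    Z.cells.Step (k + 1) u v := by
  have hk' : k ≤ j := Nat.le_of_succ_le hk
  by_cases hn : n ≤ k + 1
  · let σc : (mcyl hC Z n j).cell k := ⟨σ, hσ⟩
    let τc : (mcyl hC Z n j).cell k := ⟨τ, hτ⟩
    have hG : (revConx hC n j Z).Good (zOps hC Z) k :=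
      rev_good hk' (fun i hi => hU i (by omega)) Z
    have hG' : (revConx hC n j Z).Par k σc τc := par_sub hpar
    have s1 := step_rev_tr hk hU hn σc τc hpar u h0u h1u
    have s2 := step_rev_tr hk hU hn σc τc hpar v h0v h1v
    obtain ⟨hb1, hb2, -⟩ := TrRaw_bdry (zLaws hC Z) hk' hσ hτ hpar (Nat.lt_succ_self k) u h0u h1u
    obtain ⟨c, hc1, hc2⟩ := hstep
    have hkh : k < k + 2 := by omega
    have hc0 : Cell.face (cellsPsh Z) hkh false c = σ.p1 := by
      have : Cell.face (cellsPsh Z) hkh false c = sr _ k (sr _ (k + 1) c) :=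
        (Cell.face_face (cellsPsh Z) (m := k) (n := k + 1) (k := k + 2) (Nat.lt_succ_self k) (by omega) false false c).symm
      rw [this]
      exact (congrArg (sr _ k) hc1).trans hb1
    have hc0' : Cell.face (cellsPsh Z) hkh true c = τ.p1 := by
      have : Cell.face (cellsPsh Z) hkh true c = tg _ k (sr _ (k + 1) c) :=
        (Cell.face_face (cellsPsh Z) (m := k) (n := k + 1) (k := k + 2) (Nat.lt_succ_self k) (by omega) true false c).symm
      rw [this]
      exact (congrArg (tg _ k) hc1).trans hb2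
    obtain ⟨-, -, hh⟩ := trb_bdry hG σc τc hG' hkh c hc0 hc0'
    have s3 : Z.cells.Step (k + 1)
        ((rd hC n j k).trb Z σc τc (k + 1) (TrRaw (zOps hC Z) k σ τ (k + 1) u))
        ((rd hC n j k).trb Z σc τc (k + 1) (TrRaw (zOps hC Z) k σ τ (k + 1) v)) := by
      refine ⟨(rd hC n j k).trb Z σc τc (k + 2) c, ?_, ?_⟩
      · have := hh (k + 1) (Nat.lt_succ_self k) (Nat.lt_succ_self (k + 1)) false
        exact this.trans (congrArg _ hc1)
      · have := hh (k + 1) (Nat.lt_succ_self k) (Nat.lt_succ_self (k + 1)) true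
        exact this.trans (congrArg _ hc2)
    exact GM.step_trans hC (GM.step_symm hC s1) (GM.step_trans hC s3 s2)
  · have hm1 : σ.IsMarked := Cy.marked_of_lt hσ (by omega)
    have hm2 : τ.IsMarked := Cy.marked_of_lt hτ (by omega)
    rw [TrRaw_marked _ hm1 hm2, TrRaw_marked _ hm1 hm2] at hstep
    exact hstep

end TI

end Crest.Agent.Henry
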