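import Crest.Agent.Henry.LemmaJ
import Crest.Agent.Henry.TransportInverse
import Crest.Agent.Henry.Reflect

/-!
# Section 7: the induction `Conn(n,i)`, and the main theorem from sections 2, 3, 6 (S0382, helper3)

`Sec2 hC`, `Sec3 hC`, `Sec6 hC` are the exact statements expected from sections 2, 3, 6.
`connAt_all`: `ConnAt hC n i` for all `n i`.  `main_of_secs`: the theorem of S0382.
-/

set_option autoImplicit false
set_option linter.unusedVariables false

open CategoryTheory CategoryTheory.Limits Opposite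
open Crest.GeometryTopology.Coherator
open Crest.GeometryTopology.Coherator.GlobTheory Crest.GeometryTopology.Coherator.GlobTheory.GlobModel

universe u

namespace Crest.Agent.Henry

variable {C : GlobTheory.{u}}

/-- The cell of the free model on a shape given by a cell of the shape. -/
noncomputable def freeCell {S : Shape} {m : ℕ} (v : Cell S.psh m) : (freeOn C S).cells.cell m :=
  C.ofShape (cellShape v)

/-- `i : freeOn S ⟶ Y` with the `JStep` `J` freely adjoins cells `H_v` with source `v`, for `v` the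
`n`-cells of `S` in `V`. -/
def IsY1 (S : Shape) (n : ℕ) (V : Cell S.psh n → Prop) {Y : GlobModel C} (i : freeOn C S ⟶ Y)
    (J : JStep i n) : Prop :=
  ∃ e : J.K ≃ {v : Cell S.psh n // V v}, ∀ k, J.a k = freeCell (e k).1

/-- The statement expected from section 2. -/
def Sec2 (hC : HasFillers C) : Prop :=
  ∀ {n j : ℕ} {S : Shape} {T : ∀ m, Cell S.psh m → Prop}, S.dim ≤ j → IsMarking n S T →
    ∀ P : GlobModel C → Prop,
    (∀ (Y1 : GlobModel C) (i : freeOn C S ⟶ Y1) (J : JStep i n),
      IsY1 S n (fun v => ¬ T n v) i J → P Y1) →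
    (∀ m, n < m → m ≤ S.dim → ∀ (X Y : GlobModel C) (i : X ⟶ Y), JStep i m → P X → P Y) →
    ∃ (M : GlobModel C) (u : uL.obj S.psh ⟶ mcylPsh hC M n j), IsUniv hC n j S T M u ∧ P M

/-- The statement expected from section 3. -/
def Sec3 (hC : HasFillers C) : Prop :=
  ∀ n j, (∀ i ≤ j, ConnAt hC n i) → ∀ Y : GlobModel C, Nonempty (CylModel hC Y n j)

/-- The statement expected from section 6. -/
def Sec6 (hC : HasFillers C) : Prop :=
  ∀ (n j : ℕ) (S : Shape) (Y : GlobModel C) (i : freeOn C S ⟶ Y) (J : JStep i n),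
    IsY1 S n (fun _ => True) i J → (∀ i ≤ j, ConnAt hC (n + 1) i) → n ≤ j → S.dim ≤ j → GM.Conn Y j

/-- `Y1` over all `n`-cells exists. -/
theorem exists_y1_all (S : Shape) (n : ℕ) :
    ∃ (Y : GlobModel C) (i : freeOn C S ⟶ Y) (J : JStep i n), IsY1 S n (fun _ => True) i J := by
  obtain ⟨Y, i, b, h1, h2⟩ := exists_attach (freeOn C S) (K := ULift.{u} (Cell S.psh n))
    (fun _ => n) (fun k => freeCell k.down)
  refine ⟨Y, i, ⟨ULift.{u} (Cell S.psh n), fun k => freeCell k.down, b, h1, h2⟩, ?_⟩
  exact ⟨⟨fun k => ⟨k.down, trivial⟩, fun v => ⟨v.1⟩, fun k => rfl, fun v => rfl⟩, fun k => rfl⟩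

/-- `Y1(V)` is a retract of `Y1(all)`. -/
theorem y1_retract (hC : HasFillers C) {S : Shape} {n : ℕ} {V : Cell S.psh n → Prop}
    {Y Y' : GlobModel C} {i : freeOn C S ⟶ Y} {i' : freeOn C S ⟶ Y'} {J : JStep i n} {J' : JStep i' n}
    (hJ : IsY1 S n V i J) (hJ' : IsY1 S n (fun _ => True) i' J') :
    ∃ (f : Y ⟶ Y') (r : Y' ⟶ Y), f ≫ r = 𝟙 Y := by
  classical
  obtain ⟨e, he⟩ := hJ
  obtain ⟨e', he'⟩ := hJ'
  obtain ⟨f, ⟨hf1, hf2⟩, -⟩ := J.univ Y' i' (fun k => J'.b (e'.symm ⟨(e k).1, trivial⟩)) (fun k => by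
    rw [J'.src_b, he', he]
    simp)
  let z : J'.K → Y.cells.cell (n + 1) := fun k' =>
    if h : V (e' k').1 then J.b (e.symm ⟨(e' k').1, h⟩)
    else GM.unit hC ((cellsMap i).app _ (J'.a k'))
  obtain ⟨r, ⟨hr1, hr2⟩, -⟩ := J'.univ Y i z (fun k' => by
    show Y.cells.src n (z k') = _
    by_cases h : V (e' k').1
    · simp only [z, dif_pos h]
      rw [J.src_b, he', he]
      simp
    · simp only [z, dif_neg h]
      exact GM.src_unit hC _)
  refine ⟨f, r, J.hom_ext ?_ ?_⟩
  · rw [← Category.assoc, hf1, hr1, Category.comp_id]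
  · intro k
    have e1 : (cellsMap (f ≫ r)).app (n + 1) (J.b k) =
        (cellsMap r).app (n + 1) ((cellsMap f).app (n + 1) (J.b k)) := rfl
    rw [e1, hf2, hr2]
    have h0 : V (e' (e'.symm ⟨(e k).1, trivial⟩)).1 := by
      simp only [Equiv.apply_symm_apply]
      exact (e k).2
    have e2 : z (e'.symm ⟨(e k).1, trivial⟩) = J.b k := by
      simp only [z, dif_pos h0]
      congr 1
      apply e.symm_apply_eq.2
      apply Subtype.ext
      simp
    rw [e2]
    rfl

section Main

variable (hC : HasFillers C)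

/-- Transport inverse in the form used by Lemma J. -/
theorem transportInv_of_connAt {Y : GlobModel C} {m k : ℕ} (hU : ∀ i ≤ k + 1, ConnAt hC m i) :
    TransportInv hC Y m k := by
  intro σ τ hσ hτ hpar u v h1 h2 h3 h4 hst
  exact TI.transport_inverse (j := k + 1) le_rfl hU hσ hτ hpar h1 h2 h3 h4 hst

variable {hC}

/-- The induction of section 7. -/
theorem connAt_all (h2 : Sec2 hC) (h3 : Sec3 hC) (h6 : Sec6 hC) (n i : ℕ) : ConnAt hC n i := by
  suffices H : ∀ d n i, i < n + d → ConnAt hC n i from H (i + 1) n i (by omega)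
  intro d
  induction d with
  | zero =>
    intro n i hi
    intro S T hS hT j hj
    refine h2 (hS.trans hj) hT (fun M => GM.Conn M i) ?_ ?_
    · intro Y1 i0 J hJ
      have hSn : S.dim < n := by omega
      obtain ⟨e, -⟩ := hJ
      have hr : J.r hC ≫ i0 = 𝟙 Y1 := by
        apply J.hom_ext
        · rw [← Category.assoc, J.i_r, Category.id_comp, Category.comp_id]
        · intro k
          exact ((shape_empty S hSn).false (e k).1).elim
      exact GM.Conn.of_retract (J.r hC) i0 hr (GM.conn_freeOn hC (by omega))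
    · intro m hm hmS X Y i' J' hX
      omega
  | succ d ih =>
    intro n i hi
    have hU : ∀ m, n < m → ∀ i', i' ≤ i → ConnAt hC m i' := by
      intro m hm i' hi'
      exact ih m i' (by omega)
    intro S T hS hT j hj
    refine h2 (hS.trans hj) hT (fun M => GM.Conn M i) ?_ ?_
    · intro Y1 i0 J hJ
      by_cases hni : n ≤ i
      · obtain ⟨Y', i', J', hJ'⟩ := exists_y1_all (C := C) S n
        have hc := h6 n i S Y' i' J' hJ' (fun i'' hi'' => hU (n + 1) (by omega) i'' hi'') hni hS
        obtain ⟨f, r, hfr⟩ := y1_retract hC hJ hJ'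
        exact GM.Conn.of_retract f r hfr hc
      · have hSn : S.dim < n := by omega
        obtain ⟨e, -⟩ := hJ
        have hr : J.r hC ≫ i0 = 𝟙 Y1 := by
          apply J.hom_ext
          · rw [← Category.assoc, J.i_r, Category.id_comp, Category.comp_id]
          · intro k
            exact ((shape_empty S hSn).false (e k).1).elim
        exact GM.Conn.of_retract (J.r hC) i0 hr (GM.conn_freeOn hC (by omega))
    · intro m hm hmS X Y i' J' hX
      have hUm : ∀ i'', i'' ≤ i → ConnAt hC m i'' := hU m hm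
      obtain ⟨CM⟩ := h3 m i hUm Y
      exact conn_of_jstep hC J' CM
        (fun k hk => transportInv_of_connAt hC (fun i'' hi'' => hUm i'' (by omega))) hX

/-- The main theorem from sections 2, 3, 6. -/
theorem main_of_secs (h2 : Sec2 hC) (h3 : Sec3 hC) (h6 : Sec6 hC) (e : C.UnitChoice)
    {X Y : GlobModel C} {n : ℕ} (a : diskModel C n ⟶ X) (i : X ⟶ Y) (b : diskModel C (n + 1) ⟶ Y)
    (sq : IsPushout a (GlobModel.sourceIncl C n) i b) : IsWeakEquiv e i := by
  have hall := connAt_all h2 h3 h6
  exact weakEquiv_of_cylModels hC (JStep.of_isPushout sq) e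
    (fun j => h3 n j (fun i' _ => hall n i') Y)

end Main

end Crest.Agent.Henry
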