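import Crest.Agent.Henry.Whisker

/-!
# J-steps: attaching disks along their source faces (S0382)

* `JStep i m`: `i : X ⟶ Y` attaches a family of `(m+1)`-disks along their source faces.
* `JStep.r`: the retraction sending the new cells to units; `i ≫ r = 𝟙`.
* `JStep.of_isPushout`: the pushout square of the statement S0382 is a `JStep`.
* `weakEquiv_of_key`: the final assembly: if every cell of `Y` with boundary coming from `X` is
  joined to `i (r l)`, then `i` is a weak equivalence.
-/

set_option autoImplicit false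

open CategoryTheory CategoryTheory.Limits Opposite
open Crest.GeometryTopology.Coherator

universe u

namespace Crest.Agent.Henry

open GlobTheory GlobTheory.GlobModel

variable {C : GlobTheory.{u}}

/-- `i : X ⟶ Y` attaches a family of `(m+1)`-disks along their source faces. -/
structure JStep {X Y : GlobModel C} (i : X ⟶ Y) (m : ℕ) where
  /-- index of the attached disks -/
  K : Type u
  /-- the attaching cells in `X` -/
  a : K → X.cells.cell m
  /-- the new cells in `Y` -/
  b : K → Y.cells.cell (m + 1)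
  src_b : ∀ k, Y.cells.src m (b k) = (cellsMap i).app m (a k)
  univ : ∀ (Z : GlobModel C) (g : X ⟶ Z) (z : K → Z.cells.cell (m + 1)),
    (∀ k, Z.cells.src m (z k) = (cellsMap g).app m (a k)) →
      ∃! h : Y ⟶ Z, i ≫ h = g ∧ ∀ k, (cellsMap h).app (m + 1) (b k) = z k

namespace JStep

variable {X Y : GlobModel C} {i : X ⟶ Y} {m : ℕ} (J : JStep i m)

/-- Two maps out of a `JStep` agreeing on `X` and the new cells agree. -/
lemma hom_ext {Z : GlobModel C} {f g : Y ⟶ Z} (h₁ : i ≫ f = i ≫ g)
    (h₂ : ∀ k, (cellsMap f).app (m + 1) (J.b k) = (cellsMap g).app (m + 1) (J.b k)) : f = g := by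
  obtain ⟨h, -, hu⟩ := J.univ Z (i ≫ g) (fun k => (cellsMap g).app _ (J.b k)) (fun k => by
    rw [← (cellsMap g).app_src, J.src_b]; rfl)
  rw [hu f ⟨h₁, h₂⟩, hu g ⟨rfl, fun _ => rfl⟩]

/-- The retraction of a `JStep`. -/
noncomputable def r (hC : HasFillers C) : Y ⟶ X :=
  Classical.choose (J.univ X (𝟙 X) (fun k => GM.unit hC (J.a k)) (fun k => GM.src_unit hC _))

lemma i_r (hC : HasFillers C) : i ≫ J.r hC = 𝟙 X :=
  (Classical.choose_spec (J.univ X (𝟙 X) (fun k => GM.unit hC (J.a k))
    (fun k => GM.src_unit hC _))).1.1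

lemma r_b (hC : HasFillers C) (k : J.K) :
    (cellsMap (J.r hC)).app (m + 1) (J.b k) = GM.unit hC (J.a k) :=
  (Classical.choose_spec (J.univ X (𝟙 X) (fun k => GM.unit hC (J.a k))
    (fun k => GM.src_unit hC _))).1.2 k

lemma r_i_app (hC : HasFillers C) {n : ℕ} (x : X.cells.cell n) :
    (cellsMap (J.r hC)).app n ((cellsMap i).app n x) = x :=
  congrArg (fun f : X ⟶ X => (cellsMap f).app n x) (J.i_r hC)

end JStep

/-! ### From the pushout square to a `JStep` -/

/-- The cell of a map out of a disk. -/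
noncomputable def diskCell {Z : GlobModel C} {n : ℕ} (f : diskModel C n ⟶ Z) : Z.cells.cell n :=
  yonedaEquiv (X := (⟨Shape.globe n⟩ : C.Ob)) (F := Z.functor) f

/-- The map out of a disk of a cell. -/
noncomputable def cellDisk {Z : GlobModel C} {n : ℕ} (x : Z.cells.cell n) : diskModel C n ⟶ Z :=
  (yonedaEquiv (X := (⟨Shape.globe n⟩ : C.Ob)) (F := Z.functor)).symm x

@[simp] lemma diskCell_cellDisk {Z : GlobModel C} {n : ℕ} (x : Z.cells.cell n) :
    diskCell (cellDisk x) = x :=
  (yonedaEquiv (X := (⟨Shape.globe n⟩ : C.Ob)) (F := Z.functor)).apply_symm_apply x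

@[simp] lemma cellDisk_diskCell {Z : GlobModel C} {n : ℕ} (f : diskModel C n ⟶ Z) :
    cellDisk (diskCell f) = f :=
  (yonedaEquiv (X := (⟨Shape.globe n⟩ : C.Ob)) (F := Z.functor)).symm_apply_apply f

lemma diskCell_comp {Z W : GlobModel C} {n : ℕ} (f : diskModel C n ⟶ Z) (g : Z ⟶ W) :
    diskCell (f ≫ g) = (cellsMap g).app n (diskCell f) :=
  yonedaEquiv_comp (X := (⟨Shape.globe n⟩ : C.Ob)) (F := Z.functor) (G := W.functor) f g

lemma diskCell_sourceIncl {Z : GlobModel C} {n : ℕ} (f : diskModel C (n + 1) ⟶ Z) :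
    diskCell (GlobModel.sourceIncl C n ≫ f) = Z.cells.src n (diskCell f) :=
  (yonedaEquiv_naturality (X := (⟨Shape.globe (n + 1)⟩ : C.Ob)) (F := Z.functor) f
    (C.incl.map (Shape.σ n))).symm

/-- The pushout square of the statement is a `JStep` (one attached disk). -/
noncomputable def JStep.of_isPushout {X Y : GlobModel C} {n : ℕ} {i : X ⟶ Y}
    {a : diskModel C n ⟶ X} {b : diskModel C (n + 1) ⟶ Y}
    (sq : IsPushout a (GlobModel.sourceIncl C n) i b) : JStep i n where
  K := PUnit
  a _ := diskCell a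
  b _ := diskCell b
  src_b _ := by
    rw [← diskCell_sourceIncl, ← sq.w, diskCell_comp]
  univ Z g z hz := by
    have hw : a ≫ g = GlobModel.sourceIncl C n ≫ cellDisk (z PUnit.unit) := by
      apply (yonedaEquiv (X := (⟨Shape.globe n⟩ : C.Ob)) (F := Z.functor)).injective
      change diskCell (a ≫ g) = diskCell (GlobModel.sourceIncl C n ≫ cellDisk (z PUnit.unit))
      rw [diskCell_sourceIncl, diskCell_cellDisk, hz, diskCell_comp]
    refine ⟨sq.desc g (cellDisk (z PUnit.unit)) hw, ⟨sq.inl_desc _ _ _, fun _ => ?_⟩, ?_⟩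
    · rw [← diskCell_comp, sq.inr_desc, diskCell_cellDisk]
    · rintro h ⟨h₁, h₂⟩
      apply sq.hom_ext
      · rw [h₁, sq.inl_desc]
      · rw [sq.inr_desc, ← h₂ PUnit.unit, ← diskCell_comp, cellDisk_diskCell]

/-! ### Final assembly -/

section Final

/-- Model maps preserve base points. -/
lemma map_basePoint {X Y : GlobModel C} (e : C.UnitChoice) (f : X ⟶ Y) (x : X.cells.cell 0) (k : ℕ) :
    (cellsMap f).app k (X.basePoint e x k) = Y.basePoint e ((cellsMap f).app 0 x) k := by
  induction k with
  | zero => rfl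
  | succ k ih =>
    have h := GM.map_act f (e.unit k) (X.basePoint e x k)
    change (cellsMap f).app (k + 1) (X.unitCell e k (X.basePoint e x k)) =
        Y.unitCell e k ((cellsMap f).app k (X.basePoint e x k)) at h
    rw [ih] at h
    exact h


variable {X Y : GlobModel C} (e : C.UnitChoice) {i : X ⟶ Y} {r : Y ⟶ X} (hir : i ≫ r = 𝟙 X)

include hir

lemma r_i_app' {n : ℕ} (x : X.cells.cell n) : (cellsMap r).app n ((cellsMap i).app n x) = x :=
  congrArg (fun f : X ⟶ X => (cellsMap f).app n x) hir

lemma r_basePoint (x : X.cells.cell 0) (k : ℕ) :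
    (cellsMap r).app k (Y.basePoint e ((cellsMap i).app 0 x) k) = X.basePoint e x k := by
  rw [map_basePoint e r _ k, r_i_app' hir]

/-- The retraction on loops. -/
noncomputable def rLoop (x : X.cells.cell 0) (n : ℕ) (l : Y.LoopsAt e ((cellsMap i).app 0 x) n) :
    X.LoopsAt e x n :=
  ⟨(cellsMap r).app (n + 1) l.1,
    by rw [← (cellsMap r).app_src, l.2.1, r_basePoint e hir],
    by rw [← (cellsMap r).app_tgt, l.2.2, r_basePoint e hir]⟩

/-- The final assembly: if `Step l (i r l)` for all cells `l` of `Y` with boundary in `X`,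
then `i` is a weak equivalence. -/
theorem weakEquiv_of_key
    (K0 : ∀ y : Y.cells.cell 0, Y.cells.Step 0 y ((cellsMap i).app 0 ((cellsMap r).app 0 y)))
    (K1 : ∀ (L : ℕ) (l : Y.cells.cell (L + 1)) (x' x'' : X.cells.cell L),
      Y.cells.src L l = (cellsMap i).app L x' → Y.cells.tgt L l = (cellsMap i).app L x'' →
      Y.cells.Step (L + 1) l ((cellsMap i).app (L + 1) ((cellsMap r).app (L + 1) l))) :
    IsWeakEquiv e i := by
  constructor
  · constructor
    · intro a b hab
      have key : ∀ c : X.PathComponents,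
          Quot.lift (fun y => Quot.mk _ ((cellsMap r).app 0 y) : Y.cells.cell 0 → X.PathComponents)
            (fun y y' hs => Quot.sound (GM.step_map r hs)) (componentsMap i c) = c := by
        rintro ⟨c⟩
        exact congrArg (Quot.mk _) (r_i_app' hir c)
      rw [← key a, hab, key b]
    · rintro ⟨y⟩
      exact ⟨Quot.mk _ ((cellsMap r).app 0 y), (Quot.sound (K0 y)).symm⟩
  · intro x n
    constructor
    · intro a b hab
      have key : ∀ c : X.HomotopyClasses e x n,
          Quot.lift (fun l => Quot.mk _ (rLoop e hir x n l) :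
              Y.LoopsAt e ((cellsMap i).app 0 x) n → X.HomotopyClasses e x n)
            (fun l l' hs => Quot.sound (GM.step_map r hs)) (homotopyMap i e x n c) = c := by
        rintro ⟨c⟩
        refine congrArg (Quot.mk _) (Subtype.ext ?_)
        exact r_i_app' hir c.1
      rw [← key a, hab, key b]
    · rintro ⟨l⟩
      refine ⟨Quot.mk _ (rLoop e hir x n l), (Quot.sound ?_).symm⟩
      refine K1 n l.1 (X.basePoint e x n) (X.basePoint e x n) ?_ ?_
      · rw [map_basePoint e i x n]; exact l.2.1
      · rw [map_basePoint e i x n]; exact l.2.2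

end Final

end Crest.Agent.Henry
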