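import Crest.Agent.Henry.Cyl
import Crest.Agent.Henry.JStep
import Crest.Agent.Henry.Final

/-!
# Lemma J (section 5 of the S0382 blueprint) and the homotopies of section 8 (helper97)

* `CylModel hC Y n j`: what section 3 produces: a model `P` whose cells are the cells of
  `cyl (zOps hC Y) n j`, with model maps `p0, p1 : P ⟶ Y`, `d : Y ⟶ P`.
* `TransportInv hC Y n k`: the conclusion of section 4 in dimension `j = k + 1`.
* `conn_of_homotopy`: a homotopy `H : Y ⟶ P` with `H ≫ p0 = 𝟙`, `H ≫ p1 = θ` with `θ` sending parallel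
  `j`-cells to `Step`-related cells yields `Conn Y j` (used in sections 5 and 6d).
* `exists_H`: for a `JStep i m` the homotopy `H : Y ⟶ Cyl^{(m),j}_Y` from `𝟙` to `r ≫ i`, with
  `i ≫ H = i ≫ d`.
* `conn_of_jstep`: Lemma J.
* `K0_of_H`, `K1_of_H`: the cells needed in `weakEquiv_of_key` (section 8).
-/

set_option autoImplicit false
set_option linter.unusedVariables false

open CategoryTheory CategoryTheory.Limits Opposite
open Crest.GeometryTopology.Coherator
open Crest.GeometryTopology.Coherator.GlobTheory Crest.GeometryTopology.Coherator.GlobTheory.GlobModel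

universe u

namespace Crest.Agent.Henry

variable {C : GlobTheory.{u}}

/-- Two maps of models agreeing on all cells are equal. -/
theorem model_hom_ext {Z Y : GlobModel C} {f g : Z ⟶ Y}
    (h : ∀ (k : ℕ) (x : Z.cells.cell k), (cellsMap f).app k x = (cellsMap g).app k x) : f = g := by
  apply NatTrans.ext
  funext S
  obtain ⟨⟨S⟩⟩ := S
  refine ConcreteCategory.hom_ext _ _ (fun x => ?_)
  apply (tupleHom_bijective Y S).1
  apply hom_ext_cell
  intro m c
  rw [cellAt_tupleHom, cellAt_tupleHom]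
  have nat : ∀ φ : Z ⟶ Y, pullTuple Y (cellShape c) (φ.app _ x) =
      φ.app _ (pullTuple Z (cellShape c) x) := fun φ =>
    (types_congr_hom (φ.naturality (C.incl.map (cellShape c)).op) x).symm
  rw [nat f, nat g]
  exact h m _

/-- The output of section 3: a model whose cells are the cells of the cylinder. -/
structure CylModel (hC : HasFillers C) (Y : GlobModel C) (n j : ℕ) where
  /-- the model -/
  P : GlobModel C
  /-- its cells are those of the cylinder -/
  e : ∀ k, P.cells.cell k ≃ (cyl (zOps hC Y) n j).cell k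
  e_src : ∀ k x, e k (P.cells.src k x) = (cyl (zOps hC Y) n j).src k (e (k + 1) x)
  e_tgt : ∀ k x, e k (P.cells.tgt k x) = (cyl (zOps hC Y) n j).tgt k (e (k + 1) x)
  /-- the `0`-end -/
  p0 : P ⟶ Y
  /-- the `1`-end -/
  p1 : P ⟶ Y
  /-- marked cells -/
  d : Y ⟶ P
  p0_e : ∀ k x, (cellsMap p0).app k x = (e k x).1.p0
  p1_e : ∀ k x, (cellsMap p1).app k x = (e k x).1.p1
  d_e : ∀ k z, (e k ((cellsMap d).app k z)).1 = Cy.marked z

/-- The conclusion of section 4 for `(Y, n)` in dimension `j = k + 1`. -/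
def TransportInv (hC : HasFillers C) (Y : GlobModel C) (n k : ℕ) : Prop :=
  ∀ (σ τ : Cy (cellsPsh Y) k), Cy.Valid (zOps hC Y) n (k + 1) σ → Cy.Valid (zOps hC Y) n (k + 1) τ →
    Cy.Par k σ τ → ∀ u v : Cell (cellsPsh Y) (k + 1),
      sr (cellsPsh Y) k u = σ.p0 → tg (cellsPsh Y) k u = τ.p0 →
      sr (cellsPsh Y) k v = σ.p0 → tg (cellsPsh Y) k v = τ.p0 →
      Y.cells.Step (k + 1) (TrRaw (zOps hC Y) k σ τ (k + 1) u) (TrRaw (zOps hC Y) k σ τ (k + 1) v) →
      Y.cells.Step (k + 1) u v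

section Tr

variable {A : GlobPsh.{u}} (W : WOps A)

/-- Transport over a marked sphere is the identity. -/
theorem TrRaw_marked : ∀ (k : ℕ) (x y : Cell A k) (h : ℕ) (w : Cell A h),
    TrRaw W k (.marked x) (.marked y) h w = w
  | 0, _, _, _, _ => rfl
  | k + 1, x, y, h, w => by
    show rw' W (k + 1) h (lw W (k + 1) h none
      (TrRaw W k (.marked (sr A k x)) (.marked (tg A k x)) h w)) none = w
    rw [TrRaw_marked k]
    rfl

/-- Transport where the source is marked. -/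
theorem TrRaw_marked_left (k : ℕ) (x : Cell A k) (τ : Cy A k) (h : ℕ) (w : Cell A h) :
    TrRaw W k (.marked x) τ h w = rw' W k h w τ.hof := by
  cases k with
  | zero => rfl
  | succ k =>
    show rw' W (k + 1) h (lw W (k + 1) h none
      (TrRaw W k (.marked (sr A k x)) (.marked (tg A k x)) h w)) τ.hof = _
    rw [TrRaw_marked W k]
    rfl

end Tr

namespace CylModel

variable {hC : HasFillers C} {Y : GlobModel C} {n j : ℕ} (CM : CylModel hC Y n j)

theorem d_p0 : CM.d ≫ CM.p0 = 𝟙 Y := by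
  apply model_hom_ext
  intro k x
  show (cellsMap CM.p0).app k ((cellsMap CM.d).app k x) = x
  rw [CM.p0_e, CM.d_e]
  rfl

theorem d_p1 : CM.d ≫ CM.p1 = 𝟙 Y := by
  apply model_hom_ext
  intro k x
  show (cellsMap CM.p1).app k ((cellsMap CM.d).app k x) = x
  rw [CM.p1_e, CM.d_e]
  rfl

theorem csrc_e (k : ℕ) (x : CM.P.cells.cell (k + 1)) :
    (CM.e (k + 1) x).1.csrc = (CM.e k (CM.P.cells.src k x)).1 := by
  rw [CM.e_src]
  rfl

theorem ctgt_e (k : ℕ) (x : CM.P.cells.cell (k + 1)) :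
    (CM.e (k + 1) x).1.ctgt = (CM.e k (CM.P.cells.tgt k x)).1 := by
  rw [CM.e_tgt]
  rfl

/-- Top `Step`: from the transport of `p0 x` to `p1 x`. -/
theorem step_transport {k : ℕ} (hj : j = k + 1) (x : CM.P.cells.cell (k + 1)) :
    Y.cells.Step (k + 1)
      (TrRaw (zOps hC Y) k (CM.e _ x).1.csrc (CM.e _ x).1.ctgt (k + 1) ((cellsMap CM.p0).app _ x))
      ((cellsMap CM.p1).app _ x) := by
  rw [CM.p0_e, CM.p1_e]
  generalize CM.e (k + 1) x = y
  obtain ⟨y, hy⟩ := y
  cases y with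
  | marked z =>
    show Y.cells.Step (k + 1) (TrRaw (zOps hC Y) k (.marked _) (.marked _) (k + 1) z) z
    rw [TrRaw_marked]
    exact GM.step_refl hC z
  | un σ τ z0 z1 H =>
    obtain ⟨h1, h2, h3, h4, h5, h6, h7, h8, h9⟩ := hy
    rcases h9 with ⟨-, H0, rfl, h10, h11⟩ | ⟨h9, -⟩
    · exact ⟨H0, h10, h11⟩
    · omega

/-- The bottom `Step`. -/
theorem step_zero (hj : j = 0) (x : CM.P.cells.cell 0) :
    Y.cells.Step 0 ((cellsMap CM.p0).app _ x) ((cellsMap CM.p1).app _ x) := by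
  rw [CM.p0_e, CM.p1_e]
  generalize CM.e 0 x = y
  obtain ⟨y, hy⟩ := y
  cases y with
  | marked z => exact GM.step_refl hC z
  | un0 z0 z1 H =>
    obtain ⟨-, H0, rfl, h1, h2⟩ := hy
    exact ⟨H0, h1, h2⟩

/-- Section 5 and 6d: a homotopy from the identity to `θ`, with `θ` sending parallel cells to
`Step`-related cells, gives `Conn Y j`. -/
theorem conn_of_homotopy (H : Y ⟶ CM.P) (hp0 : H ≫ CM.p0 = 𝟙 Y) (θ : Y ⟶ Y) (hp1 : H ≫ CM.p1 = θ)
    (TI : ∀ k, j = k + 1 → TransportInv hC Y n k)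
    (hθ : ∀ u v : Y.cells.cell j, Y.cells.AreParallel j u v →
      Y.cells.Step j ((cellsMap θ).app j u) ((cellsMap θ).app j v)) :
    GM.Conn Y j := by
  intro u v huv
  have hp0' : ∀ {k : ℕ} (w : Y.cells.cell k), (cellsMap CM.p0).app k ((cellsMap H).app k w) = w :=
    fun {k} w => congrArg (fun f : Y ⟶ Y => (cellsMap f).app k w) hp0
  have hp1' : ∀ {k : ℕ} (w : Y.cells.cell k), (cellsMap CM.p1).app k ((cellsMap H).app k w) =
      (cellsMap θ).app k w :=
    fun {k} w => congrArg (fun f : Y ⟶ Y => (cellsMap f).app k w) hp1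
  have hθuv := hθ u v huv
  cases j with
  | zero =>
    have h1 := CM.step_zero rfl ((cellsMap H).app _ u)
    have h2 := CM.step_zero rfl ((cellsMap H).app _ v)
    rw [hp0', hp1'] at h1 h2
    exact GM.step_trans hC h1 (GM.step_trans hC hθuv (GM.step_symm hC h2))
  | succ k =>
    have h1 := CM.step_transport rfl ((cellsMap H).app _ u)
    have h2 := CM.step_transport rfl ((cellsMap H).app _ v)
    rw [hp0', hp1'] at h1 h2
    -- same boundary
    have hs : (CM.e (k + 1) ((cellsMap H).app _ u)).1.csrc =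
        (CM.e (k + 1) ((cellsMap H).app _ v)).1.csrc := by
      rw [csrc_e, csrc_e, ← (cellsMap H).app_src, ← (cellsMap H).app_src, huv.1]
    have ht : (CM.e (k + 1) ((cellsMap H).app _ u)).1.ctgt =
        (CM.e (k + 1) ((cellsMap H).app _ v)).1.ctgt := by
      rw [ctgt_e, ctgt_e, ← (cellsMap H).app_tgt, ← (cellsMap H).app_tgt, huv.2]
    rw [← hs, ← ht] at h2
    set x := CM.e (k + 1) ((cellsMap H).app _ u) with hx
    set x' := CM.e (k + 1) ((cellsMap H).app _ v) with hx'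
    have hstep : Y.cells.Step (k + 1) (TrRaw (zOps hC Y) k x.1.csrc x.1.ctgt (k + 1) u)
        (TrRaw (zOps hC Y) k x.1.csrc x.1.ctgt (k + 1) v) :=
      GM.step_trans hC h1 (GM.step_trans hC hθuv (GM.step_symm hC h2))
    have e0 : x.1.p0 = u := by
      rw [hx, ← CM.p0_e, hp0']
    have e0' : x'.1.p0 = v := by
      rw [hx', ← CM.p0_e, hp0']
    have hsu : sr (cellsPsh Y) k u = x.1.csrc.p0 := by
      rw [Cy.p0_csrc x.2, e0]
    have htu : tg (cellsPsh Y) k u = x.1.ctgt.p0 := by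
      rw [Cy.p0_ctgt x.2, e0]
    have hsv : sr (cellsPsh Y) k v = x.1.csrc.p0 := by
      rw [hs, Cy.p0_csrc x'.2, e0']
    have htv : tg (cellsPsh Y) k v = x.1.ctgt.p0 := by
      rw [ht, Cy.p0_ctgt x'.2, e0']
    exact TI k rfl x.1.csrc x.1.ctgt (Cy.valid_csrc x.2) (Cy.valid_ctgt x.2)
      (Cy.par_of_valid x.2) u v hsu htu hsv htv hstep

end CylModel

/-! ### The homotopy of a J-step -/

section Homotopy

variable (hC : HasFillers C) (Y : GlobModel C)

local notation "𝔸" => cellsPsh Y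
local notation "𝕎" => zOps hC Y

/-- The cell over the new target `c`. -/
theorem exists_Hc (m j : ℕ) (a' c : Cell 𝔸 m) (H0 : Cell 𝔸 (m + 1)) (h1 : sr 𝔸 m H0 = c)
    (h2 : tg 𝔸 m H0 = a') :
    ∃ x : Cy 𝔸 m, Cy.Valid 𝕎 m j x ∧ x.p0 = c ∧ x.p1 = a' ∧ (m ≤ j → x.hof = some H0) ∧
      Cy.Par m (Cy.marked a') x := by
  cases m with
  | zero =>
    exact ⟨Cy.un0 c a' (some H0), ⟨rfl, H0, rfl, h1, h2⟩, rfl, rfl, fun _ => rfl, trivial⟩
  | succ k =>
    have hs : sr 𝔸 k a' = sr 𝔸 k c := by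
      rw [← h1, ← h2]
      exact (Cy.sr_sr 𝔸 k H0).symm
    have ht : tg 𝔸 k a' = tg 𝔸 k c := by
      rw [← h1, ← h2]
      exact (Cy.tg_tg 𝔸 k H0).symm
    have hpar : Cy.Par k (Cy.marked (sr 𝔸 k c)) (Cy.marked (tg 𝔸 k c)) :=
      Cy.par_of_valid (W := 𝕎) (n := k + 1) (j := j) (x := Cy.marked c) trivial
    by_cases hj : k + 1 ≤ j
    · refine ⟨Cy.un (.marked (sr 𝔸 k c)) (.marked (tg 𝔸 k c)) c a' (some H0),
        ⟨trivial, trivial, hpar, le_rfl, rfl, rfl, hs, ht, Or.inl ⟨hj, H0, rfl, ?_, h2⟩⟩,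
        rfl, rfl, fun _ => rfl, ?_⟩
      · rw [TrRaw_marked]
        exact h1
      · exact ⟨congrArg Cy.marked hs, congrArg Cy.marked ht⟩
    · refine ⟨Cy.un (.marked (sr 𝔸 k c)) (.marked (tg 𝔸 k c)) c a' none,
        ⟨trivial, trivial, hpar, le_rfl, rfl, rfl, hs, ht, Or.inr ⟨by omega, rfl⟩⟩,
        rfl, rfl, fun h => absurd h hj, ?_⟩
      exact ⟨congrArg Cy.marked hs, congrArg Cy.marked ht⟩

/-- AD: the composite of a cell with its inverse is joined to a unit. -/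
theorem step_R_inv (m : ℕ) (b : Y.cells.cell (m + 1)) :
    Y.cells.Step (m + 1) (GM.R hC m b (GM.inv hC b)) (GM.unit hC (Y.cells.src m b)) := by
  let F := diskModel C (m + 1)
  let ι : F.cells.cell (m + 1) := diskCell (𝟙 F)
  let g : F ⟶ Y := cellDisk b
  have hι : (cellsMap g).app (m + 1) ι = b := by
    have := diskCell_comp (𝟙 F) g
    rw [Category.id_comp, diskCell_cellDisk] at this
    exact this.symm
  have hc : F.cells.tgt m ι = F.cells.src m (GM.inv hC ι) := (GM.src_inv hC ι).symm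
  have hconn : GM.Conn F (m + 1) := GM.conn_freeOn hC (S := Shape.globe (m + 1)) (by
    change m + 1 ≤ m + 1 + 1
    omega)
  have hpar : F.cells.AreParallel (m + 1) (GM.R hC m ι (GM.inv hC ι)) (GM.unit hC (F.cells.src m ι)) := by
    constructor
    · rw [GM.R_base_src hC _ _ hc, GM.src_unit]
    · rw [GM.R_base_tgt hC _ _ hc, GM.tgt_unit, GM.tgt_inv]
  have h := GM.step_map g (hconn _ _ hpar)
  have e1 : (cellsMap g).app (m + 1) (GM.R hC m ι (GM.inv hC ι)) = GM.R hC m b (GM.inv hC b) := by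
    rw [GM.map_R hC g le_rfl _ _ hc, GM.map_inv, hι]
  have e2 : (cellsMap g).app (m + 1) (GM.unit hC (F.cells.src m ι)) =
      GM.unit hC (Y.cells.src m b) := by
    rw [GM.map_unit, (cellsMap g).app_src, hι]
  rwa [e1, e2] at h

/-- The cell of the cylinder over a new cell `b`: unmarked, from `d (src b)`. -/
theorem exists_Hb (m j : ℕ) (b : Y.cells.cell (m + 1)) :
    ∃ x : Cy 𝔸 (m + 1), Cy.Valid 𝕎 m j x ∧ x.csrc = Cy.marked (Y.cells.src m b) ∧ x.p0 = b ∧
      x.p1 = GM.unit hC (Y.cells.src m b) := by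
  obtain ⟨τ, hτv, hτ0, hτ1, hτh, hτp⟩ := exists_Hc hC Y m j (Y.cells.src m b) (Y.cells.tgt m b)
    (GM.inv hC b) (GM.src_inv hC b) (GM.tgt_inv hC b)
  by_cases hj : m + 1 ≤ j
  · obtain ⟨H1, hs, ht⟩ := step_R_inv hC Y m b
    refine ⟨Cy.un (.marked (Y.cells.src m b)) τ b (GM.unit hC (Y.cells.src m b)) (some H1),
      ⟨trivial, hτv, hτp, Nat.le_succ _, rfl, hτ0.symm, GM.src_unit hC _, ?_,
        Or.inl ⟨hj, H1, rfl, ?_, ht⟩⟩, rfl, rfl, rfl⟩
    · rw [hτ1]
      exact GM.tgt_unit hC _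
    · rw [TrRaw_marked_left, hτh (by omega)]
      exact hs
  · refine ⟨Cy.un (.marked (Y.cells.src m b)) τ b (GM.unit hC (Y.cells.src m b)) none,
      ⟨trivial, hτv, hτp, Nat.le_succ _, rfl, hτ0.symm, GM.src_unit hC _, ?_,
        Or.inr ⟨by omega, rfl⟩⟩, rfl, rfl, rfl⟩
    rw [hτ1]
    exact GM.tgt_unit hC _

end Homotopy

section JStep

variable (hC : HasFillers C) {X Y : GlobModel C} {i : X ⟶ Y} {m : ℕ} (J : JStep i m)

/-- The homotopy of a `JStep`. -/
theorem exists_H {j : ℕ} (CM : CylModel hC Y m j) :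
    ∃ H : Y ⟶ CM.P, i ≫ H = i ≫ CM.d ∧ H ≫ CM.p0 = 𝟙 Y ∧ H ≫ CM.p1 = J.r hC ≫ i := by
  choose x hxv hx0 hx1 hx2 using fun k => exists_Hb hC Y m j (J.b k)
  have hnew : ∀ k, CM.P.cells.src m ((CM.e (m + 1)).symm ⟨x k, hxv k⟩) =
      (cellsMap (i ≫ CM.d)).app m (J.a k) := by
    intro k
    apply (CM.e m).injective
    apply Subtype.ext
    rw [← CM.csrc_e, Equiv.apply_symm_apply, hx0, J.src_b]
    exact (CM.d_e m _).symm
  obtain ⟨H, ⟨h1, h2⟩, -⟩ := J.univ CM.P (i ≫ CM.d) (fun k => (CM.e (m + 1)).symm ⟨x k, hxv k⟩) hnew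
  have hid0 : i ≫ H ≫ CM.p0 = i ≫ 𝟙 Y := by
    rw [← Category.assoc, h1, Category.assoc, CM.d_p0]
  have hid1 : i ≫ H ≫ CM.p1 = i ≫ J.r hC ≫ i := by
    rw [← Category.assoc, h1, Category.assoc, CM.d_p1, ← Category.assoc, J.i_r]
    simp
  refine ⟨H, h1, J.hom_ext hid0 ?_, J.hom_ext hid1 ?_⟩
  · intro k
    show (cellsMap CM.p0).app _ ((cellsMap H).app _ (J.b k)) = J.b k
    rw [h2, CM.p0_e, Equiv.apply_symm_apply, hx1]
  · intro k
    show (cellsMap CM.p1).app _ ((cellsMap H).app _ (J.b k)) =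
      (cellsMap i).app _ ((cellsMap (J.r hC)).app _ (J.b k))
    rw [h2, CM.p1_e, Equiv.apply_symm_apply, hx2, J.r_b, GM.map_unit, J.src_b]

include J in
/-- **Lemma J.** -/
theorem conn_of_jstep {j : ℕ} (CM : CylModel hC Y m j)
    (TI : ∀ k, j = k + 1 → TransportInv hC Y m k) (hX : GM.Conn X j) : GM.Conn Y j := by
  obtain ⟨H, -, h0, h1⟩ := exists_H hC J CM
  refine CM.conn_of_homotopy H h0 (J.r hC ≫ i) h1 TI ?_
  intro u v huv
  exact GM.step_map i (hX _ _ (GM.parallel_map (J.r hC) huv))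

/-- Section 8, dimension `0`. -/
theorem K0_of_H (CM : CylModel hC Y m 0) (y : Y.cells.cell 0) :
    Y.cells.Step 0 y ((cellsMap i).app 0 ((cellsMap (J.r hC)).app 0 y)) := by
  obtain ⟨H, -, h0, h1⟩ := exists_H hC J CM
  have := CM.step_zero rfl ((cellsMap H).app _ y)
  have e0 : (cellsMap CM.p0).app 0 ((cellsMap H).app 0 y) = y :=
    congrArg (fun f : Y ⟶ Y => (cellsMap f).app 0 y) h0
  have e1 : (cellsMap CM.p1).app 0 ((cellsMap H).app 0 y) =
      (cellsMap i).app 0 ((cellsMap (J.r hC)).app 0 y) :=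
    congrArg (fun f : Y ⟶ Y => (cellsMap f).app 0 y) h1
  rwa [e0, e1] at this

/-- Section 8, dimension `L + 1`. -/
theorem K1_of_H {L : ℕ} (CM : CylModel hC Y m (L + 1)) (l : Y.cells.cell (L + 1))
    (x' x'' : X.cells.cell L) (hs : Y.cells.src L l = (cellsMap i).app L x')
    (ht : Y.cells.tgt L l = (cellsMap i).app L x'') :
    Y.cells.Step (L + 1) l ((cellsMap i).app (L + 1) ((cellsMap (J.r hC)).app (L + 1) l)) := by
  obtain ⟨H, hi, h0, h1⟩ := exists_H hC J CM
  have := CM.step_transport rfl ((cellsMap H).app _ l)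
  have e0 : (cellsMap CM.p0).app (L + 1) ((cellsMap H).app (L + 1) l) = l :=
    congrArg (fun f : Y ⟶ Y => (cellsMap f).app (L + 1) l) h0
  have e1 : (cellsMap CM.p1).app (L + 1) ((cellsMap H).app (L + 1) l) =
      (cellsMap i).app (L + 1) ((cellsMap (J.r hC)).app (L + 1) l) :=
    congrArg (fun f : Y ⟶ Y => (cellsMap f).app (L + 1) l) h1
  rw [e0, e1] at this
  have hHi : ∀ z : X.cells.cell L, (cellsMap H).app L ((cellsMap i).app L z) =
      (cellsMap CM.d).app L ((cellsMap i).app L z) :=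
    fun z => congrArg (fun f : X ⟶ CM.P => (cellsMap f).app L z) hi
  have e2 : (CM.e _ ((cellsMap H).app _ l)).1.csrc = Cy.marked ((cellsMap i).app L x') := by
    rw [CM.csrc_e, ← (cellsMap H).app_src, hs, hHi, CM.d_e]
  have e3 : (CM.e _ ((cellsMap H).app _ l)).1.ctgt = Cy.marked ((cellsMap i).app L x'') := by
    rw [CM.ctgt_e, ← (cellsMap H).app_tgt, ht, hHi, CM.d_e]
  rw [e2, e3, TrRaw_marked] at this
  exact this

include J in
/-- **Section 8.** Given the cylinder models, the step `i` is a weak equivalence. -/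
theorem weakEquiv_of_cylModels (e : C.UnitChoice) (CM : ∀ j, Nonempty (CylModel hC Y m j)) :
    IsWeakEquiv e i := by
  refine weakEquiv_of_key e (J.i_r hC) ?_ ?_
  · intro y
    obtain ⟨CM0⟩ := CM 0
    exact K0_of_H hC J CM0 y
  · intro L l x' x'' hs ht
    obtain ⟨CM0⟩ := CM (L + 1)
    exact K1_of_H hC J CM0 l x' x'' hs ht

end JStep

end Crest.Agent.Henry
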