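import Crest.Agent.Henry.Shapes

/-!
# Globular sets as presheaves (S0382, helper3)

`GlobSet.toPsh X : GlobPsh` for a globular set `X` given by cells/src/tgt, with `toGlobSet (toPsh X)`
having the same cells, sources and targets.  Maps into or between such presheaves only need to be checked
on sources and targets (`natOfFaces`).
-/

set_option autoImplicit false

open CategoryTheory CategoryTheory.Limits Opposite
open Crest.GeometryTopology.Coherator
open Crest.GeometryTopology.Coherator.GlobPsh

universe u v

namespace Crest.Agent.Henry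

namespace GlobSetPsh

variable (X : GlobSet.{u})

/-- Iterated source-or-target of a globular set: all intermediate faces are sources, the last
one is given by `u`. -/
def face (b : Bool) : (n m : ℕ) → m < n → X.cell n → X.cell m
  | 0, _, h, _ => absurd h (Nat.not_lt_zero _)
  | k + 1, m, h, x =>
    if e : m = k then e ▸ (if b then X.tgt k x else X.src k x)
    else face b k m (by omega) (X.src k x)

theorem face_succ_self (b : Bool) (k : ℕ) (x : X.cell (k + 1)) :
    face X b (k + 1) k (Nat.lt_succ_self k) x = if b then X.tgt k x else X.src k x := by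
  simp [face]

theorem face_succ_lt (b : Bool) {k m : ℕ} (h : m < k) (x : X.cell (k + 1)) :
    face X b (k + 1) m (by omega) x = face X b k m h (X.src k x) := by
  have : m ≠ k := by omega
  simp [face, this]

/-- Faces of the target agree with faces of the source. -/
theorem face_tgt (b : Bool) {k m : ℕ} (h : m < k) (x : X.cell (k + 1)) :
    face X b k m h (X.tgt k x) = face X b k m h (X.src k x) := by
  induction k generalizing m with
  | zero => exact absurd h (Nat.not_lt_zero _)
  | succ k ih =>
    by_cases e : m = k
    · subst e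
      rw [face_succ_self, face_succ_self]
      cases b
      · exact (X.src_src m x).symm
      · exact (X.tgt_tgt m x).symm
    · have h' : m < k := by omega
      rw [face_succ_lt X b h', face_succ_lt X b h']
      exact congrArg _ (X.src_src k x).symm

theorem face_face (a b : Bool) {k n m : ℕ} (hmn : m < n) (hnk : n < k) (x : X.cell k) :
    face X a n m hmn (face X b k n hnk x) = face X a k m (hmn.trans hnk) x := by
  induction k generalizing n m with
  | zero => exact absurd hnk (Nat.not_lt_zero _)
  | succ k ih =>
    by_cases e : n = k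
    · subst e
      rw [face_succ_self, face_succ_lt X a hmn]
      cases b
      · rfl
      · exact face_tgt X a hmn x
    · have h' : n < k := by omega
      rw [face_succ_lt X b h', ih hmn h', face_succ_lt X a (hmn.trans h')]

/-- The action of arrows of globes on cells. -/
def mapArrow : {m n : ℕ} → GlobeObj.Arrow m n → X.cell n → X.cell m
  | _, _, .refl _, x => x
  | _, _, .pole h b, x => face X b _ _ h x

theorem mapArrow_seq {m n k : ℕ} (g : GlobeObj.Arrow m n) (f : GlobeObj.Arrow n k) (x : X.cell k) :
    mapArrow X (GlobeObj.Arrow.seq g f) x = mapArrow X g (mapArrow X f x) := by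
  cases f with
  | refl => cases g <;> rfl
  | pole hf uf =>
    cases g with
    | refl => rfl
    | pole hg ug => exact (face_face X ug uf hg hf x).symm

/-- The presheaf on globes of a globular set. -/
def toPsh : GlobPsh.{u} where
  obj G := X.cell G.unop.dim
  map {G G'} a := TypeCat.ofHom (mapArrow X (m := G'.unop.dim) (n := G.unop.dim) a.unop)
  map_id G := rfl
  map_comp {G G' G''} a b := by
    ext x
    exact mapArrow_seq X (m := G''.unop.dim) (n := G'.unop.dim) (k := G.unop.dim) b.unop a.unop x

theorem toPsh_face (b : Bool) {m n : ℕ} (h : m < n) (x : X.cell n) :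
    Cell.face (toPsh X) h b x = face X b n m h x := rfl

@[simp] theorem toGlobSet_cell (m : ℕ) : (toGlobSet (toPsh X)).cell m = X.cell m := rfl

theorem toGlobSet_src (m : ℕ) (x : X.cell (m + 1)) : (toGlobSet (toPsh X)).src m x = X.src m x := by
  show face X false (m + 1) m (Nat.lt_succ_self m) x = _
  rw [face_succ_self]; rfl

theorem toGlobSet_tgt (m : ℕ) (x : X.cell (m + 1)) : (toGlobSet (toPsh X)).tgt m x = X.tgt m x := by
  show face X true (m + 1) m (Nat.lt_succ_self m) x = _
  rw [face_succ_self]; rfl

end GlobSetPsh

/-- Naturality for presheaves on globes only needs to be checked on the codimension-one faces. -/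
theorem face_natural_of_src_tgt {P : GlobeObjᵒᵖ ⥤ Type v} {Q : GlobeObjᵒᵖ ⥤ Type u}
    (φ : ∀ m, P.obj (op (GlobeObj.mk m)) → Q.obj (op (GlobeObj.mk m)))
    (hs : ∀ m x, φ m (P.map (GlobeObj.σ m).op x) = Q.map (GlobeObj.σ m).op (φ (m + 1) x))
    (ht : ∀ m x, φ m (P.map (GlobeObj.τ m).op x) = Q.map (GlobeObj.τ m).op (φ (m + 1) x))
    {m n : ℕ} (h : m < n) (b : Bool) (x : P.obj (op (GlobeObj.mk n))) :
    φ m (P.map (GlobeObj.faceArrow h b).op x) = Q.map (GlobeObj.faceArrow h b).op (φ n x) := by
  induction n with
  | zero => exact absurd h (Nat.not_lt_zero _)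
  | succ k ih =>
    by_cases e : m = k
    · subst e
      cases b
      · exact hs m x
      · exact ht m x
    · have h' : m < k := by omega
      have a1 : (GlobeObj.faceArrow h b).op =
          (GlobeObj.σ k).op ≫ (GlobeObj.faceArrow h' b).op := rfl
      rw [a1, P.map_comp, Q.map_comp]
      have s1 := ih h' (P.map (GlobeObj.σ k).op x)
      have s2 := hs k x
      show φ m (P.map (GlobeObj.faceArrow h' b).op (P.map (GlobeObj.σ k).op x)) =
        Q.map (GlobeObj.faceArrow h' b).op (Q.map (GlobeObj.σ k).op (φ (k + 1) x))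
      rw [s1, s2]

/-- A cellwise family commuting with sources and targets is a natural transformation. -/
def natOfFaces {P Q : GlobeObjᵒᵖ ⥤ Type u}
    (φ : ∀ m, P.obj (op (GlobeObj.mk m)) → Q.obj (op (GlobeObj.mk m)))
    (hs : ∀ m x, φ m (P.map (GlobeObj.σ m).op x) = Q.map (GlobeObj.σ m).op (φ (m + 1) x))
    (ht : ∀ m x, φ m (P.map (GlobeObj.τ m).op x) = Q.map (GlobeObj.τ m).op (φ (m + 1) x)) : P ⟶ Q where
  app G := TypeCat.ofHom (φ G.unop.dim)
  naturality G G' a := by
    ext x
    show φ G'.unop.dim (P.map a x) = Q.map a (φ G.unop.dim x)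
    rcases G with ⟨⟨n⟩⟩
    rcases G' with ⟨⟨m⟩⟩
    have key : ∀ f : GlobeObj.Arrow m n, ∀ y : P.obj (op (GlobeObj.mk n)),
        φ m (P.map (Quiver.Hom.op (X := GlobeObj.mk m) (Y := GlobeObj.mk n) f) y) =
          Q.map (Quiver.Hom.op (X := GlobeObj.mk m) (Y := GlobeObj.mk n) f) (φ n y) := by
      intro f y
      cases f with
      | refl =>
        have : Quiver.Hom.op (X := GlobeObj.mk n) (Y := GlobeObj.mk n) (GlobeObj.Arrow.refl n) =
            𝟙 _ := rfl
        rw [this, P.map_id, Q.map_id]
        rfl
      | pole h b => exact face_natural_of_src_tgt φ hs ht h b y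
    exact key a.unop x

@[simp] theorem natOfFaces_app {P Q : GlobeObjᵒᵖ ⥤ Type u}
    (φ : ∀ m, P.obj (op (GlobeObj.mk m)) → Q.obj (op (GlobeObj.mk m)))
    (hs : ∀ m x, φ m (P.map (GlobeObj.σ m).op x) = Q.map (GlobeObj.σ m).op (φ (m + 1) x))
    (ht : ∀ m x, φ m (P.map (GlobeObj.τ m).op x) = Q.map (GlobeObj.τ m).op (φ (m + 1) x)) (m : ℕ)
    (x : P.obj (op (GlobeObj.mk m))) :
    (natOfFaces φ hs ht).app (op (GlobeObj.mk m)) x = φ m x := rfl

end Crest.Agent.Henry
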