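import Crest.Prelude.Def_GlobularCoherator

/-!
# Shapes as explicit tuples, and the insertion functor (piece (b) of the S0382 blueprint)

* `Tuple Q P`: compatible families of cells of a globular presheaf `Q` on a pasting scheme `P`,
  with `homEquiv : (P.build.1 ⟶ Q) ≃ Tuple Q P`, natural in `Q`.
* `FaceData`: a globular presheaf given by a family of cell types and faces.
* `R n P`: the insertion functor: every `n`-cell `v` of `P` gets a new `(n+1)`-cell `hh v : v ⟶ upv v`
  and every cell of dimension `> n` with `n`-source `v` is rerouted to have `n`-source `upv v`.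
* `exists_insert`: `R n S.psh` is again (isomorphic to the realization of) a shape.
-/

set_option autoImplicit false

namespace Crest.Agent.Henry.RInsert

open CategoryTheory CategoryTheory.Limits Opposite
open Crest.GeometryTopology.Coherator
open Crest.GeometryTopology.Coherator.GlobPsh

universe u

/-- Cells of a globular presheaf. -/
abbrev Cell (Q : GlobPsh.{u}) (m : ℕ) : Type u := Q.obj (op (GlobeObj.mk m))

/-- The face of a cell of dimension `k` in dimension `m < k`, on the side `b`. -/
def pole (Q : GlobPsh.{u}) {m k : ℕ} (h : m < k) (b : Bool) : Cell Q k → Cell Q m :=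
  Q.map (Quiver.Hom.op (GlobeObj.faceArrow h b))

@[simp] lemma pole_pole (Q : GlobPsh.{u}) {m k l : ℕ} (h : m < k) (h' : k < l) (b b' : Bool)
    (x : Cell Q l) : pole Q h b (pole Q h' b' x) = pole Q (h.trans h') b x := by
  have := types_congr_hom (Q.map_comp (Quiver.Hom.op (GlobeObj.faceArrow h' b'))
    (Quiver.Hom.op (GlobeObj.faceArrow h b))) x
  exact this.symm

lemma pole_natural {Q Q' : GlobPsh.{u}} (φ : Q ⟶ Q') {m k : ℕ} (h : m < k) (b : Bool)
    (x : Cell Q k) :
    φ.app (op (GlobeObj.mk m)) (pole Q h b x) = pole Q' h b (φ.app (op (GlobeObj.mk k)) x) := by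
  have := types_congr_hom (φ.naturality (Quiver.Hom.op (GlobeObj.faceArrow h b))) x
  simp only [types_comp_apply] at this
  exact this

lemma map_refl (Q : GlobPsh.{u}) (m : ℕ) (x : Cell Q m) :
    Q.map (Quiver.Hom.op (GlobeObj.Arrow.refl m : GlobeObj.mk m ⟶ GlobeObj.mk m)) x = x :=
  types_congr_hom (Q.map_id (op (GlobeObj.mk m))) x

lemma mkHom_aux {Q Q' : GlobPsh.{u}} (φ : ∀ k, Cell Q k → Cell Q' k)
    (hφ : ∀ (m k : ℕ) (h : m < k) (b : Bool) (x : Cell Q k),
      φ m (pole Q h b x) = pole Q' h b (φ k x)) :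
    {m k : ℕ} → (f : GlobeObj.Arrow m k) → (x : Cell Q k) →
      φ m (Q.map (Quiver.Hom.op (f : GlobeObj.mk m ⟶ GlobeObj.mk k)) x) =
        Q'.map (Quiver.Hom.op (f : GlobeObj.mk m ⟶ GlobeObj.mk k)) (φ k x)
  | _, _, .refl n, x => by rw [map_refl, map_refl]
  | _, _, .pole h b, x => hφ _ _ h b x

/-- A morphism of globular presheaves from a family of maps on cells commuting with all faces. -/
def mkHom {Q Q' : GlobPsh.{u}} (φ : ∀ k, Cell Q k → Cell Q' k)
    (hφ : ∀ (m k : ℕ) (h : m < k) (b : Bool) (x : Cell Q k),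
      φ m (pole Q h b x) = pole Q' h b (φ k x)) : Q ⟶ Q' where
  app X := ↾(φ X.unop.dim)
  naturality := by
    rintro ⟨⟨k⟩⟩ ⟨⟨m⟩⟩ ⟨f⟩
    ext x
    exact mkHom_aux φ hφ f x

@[simp] lemma mkHom_app {Q Q' : GlobPsh.{u}} (φ : ∀ k, Cell Q k → Cell Q' k)
    (hφ : ∀ (m k : ℕ) (h : m < k) (b : Bool) (x : Cell Q k),
      φ m (pole Q h b x) = pole Q' h b (φ k x)) (k : ℕ) (x : Cell Q k) :
    (mkHom φ hφ).app (op (GlobeObj.mk k)) x = φ k x := rfl

/-- Two morphisms of globular presheaves agreeing on all cells are equal. -/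
lemma hom_ext' {Q Q' : GlobPsh.{u}} {f g : Q ⟶ Q'}
    (h : ∀ k (x : Cell Q k), f.app (op (GlobeObj.mk k)) x = g.app (op (GlobeObj.mk k)) x) :
    f = g := by
  ext ⟨⟨k⟩⟩ x
  exact h k x

/-! ### Globular presheaves from face data -/

/-- A globular presheaf presented by cell types and faces. -/
structure FaceData where
  /-- cell types -/
  F : ℕ → Type u
  /-- faces -/
  face : ∀ {k : ℕ}, F k → ∀ (m : ℕ), m < k → Bool → F m
  face_face : ∀ {l : ℕ} (x : F l) (k : ℕ) (h' : k < l) (b' : Bool) (m : ℕ) (h : m < k) (b : Bool),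
    face (face x k h' b') m h b = face x m (h.trans h') b

namespace FaceData

/-- The action of arrows of globes. -/
def act (D : FaceData.{u}) : {m k : ℕ} → GlobeObj.Arrow m k → D.F k → D.F m
  | _, _, .refl _, x => x
  | _, _, .pole h b, x => D.face x _ h b

/-- The globular presheaf of face data. -/
def toPsh (D : FaceData.{u}) : GlobPsh.{u} where
  obj X := D.F X.unop.dim
  map {X Y} f := ↾(D.act (m := Y.unop.dim) (k := X.unop.dim) f.unop)
  map_id := by
    rintro ⟨⟨k⟩⟩
    rfl
  map_comp := by
    rintro ⟨⟨k⟩⟩ ⟨⟨l⟩⟩ ⟨⟨m⟩⟩ ⟨f⟩ ⟨g⟩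
    change GlobeObj.Arrow l k at f
    change GlobeObj.Arrow m l at g
    ext x
    cases f with
    | refl => cases g <;> rfl
    | pole h b =>
      cases g with
      | refl => rfl
      | pole h' b' =>
        exact (D.face_face x l h b m h' b').symm

@[simp] lemma pole_toPsh (D : FaceData.{u}) {m k : ℕ} (h : m < k) (b : Bool) (x : D.F k) :
    pole D.toPsh h b x = D.face x m h b := rfl

end FaceData

/-! ### Tuples -/

/-- The type of tuples of a pasting scheme in `Q`, with the last entry. -/
def tupleData (Q : GlobPsh.{u}) : {k : ℕ} → Pasting k → Σ T : Type u, (T → Cell Q k)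
  | _, .single h => ⟨Cell Q h, id⟩
  | _, .glue P b h hb hh =>
    ⟨{ p : (tupleData Q P).1 × Cell Q h //
        pole Q hb true ((tupleData Q P).2 p.1) = pole Q hh false p.2 }, fun p => p.1.2⟩

/-- Tuples of a pasting scheme in `Q`. -/
abbrev Tuple (Q : GlobPsh.{u}) {k : ℕ} (P : Pasting k) : Type u := (tupleData Q P).1

/-- The last entry of a tuple. -/
def Tuple.last {Q : GlobPsh.{u}} {k : ℕ} {P : Pasting k} (t : Tuple Q P) : Cell Q k :=
  (tupleData Q P).2 t

/-- Tuples of a glued scheme. -/
def Tuple.glue {Q : GlobPsh.{u}} {k : ℕ} {P : Pasting k} {b h : ℕ} {hb : b < k} {hh : b < h}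
    (t : Tuple Q P) (y : Cell Q h) (e : pole Q hb true (Tuple.last t) = pole Q hh false y) :
    Tuple Q (Pasting.glue P b h hb hh) := ⟨(t, y), e⟩

@[simp] lemma Tuple.last_glue {Q : GlobPsh.{u}} {k : ℕ} {P : Pasting k} {b h : ℕ} {hb : b < k}
    {hh : b < h} (t : Tuple Q P) (y : Cell Q h)
    (e : pole Q hb true (Tuple.last t) = pole Q hh false y) :
    Tuple.last (Tuple.glue t y e) = y := rfl

/-- The initial part of a tuple of a glued scheme. -/
def Tuple.init {Q : GlobPsh.{u}} {k : ℕ} {P : Pasting k} {b h : ℕ} {hb : b < k} {hh : b < h}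
    (t : Tuple Q (Pasting.glue P b h hb hh)) : Tuple Q P := t.1.1

/-- The last entry of a tuple of a glued scheme. -/
def Tuple.top {Q : GlobPsh.{u}} {k : ℕ} {P : Pasting k} {b h : ℕ} {hb : b < k} {hh : b < h}
    (t : Tuple Q (Pasting.glue P b h hb hh)) : Cell Q h := t.1.2

lemma Tuple.compat {Q : GlobPsh.{u}} {k : ℕ} {P : Pasting k} {b h : ℕ} {hb : b < k} {hh : b < h}
    (t : Tuple Q (Pasting.glue P b h hb hh)) :
    pole Q hb true (Tuple.last t.init) = pole Q hh false t.top := t.2

@[simp] lemma Tuple.last_eq_top {Q : GlobPsh.{u}} {k : ℕ} {P : Pasting k} {b h : ℕ} {hb : b < k}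
    {hh : b < h} (t : Tuple Q (Pasting.glue P b h hb hh)) : Tuple.last t = t.top := rfl

@[simp] lemma Tuple.init_glue {Q : GlobPsh.{u}} {k : ℕ} {P : Pasting k} {b h : ℕ} {hb : b < k}
    {hh : b < h} (t : Tuple Q P) (y : Cell Q h)
    (e : pole Q hb true (Tuple.last t) = pole Q hh false y) : (Tuple.glue t y e).init = t := rfl

@[simp] lemma Tuple.top_glue {Q : GlobPsh.{u}} {k : ℕ} {P : Pasting k} {b h : ℕ} {hb : b < k}
    {hh : b < h} (t : Tuple Q P) (y : Cell Q h)
    (e : pole Q hb true (Tuple.last t) = pole Q hh false y) : (Tuple.glue t y e).top = y := rfl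

lemma Tuple.glue_eta {Q : GlobPsh.{u}} {k : ℕ} {P : Pasting k} {b h : ℕ} {hb : b < k} {hh : b < h}
    (t : Tuple Q (Pasting.glue P b h hb hh)) : Tuple.glue t.init t.top t.compat = t := rfl

lemma Tuple.ext_glue {Q : GlobPsh.{u}} {k : ℕ} {P : Pasting k} {b h : ℕ} {hb : b < k} {hh : b < h}
    {t t' : Tuple Q (Pasting.glue P b h hb hh)} (h1 : t.init = t'.init) (h2 : t.top = t'.top) :
    t = t' := by
  apply Subtype.ext
  exact Prod.ext h1 h2

/-- Functoriality of tuples, with compatibility with the last entry. -/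
def tupleMapData {Q Q' : GlobPsh.{u}} (φ : Q ⟶ Q') : {k : ℕ} → (P : Pasting k) →
    { f : Tuple Q P → Tuple Q' P //
        ∀ t, Tuple.last (f t) = φ.app (op (GlobeObj.mk k)) (Tuple.last t) }
  | _, .single _ => ⟨φ.app _, fun _ => rfl⟩
  | _, .glue P b h hb hh =>
    ⟨fun t => ⟨((tupleMapData φ P).1 t.1.1, φ.app _ t.1.2), by
        show pole Q' hb true (Tuple.last ((tupleMapData φ P).1 t.1.1)) =
          pole Q' hh false (φ.app _ t.1.2)
        rw [(tupleMapData φ P).2, ← pole_natural, ← pole_natural]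
        exact congrArg _ t.2⟩, fun _ => rfl⟩

/-- Functoriality of tuples. -/
def Tuple.map {Q Q' : GlobPsh.{u}} (φ : Q ⟶ Q') {k : ℕ} {P : Pasting k} :
    Tuple Q P → Tuple Q' P := (tupleMapData φ P).1

@[simp] lemma Tuple.last_map {Q Q' : GlobPsh.{u}} (φ : Q ⟶ Q') {k : ℕ} {P : Pasting k}
    (t : Tuple Q P) : Tuple.last (Tuple.map φ t) = φ.app (op (GlobeObj.mk k)) (Tuple.last t) :=
  (tupleMapData φ P).2 t

@[simp] lemma Tuple.init_map {Q Q' : GlobPsh.{u}} (φ : Q ⟶ Q') {k : ℕ} {P : Pasting k} {b h : ℕ}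
    {hb : b < k} {hh : b < h} (t : Tuple Q (Pasting.glue P b h hb hh)) :
    (Tuple.map φ t).init = Tuple.map φ t.init := rfl

@[simp] lemma Tuple.top_map {Q Q' : GlobPsh.{u}} (φ : Q ⟶ Q') {k : ℕ} {P : Pasting k} {b h : ℕ}
    {hb : b < k} {hh : b < h} (t : Tuple Q (Pasting.glue P b h hb hh)) :
    (Tuple.map φ t).top = φ.app _ t.top := rfl

@[simp] lemma Tuple.map_glue {Q Q' : GlobPsh.{u}} (φ : Q ⟶ Q') {k : ℕ} {P : Pasting k} {b h : ℕ}
    {hb : b < k} {hh : b < h} (t : Tuple Q P) (y : Cell Q h)
    (e : pole Q hb true (Tuple.last t) = pole Q hh false y) :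
    Tuple.map φ (Tuple.glue t y e) = Tuple.glue (Tuple.map φ t) (φ.app _ y) (by
      rw [Tuple.last_map, ← pole_natural, ← pole_natural, e]) := rfl

/-- The Yoneda correspondence for a globe. -/
noncomputable def globeEquiv (Q : GlobPsh.{0}) (k : ℕ) : (globeRep k ⟶ Q) ≃ Cell Q k := yonedaEquiv

lemma globeEquiv_face {Q : GlobPsh.{0}} {m k : ℕ} (h : m < k) (b : Bool) (f : globeRep k ⟶ Q) :
    globeEquiv Q m (globeRepFace h b ≫ f) = pole Q h b (globeEquiv Q k f) :=
  (yonedaEquiv_naturality f (GlobeObj.faceArrow h b)).symm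

lemma globeEquiv_comp {Q Q' : GlobPsh.{0}} {k : ℕ} (f : globeRep k ⟶ Q) (ψ : Q ⟶ Q') :
    globeEquiv Q' k (f ≫ ψ) = ψ.app _ (globeEquiv Q k f) := yonedaEquiv_comp f ψ

lemma glue_condition (Q : GlobPsh.{0}) {k : ℕ} (P : Pasting k) {b h : ℕ} (hb : b < k) (hh : b < h)
    (φ : pushout (globeRepFace hb true ≫ P.build.2) (globeRepFace hh false) ⟶ Q) :
    pole Q hb true (globeEquiv Q k (P.build.2 ≫
        pushout.inl (globeRepFace hb true ≫ P.build.2) (globeRepFace hh false) ≫ φ)) =
      pole Q hh false (globeEquiv Q h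
        (pushout.inr (globeRepFace hb true ≫ P.build.2) (globeRepFace hh false) ≫ φ)) := by
  rw [← globeEquiv_face, ← globeEquiv_face]
  congr 1
  rw [← pushout.condition_assoc, Category.assoc]

/-- The tuple of a map out of the realization of a scheme. -/
noncomputable def homEquivData (Q : GlobPsh.{0}) : {k : ℕ} → (P : Pasting k) →
    { e : (P.build.1 ⟶ Q) ≃ Tuple Q P //
      ∀ φ, Tuple.last (e φ) = globeEquiv Q k (P.build.2 ≫ φ) }
  | _, .single h => ⟨globeEquiv Q h, fun φ =>
      (congrArg (globeEquiv Q h) (Category.id_comp (X := globeRep h) φ)).symm⟩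
  | _, .glue P b h hb hh =>
    ⟨{ toFun := fun φ => ⟨((homEquivData Q P).1
          (pushout.inl (globeRepFace hb true ≫ P.build.2) (globeRepFace hh false) ≫ φ),
          globeEquiv Q h (pushout.inr (globeRepFace hb true ≫ P.build.2)
            (globeRepFace hh false) ≫ φ)),
          (congrArg (pole Q hb true) ((homEquivData Q P).2 _)).trans
            (glue_condition Q P hb hh φ)⟩
       invFun := fun t => pushout.desc ((homEquivData Q P).1.symm t.1.1)
          ((globeEquiv Q h).symm t.1.2) (by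
            apply (globeEquiv Q b).injective
            rw [Category.assoc, globeEquiv_face, globeEquiv_face, Equiv.apply_symm_apply]
            have := (homEquivData Q P).2 ((homEquivData Q P).1.symm t.1.1)
            rw [Equiv.apply_symm_apply] at this
            rw [← this]
            exact t.2)
       left_inv := fun φ => by
          apply pushout.hom_ext
          · exact (pushout.inl_desc _ _ _).trans (Equiv.symm_apply_apply _ _)
          · exact (pushout.inr_desc _ _ _).trans (Equiv.symm_apply_apply _ _)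
       right_inv := fun t => by
          apply Subtype.ext
          apply Prod.ext
          · exact (congrArg _ (pushout.inl_desc _ _ _)).trans (Equiv.apply_symm_apply _ _)
          · exact (congrArg _ (pushout.inr_desc _ _ _)).trans (Equiv.apply_symm_apply _ _) },
      fun φ => rfl⟩

/-- Maps out of the realization of a scheme are tuples. -/
noncomputable def homEquiv (Q : GlobPsh.{0}) {k : ℕ} (P : Pasting k) :
    (P.build.1 ⟶ Q) ≃ Tuple Q P := (homEquivData Q P).1

lemma homEquiv_last (Q : GlobPsh.{0}) {k : ℕ} (P : Pasting k) (φ : P.build.1 ⟶ Q) :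
    Tuple.last (homEquiv Q P φ) = globeEquiv Q k (P.build.2 ≫ φ) := (homEquivData Q P).2 φ

lemma homEquiv_natural {Q Q' : GlobPsh.{0}} (ψ : Q ⟶ Q') : {k : ℕ} → (P : Pasting k) →
    (φ : P.build.1 ⟶ Q) → homEquiv Q' P (φ ≫ ψ) = Tuple.map ψ (homEquiv Q P φ)
  | _, .single _, φ => globeEquiv_comp φ ψ
  | _, .glue P b h hb hh, φ => by
      have ih := homEquiv_natural ψ P
      apply Subtype.ext
      apply Prod.ext
      · exact (congrArg (homEquiv Q' P) (Category.assoc _ _ _).symm).trans (ih _)
      · exact (congrArg (globeEquiv Q' h) (Category.assoc _ _ _).symm).trans (globeEquiv_comp _ ψ)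

/-! ### The insertion functor -/

section Insert

variable (n : ℕ)

/-- Cells of the insertion `R n P`: the cells of `P` (with `n`-source rerouted), a new `n`-cell
`upv v` for each `n`-cell `v` and a new `(n+1)`-cell `hh v : v ⟶ upv v`. -/
inductive RCell (P : GlobPsh.{u}) (n : ℕ) : ℕ → Type u
  | base {m : ℕ} (x : Cell P m) : RCell P n m
  | upv (v : Cell P n) : RCell P n n
  | hh (v : Cell P n) : RCell P n (n + 1)

variable {n} {P : GlobPsh.{u}}

/-- `upv` at an index propositionally equal to `n`. -/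
def RCell.upvAt {m : ℕ} (hm : m = n) (y : Cell P m) : RCell P n m := by
  subst hm; exact .upv y

/-- A cell of dimension `n` seen in a dimension propositionally equal to `n`. -/
def castCell {m : ℕ} (hm : m = n) (v : Cell P n) : Cell P m := by
  subst hm; exact v

/-- Faces in the insertion. -/
def RCell.face : {k : ℕ} → RCell P n k → ∀ m : ℕ, m < k → Bool → RCell P n m
  | _, .base x, m, h, b =>
    if hm : m = n then
      (if b then .base (pole P h true x) else .upvAt hm (pole P h false x))
    else .base (pole P h b x)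
  | _, .upv v, m, h, b => .base (pole P h b v)
  | _, .hh v, m, h, b =>
    if hm : m = n then
      (if b then .upvAt hm (castCell hm v) else .base (castCell hm v))
    else .base (pole P (by omega : m < n) b v)

lemma RCell.face_face {l : ℕ} (x : RCell P n l) (k : ℕ) (h' : k < l) (b' : Bool) (m : ℕ)
    (h : m < k) (b : Bool) : (x.face k h' b').face m h b = x.face m (h.trans h') b := by
  cases x with
  | base x =>
    by_cases hk : k = n
    · subst hk
      have hm : m ≠ k := by omega
      cases b' <;> simp [RCell.face, hm, RCell.upvAt]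
    · by_cases hm : m = n
      · subst hm
        cases b <;> simp [RCell.face, hk]
      · simp [RCell.face, hk, hm]
  | upv v =>
    have hk : k ≠ n := by omega
    have hm : m ≠ n := by omega
    simp [RCell.face, hk, hm]
  | hh v =>
    by_cases hk : k = n
    · subst hk
      have hm : m ≠ k := by omega
      cases b' <;> simp [RCell.face, hm, RCell.upvAt, castCell]
    · have hm : m ≠ n := by omega
      simp [RCell.face, hk, hm]

variable (n P) in
/-- Face data of the insertion. -/
def rData : FaceData.{u} where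
  F := RCell P n
  face := fun x m h b => x.face m h b
  face_face := fun x k h' b' m h b => x.face_face k h' b' m h b

variable (n P) in
/-- The insertion `R n P`. -/
def R : GlobPsh.{u} := (rData n P).toPsh

/-- Cells of the right adjoint of the insertion. -/
inductive GCell (Q : GlobPsh.{u}) (n : ℕ) : ℕ → Type u
  | low {m : ℕ} (hm : m < n) (x : Cell Q m) : GCell Q n m
  | mid (H : Cell Q (n + 1)) : GCell Q n n
  | high {m : ℕ} (hm : n < m) (Hs : Cell Q (n + 1)) (w : Cell Q m) (Ht : Cell Q (n + 1))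
      (hs : pole Q (Nat.lt_succ_self n) true Hs = pole Q hm false w)
      (ht : pole Q (Nat.lt_succ_self n) false Ht = pole Q hm true w) : GCell Q n m

variable {Q Q' : GlobPsh.{u}}

/-- `mid` at an index propositionally equal to `n`. -/
def GCell.midAt {m : ℕ} (hm : m = n) (H : Cell Q (n + 1)) : GCell Q n m := by
  subst hm; exact .mid H

/-- Faces of the right adjoint. -/
def GCell.face : {k : ℕ} → GCell Q n k → ∀ m : ℕ, m < k → Bool → GCell Q n m
  | _, .low hk x, m, h, b => .low (h.trans hk) (pole Q h b x)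
  | _, .mid H, m, h, b => .low h (pole Q (h.trans (Nat.lt_succ_self n)) b H)
  | _, .high hk Hs w Ht hs ht, m, h, b =>
    if hmn : n < m then
      .high hmn Hs (pole Q h b w) Ht
        (by rw [hs, pole_pole])
        (by rw [ht, pole_pole])
    else if hm : m = n then
      .midAt hm (if b then Ht else Hs)
    else .low (by omega) (pole Q h b w)

lemma pole_mid_eq {m : ℕ} (hm : m < n) (b : Bool) {Hs : Cell Q (n + 1)} {k : ℕ} (hk : n < k)
    {w : Cell Q k} (b' : Bool)
    (hs : pole Q (Nat.lt_succ_self n) b' Hs = pole Q hk (!b') w) :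
    pole Q (hm.trans (Nat.lt_succ_self n)) b Hs = pole Q (hm.trans hk) b w := by
  have := congrArg (pole Q hm b) hs
  simpa using this

lemma GCell.face_high_self {l : ℕ} (hl : n < l) (Hs : Cell Q (n + 1)) (w : Cell Q l)
    (Ht : Cell Q (n + 1)) (hs) (ht) (h' : n < l) (b : Bool) :
    (GCell.high hl Hs w Ht hs ht).face n h' b = .mid (if b then Ht else Hs) := by
  simp [GCell.face, GCell.midAt]

lemma GCell.face_high_low {l m : ℕ} (hl : n < l) (Hs : Cell Q (n + 1)) (w : Cell Q l)
    (Ht : Cell Q (n + 1)) (hs) (ht) (h' : m < l) (hm : m < n) (b : Bool) :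
    (GCell.high hl Hs w Ht hs ht).face m h' b = .low hm (pole Q h' b w) := by
  have h1 : ¬ n < m := by omega
  have h2 : m ≠ n := by omega
  simp [GCell.face, h1, h2]

lemma GCell.face_high_high {l m : ℕ} (hl : n < l) (Hs : Cell Q (n + 1)) (w : Cell Q l)
    (Ht : Cell Q (n + 1)) (hs) (ht) (h' : m < l) (hm : n < m) (b : Bool) :
    (GCell.high hl Hs w Ht hs ht).face m h' b = .high hm Hs (pole Q h' b w) Ht
        (by rw [hs, pole_pole]) (by rw [ht, pole_pole]) := by
  simp [GCell.face, hm]

lemma GCell.face_face {l : ℕ} (x : GCell Q n l) (k : ℕ) (h' : k < l) (b' : Bool) (m : ℕ)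
    (h : m < k) (b : Bool) : (x.face k h' b').face m h b = x.face m (h.trans h') b := by
  cases x with
  | low hl x => simp [GCell.face]
  | mid H => simp [GCell.face]
  | high hl Hs w Ht hs ht =>
    rcases Nat.lt_trichotomy k n with hk | hk | hk
    · have hm : m < n := h.trans hk
      rw [GCell.face_high_low _ _ _ _ _ _ _ hk, GCell.face_high_low _ _ _ _ _ _ _ hm]
      simp [GCell.face]
    · subst hk
      rw [GCell.face_high_self, GCell.face_high_low _ _ _ _ _ _ _ h]
      cases b' with
      | false =>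
        simp only [Bool.false_eq_true, if_false, GCell.face]
        congr 1
        exact pole_mid_eq h b hl true hs
      | true =>
        simp only [if_true, GCell.face]
        congr 1
        exact pole_mid_eq h b hl false ht
    · rcases Nat.lt_trichotomy m n with hm | hm | hm
      · rw [GCell.face_high_high _ _ _ _ _ _ _ hk, GCell.face_high_low _ _ _ _ _ _ _ hm,
          GCell.face_high_low _ _ _ _ _ _ _ hm]
        simp
      · subst hm
        rw [GCell.face_high_high _ _ _ _ _ _ _ hk, GCell.face_high_self, GCell.face_high_self]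
      · rw [GCell.face_high_high _ _ _ _ _ _ _ hk, GCell.face_high_high _ _ _ _ _ _ _ hm,
          GCell.face_high_high _ _ _ _ _ _ _ hm]
        simp

variable (n Q) in
/-- Face data of the right adjoint. -/
def gData : FaceData.{u} where
  F := GCell Q n
  face := fun x m h b => x.face m h b
  face_face := fun x k h' b' m h b => x.face_face k h' b' m h b

variable (n Q) in
/-- The right adjoint `G n Q` of the insertion. -/
def G : GlobPsh.{u} := (gData n Q).toPsh

/-! ### The adjunction between `R n` and `G n` -/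

/-- Functoriality of `GCell`. -/
def GCell.map (χ : Q ⟶ Q') : {k : ℕ} → GCell Q n k → GCell Q' n k
  | _, .low hm x => .low hm (χ.app _ x)
  | _, .mid H => .mid (χ.app _ H)
  | _, .high hm Hs w Ht hs ht => .high hm (χ.app _ Hs) (χ.app _ w) (χ.app _ Ht)
      (by rw [← pole_natural, hs, pole_natural]) (by rw [← pole_natural, ht, pole_natural])

lemma GCell.map_midAt (χ : Q ⟶ Q') {m : ℕ} (hm : m = n) (H : Cell Q (n + 1)) :
    (GCell.midAt hm H).map χ = GCell.midAt hm (χ.app _ H) := by
  subst hm; rfl

lemma GCell.map_face (χ : Q ⟶ Q') {k : ℕ} (x : GCell Q n k) (m : ℕ) (h : m < k) (b : Bool) :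
    (x.face m h b).map χ = (x.map χ).face m h b := by
  cases x with
  | low hk x => simp [GCell.face, GCell.map, pole_natural]
  | mid H => simp [GCell.face, GCell.map, pole_natural]
  | high hk Hs w Ht hs ht =>
    rcases Nat.lt_trichotomy m n with hm | hm | hm
    · simp only [GCell.map]
      rw [GCell.face_high_low _ _ _ _ _ _ _ hm, GCell.face_high_low _ _ _ _ _ _ _ hm]
      simp [GCell.map, pole_natural]
    · subst hm
      simp only [GCell.map]
      rw [GCell.face_high_self, GCell.face_high_self]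
      cases b <;> simp [GCell.map]
    · simp only [GCell.map]
      rw [GCell.face_high_high _ _ _ _ _ _ _ hm, GCell.face_high_high _ _ _ _ _ _ _ hm]
      simp [GCell.map, pole_natural]

variable (n) in
/-- Functoriality of `G n`. -/
def Gmap (χ : Q ⟶ Q') : G n Q ⟶ G n Q' :=
  mkHom (fun _ x => GCell.map χ x) (fun m _ h b x => GCell.map_face χ x m h b)

/-- The `Cell Q`-component of a cell of `G n Q`. -/
def GCell.toQ : {k : ℕ} → GCell Q n k → Cell Q k
  | _, .low _ x => x
  | _, .mid H => pole Q (Nat.lt_succ_self n) false H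
  | _, .high _ _ w _ _ _ => w

/-- The source `(n+1)`-cell of a cell of `G n Q` of dimension at least `n`. -/
def GCell.hS : {k : ℕ} → n ≤ k → GCell Q n k → Cell Q (n + 1)
  | _, hk, .low hm _ => absurd hk (by omega)
  | _, _, .mid H => H
  | _, _, .high _ Hs _ _ _ _ => Hs

/-- The target `(n+1)`-cell of a cell of `G n Q` of dimension at least `n`. -/
def GCell.hT : {k : ℕ} → n ≤ k → GCell Q n k → Cell Q (n + 1)
  | _, hk, .low hm _ => absurd hk (by omega)
  | _, _, .mid H => H
  | _, _, .high _ _ _ Ht _ _ => Ht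

lemma GCell.eq_low {k : ℕ} (hk : k < n) (x : GCell Q n k) : x = .low hk x.toQ := by
  cases x with
  | low _ x => rfl
  | mid H => omega
  | high hm Hs w Ht hs ht => omega

lemma GCell.eq_mid (x : GCell Q n n) : x = .mid (x.hS le_rfl) := by
  cases x with
  | low hm x => omega
  | mid H => rfl
  | high hm Hs w Ht hs ht => omega

lemma GCell.hT_eq_hS_mid (x : GCell Q n n) : x.hT le_rfl = x.hS le_rfl := by
  cases x with
  | low hm x => omega
  | mid H => rfl
  | high hm Hs w Ht hs ht => omega

lemma GCell.eq_high {k : ℕ} (hk : n < k) (x : GCell Q n k) :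
    ∃ hs ht, x = .high hk (x.hS hk.le) x.toQ (x.hT hk.le) hs ht := by
  cases x with
  | low hm x => omega
  | mid H => omega
  | high hm Hs w Ht hs ht => exact ⟨hs, ht, rfl⟩

lemma GCell.hS_face_self {k : ℕ} (hk : n < k) (x : GCell Q n k) (b : Bool) :
    x.face n hk b = .mid (if b then x.hT hk.le else x.hS hk.le) := by
  obtain ⟨hs, ht, e⟩ := x.eq_high hk
  rw [e, GCell.face_high_self]
  rfl

lemma GCell.pole_hS {k : ℕ} (hk : n < k) (x : GCell Q n k) :
    pole Q (Nat.lt_succ_self n) true (x.hS hk.le) = pole Q hk false x.toQ := by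
  obtain ⟨hs, ht, e⟩ := x.eq_high hk
  exact hs

lemma GCell.pole_hT {k : ℕ} (hk : n < k) (x : GCell Q n k) :
    pole Q (Nat.lt_succ_self n) false (x.hT hk.le) = pole Q hk true x.toQ := by
  obtain ⟨hs, ht, e⟩ := x.eq_high hk
  exact ht

/-- The `Cell Q`-component of faces, away from the rerouted `n`-source. -/
lemma GCell.toQ_face {k m : ℕ} (x : GCell Q n k) (h : m < k) (b : Bool) (hb : m ≠ n ∨ b = true) :
    (x.face m h b).toQ = pole Q h b x.toQ := by
  cases x with
  | low hk x => rfl
  | mid H => simp [GCell.face, GCell.toQ]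
  | high hk Hs w Ht hs ht =>
    rcases Nat.lt_trichotomy m n with hm | hm | hm
    · rw [GCell.face_high_low _ _ _ _ _ _ _ hm]; rfl
    · subst hm
      have hb' : b = true := by
        rcases hb with hb | hb
        · exact absurd rfl hb
        · exact hb
      subst hb'
      rw [GCell.face_high_self]
      simpa [GCell.toQ] using ht
    · rw [GCell.face_high_high _ _ _ _ _ _ _ hm]; rfl

lemma GCell.pole_hS_face {k : ℕ} (h : n < k) (y : GCell Q n k) :
    pole Q (Nat.lt_succ_self n) true (GCell.hS le_rfl (y.face n h false)) =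
      pole Q h false y.toQ := by
  rw [GCell.hS_face_self]
  exact GCell.pole_hS h y

/-- The map `R n P ⟶ Q` on cells determined by a map `P ⟶ G n Q`. -/
def rOf (ψ : P ⟶ G n Q) : {k : ℕ} → RCell P n k → Cell Q k
  | _, .base x => GCell.toQ (ψ.app _ x)
  | _, .upv v => pole Q (Nat.lt_succ_self n) true (GCell.hS le_rfl (ψ.app _ v))
  | _, .hh v => GCell.hS le_rfl (ψ.app _ v)

lemma psi_face (ψ : P ⟶ G n Q) {m k : ℕ} (h : m < k) (b : Bool) (x : Cell P k) :
    (ψ.app (op (GlobeObj.mk m)) (pole P h b x) : GCell Q n m) =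
      GCell.face (ψ.app (op (GlobeObj.mk k)) x) m h b :=
  pole_natural ψ h b x

lemma rOf_face (ψ : P ⟶ G n Q) {k : ℕ} (c : RCell P n k) (m : ℕ) (h : m < k) (b : Bool) :
    rOf ψ (c.face m h b) = pole Q h b (rOf ψ c) := by
  cases c with
  | base x =>
    by_cases hm : m = n
    · subst hm
      cases b with
      | true =>
        simp only [RCell.face, dite_true, if_true, rOf]
        rw [psi_face]
        exact GCell.toQ_face _ h true (Or.inr rfl)
      | false =>
        simp only [RCell.face, dite_true, Bool.false_eq_true, if_false, RCell.upvAt, rOf]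
        rw [psi_face]
        exact GCell.pole_hS_face h _
    · simp only [RCell.face, hm, dite_false, rOf]
      rw [psi_face]
      exact GCell.toQ_face _ h b (Or.inl hm)
  | upv v =>
    simp only [RCell.face, rOf]
    rw [psi_face]
    conv_lhs => rw [GCell.eq_mid (ψ.app _ v)]
    simp [GCell.face, GCell.toQ]
  | hh v =>
    by_cases hm : m = n
    · subst hm
      cases b with
      | true => simp [RCell.face, RCell.upvAt, castCell, rOf]
      | false =>
        simp only [RCell.face, dite_true, Bool.false_eq_true, if_false, castCell, rOf]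
        conv_lhs => rw [GCell.eq_mid (ψ.app _ v)]
        rfl
    · have hm' : m < n := by omega
      simp only [RCell.face, hm, dite_false, rOf]
      rw [psi_face]
      conv_lhs => rw [GCell.eq_mid (ψ.app _ v)]
      simp [GCell.face, GCell.toQ]

/-- The map `R n P ⟶ Q` determined by a map `P ⟶ G n Q`. -/
def fromG (ψ : P ⟶ G n Q) : R n P ⟶ Q :=
  mkHom (fun _ c => rOf ψ c) (fun m _ h b c => rOf_face ψ c m h b)

lemma phi_face (φ : R n P ⟶ Q) {m k : ℕ} (c : RCell P n k) (h : m < k) (b : Bool) :
    φ.app (op (GlobeObj.mk m)) (c.face m h b) = pole Q h b (φ.app (op (GlobeObj.mk k)) c) :=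
  pole_natural φ h b c

/-- The map `P ⟶ G n Q` on cells determined by a map `R n P ⟶ Q`. -/
def gOf (φ : R n P ⟶ Q) (k : ℕ) (x : Cell P k) : GCell Q n k :=
  if hk : k < n then .low hk (φ.app _ (RCell.base x))
  else if hk' : k = n then .midAt hk' (φ.app (op (GlobeObj.mk (n + 1))) (RCell.hh (castCell hk'.symm x)))
  else .high (by omega)
    (φ.app (op (GlobeObj.mk (n + 1))) (RCell.hh (pole P (by omega : n < k) false x)))
    (φ.app _ (RCell.base x))
    (φ.app (op (GlobeObj.mk (n + 1))) (RCell.hh (pole P (by omega : n < k) true x)))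
    (by
      have hnk : n < k := by omega
      have h1 := phi_face φ (RCell.hh (n := n) (pole P hnk false x)) (Nat.lt_succ_self n) true
      have h2 := phi_face φ (RCell.base (n := n) x) hnk false
      simp only [RCell.face, dite_true, if_true, RCell.upvAt, castCell, Bool.false_eq_true,
        if_false] at h1 h2
      exact h1.symm.trans h2)
    (by
      have hnk : n < k := by omega
      have h1 := phi_face φ (RCell.hh (n := n) (pole P hnk true x)) (Nat.lt_succ_self n) false
      have h2 := phi_face φ (RCell.base (n := n) x) hnk true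
      simp only [RCell.face, dite_true, if_true, RCell.upvAt, castCell, Bool.false_eq_true,
        if_false] at h1 h2
      exact h1.symm.trans h2)

lemma gOf_low (φ : R n P ⟶ Q) {k : ℕ} (hk : k < n) (x : Cell P k) :
    gOf φ k x = .low hk (φ.app _ (RCell.base x)) := by
  simp [gOf, hk]

lemma gOf_mid (φ : R n P ⟶ Q) (x : Cell P n) :
    gOf φ n x = .mid (φ.app (op (GlobeObj.mk (n + 1))) (RCell.hh x)) := by
  simp [gOf, GCell.midAt, castCell]

lemma gOf_high (φ : R n P ⟶ Q) {k : ℕ} (hk : n < k) (x : Cell P k) :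
    ∃ hs ht, gOf φ k x = .high hk
      (φ.app (op (GlobeObj.mk (n + 1))) (RCell.hh (pole P hk false x)))
      (φ.app _ (RCell.base x))
      (φ.app (op (GlobeObj.mk (n + 1))) (RCell.hh (pole P hk true x))) hs ht := by
  have h1 : ¬ k < n := by omega
  have h2 : k ≠ n := by omega
  refine ⟨?_, ?_, ?_⟩
  · have h3 := phi_face φ (RCell.hh (n := n) (pole P hk false x)) (Nat.lt_succ_self n) true
    have h4 := phi_face φ (RCell.base (n := n) x) hk false
    simp only [RCell.face, dite_true, if_true, RCell.upvAt, castCell, Bool.false_eq_true,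
      if_false] at h3 h4
    exact h3.symm.trans h4
  · have h3 := phi_face φ (RCell.hh (n := n) (pole P hk true x)) (Nat.lt_succ_self n) false
    have h4 := phi_face φ (RCell.base (n := n) x) hk true
    simp only [RCell.face, dite_true, if_true, RCell.upvAt, castCell, Bool.false_eq_true,
      if_false] at h3 h4
    exact h3.symm.trans h4
  · simp [gOf, h1, h2]

lemma base_face_ne {k m : ℕ} (x : Cell P k) (h : m < k) (b : Bool) (hm : m ≠ n) :
    (RCell.base (n := n) x).face m h b = .base (pole P h b x) := by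
  simp [RCell.face, hm]

lemma hh_face_lt (v : Cell P n) {m : ℕ} (h : m < n + 1) (hm : m < n) (b : Bool) :
    (RCell.hh (n := n) v).face m h b = .base (pole P hm b v) := by
  have : m ≠ n := by omega
  simp [RCell.face, this]

lemma gOf_face (φ : R n P ⟶ Q) (m k : ℕ) (h : m < k) (b : Bool) (x : Cell P k) :
    gOf φ m (pole P h b x) = GCell.face (gOf φ k x) m h b := by
  rcases Nat.lt_trichotomy k n with hk | hk | hk
  · have hm : m < n := h.trans hk
    rw [gOf_low φ hk, gOf_low φ hm]
    simp only [GCell.face]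
    congr 1
    rw [← phi_face, base_face_ne _ _ _ (by omega)]
  · subst hk
    rw [gOf_low φ h, gOf_mid]
    simp only [GCell.face]
    congr 1
    rw [← phi_face, hh_face_lt _ _ h]
  · obtain ⟨hs, ht, e⟩ := gOf_high φ hk x
    rw [e]
    rcases Nat.lt_trichotomy m n with hm | hm | hm
    · rw [gOf_low φ hm, GCell.face_high_low _ _ _ _ _ _ _ hm]
      congr 1
      rw [← phi_face, base_face_ne _ _ _ (by omega)]
    · subst hm
      rw [gOf_mid, GCell.face_high_self]
      cases b <;> simp [castCell]
    · obtain ⟨hs', ht', e'⟩ := gOf_high φ hm (pole P h b x)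
      rw [e', GCell.face_high_high _ _ _ _ _ _ _ hm]
      have h1 := base_face_ne (n := n) x h b (by omega)
      have h2 : φ.app _ (RCell.base (n := n) (pole P h b x)) =
          pole Q h b (φ.app _ (RCell.base (n := n) x)) := by
        rw [← phi_face, h1]
      simp only [pole_pole]
      congr 1

/-- The map `P ⟶ G n Q` determined by a map `R n P ⟶ Q`. -/
def toG (φ : R n P ⟶ Q) : P ⟶ G n Q := mkHom (gOf φ) (gOf_face φ)

lemma fromG_toG (φ : R n P ⟶ Q) : fromG (toG φ) = φ := by
  apply hom_ext'
  intro k c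
  show rOf (toG φ) c = _
  cases c with
  | base x =>
    show GCell.toQ (gOf φ k x) = _
    rcases Nat.lt_trichotomy k n with hk | hk | hk
    · rw [gOf_low φ hk]; rfl
    · subst hk
      rw [gOf_mid]
      show pole Q _ false _ = _
      have := phi_face φ (RCell.hh (n := k) x) (Nat.lt_succ_self k) false
      simp only [RCell.face, dite_true, Bool.false_eq_true, if_false, castCell] at this
      exact this.symm
    · obtain ⟨hs, ht, e⟩ := gOf_high φ hk x
      rw [e]; rfl
  | upv v =>
    show pole Q _ true (GCell.hS le_rfl (gOf φ _ v)) = _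
    rw [gOf_mid]
    have := phi_face φ (RCell.hh v) (Nat.lt_succ_self _) true
    simp only [RCell.face, dite_true, if_true, RCell.upvAt, castCell] at this
    exact this.symm
  | hh v =>
    show GCell.hS le_rfl (gOf φ _ v) = _
    rw [gOf_mid]
    rfl

lemma toG_fromG (ψ : P ⟶ G n Q) : toG (fromG ψ) = ψ := by
  apply hom_ext'
  intro k x
  show gOf (fromG ψ) k x = (ψ.app _ x : GCell Q n k)
  rcases Nat.lt_trichotomy k n with hk | hk | hk
  · rw [gOf_low _ hk]
    exact (GCell.eq_low hk _).symm
  · subst hk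
    rw [gOf_mid]
    exact (GCell.eq_mid _).symm
  · obtain ⟨hs, ht, e⟩ := gOf_high (fromG ψ) hk x
    rw [e]
    obtain ⟨hs', ht', e'⟩ := GCell.eq_high hk (ψ.app _ x : GCell Q n k)
    rw [e']
    have h1 : (fromG ψ).app (op (GlobeObj.mk (n + 1))) (RCell.hh (pole P hk false x)) =
        GCell.hS hk.le (ψ.app _ x : GCell Q n k) := by
      show GCell.hS le_rfl (ψ.app _ (pole P hk false x) : GCell Q n n) = _
      rw [psi_face]
      exact congrArg (GCell.hS le_rfl) (GCell.hS_face_self hk _ false)
    have h2 : (fromG ψ).app (op (GlobeObj.mk (n + 1))) (RCell.hh (pole P hk true x)) =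
        GCell.hT hk.le (ψ.app _ x : GCell Q n k) := by
      show GCell.hS le_rfl (ψ.app _ (pole P hk true x) : GCell Q n n) = _
      rw [psi_face]
      exact congrArg (GCell.hS le_rfl) (GCell.hS_face_self hk _ true)
    have h3 : (fromG ψ).app _ (RCell.base x) = GCell.toQ (ψ.app _ x : GCell Q n k) := rfl
    simp only [h1, h2, h3]

/-- The adjunction between `R n` and `G n`, on hom sets. -/
def adjEquiv : (R n P ⟶ Q) ≃ (P ⟶ G n Q) where
  toFun := toG
  invFun := fromG
  left_inv := fromG_toG
  right_inv := toG_fromG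

lemma toG_natural (φ : R n P ⟶ Q) (χ : Q ⟶ Q') : toG (φ ≫ χ) = toG φ ≫ Gmap n χ := by
  apply hom_ext'
  intro k x
  show gOf (φ ≫ χ) k x = GCell.map χ (gOf φ k x)
  rcases Nat.lt_trichotomy k n with hk | hk | hk
  · rw [gOf_low _ hk, gOf_low _ hk]; rfl
  · subst hk
    rw [gOf_mid, gOf_mid]; rfl
  · obtain ⟨hs, ht, e⟩ := gOf_high (φ ≫ χ) hk x
    obtain ⟨hs', ht', e'⟩ := gOf_high φ hk x
    rw [e, e']; rfl

/-! ### Insertion of shapes -/

section Out

variable (n : ℕ)

/-- Output of the insertion at a scheme whose last globe has dimension below `n`. -/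
structure LowOut {k : ℕ} (P : Pasting k) (hk : k < n) where
  S : Pasting k
  dim_le : S.dim ≤ max P.dim (n + 1)
  f : ∀ Q : GlobPsh.{0}, Tuple Q S → Tuple (G n Q) P
  bij : ∀ Q : GlobPsh.{0}, Function.Bijective (f Q)
  nat : ∀ {Q Q' : GlobPsh.{0}} (χ : Q ⟶ Q') (t : Tuple Q S),
    f Q' (Tuple.map χ t) = Tuple.map (Gmap n χ) (f Q t)
  last_f : ∀ (Q : GlobPsh.{0}) (t : Tuple Q S),
    (Tuple.last (f Q t) : GCell Q n k) = .low hk (Tuple.last t)

/-- Output of the insertion at a scheme whose last globe has dimension `n`. -/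
structure MidOut (P : Pasting n) where
  S : Pasting (n + 1)
  dim_le : S.dim ≤ max P.dim (n + 1)
  f : ∀ Q : GlobPsh.{0}, Tuple Q S → Tuple (G n Q) P
  bij : ∀ Q : GlobPsh.{0}, Function.Bijective (f Q)
  nat : ∀ {Q Q' : GlobPsh.{0}} (χ : Q ⟶ Q') (t : Tuple Q S),
    f Q' (Tuple.map χ t) = Tuple.map (Gmap n χ) (f Q t)
  last_f : ∀ (Q : GlobPsh.{0}) (t : Tuple Q S),
    (Tuple.last (f Q t) : GCell Q n n) = .mid (Tuple.last t)

/-- Output of the insertion at a scheme whose last globe has dimension above `n`. -/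
structure HighOut {k : ℕ} (P : Pasting k) (hk : n < k) where
  core : Pasting k
  dim_le : core.dim ≤ max P.dim (n + 1)
  s : ∀ Q : GlobPsh.{0}, Tuple Q core → Cell Q (n + 1)
  s_nat : ∀ {Q Q' : GlobPsh.{0}} (χ : Q ⟶ Q') (t : Tuple Q core),
    s Q' (Tuple.map χ t) = χ.app _ (s Q t)
  hs : ∀ (Q : GlobPsh.{0}) (t : Tuple Q core),
    pole Q (Nat.lt_succ_self n) true (s Q t) = pole Q hk false (Tuple.last t)
  f : ∀ Q : GlobPsh.{0}, Tuple Q (Pasting.glue core n (n + 1) hk (Nat.lt_succ_self n)) →
    Tuple (G n Q) P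
  bij : ∀ Q : GlobPsh.{0}, Function.Bijective (f Q)
  nat : ∀ {Q Q' : GlobPsh.{0}} (χ : Q ⟶ Q') (t),
    f Q' (Tuple.map χ t) = Tuple.map (Gmap n χ) (f Q t)
  last_f : ∀ (Q : GlobPsh.{0}) (t : Tuple Q (Pasting.glue core n (n + 1) hk (Nat.lt_succ_self n))),
    (Tuple.last (f Q t) : GCell Q n k) = .high hk (s Q t.init) (Tuple.last t.init) t.top
      (hs Q t.init) t.compat.symm

/-- The common output used for gluing along a dimension below `n`. -/
structure Out {k : ℕ} (P : Pasting k) where
  S : Shape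
  dim_le : S.dim ≤ max P.dim (n + 1)
  f : ∀ Q : GlobPsh.{0}, Tuple Q S.pasting → Tuple (G n Q) P
  bij : ∀ Q : GlobPsh.{0}, Function.Bijective (f Q)
  nat : ∀ {Q Q' : GlobPsh.{0}} (χ : Q ⟶ Q') (t : Tuple Q S.pasting),
    f Q' (Tuple.map χ t) = Tuple.map (Gmap n χ) (f Q t)
  hlt : ∀ b : ℕ, b < k → b < n → b < S.last
  lowFace : ∀ (Q : GlobPsh.{0}) (t : Tuple Q S.pasting) (b : ℕ) (hb : b < k) (hb' : b < S.last)
    (_hbn : b < n),
    pole Q hb' true (Tuple.last t) = GCell.toQ (GCell.face (Tuple.last (f Q t)) b hb true)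

variable {n}

/-- A low output gives an output. -/
def LowOut.toOut {k : ℕ} {P : Pasting k} {hk : k < n} (D : LowOut n P hk) : Out n P where
  S := ⟨k, D.S⟩
  dim_le := D.dim_le
  f := D.f
  bij := D.bij
  nat := D.nat
  hlt := fun _ h _ => h
  lowFace := fun Q t b hb hb' _ => by
    show _ = GCell.toQ (GCell.face (Tuple.last (D.f Q t) : GCell Q n k) b hb true)
    rw [D.last_f]
    rfl

/-- A mid output gives an output. -/
def MidOut.toOut {P : Pasting n} (D : MidOut n P) : Out n P where
  S := ⟨n + 1, D.S⟩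
  dim_le := D.dim_le
  f := D.f
  bij := D.bij
  nat := D.nat
  hlt := fun _ _ h => Nat.lt_succ_of_lt h
  lowFace := fun Q t b hb hb' _ => by
    show _ = GCell.toQ (GCell.face (Tuple.last (D.f Q t) : GCell Q n n) b hb true)
    rw [D.last_f]
    rfl

/-- A high output gives an output. -/
def HighOut.toOut {k : ℕ} {P : Pasting k} {hk : n < k} (D : HighOut n P hk) : Out n P where
  S := ⟨n + 1, Pasting.glue D.core n (n + 1) hk (Nat.lt_succ_self n)⟩
  dim_le := by
    have := D.dim_le
    show max D.core.dim (n + 1) ≤ _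
    omega
  f := D.f
  bij := D.bij
  nat := D.nat
  hlt := fun _ _ h => Nat.lt_succ_of_lt h
  lowFace := fun Q t b hb hb' hbn => by
    show _ = GCell.toQ (GCell.face (Tuple.last (D.f Q t) : GCell Q n k) b hb true)
    rw [D.last_f, GCell.face_high_low _ _ _ _ _ _ _ hbn]
    have h := congrArg (pole Q hbn true) t.compat
    simp only [pole_pole] at h
    exact h.symm

/-! #### Base cases -/

/-- Base case, low. -/
def lowSingle (h : ℕ) (hk : h < n) : LowOut n (Pasting.single h) hk where
  S := .single h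
  dim_le := by simp [Pasting.dim]
  f := fun Q t => (GCell.low hk t : GCell Q n h)
  bij := fun Q => by
    constructor
    · intro t t' e
      exact congrArg GCell.toQ e
    · intro g
      exact ⟨GCell.toQ (g : GCell Q n h), (GCell.eq_low hk g).symm⟩
  nat := fun _ _ => rfl
  last_f := fun _ _ => rfl

/-- Base case, mid. -/
def midSingle : MidOut n (Pasting.single n) where
  S := .single (n + 1)
  dim_le := by simp [Pasting.dim]
  f := fun Q t => (GCell.mid t : GCell Q n n)
  bij := fun Q => by
    constructor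
    · intro t t' e
      exact congrArg (GCell.hS le_rfl) e
    · intro g
      exact ⟨GCell.hS le_rfl (g : GCell Q n n), (GCell.eq_mid g).symm⟩
  nat := fun _ _ => rfl
  last_f := fun _ _ => rfl

/-- Base case, high. -/
def highSingle (h : ℕ) (hk : n < h) : HighOut n (Pasting.single h) hk where
  core := Pasting.glue (Pasting.single (n + 1)) n h (Nat.lt_succ_self n) hk
  dim_le := by
    simp only [Pasting.dim]
    omega
  s := fun _ t => t.init
  s_nat := fun _ _ => rfl
  hs := fun _ t => t.compat
  f := fun Q T => (GCell.high hk T.init.init T.init.top T.top T.init.compat T.compat.symm :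
    GCell Q n h)
  bij := fun Q => by
    constructor
    · intro T T' e
      have e1 : T.init.init = T'.init.init := congrArg (GCell.hS hk.le) e
      have e2 : T.init.top = T'.init.top := congrArg GCell.toQ e
      have e3 : T.top = T'.top := congrArg (GCell.hT hk.le) e
      exact Tuple.ext_glue (Tuple.ext_glue e1 e2) e3
    · intro g
      obtain ⟨hs, ht, e⟩ := GCell.eq_high hk (g : GCell Q n h)
      refine ⟨Tuple.glue (Tuple.glue (GCell.hS hk.le g : Cell Q (n + 1)) (GCell.toQ g) hs)
        (GCell.hT hk.le g) ht.symm, e.symm⟩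
  nat := fun _ _ => rfl
  last_f := fun _ _ => rfl

/-! #### Gluing below `n` -/

lemma GCell.toQ_face_mid {Q : GlobPsh.{u}} {b : ℕ} (hbn : b < n) (g : GCell Q n n) (c : Bool) :
    (g.face b hbn c).toQ = pole Q (Nat.lt_succ_of_lt hbn) c (g.hS le_rfl) := by
  cases g with
  | low hm x => omega
  | mid H => rfl
  | high hm Hs w Ht hs ht => omega

lemma low_of_toQ {Q : GlobPsh.{0}} {b : ℕ} (hbn : b < n) (x : GCell Q n b) (y : Cell Q b)
    (e : x.toQ = y) : x = .low hbn y := by
  rw [GCell.eq_low hbn x, e]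

/-- Gluing a low globe along a low dimension. -/
def lowGlue {k : ℕ} {P : Pasting k} (O : Out n P) (b h : ℕ) (hb : b < k) (hh : b < h)
    (hbn : b < n) (hk : h < n) : LowOut n (Pasting.glue P b h hb hh) hk where
  S := Pasting.glue O.S.pasting b h (O.hlt b hb hbn) hh
  dim_le := by
    have := O.dim_le
    simp only [Pasting.dim, Shape.dim] at this ⊢
    omega
  f := fun Q t => Tuple.glue (O.f Q t.init) (GCell.low hk t.top : GCell Q n h)
    (low_of_toQ hbn _ _ ((O.lowFace Q t.init b hb _ hbn).symm.trans t.compat))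
  bij := fun Q => by
    constructor
    · intro t t' e
      have e1 : O.f Q t.init = O.f Q t'.init := congrArg Tuple.init e
      have e2 : t.top = t'.top := congrArg GCell.toQ (congrArg Tuple.top e)
      exact Tuple.ext_glue ((O.bij Q).1 e1) e2
    · intro y
      obtain ⟨t₀, ht₀⟩ := (O.bij Q).2 y.init
      have hcomp := y.compat
      refine ⟨Tuple.glue t₀ (GCell.toQ (y.top : GCell Q n h)) ?_, ?_⟩
      · rw [O.lowFace Q t₀ b hb _ hbn, ht₀]
        have h1 := congrArg GCell.toQ hcomp
        exact h1.trans (GCell.toQ_face (y.top : GCell Q n h) hh false (Or.inl (by omega)))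
      · exact Tuple.ext_glue ht₀ (GCell.eq_low hk _).symm
  nat := fun χ t => Tuple.ext_glue (O.nat χ t.init) rfl
  last_f := fun _ _ => rfl

/-- Gluing a globe of dimension `n` along a low dimension. -/
def midGlue {k : ℕ} {P : Pasting k} (O : Out n P) (b : ℕ) (hb : b < k) (hbn : b < n) :
    MidOut n (Pasting.glue P b n hb hbn) where
  S := Pasting.glue O.S.pasting b (n + 1) (O.hlt b hb hbn) (Nat.lt_succ_of_lt hbn)
  dim_le := by
    have := O.dim_le
    simp only [Pasting.dim, Shape.dim] at this ⊢
    omega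
  f := fun Q t => Tuple.glue (O.f Q t.init) (GCell.mid t.top : GCell Q n n)
    (low_of_toQ hbn _ _ ((O.lowFace Q t.init b hb _ hbn).symm.trans t.compat))
  bij := fun Q => by
    constructor
    · intro t t' e
      have e1 : O.f Q t.init = O.f Q t'.init := congrArg Tuple.init e
      have e2 : t.top = t'.top := congrArg (GCell.hS le_rfl) (congrArg Tuple.top e)
      exact Tuple.ext_glue ((O.bij Q).1 e1) e2
    · intro y
      obtain ⟨t₀, ht₀⟩ := (O.bij Q).2 y.init
      have hcomp := y.compat
      refine ⟨Tuple.glue t₀ (GCell.hS le_rfl (y.top : GCell Q n n)) ?_, ?_⟩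
      · rw [O.lowFace Q t₀ b hb _ hbn, ht₀]
        have h1 := congrArg GCell.toQ hcomp
        exact h1.trans (GCell.toQ_face_mid hbn _ false)
      · exact Tuple.ext_glue ht₀ (GCell.eq_mid _).symm
  nat := fun χ t => Tuple.ext_glue (O.nat χ t.init) rfl
  last_f := fun _ _ => rfl

/-- Gluing a high globe along a low dimension. -/
def highGlue {k : ℕ} {P : Pasting k} (O : Out n P) (b h : ℕ) (hb : b < k) (hh : b < h)
    (hbn : b < n) (hk : n < h) : HighOut n (Pasting.glue P b h hb hh) hk where
  core := Pasting.glue (Pasting.glue O.S.pasting b (n + 1) (O.hlt b hb hbn) (Nat.lt_succ_of_lt hbn))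
    n h (Nat.lt_succ_self n) hk
  dim_le := by
    have := O.dim_le
    simp only [Pasting.dim, Shape.dim] at this ⊢
    omega
  s := fun _ t => t.init.top
  s_nat := fun _ _ => rfl
  hs := fun _ t => t.compat
  f := fun Q T => Tuple.glue (O.f Q T.init.init.init)
    (GCell.high hk T.init.init.top T.init.top T.top T.init.compat T.compat.symm : GCell Q n h)
    (by
      have h0 : GCell.toQ (pole (G n Q) hb true (Tuple.last (O.f Q T.init.init.init))) =
          pole Q hh false T.init.top := by
        refine (O.lowFace Q T.init.init.init b hb (O.hlt b hb hbn) hbn).symm.trans ?_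
        refine T.init.init.compat.trans ?_
        exact pole_mid_eq hbn false hk true T.init.compat
      refine (low_of_toQ hbn _ _ h0).trans ?_
      exact (GCell.face_high_low hk T.init.init.top T.init.top T.top T.init.compat T.compat.symm
        hh hbn false).symm)
  bij := fun Q => by
    constructor
    · intro T T' e
      have e1 : O.f Q T.init.init.init = O.f Q T'.init.init.init := congrArg Tuple.init e
      have e2 := congrArg Tuple.top e
      have e3 : T.init.init.top = T'.init.init.top := congrArg (GCell.hS hk.le) e2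
      have e4 : T.init.top = T'.init.top := congrArg GCell.toQ e2
      have e5 : T.top = T'.top := congrArg (GCell.hT hk.le) e2
      exact Tuple.ext_glue (Tuple.ext_glue (Tuple.ext_glue ((O.bij Q).1 e1) e3) e4) e5
    · intro y
      obtain ⟨t₀, ht₀⟩ := (O.bij Q).2 y.init
      have hcomp := y.compat
      obtain ⟨hs, ht, e⟩ := GCell.eq_high hk (y.top : GCell Q n h)
      refine ⟨Tuple.glue (Tuple.glue (Tuple.glue t₀ (GCell.hS hk.le (y.top : GCell Q n h)) ?_)
        (GCell.toQ (y.top : GCell Q n h)) hs) (GCell.hT hk.le (y.top : GCell Q n h)) ht.symm, ?_⟩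
      · rw [O.lowFace Q t₀ b hb _ hbn, ht₀]
        have h1 := congrArg GCell.toQ hcomp
        refine h1.trans ?_
        refine (GCell.toQ_face (y.top : GCell Q n h) hh false (Or.inl (by omega))).trans ?_
        exact (pole_mid_eq hbn false hk true hs).symm
      · exact Tuple.ext_glue ht₀ e.symm
  nat := fun χ t => Tuple.ext_glue (O.nat χ _) rfl
  last_f := fun _ _ => rfl

/-! #### Gluing at `n` and above -/

lemma Tuple.compat2 {Q : GlobPsh.{u}} {k l : ℕ} {P : Pasting l} {c : ℕ} {hc : c < l} {hc' : c < k}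
    {b h : ℕ} {hb : b < k} {hh : b < h}
    (t : Tuple Q (Pasting.glue (Pasting.glue P c k hc hc') b h hb hh)) :
    pole Q hb true t.init.top = pole Q hh false t.top := t.compat

lemma Tuple.glue_inj {Q : GlobPsh.{u}} {k : ℕ} {P : Pasting k} {b h : ℕ} {hb : b < k} {hh : b < h}
    {a a' : Tuple Q P} {x x' : Cell Q h} {c : pole Q hb true (Tuple.last a) = pole Q hh false x}
    {c' : pole Q hb true (Tuple.last a') = pole Q hh false x'}
    (e : Tuple.glue a x c = Tuple.glue a' x' c') : a = a' ∧ x = x' :=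
  ⟨congrArg (Tuple.init (hb := hb) (hh := hh)) e, congrArg (Tuple.top (hb := hb) (hh := hh)) e⟩

lemma GCell.hS_face_false {Q : GlobPsh.{u}} {k : ℕ} (hk : n < k) (x : GCell Q n k) :
    GCell.hS le_rfl (x.face n hk false) = x.hS hk.le := by
  rw [GCell.hS_face_self]; rfl

lemma GCell.hS_face_true {Q : GlobPsh.{u}} {k : ℕ} (hk : n < k) (x : GCell Q n k) :
    GCell.hS le_rfl (x.face n hk true) = x.hT hk.le := by
  rw [GCell.hS_face_self]; rfl

lemma GCell.high_congr {Q : GlobPsh.{u}} {k : ℕ} {hk : n < k} {Hs Hs' : Cell Q (n + 1)}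
    {w w' : Cell Q k} {Ht Ht' : Cell Q (n + 1)} {hs ht hs' ht'} (e1 : Hs = Hs') (e2 : w = w')
    (e3 : Ht = Ht') : GCell.high hk Hs w Ht hs ht = GCell.high hk Hs' w' Ht' hs' ht' := by
  subst e1 e2 e3; rfl

lemma pole_G_high_self {Q : GlobPsh.{u}} {l : ℕ} (hl : n < l) (Hs : Cell Q (n + 1)) (w : Cell Q l)
    (Ht : Cell Q (n + 1)) (hs) (ht) (h' : n < l) (b : Bool) :
    pole (G n Q) h' b (GCell.high hl Hs w Ht hs ht : GCell Q n l) =
      .mid (if b then Ht else Hs) :=
  GCell.face_high_self hl Hs w Ht hs ht h' b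

lemma pole_G_high_high {Q : GlobPsh.{u}} {l m : ℕ} (hl : n < l) (Hs : Cell Q (n + 1))
    (w : Cell Q l) (Ht : Cell Q (n + 1)) (hs) (ht) (h' : m < l) (hm : n < m) (b : Bool) :
    pole (G n Q) h' b (GCell.high hl Hs w Ht hs ht : GCell Q n l) =
      GCell.high hm Hs (pole Q h' b w) Ht
        (by rw [hs, pole_pole]) (by rw [pole_pole]; exact ht) :=
  GCell.face_high_high hl Hs w Ht hs ht h' hm b

/-- Gluing along dimension `n`. -/
def highGlueN {k : ℕ} {P : Pasting k} {hk' : n < k} (D : HighOut n P hk') (h : ℕ) (hk : n < h) :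
    HighOut n (Pasting.glue P n h hk' hk) hk where
  core := Pasting.glue (Pasting.glue D.core n (n + 1) hk' (Nat.lt_succ_self n))
    n h (Nat.lt_succ_self n) hk
  dim_le := by
    have := D.dim_le
    simp only [Pasting.dim] at this ⊢
    omega
  s := fun _ t => t.init.top
  s_nat := fun _ _ => rfl
  hs := fun _ t => t.compat
  f := fun Q T => Tuple.glue (D.f Q T.init.init)
    (GCell.high hk T.init.init.top T.init.top T.top T.init.compat2 (Tuple.compat2 T).symm :
      GCell Q n h)
    (by
      refine Eq.trans (congrArg (fun g : GCell Q n k => g.face n hk' true)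
        (D.last_f Q T.init.init)) ?_
      refine (GCell.face_high_self hk' _ _ _ _ _ hk' true).trans ?_
      exact (pole_G_high_self hk _ _ _ _ _ hk false).symm)
  bij := fun Q => by
    constructor
    · intro T T' e
      have e1 : D.f Q T.init.init = D.f Q T'.init.init := congrArg Tuple.init e
      have e2 := congrArg Tuple.top e
      have e4 : T.init.top = T'.init.top := congrArg GCell.toQ e2
      have e5 : T.top = T'.top := congrArg (GCell.hT hk.le) e2
      exact Tuple.ext_glue (Tuple.ext_glue ((D.bij Q).1 e1) e4) e5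
    · intro y
      obtain ⟨τ, hτ⟩ := (D.bij Q).2 y.init
      obtain ⟨g, hg⟩ : ∃ g : GCell Q n h, g = y.top := ⟨_, rfl⟩
      obtain ⟨g₀, hg₀⟩ : ∃ g₀ : GCell Q n k, g₀ = Tuple.last y.init := ⟨_, rfl⟩
      have hcomp : g₀.face n hk' true = g.face n hk false := by
        rw [hg, hg₀]; exact y.compat
      have c0 : g₀ = GCell.high hk' (D.s Q τ.init) (Tuple.last τ.init) τ.top
          (D.hs Q τ.init) τ.compat.symm := by
        rw [hg₀, ← hτ]; exact D.last_f Q τ
      have c1 : τ.top = g.hS hk.le := by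
        have h1 := congrArg (GCell.hS le_rfl) hcomp
        rw [GCell.hS_face_true, GCell.hS_face_false, c0] at h1
        exact h1
      obtain ⟨hs, ht, e⟩ := GCell.eq_high hk g
      have c2 : pole Q (Nat.lt_succ_self n) true (Tuple.last τ) = pole Q hk false g.toQ := by
        rw [Tuple.last_eq_top, c1]; exact hs
      refine ⟨Tuple.glue (Tuple.glue τ g.toQ c2) (g.hT hk.le) ht.symm, ?_⟩
      refine Tuple.ext_glue hτ ?_
      refine Eq.trans ?_ hg
      refine Eq.trans ?_ e.symm
      exact GCell.high_congr c1 rfl rfl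
  nat := fun χ t => Tuple.ext_glue (D.nat χ _) rfl
  last_f := fun _ _ => rfl

lemma highGlueH_aux {k : ℕ} {Q : GlobPsh.{u}} {core : Pasting k} {hk' : n < k} {b h : ℕ}
    {hb : b < k} (hbn : n < b) (hh : b < h)
    (T : Tuple Q (Pasting.glue (Pasting.glue core b h hb hh) n (n + 1) (hbn.trans hh)
      (Nat.lt_succ_self n))) :
    pole Q hk' true (Tuple.last T.init.init) = pole Q (Nat.lt_succ_self n) false T.top := by
  refine Eq.trans ?_ T.compat
  have := congrArg (pole Q hbn true) T.init.compat
  simpa only [pole_pole, Tuple.last_eq_top] using this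

/-- Gluing above dimension `n`. -/
def highGlueH {k : ℕ} {P : Pasting k} {hk' : n < k} (D : HighOut n P hk') (b h : ℕ) (hb : b < k)
    (hh : b < h) (hbn : n < b) : HighOut n (Pasting.glue P b h hb hh) (hbn.trans hh) where
  core := Pasting.glue D.core b h hb hh
  dim_le := by
    have := D.dim_le
    simp only [Pasting.dim] at this ⊢
    omega
  s := fun Q t => D.s Q t.init
  s_nat := fun χ t => D.s_nat χ t.init
  hs := fun Q t => by
    refine (D.hs Q t.init).trans ?_
    have := congrArg (pole Q hbn false) t.compat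
    simpa only [pole_pole, Tuple.last_eq_top] using this
  f := fun Q T => Tuple.glue
    (D.f Q (Tuple.glue T.init.init T.top (highGlueH_aux hbn hh T)))
    (GCell.high (hbn.trans hh) (D.s Q T.init.init) T.init.top T.top
      (by
        refine (D.hs Q T.init.init).trans ?_
        have := congrArg (pole Q hbn false) T.init.compat
        simpa only [pole_pole] using this) T.compat.symm : GCell Q n h)
    (by
      refine Eq.trans (congrArg (fun g : GCell Q n k => g.face b hb true) (D.last_f Q _)) ?_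
      refine (GCell.face_high_high _ _ _ _ _ _ _ hbn true).trans ?_
      refine Eq.trans ?_ (pole_G_high_high _ _ _ _ _ _ _ hbn false).symm
      exact GCell.high_congr rfl T.init.compat rfl)
  bij := fun Q => by
    have hk : n < h := hbn.trans hh
    constructor
    · intro T T' e
      have e1 := Tuple.glue_inj ((D.bij Q).1 (congrArg Tuple.init e))
      have e2 := congrArg Tuple.top e
      have e4 : T.init.top = T'.init.top := congrArg GCell.toQ e2
      exact Tuple.ext_glue (Tuple.ext_glue e1.1 e4) e1.2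
    · intro y
      obtain ⟨τ, hτ⟩ := (D.bij Q).2 y.init
      obtain ⟨g, hg⟩ : ∃ g : GCell Q n h, g = y.top := ⟨_, rfl⟩
      obtain ⟨g₀, hg₀⟩ : ∃ g₀ : GCell Q n k, g₀ = Tuple.last y.init := ⟨_, rfl⟩
      have hcomp : g₀.face b hb true = g.face b hh false := by
        rw [hg, hg₀]; exact y.compat
      have c0 : g₀ = GCell.high hk' (D.s Q τ.init) (Tuple.last τ.init) τ.top
          (D.hs Q τ.init) τ.compat.symm := by
        rw [hg₀, ← hτ]; exact D.last_f Q τ
      obtain ⟨hs, ht, e⟩ := GCell.eq_high hk g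
      rw [c0, e, GCell.face_high_high _ _ _ _ _ _ _ hbn,
        GCell.face_high_high _ _ _ _ _ _ _ hbn] at hcomp
      have c1 : D.s Q τ.init = g.hS hk.le := congrArg (GCell.hS hbn.le) hcomp
      have c2 : pole Q hb true (Tuple.last τ.init) = pole Q hh false g.toQ :=
        congrArg GCell.toQ hcomp
      have c3 : τ.top = g.hT hk.le := congrArg (GCell.hT hbn.le) hcomp
      refine ⟨Tuple.glue (Tuple.glue τ.init g.toQ c2) τ.top (by
        show pole Q (hbn.trans hh) true g.toQ = _
        rw [c3]; exact ht.symm), ?_⟩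
      refine Tuple.ext_glue hτ ?_
      refine Eq.trans ?_ hg
      refine Eq.trans ?_ e.symm
      exact GCell.high_congr c1 rfl c3
  nat := fun χ t => by
    refine Tuple.ext_glue ?_ ?_
    · exact Eq.trans (congrArg (D.f _) (Tuple.ext_glue rfl rfl))
        (D.nat χ (Tuple.glue t.init.init t.top (highGlueH_aux hbn hh t)))
    · exact GCell.high_congr (D.s_nat χ _) rfl rfl
  last_f := fun _ _ => rfl

/-- Existence of the outputs, by induction on the scheme. -/
theorem exists_out : ∀ {k : ℕ} (P : Pasting k),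
    (∃ hk : k < n, Nonempty (LowOut n P hk)) ∨ (∃ hk : n < k, Nonempty (HighOut n P hk)) ∨
      (k = n ∧ Nonempty (Out n P)) := by
  intro k P
  induction P with
  | single h =>
    rcases Nat.lt_trichotomy h n with hk | hk | hk
    · exact Or.inl ⟨hk, ⟨lowSingle h hk⟩⟩
    · subst hk
      exact Or.inr (Or.inr ⟨rfl, ⟨(midSingle (n := h)).toOut⟩⟩)
    · exact Or.inr (Or.inl ⟨hk, ⟨highSingle h hk⟩⟩)
  | @glue last P b h hb hh ih =>
    have hO : Nonempty (Out n P) := by
      rcases ih with ⟨hk, ⟨D⟩⟩ | ⟨hk, ⟨D⟩⟩ | ⟨_, ⟨O⟩⟩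
      · exact ⟨D.toOut⟩
      · exact ⟨D.toOut⟩
      · exact ⟨O⟩
    obtain ⟨O⟩ := hO
    rcases Nat.lt_trichotomy b n with hbn | hbn | hbn
    · rcases Nat.lt_trichotomy h n with hk | hk | hk
      · exact Or.inl ⟨hk, ⟨lowGlue O b h hb hh hbn hk⟩⟩
      · subst hk
        exact Or.inr (Or.inr ⟨rfl, ⟨(midGlue O b hb hbn).toOut⟩⟩)
      · exact Or.inr (Or.inl ⟨hk, ⟨highGlue O b h hb hh hbn hk⟩⟩)
    · subst hbn
      rcases ih with ⟨hk, _⟩ | ⟨hk, ⟨D⟩⟩ | ⟨hk, _⟩
      · omega
      · exact Or.inr (Or.inl ⟨hh, ⟨highGlueN D h hh⟩⟩)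
      · omega
    · rcases ih with ⟨hk, _⟩ | ⟨hk, ⟨D⟩⟩ | ⟨hk, _⟩
      · omega
      · exact Or.inr (Or.inl ⟨hbn.trans hh, ⟨highGlueH D b h hb hh hbn⟩⟩)
      · omega

/-- Every scheme has an output. -/
theorem nonempty_out {k : ℕ} (P : Pasting k) : Nonempty (Out n P) := by
  rcases exists_out (n := n) P with ⟨_, ⟨D⟩⟩ | ⟨_, ⟨D⟩⟩ | ⟨_, ⟨O⟩⟩
  · exact ⟨D.toOut⟩
  · exact ⟨D.toOut⟩
  · exact ⟨O⟩

end Out

/-- The natural comparison map of an output. -/
noncomputable def Out.E {k : ℕ} {P : Pasting k} (O : Out n P) (Q : GlobPsh.{0})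
    (φ : O.S.psh ⟶ Q) : (R n P.build.1 ⟶ Q) :=
  fromG ((homEquiv (G n Q) P).symm (O.f Q (homEquiv Q O.S.pasting φ)))

lemma Out.E_bij {k : ℕ} {P : Pasting k} (O : Out n P) (Q : GlobPsh.{0}) :
    Function.Bijective (O.E Q) := by
  refine (adjEquiv (n := n) (P := P.build.1) (Q := Q)).symm.bijective.comp ?_
  refine (homEquiv (G n Q) P).symm.bijective.comp ?_
  exact (O.bij Q).comp (homEquiv Q O.S.pasting).bijective

lemma Out.E_nat {k : ℕ} {P : Pasting k} (O : Out n P) {Q Q' : GlobPsh.{0}} (χ : Q ⟶ Q')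
    (φ : O.S.psh ⟶ Q) : O.E Q' (φ ≫ χ) = O.E Q φ ≫ χ := by
  apply (adjEquiv (n := n) (P := P.build.1) (Q := Q')).injective
  show toG (fromG _) = toG (fromG _ ≫ χ)
  refine (toG_fromG _).trans ?_
  refine Eq.trans ?_ ((toG_natural _ χ).symm)
  refine Eq.trans ?_ (congrArg (· ≫ Gmap n χ) (toG_fromG _).symm)
  apply (homEquiv (G n Q') P).injective
  refine (Equiv.apply_symm_apply _ _).trans ?_
  refine Eq.trans ?_ (homEquiv_natural (Gmap n χ) P _).symm
  refine Eq.trans ?_ (congrArg (Tuple.map (Gmap n χ)) (Equiv.apply_symm_apply _ _).symm)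
  refine Eq.trans ?_ (O.nat χ _)
  exact congrArg (O.f Q') (homEquiv_natural χ _ φ)

/-- **Insertion theorem.** The insertion of a shape is (isomorphic to) a shape. -/
theorem exists_insert (n : ℕ) (S : Shape) :
    ∃ S' : Shape, Nonempty (S'.psh ≅ R n S.psh) ∧ S'.dim ≤ max S.dim (n + 1) := by
  obtain ⟨O⟩ := nonempty_out (n := n) S.pasting
  refine ⟨O.S, ?_, O.dim_le⟩
  let τ : R n S.pasting.build.1 ⟶ O.S.psh := O.E _ (𝟙 _)
  obtain ⟨σ, hσ⟩ := (O.E_bij (R n S.pasting.build.1)).2 (𝟙 _)
  have h1 : τ ≫ σ = 𝟙 _ := by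
    rw [← hσ]
    refine (O.E_nat σ (𝟙 _)).symm.trans ?_
    exact congrArg (O.E _) (Category.id_comp σ)
  have h2 : σ ≫ τ = 𝟙 _ := by
    apply (O.E_bij _).1
    refine (O.E_nat τ σ).trans ?_
    rw [hσ]
    exact Category.id_comp τ
  exact ⟨⟨σ, τ, h2, h1⟩⟩

end Insert

end Crest.Agent.Henry.RInsert
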