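import Crest.Agent.Henry.JStep
import Crest.Agent.Henry.Reflect

/-!
# Representing functors by J-steps (S0382, section 2 abstract step)

`Fam C`: a family of types over models, with transport along model maps.
`Rep F M v`: the family `F` is represented by `M` with universal element `v`.
`rep_step`: if `Q Z` is obtained from `P Z` by adding, for `k : K`,
an `(m+1)`-cell `new k` with source `A k p`, naturally in `Z`, then `Q` is represented by
a J-step over `M`.
-/

set_option autoImplicit false

open CategoryTheory CategoryTheory.Limits Opposite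
open Crest.GeometryTopology.Coherator

universe u

namespace Crest.Agent.Henry

open GlobTheory GlobTheory.GlobModel

variable {C : GlobTheory.{u}}

/-- A family of types over models with transport along model maps. -/
structure Fam (C : GlobTheory.{u}) where
  P : GlobModel C → Type u
  map : ∀ {Z Z' : GlobModel C}, (Z ⟶ Z') → P Z → P Z'
  map_comp : ∀ {Z Z' Z'' : GlobModel C} (f : Z ⟶ Z') (g : Z' ⟶ Z'') (p : P Z),
    map (f ≫ g) p = map g (map f p)

/-- `M` with `v` represents the family `F`. -/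
def Rep (F : Fam C) (M : GlobModel C) (v : F.P M) : Prop :=
  ∀ (Z : GlobModel C) (t : F.P Z), ∃! g : M ⟶ Z, F.map g v = t

/-- The data of adding a family of `(m+1)`-cells, with prescribed sources, to a family `F`. -/
structure AddCells (F G : Fam C) (m : ℕ) (K : Type u) where
  π : ∀ {Z : GlobModel C}, G.P Z → F.P Z
  π_map : ∀ {Z Z' : GlobModel C} (g : Z ⟶ Z') (q : G.P Z), π (G.map g q) = F.map g (π q)
  A : ∀ {Z : GlobModel C}, K → F.P Z → Z.cells.cell m
  A_map : ∀ {Z Z' : GlobModel C} (g : Z ⟶ Z') (k : K) (p : F.P Z),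
    A k (F.map g p) = (cellsMap g).app m (A k p)
  new : ∀ {Z : GlobModel C}, K → G.P Z → Z.cells.cell (m + 1)
  new_map : ∀ {Z Z' : GlobModel C} (g : Z ⟶ Z') (k : K) (q : G.P Z),
    new k (G.map g q) = (cellsMap g).app (m + 1) (new k q)
  src_new : ∀ {Z : GlobModel C} (k : K) (q : G.P Z), Z.cells.src m (new k q) = A k (π q)
  exists_q : ∀ {Z : GlobModel C} (p : F.P Z) (z : K → Z.cells.cell (m + 1)),
    (∀ k, Z.cells.src m (z k) = A k p) → ∃ q : G.P Z, π q = p ∧ ∀ k, new k q = z k
  ext_q : ∀ {Z : GlobModel C} (q q' : G.P Z), π q = π q' → (∀ k, new k q = new k q') → q = q'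

/-- The representing object of a family obtained by adding cells is a J-step. -/
theorem rep_step {F G : Fam C} {m : ℕ} {K : Type u}
    (D : AddCells F G m K) {M : GlobModel C} {v : F.P M} (hM : Rep F M v) :
    ∃ (Y : GlobModel C) (i : M ⟶ Y) (b : K → Y.cells.cell (m + 1)) (v' : G.P Y),
      (∀ k, Y.cells.src m (b k) = (cellsMap i).app m (D.A k v)) ∧
      (∀ (Z : GlobModel C) (g : M ⟶ Z) (z : K → Z.cells.cell (m + 1)),
        (∀ k, Z.cells.src m (z k) = (cellsMap g).app m (D.A k v)) →
          ∃! h : Y ⟶ Z, i ≫ h = g ∧ ∀ k, (cellsMap h).app (m + 1) (b k) = z k) ∧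
      D.π v' = F.map i v ∧ (∀ k, D.new k v' = b k) ∧ Rep G Y v' := by
  obtain ⟨Y, i, b, hb, huniv⟩ := exists_attach M (fun _ : K => m) (fun k => D.A k v)
  have hb' : ∀ k, Y.cells.src m (b k) = D.A k (F.map i v) := fun k => by
    rw [D.A_map]; exact hb k
  obtain ⟨v', hv₁, hv₂⟩ := D.exists_q (F.map i v) b hb'
  refine ⟨Y, i, b, v', hb, huniv, hv₁, hv₂, ?_⟩
  intro Z q
  obtain ⟨g, hg, hgu⟩ := hM Z (D.π q)
  have hz : ∀ k, Z.cells.src m (D.new k q) = (cellsMap g).app m (D.A k v) := fun k => by
    rw [D.src_new, ← D.A_map, hg]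
  obtain ⟨h, ⟨hh₁, hh₂⟩, hhu⟩ := huniv Z g (fun k => D.new k q) hz
  refine ⟨h, ?_, ?_⟩
  · apply D.ext_q
    · rw [D.π_map, hv₁, ← F.map_comp, hh₁, hg]
    · intro k
      rw [D.new_map, hv₂, hh₂]
  · intro h' hh'
    apply hhu
    constructor
    · apply hgu
      rw [F.map_comp, ← hv₁, ← D.π_map, hh']
    · intro k
      rw [← hv₂, ← D.new_map, hh']

end Crest.Agent.Henry
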