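import Crest.Agent.Henry.Cyl

/-!
# The statements `IsUniv`, `ConnAt` shared by sections 2-7 (S0382, helper3)

* `mcyl hC Z n j`, `mcylPsh hC Z n j`, `mcylMap hC g n j`: the cylinder of a model and its functoriality.
* `marksOf t`: the marked locus of a cylinder tuple `t : uL.obj S.psh ⟶ mcylPsh hC Z n j`.
* `IsMarking n S T`: `T` contains all cells of dimension `< n` and is downward closed.
* `IsUniv hC n j S T M u`: the tuple `u` in `M` with marks `T` is universal among tuples with marks `T`.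
* `ConnAt hC n i` (Conn(n,i) of the blueprint): for all `S` of height `≤ i`, all markings `T` and all
  levels `j ≥ i` there is a universal tuple in some `M` with `Conn_i M`.
-/

set_option autoImplicit false
set_option linter.unusedVariables false

open CategoryTheory CategoryTheory.Limits Opposite
open Crest.GeometryTopology.Coherator
open Crest.GeometryTopology.Coherator.GlobTheory Crest.GeometryTopology.Coherator.GlobTheory.GlobModel

universe u

namespace Crest.Agent.Henry

variable {C : GlobTheory.{u}}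

/-- The cylinder of a model, as a globular set. -/
noncomputable abbrev mcyl (hC : HasFillers C) (Z : GlobModel C) (n j : ℕ) : GlobSet.{u} :=
  cyl (zOps hC Z) n j

/-- The cylinder of a model, as a presheaf. -/
noncomputable abbrev mcylPsh (hC : HasFillers C) (Z : GlobModel C) (n j : ℕ) : GlobPsh.{u} :=
  cylPsh (zOps hC Z) n j

/-- The underlying presheaf map of a map of models. -/
noncomputable abbrev cmap {Z Y : GlobModel C} (g : Z ⟶ Y) : cellsPsh Z ⟶ cellsPsh Y :=
  Functor.whiskerLeft C.globes.op g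

/-- Functoriality of the cylinder of a model. -/
noncomputable def mcylMap (hC : HasFillers C) {Z Y : GlobModel C} (g : Z ⟶ Y) (n j : ℕ) :
    mcylPsh hC Z n j ⟶ mcylPsh hC Y n j :=
  cylPshMap (zLaws hC Z) (zNat hC g) n j

theorem mcylMap_cell (hC : HasFillers C) {Z Y : GlobModel C} (g : Z ⟶ Y) (n j m : ℕ)
    (x : (mcyl hC Z n j).cell m) :
    ((mcylMap hC g n j).app (op (GlobeObj.mk m)) x : (mcyl hC Y n j).cell m).1 = x.1.map (cmap g) := rfl

theorem Cy.map_comp {A A' A'' : GlobPsh.{u}} (f : A ⟶ A') (f' : A' ⟶ A'') {m : ℕ} (x : Cy A m) :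
    x.map (f ≫ f') = (x.map f).map f' := by
  induction x with
  | marked z => rfl
  | un0 z0 z1 H =>
    show Cy.un0 _ _ _ = Cy.un0 _ _ _
    congr 1
    cases H <;> rfl
  | un σ τ z0 z1 H ihσ ihτ =>
    show Cy.un _ _ _ _ _ = Cy.un _ _ _ _ _
    rw [ihσ, ihτ]
    congr 1
    cases H <;> rfl

theorem Cy.map_id {A : GlobPsh.{u}} {m : ℕ} (x : Cy A m) : x.map (𝟙 A) = x := by
  induction x with
  | marked z => rfl
  | un0 z0 z1 H =>
    show Cy.un0 _ _ _ = Cy.un0 _ _ _
    congr 1
    cases H <;> rfl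
  | un σ τ z0 z1 H ihσ ihτ =>
    show Cy.un _ _ _ _ _ = Cy.un _ _ _ _ _
    rw [ihσ, ihτ]
    congr 1
    cases H <;> rfl

theorem mcylMap_comp (hC : HasFillers C) {Z Y X : GlobModel C} (g : Z ⟶ Y) (g' : Y ⟶ X) (n j : ℕ) :
    mcylMap hC (g ≫ g') n j = mcylMap hC g n j ≫ mcylMap hC g' n j := by
  apply NatTrans.ext
  funext G
  rcases G with ⟨⟨m⟩⟩
  ext x
  apply Subtype.ext
  exact Cy.map_comp (cmap g) (cmap g') x.1

theorem mcylMap_id (hC : HasFillers C) (Z : GlobModel C) (n j : ℕ) :
    mcylMap hC (𝟙 Z) n j = 𝟙 _ := by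
  apply NatTrans.ext
  funext G
  rcases G with ⟨⟨m⟩⟩
  ext x
  apply Subtype.ext
  exact Cy.map_id x.1

variable (hC : HasFillers C)

/-- The marked locus of a cylinder tuple. -/
def marksOf {n j : ℕ} {S : Shape} {Z : GlobModel C} (t : uL.obj S.psh ⟶ mcylPsh hC Z n j) :
    ∀ m, Cell S.psh m → Prop :=
  fun m c => ((cellAt t c : (mcyl hC Z n j).cell m)).1.IsMarked

variable {hC}

theorem marksOf_comp {n j : ℕ} {S : Shape} {Z Y : GlobModel C} (t : uL.obj S.psh ⟶ mcylPsh hC Z n j)
    (g : Z ⟶ Y) : marksOf hC (t ≫ mcylMap hC g n j) = marksOf hC t := by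
  funext m c
  exact propext (Cy.map_isMarked (cmap g) _)

variable (hC)

/-- Admissible markings: containing all cells below dimension `n`, downward closed. -/
structure IsMarking (n : ℕ) (S : Shape) (T : ∀ m, Cell S.psh m → Prop) : Prop where
  low : ∀ m, m < n → ∀ c, T m c
  down : ∀ {k m : ℕ} (h : k < m) (b : Bool) (c : Cell S.psh m), T m c → T k (Cell.face S.psh h b c)

/-- The tuple `u` of the cylinder of `M` with marks `T` is universal. -/
structure IsUniv (n j : ℕ) (S : Shape) (T : ∀ m, Cell S.psh m → Prop) (M : GlobModel C)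
    (u : uL.obj S.psh ⟶ mcylPsh hC M n j) : Prop where
  marks : marksOf hC u = T
  univ : ∀ (Z : GlobModel C) (t : uL.obj S.psh ⟶ mcylPsh hC Z n j), marksOf hC t = T →
    ∃! g : M ⟶ Z, u ≫ mcylMap hC g n j = t

/-- `Conn(n,i)` of the blueprint. -/
def ConnAt (n i : ℕ) : Prop :=
  ∀ (S : Shape) (T : ∀ m, Cell S.psh m → Prop), S.dim ≤ i → IsMarking n S T → ∀ j, i ≤ j →
    ∃ (M : GlobModel C) (u : uL.obj S.psh ⟶ mcylPsh hC M n j), IsUniv hC n j S T M u ∧ GM.Conn M i

end Crest.Agent.Henry
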