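import Crest.Agent.Henry.LemmaJ
import Crest.Agent.Henry.UnivDefs
import Crest.Agent.Henry.Reflect

/-!
# Section 6 of the S0382 blueprint (reroute), part 1: the models `U_m` and `(6a)`.

* `ap g x`: the value of a model map on a cell.
* `IsU n m hm U w H`: `U` is freely generated by an `m`-cell `w` and an `(n+1)`-cell `H` whose source is
  the `n`-source of `w` (`U_m` of the blueprint).
* `conn_U`: `Conn_m (U_m)`, given the cylinder at `(n+1, m)` and the transport inverse.
-/

set_option autoImplicit false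
set_option linter.unusedVariables false

open CategoryTheory CategoryTheory.Limits Opposite
open Crest.GeometryTopology.Coherator
open Crest.GeometryTopology.Coherator.GlobTheory Crest.GeometryTopology.Coherator.GlobTheory.GlobModel

universe u

namespace Crest.Agent.Henry.Reroute

variable {C : GlobTheory.{u}}

/-- The value of a map of models on a cell. -/
noncomputable abbrev ap {Z Y : GlobModel C} (g : Z ⟶ Y) {m : ℕ} (x : Z.cells.cell m) : Y.cells.cell m :=
  (cellsMap g).app m x

theorem ap_comp {Z Y X : GlobModel C} (f : Z ⟶ Y) (g : Y ⟶ X) {m : ℕ} (x : Z.cells.cell m) :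
    ap (f ≫ g) x = ap g (ap f x) := rfl

theorem ap_id {Z : GlobModel C} {m : ℕ} (x : Z.cells.cell m) : ap (𝟙 Z) x = x := rfl

theorem ap_src {Z Y : GlobModel C} (f : Z ⟶ Y) {m : ℕ} (x : Z.cells.cell (m + 1)) :
    ap f (Z.cells.src m x) = Y.cells.src m (ap f x) := (cellsMap f).app_src m x

theorem ap_tgt {Z Y : GlobModel C} (f : Z ⟶ Y) {m : ℕ} (x : Z.cells.cell (m + 1)) :
    ap f (Z.cells.tgt m x) = Y.cells.tgt m (ap f x) := (cellsMap f).app_tgt m x

/-- `U_m`: the model freely generated by an `m`-cell `w` and an `(n+1)`-cell `H` with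
source the `n`-source of `w`. -/
structure IsU (n m : ℕ) (hm : n < m) (U : GlobModel C) (w : U.cells.cell m)
    (H : U.cells.cell (n + 1)) : Prop where
  src_H : U.cells.src n H = GM.bface U hm false w
  univ : ∀ (Z : GlobModel C) (x : Z.cells.cell m) (z : Z.cells.cell (n + 1)),
    Z.cells.src n z = GM.bface Z hm false x → ∃! g : U ⟶ Z, ap g w = x ∧ ap g H = z

theorem IsU.hom_ext {n m : ℕ} {hm : n < m} {U : GlobModel C} {w : U.cells.cell m}
    {H : U.cells.cell (n + 1)} (hU : IsU n m hm U w H) {Z : GlobModel C} {f g : U ⟶ Z}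
    (h1 : ap f w = ap g w) (h2 : ap f H = ap g H) : f = g := by
  have hs : Z.cells.src n (ap g H) = GM.bface Z hm false (ap g w) := by
    rw [← ap_src, hU.src_H]
    exact GM.map_bface g hm false w
  exact (hU.univ Z (ap g w) (ap g H) hs).unique ⟨h1, h2⟩ ⟨rfl, rfl⟩

theorem exists_U (n m : ℕ) (hm : n < m) :
    ∃ (U : GlobModel C) (w : U.cells.cell m) (H : U.cells.cell (n + 1)), IsU n m hm U w H := by
  let X := diskModel C m
  let ι : X.cells.cell m := diskCell (𝟙 X)
  have hι : ∀ {Z : GlobModel C} (f : X ⟶ Z), ap f ι = diskCell f := by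
    intro Z f
    have := diskCell_comp (𝟙 X) f
    rw [Category.id_comp] at this
    exact this.symm
  obtain ⟨Y, i, b, hb, huniv⟩ := exists_attach X (K := PUnit) (fun _ => n)
    (fun _ => GM.bface X hm false ι)
  refine ⟨Y, ap i ι, b PUnit.unit, ?_, ?_⟩
  · rw [hb]
    exact GM.map_bface i hm false ι
  · intro Z x z hz
    have hx : ap (cellDisk x) ι = x := by rw [hι, diskCell_cellDisk]
    obtain ⟨g, ⟨hg1, hg2⟩, hg3⟩ := huniv Z (cellDisk x) (fun _ => z) (fun _ => by
      rw [hz]
      refine Eq.trans ?_ (GM.map_bface (cellDisk x) hm false ι).symm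
      exact (congrArg (GM.bface Z hm false) hx).symm)
    refine ⟨g, ⟨?_, hg2 _⟩, ?_⟩
    · show ap (i ≫ g) ι = x
      rw [hg1, hx]
    · rintro g' ⟨h1, h2⟩
      apply hg3
      refine ⟨?_, fun _ => h2⟩
      have e : cellDisk (diskCell (i ≫ g')) = cellDisk x :=
        congrArg cellDisk ((hι (i ≫ g')).symm.trans h1)
      rw [cellDisk_diskCell] at e
      exact e

/-! ### Free models -/

/-- The map out of a free model given by a tuple. -/
noncomputable def freeDesc {S : Shape} (Z : GlobModel C) (t : Z.functor.obj (op (⟨S⟩ : C.Ob))) :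
    freeOn C S ⟶ Z :=
  yonedaEquiv.symm t

/-- The cell of a free model given by a map of shapes. -/
noncomputable def genCell {S : Shape} {m : ℕ} (f : Shape.globe m ⟶ S) : (freeOn C S).cells.cell m :=
  C.ofShape f

theorem ap_freeDesc_gen {S : Shape} (Z : GlobModel C) (t : Z.functor.obj (op (⟨S⟩ : C.Ob))) {m : ℕ}
    (f : Shape.globe m ⟶ S) : ap (freeDesc Z t) (genCell (C := C) f) = Z.act (C.ofShape f) t := rfl

theorem bface_gen {S : Shape} {k m : ℕ} (hk : k < m) (b : Bool) (f : Shape.globe m ⟶ S) :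
    GM.bface (freeOn C S) hk b (genCell (C := C) f) = genCell (C := C) (Shape.faceMap hk b ≫ f) :=
  (C.ofShape_comp _ _).symm

/-! ### Double inverses -/

section variable (hC : HasFillers C)

theorem step_inv_inv {Z : GlobModel C} {n : ℕ} (H : Z.cells.cell (n + 1)) :
    Z.cells.Step (n + 1) H (GM.inv hC (GM.inv hC H)) := by
  let F := diskModel C (n + 1)
  let ι : F.cells.cell (n + 1) := diskCell (𝟙 F)
  let g : F ⟶ Z := cellDisk H
  have hι : ap g ι = H := by
    have := diskCell_comp (𝟙 F) g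
    rw [Category.id_comp, diskCell_cellDisk] at this
    exact this.symm
  have hconn : GM.Conn F (n + 1) := GM.conn_freeOn hC (S := Shape.globe (n + 1)) (by
    change n + 1 ≤ n + 1 + 1
    omega)
  have hpar : F.cells.AreParallel (n + 1) ι (GM.inv hC (GM.inv hC ι)) := by
    constructor
    · rw [GM.src_inv, GM.tgt_inv]
    · rw [GM.tgt_inv, GM.src_inv]
  have h := GM.step_map g (hconn _ _ hpar)
  have e : (cellsMap g).app (n + 1) (GM.inv hC (GM.inv hC ι)) = GM.inv hC (GM.inv hC H) := by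
    rw [GM.map_inv, GM.map_inv]
    exact congrArg _ (congrArg _ hι)
  rw [e] at h
  rwa [show (cellsMap g).app (n + 1) ι = H from hι] at h


/-! ### `(6a)` -/

variable {n m : ℕ} (hm : n < m)

/-- The two-globe shape `R'` of `(6a)`. -/
abbrev RS (n m : ℕ) (hm : n < m) : Shape := two n (n + 1) m (Nat.lt_succ_self n) hm

/-- The cell `Hbar` of `F(R')`. -/
noncomputable abbrev Hbar : (freeOn C (RS n m hm)).cells.cell (n + 1) :=
  genCell (C := C) (inL n (n + 1) m (Nat.lt_succ_self n) hm)

/-- The cell `w_R` of `F(R')`. -/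
noncomputable abbrev wR : (freeOn C (RS n m hm)).cells.cell m :=
  genCell (C := C) (inR n (n + 1) m (Nat.lt_succ_self n) hm)

theorem Hbar_tgt : (freeOn C (RS n m hm)).cells.tgt n (Hbar (C := C) hm) =
    GM.bface (freeOn C (RS n m hm)) hm false (wR (C := C) hm) := by
  refine (bface_gen (C := C) (Nat.lt_succ_self n) true _).trans ?_
  refine Eq.trans ?_ (bface_gen (C := C) hm false _).symm
  exact congrArg _ two_w

section CylU

variable {U : GlobModel C} {w : U.cells.cell m} {H : U.cells.cell (n + 1)} (hU : IsU n m hm U w H)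
include hU

/-- The map `psi'`. -/
theorem exists_psi' : ∃ ψ : U ⟶ freeOn C (RS n m hm), ap ψ w = wR (C := C) hm ∧
    ap ψ H = GM.inv hC (Hbar (C := C) hm) := by
  obtain ⟨g, hg, -⟩ := hU.univ (freeOn C (RS n m hm)) (wR (C := C) hm) (GM.inv hC (Hbar (C := C) hm))
    ((GM.src_inv hC _).trans (Hbar_tgt hm))
  exact ⟨g, hg⟩

/-- The map `phi'`. -/
theorem exists_phi' : ∃ φ : freeOn C (RS n m hm) ⟶ U, ap φ (Hbar (C := C) hm) = GM.inv hC H ∧
    ap φ (wR (C := C) hm) = w := by
  have hc : GM.bface U (Nat.lt_succ_self n) true (GM.inv hC H) = GM.bface U hm false w :=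
    (GM.tgt_inv hC H).trans hU.src_H
  exact ⟨freeDesc U (GM.pair U _ hm _ _ hc), GM.pair_left _ _ _ _ _, GM.pair_right _ _ _ _ _⟩

/-- `(6a)`: `Conn_m(U_m)`. -/
theorem conn_U (CM : CylModel hC U (n + 1) m) (TI : ∀ k, m = k + 1 → TransportInv hC U (n + 1) k) :
    GM.Conn U m := by
  obtain ⟨ψ, hψ1, hψ2⟩ := exists_psi' hC hm hU
  obtain ⟨φ, hφ1, hφ2⟩ := exists_phi' hC hm hU
  have hcomp1 : ap (ψ ≫ φ) w = w := by rw [ap_comp, hψ1]; exact hφ2
  have hcomp2 : ap (ψ ≫ φ) H = GM.inv hC (GM.inv hC H) := by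
    rw [ap_comp, hψ2]
    refine (GM.map_inv hC φ _).trans ?_
    exact congrArg _ hφ1
  -- the cylinder cell over `H`
  obtain ⟨β, hβ1, hβ2⟩ := step_inv_inv hC H
  let 𝔸 := cellsPsh U
  let x : Cy (cellsPsh U) (n + 1) := Cy.un (.marked (U.cells.src n H)) (.marked (U.cells.tgt n H)) H
    (GM.inv hC (GM.inv hC H)) (some β)
  have hx : Cy.Valid (zOps hC U) (n + 1) m x := by
    refine ⟨trivial, trivial, ?_, le_rfl, rfl, rfl, ?_, ?_, Or.inl ⟨hm, β, rfl, ?_, hβ2⟩⟩
    · exact Cy.par_of_valid (W := zOps hC U) (n := n + 1) (j := m) (x := .marked H) trivial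
    · exact (GM.src_inv hC _).trans (GM.tgt_inv hC _)
    · exact (GM.tgt_inv hC _).trans (GM.src_inv hC _)
    · exact hβ1.trans (TrRaw_marked (zOps hC U) n (U.cells.src n H) (U.cells.tgt n H) (n + 1) H).symm
  obtain ⟨z, hez⟩ := (CM.e (n + 1)).surjective ⟨x, hx⟩
  have hz : CM.P.cells.src n z = GM.bface CM.P hm false (ap CM.d w) := by
    apply (CM.e n).injective
    apply Subtype.ext
    refine (CM.csrc_e n z).symm.trans ?_
    rw [hez]
    show Cy.marked (A := cellsPsh U) (U.cells.src n H) = _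
    rw [hU.src_H, ← CM.d_e]
    exact congrArg _ (congrArg _ (GM.map_bface CM.d hm false w))
  obtain ⟨K, ⟨hK1, hK2⟩, -⟩ := hU.univ CM.P (ap CM.d w) z hz
  have hK0 : K ≫ CM.p0 = 𝟙 U := by
    apply hU.hom_ext
    · rw [ap_comp, hK1, ← ap_comp, CM.d_p0]
    · rw [ap_comp, hK2]
      refine (CM.p0_e _ _).trans ?_
      rw [hez]
      rfl
  have hK1' : K ≫ CM.p1 = ψ ≫ φ := by
    apply hU.hom_ext
    · rw [ap_comp, hK1, ← ap_comp, CM.d_p1, hcomp1]
      rfl
    · rw [ap_comp, hK2, hcomp2]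
      refine (CM.p1_e _ _).trans ?_
      rw [hez]
      rfl
  refine CM.conn_of_homotopy K hK0 (ψ ≫ φ) hK1' TI ?_
  intro u v huv
  have hconn : GM.Conn (freeOn C (RS n m hm)) m := GM.conn_freeOn hC (by
    rw [two_dim]
    exact (max_le hm (Nat.le_refl m)).trans (Nat.le_succ m))
  exact GM.step_map φ (hconn _ _ (GM.parallel_map ψ huv))

end CylU

end

end Crest.Agent.Henry.Reroute
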