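import Crest.Agent.Henry.Reroute1

/-!
# Section 6 of the S0382 blueprint (reroute), part 2: `(6b)`, the tower of cylinder cells `Psi`.
-/

set_option autoImplicit false
set_option linter.unusedVariables false

open CategoryTheory CategoryTheory.Limits Opposite
open Crest.GeometryTopology.Coherator
open Crest.GeometryTopology.Coherator.GlobTheory Crest.GeometryTopology.Coherator.GlobTheory.GlobModel

universe u

namespace Crest.Agent.Henry.Reroute

variable {C : GlobTheory.{u}} (hC : HasFillers C)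

/-- `L(H, L(inv H, x))`. -/
noncomputable def dbl {Z : GlobModel C} {n m : ℕ} (H : Z.cells.cell (n + 1)) (x : Z.cells.cell m) :
    Z.cells.cell m :=
  GM.L hC n H (GM.L hC n (GM.inv hC H) x)

section dblLemmas

variable {Z : GlobModel C} {n m : ℕ} (hm : n < m) {H : Z.cells.cell (n + 1)} {x : Z.cells.cell m}
  (hc : Z.cells.src n H = GM.bface Z hm false x)
include hc

theorem inner_compat : Z.cells.tgt n (GM.inv hC H) = GM.bface Z hm false x :=
  (GM.tgt_inv hC H).trans hc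

theorem outer_compat : Z.cells.tgt n H = GM.bface Z hm false (GM.L hC n (GM.inv hC H) x) := by
  rw [(GM.L_bface hC hm _ _ (inner_compat hC hm hc)).1, GM.src_inv]

theorem dbl_bface_false : GM.bface Z hm false (dbl hC H x) = Z.cells.src n H :=
  (GM.L_bface hC hm _ _ (outer_compat hC hm hc)).1

theorem dbl_bface_true : GM.bface Z hm true (dbl hC H x) = GM.bface Z hm true x :=
  (GM.L_bface hC hm _ _ (outer_compat hC hm hc)).2.trans
    (GM.L_bface hC hm _ _ (inner_compat hC hm hc)).2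

theorem dbl_high {i : ℕ} (hni : n < i) (him : i < m) (e : hm = hni.trans him) (b : Bool) :
    GM.bface Z him b (dbl hC H x) = dbl hC H (GM.bface Z him b x) := by
  subst e
  have h2 := L_high hC Z hni him b _ _ (outer_compat hC _ hc)
  have h1 := L_high hC Z hni him b _ _ (inner_compat hC _ hc)
  exact h2.trans (congrArg _ h1)

theorem map_dbl {Y : GlobModel C} (g : Z ⟶ Y) : ap g (dbl hC H x) = dbl hC (ap g H) (ap g x) := by
  have h1 := GM.map_L hC g hm H _ (outer_compat hC hm hc)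
  have h2 := GM.map_L hC g hm _ _ (inner_compat hC hm hc)
  have h3 := GM.map_inv hC g H
  refine h1.trans ?_
  rw [h2, h3]
  rfl

end dblLemmas

/-- A family of models `U_m`, `m > n`. -/
structure UFam (C : GlobTheory.{u}) (n : ℕ) where
  /-- the models -/
  U : ∀ m, n < m → GlobModel C
  /-- the top cells -/
  w : ∀ m hm, (U m hm).cells.cell m
  /-- the attached cells -/
  H : ∀ m hm, (U m hm).cells.cell (n + 1)
  isU : ∀ m hm, IsU n m hm (U m hm) (w m hm) (H m hm)

theorem nonempty_UFam (C : GlobTheory.{u}) (n : ℕ) : Nonempty (UFam C n) := by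
  choose U w H hU using fun (m : ℕ) (hm : n < m) => exists_U (C := C) n m hm
  exact ⟨⟨U, w, H, hU⟩⟩

namespace UFam

variable {n : ℕ} (D : UFam C n)

theorem src_H (m : ℕ) (hm : n < m) :
    (D.U m hm).cells.src n (D.H m hm) = GM.bface (D.U m hm) hm false (D.w m hm) :=
  (D.isU m hm).src_H

theorem exists_κ {Z : GlobModel C} (m : ℕ) (hm : n < m) (x : Z.cells.cell m)
    (z : Z.cells.cell (n + 1)) (hz : Z.cells.src n z = GM.bface Z hm false x) :
    ∃ g : D.U m hm ⟶ Z, ap g (D.w m hm) = x ∧ ap g (D.H m hm) = z :=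
  ((D.isU m hm).univ Z x z hz).exists

/-- The map out of `U_m` with prescribed values. -/
noncomputable def κ {Z : GlobModel C} (m : ℕ) (hm : n < m) (x : Z.cells.cell m)
    (z : Z.cells.cell (n + 1)) (hz : Z.cells.src n z = GM.bface Z hm false x) : D.U m hm ⟶ Z :=
  Classical.choose (D.exists_κ m hm x z hz)

theorem κ_w {Z : GlobModel C} (m : ℕ) (hm : n < m) (x : Z.cells.cell m)
    (z : Z.cells.cell (n + 1)) (hz : Z.cells.src n z = GM.bface Z hm false x) :
    ap (D.κ m hm x z hz) (D.w m hm) = x :=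
  (Classical.choose_spec (D.exists_κ m hm x z hz)).1

theorem κ_H {Z : GlobModel C} (m : ℕ) (hm : n < m) (x : Z.cells.cell m)
    (z : Z.cells.cell (n + 1)) (hz : Z.cells.src n z = GM.bface Z hm false x) :
    ap (D.κ m hm x z hz) (D.H m hm) = z :=
  (Classical.choose_spec (D.exists_κ m hm x z hz)).2

/-- The source condition for the `b`-face of a cell. -/
theorem src_face {Z : GlobModel C} {m : ℕ} (hm : n < m) (b : Bool) {x : Z.cells.cell (m + 1)}
    {z : Z.cells.cell (n + 1)} (hz : Z.cells.src n z = GM.bface Z (Nat.lt_succ_of_lt hm) false x) :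
    Z.cells.src n z = GM.bface Z hm false (GM.bface Z (Nat.lt_succ_self m) b x) :=
  hz.trans (GM.bface_bface hm (Nat.lt_succ_self m) false b x).symm

/-- The `b`-face map `U_m → U_{m+1}`. -/
noncomputable def ι (m : ℕ) (hm : n < m) (b : Bool) :
    D.U m hm ⟶ D.U (m + 1) (Nat.lt_succ_of_lt hm) :=
  D.κ m hm (GM.bface _ (Nat.lt_succ_self m) b (D.w (m + 1) (Nat.lt_succ_of_lt hm)))
    (D.H (m + 1) (Nat.lt_succ_of_lt hm)) (src_face hm b (D.src_H _ _))

theorem ι_w (m : ℕ) (hm : n < m) (b : Bool) :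
    ap (D.ι m hm b) (D.w m hm) =
      GM.bface _ (Nat.lt_succ_self m) b (D.w (m + 1) (Nat.lt_succ_of_lt hm)) :=
  D.κ_w _ _ _ _ _

theorem ι_H (m : ℕ) (hm : n < m) (b : Bool) :
    ap (D.ι m hm b) (D.H m hm) = D.H (m + 1) (Nat.lt_succ_of_lt hm) :=
  D.κ_H _ _ _ _ _

theorem ι_κ {Z : GlobModel C} (m : ℕ) (hm : n < m) (b : Bool) (x : Z.cells.cell (m + 1))
    (z : Z.cells.cell (n + 1)) (hz : Z.cells.src n z = GM.bface Z (Nat.lt_succ_of_lt hm) false x) :
    D.ι m hm b ≫ D.κ (m + 1) (Nat.lt_succ_of_lt hm) x z hz =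
      D.κ m hm (GM.bface Z (Nat.lt_succ_self m) b x) z (src_face hm b hz) := by
  apply (D.isU m hm).hom_ext
  · rw [ap_comp, ι_w, κ_w]
    refine (GM.map_bface _ _ _ _).trans ?_
    exact congrArg _ (D.κ_w _ _ _ _ _)
  · rw [ap_comp, ι_H, κ_H, κ_H]

/-- `ι` is coglobular. -/
theorem ι_ι (m : ℕ) (hm : n < m) (b c c' : Bool) :
    D.ι m hm b ≫ D.ι (m + 1) (Nat.lt_succ_of_lt hm) c = D.ι m hm b ≫ D.ι (m + 1) (Nat.lt_succ_of_lt hm) c' := by
  apply (D.isU m hm).hom_ext
  · rw [ap_comp, ap_comp, ι_w]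
    refine (GM.map_bface _ _ _ _).trans ?_
    refine Eq.trans ?_ (GM.map_bface _ _ _ _).symm
    refine (congrArg _ (D.ι_w _ _ _)).trans ?_
    refine Eq.trans ?_ (congrArg _ (D.ι_w _ _ _)).symm
    rw [GM.bface_bface, GM.bface_bface]
  · rw [ap_comp, ap_comp, ι_H, ι_H, ι_H]

/-! ### The tower `Psi` -/

open Classical in
/-- The chosen `H`-part of a cylinder cell (or `none`). -/
noncomputable def hpart {A : GlobPsh.{u}} (W : WOps A) (j k : ℕ) (σ τ : Cy A k)
    (z0 z1 : Cell A (k + 1)) : Option (Cell A (k + 2)) :=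
  if h : k + 1 ≤ j ∧ ∃ H0, sr A (k + 1) H0 = TrRaw W k σ τ (k + 1) z0 ∧ tg A (k + 1) H0 = z1 then
    some (Classical.choose h.2)
  else none

theorem hpart_spec {A : GlobPsh.{u}} (W : WOps A) {j k : ℕ} (hk : k + 1 ≤ j) (σ τ : Cy A k)
    (z0 z1 : Cell A (k + 1))
    (h : ∃ H0, sr A (k + 1) H0 = TrRaw W k σ τ (k + 1) z0 ∧ tg A (k + 1) H0 = z1) :
    ∃ H0, hpart W j k σ τ z0 z1 = some H0 ∧ sr A (k + 1) H0 = TrRaw W k σ τ (k + 1) z0 ∧
      tg A (k + 1) H0 = z1 := by
  have h' : k + 1 ≤ j ∧ ∃ H0, sr A (k + 1) H0 = TrRaw W k σ τ (k + 1) z0 ∧ tg A (k + 1) H0 = z1 :=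
    ⟨hk, h⟩
  exact ⟨Classical.choose h'.2, dif_pos h', Classical.choose_spec h'.2⟩

/-- The boundary of the next cell of the tower. -/
noncomputable def bdOf (m : ℕ) (hm : n < m + 1)
    (prev : ∀ h : n < m, Cy (cellsPsh (D.U m h)) m) (b : Bool) :
    Cy (cellsPsh (D.U (m + 1) hm)) m :=
  open Classical in
  if h : n < m then (prev h).map (cmap (D.ι m h b))
  else .marked (GM.bface _ (Nat.lt_succ_self m) b (D.w (m + 1) hm))

/-- The tower of cylinder cells. -/
noncomputable def Psi (j : ℕ) : ∀ (m : ℕ) (hm : n < m), Cy (cellsPsh (D.U m hm)) m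
  | 0, hm => absurd hm (Nat.not_lt_zero n)
  | m + 1, hm =>
    .un (D.bdOf m hm (fun h => Psi j m h) false) (D.bdOf m hm (fun h => Psi j m h) true)
      (D.w (m + 1) hm) (dbl hC (D.H (m + 1) hm) (D.w (m + 1) hm))
      (hpart (zOps hC _) j m (D.bdOf m hm (fun h => Psi j m h) false)
        (D.bdOf m hm (fun h => Psi j m h) true)
        (D.w (m + 1) hm) (dbl hC (D.H (m + 1) hm) (D.w (m + 1) hm)))

variable (j : ℕ)

theorem Psi_p0 (m : ℕ) (hm : n < m) : (D.Psi hC j m hm).p0 = D.w m hm := by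
  cases m with
  | zero => exact absurd hm (Nat.not_lt_zero n)
  | succ m => rfl

theorem Psi_p1 (m : ℕ) (hm : n < m) :
    (D.Psi hC j m hm).p1 = dbl hC (D.H m hm) (D.w m hm) := by
  cases m with
  | zero => exact absurd hm (Nat.not_lt_zero n)
  | succ m => rfl

/-- Shorthand for the boundary cells of the tower. -/
noncomputable abbrev bd (m : ℕ) (hm : n < m + 1) (b : Bool) : Cy (cellsPsh (D.U (m + 1) hm)) m :=
  D.bdOf m hm (fun h => D.Psi hC j m h) b

theorem Psi_csrc (m : ℕ) (hm : n < m + 1) : (D.Psi hC j (m + 1) hm).csrc = D.bd hC j m hm false := rfl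

theorem Psi_ctgt (m : ℕ) (hm : n < m + 1) : (D.Psi hC j (m + 1) hm).ctgt = D.bd hC j m hm true := rfl

theorem bd_lt (m : ℕ) (hm : n < m + 1) (h : n < m) (b : Bool) :
    D.bd hC j m hm b = (D.Psi hC j m h).map (cmap (D.ι m h b)) :=
  dif_pos h

theorem bd_not (m : ℕ) (hm : n < m + 1) (h : ¬ n < m) (b : Bool) :
    D.bd hC j m hm b = .marked (GM.bface _ (Nat.lt_succ_self m) b (D.w (m + 1) hm)) :=
  dif_neg h

theorem bd_p0 (m : ℕ) (hm : n < m + 1) (b : Bool) :
    (D.bd hC j m hm b).p0 = GM.bface _ (Nat.lt_succ_self m) b (D.w (m + 1) hm) := by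
  by_cases h : n < m
  · rw [bd_lt _ _ _ _ _ h, Cy.map_p0, Psi_p0]
    exact D.ι_w m h b
  · rw [bd_not _ _ _ _ _ h]
    rfl

theorem bd_p1 (m : ℕ) (hm : n < m + 1) (b : Bool) :
    (D.bd hC j m hm b).p1 =
      GM.bface _ (Nat.lt_succ_self m) b (dbl hC (D.H (m + 1) hm) (D.w (m + 1) hm)) := by
  by_cases h : n < m
  · rw [bd_lt _ _ _ _ _ h, Cy.map_p1, Psi_p1]
    refine (map_dbl hC h (D.src_H _ _) (D.ι m h b)).trans ?_
    refine Eq.trans ?_ (dbl_high hC _ (D.src_H _ _) h (Nat.lt_succ_self m) rfl b).symm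
    exact congrArg₂ _ (D.ι_H m h b) (D.ι_w m h b)
  · rw [bd_not _ _ _ _ _ h]
    obtain rfl : n = m := by omega
    show GM.bface _ (Nat.lt_succ_self n) b (D.w (n + 1) hm) = _
    cases b with
    | false =>
      rw [dbl_bface_false hC _ (D.src_H _ _)]
      exact (D.src_H _ _).symm
    | true =>
      rw [dbl_bface_true hC _ (D.src_H _ _)]

theorem cmap_comp {Z Y X : GlobModel C} (f : Z ⟶ Y) (g : Y ⟶ X) : cmap (f ≫ g) = cmap f ≫ cmap g :=
  Functor.whiskerLeft_comp _ _ _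

theorem map_bd_eq (m : ℕ) (hm : n < m + 1) (c b b' : Bool) :
    (D.bd hC j m hm c).map (cmap (D.ι (m + 1) hm b)) =
      (D.bd hC j m hm c).map (cmap (D.ι (m + 1) hm b')) := by
  by_cases h : n < m
  · rw [bd_lt _ _ _ _ _ h, ← Cy.map_comp, ← Cy.map_comp, ← cmap_comp, ← cmap_comp]
    exact congrArg (fun g => (D.Psi hC j m h).map (cmap g)) (D.ι_ι m h c b b')
  · rw [bd_not _ _ _ _ _ h]
    show Cy.marked (A := cellsPsh _) (ap _ _) = Cy.marked (A := cellsPsh _) (ap _ _)
    congr 1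
    refine (GM.map_bface _ _ _ _).trans ?_
    refine Eq.trans ?_ (GM.map_bface _ _ _ _).symm
    refine (congrArg _ (D.ι_w _ _ _)).trans ?_
    refine Eq.trans ?_ (congrArg _ (D.ι_w _ _ _)).symm
    rw [GM.bface_bface, GM.bface_bface]

theorem bd_par (m : ℕ) (hm : n < m + 1) : Cy.Par m (D.bd hC j m hm false) (D.bd hC j m hm true) := by
  cases m with
  | zero => trivial
  | succ m =>
    by_cases h : n < m + 1
    · rw [bd_lt _ _ _ _ _ h, bd_lt _ _ _ _ _ h]
      refine ⟨?_, ?_⟩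
      · rw [Cy.map_csrc, Cy.map_csrc, Psi_csrc]
        exact D.map_bd_eq hC j m h false false true
      · rw [Cy.map_ctgt, Cy.map_ctgt, Psi_ctgt]
        exact D.map_bd_eq hC j m h true false true
    · rw [bd_not _ _ _ _ _ h, bd_not _ _ _ _ _ h]
      refine ⟨?_, ?_⟩
      · show Cy.marked (A := cellsPsh _) (GM.bface _ _ _ _) = Cy.marked (A := cellsPsh _) (GM.bface _ _ _ _)
        rw [GM.bface_bface, GM.bface_bface]
      · show Cy.marked (A := cellsPsh _) (GM.bface _ _ _ _) = Cy.marked (A := cellsPsh _) (GM.bface _ _ _ _)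
        rw [GM.bface_bface, GM.bface_bface]

theorem Psi_valid (hConn : ∀ m hm, m ≤ j → GM.Conn (D.U m hm) m) :
    ∀ (m : ℕ) (hm : n < m), m ≤ j → Cy.Valid (zOps hC (D.U m hm)) (n + 1) j (D.Psi hC j m hm) := by
  intro m
  induction m with
  | zero => intro hm; exact absurd hm (Nat.not_lt_zero n)
  | succ m ih =>
    intro hm hmj
    have hσ : ∀ b, Cy.Valid (zOps hC (D.U (m + 1) hm)) (n + 1) j (D.bd hC j m hm b) := by
      intro b
      by_cases h : n < m
      · rw [bd_lt _ _ _ _ _ h]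
        exact Cy.map_valid (zLaws hC _) (zNat hC _) _ (ih h (by omega))
      · rw [bd_not _ _ _ _ _ h]
        trivial
    have hpar := D.bd_par hC j m hm
    have e0 : ∀ b, (D.bd hC j m hm b).p0 = Cell.face (cellsPsh _) (Nat.lt_succ_self m) b (D.w (m + 1) hm) :=
      fun b => D.bd_p0 hC j m hm b
    have e1 : ∀ b, (D.bd hC j m hm b).p1 = Cell.face (cellsPsh _) (Nat.lt_succ_self m) b
        (dbl hC (D.H (m + 1) hm) (D.w (m + 1) hm)) :=
      fun b => D.bd_p1 hC j m hm b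
    have hbd := TrRaw_bdry (zLaws hC (D.U (m + 1) hm)) (n := n + 1) (j := j) (by omega : m ≤ j) (hσ false)
      (hσ true) hpar (Nat.lt_succ_self m) (D.w (m + 1) hm) (e0 false).symm (e0 true).symm
    have hstep := hConn (m + 1) hm hmj _ _ (show (D.U (m + 1) hm).cells.AreParallel (m + 1)
      (TrRaw (zOps hC (D.U (m + 1) hm)) m (D.bd hC j m hm false) (D.bd hC j m hm true) (m + 1)
        (D.w (m + 1) hm)) (dbl hC (D.H (m + 1) hm) (D.w (m + 1) hm)) from
      ⟨hbd.1.trans (e1 false), hbd.2.1.trans (e1 true)⟩)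
    obtain ⟨H0, hH0, hH1, hH2⟩ := hpart_spec (zOps hC (D.U (m + 1) hm)) hmj (D.bd hC j m hm false)
      (D.bd hC j m hm true) (D.w (m + 1) hm) (dbl hC (D.H (m + 1) hm) (D.w (m + 1) hm)) hstep
    exact ⟨hσ false, hσ true, hpar, by omega, (e0 false).symm, (e0 true).symm, (e1 false).symm,
      (e1 true).symm, Or.inl ⟨hmj, H0, hH0, hH1, hH2⟩⟩

end UFam

end Crest.Agent.Henry.Reroute
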