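import Crest.Agent.Henry.Reroute2

/-!
# Section 6 of the S0382 blueprint (reroute), part 3: `(6c)`, the homotopy `H'` on `Y1`.
-/

set_option autoImplicit false
set_option linter.unusedVariables false

open CategoryTheory CategoryTheory.Limits Opposite
open Crest.GeometryTopology.Coherator
open Crest.GeometryTopology.Coherator.GlobTheory Crest.GeometryTopology.Coherator.GlobTheory.GlobModel

universe u

namespace Crest.Agent.Henry.Reroute

variable {C : GlobTheory.{u}} (hC : HasFillers C)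

/-- `Y1 = F(S)[H_v : v ∈ S.psh(n)]`: the universal `S`-tuple `t` with a cell `H v` on each `v`. -/
structure IsY1 (n : ℕ) (S : Shape) (Y : GlobModel C) (t : uL.obj S.psh ⟶ cellsPsh Y)
    (H : Cell S.psh n → Y.cells.cell (n + 1)) : Prop where
  src_H : ∀ v, Y.cells.src n (H v) = cellAt t v
  univ : ∀ (Z : GlobModel C) (t' : uL.obj S.psh ⟶ cellsPsh Z) (z : Cell S.psh n → Z.cells.cell (n + 1)),
    (∀ v, Z.cells.src n (z v) = cellAt t' v) → ∃! g : Y ⟶ Z, t ≫ cmap g = t' ∧ ∀ v, ap g (H v) = z v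

section

variable {n : ℕ} {S : Shape} {Y : GlobModel C} {t : uL.obj S.psh ⟶ cellsPsh Y}
  {H : Cell S.psh n → Y.cells.cell (n + 1)}

theorem IsY1.hom_ext (hY : IsY1 n S Y t H) {Z : GlobModel C} {f g : Y ⟶ Z}
    (h1 : t ≫ cmap f = t ≫ cmap g) (h2 : ∀ v, ap f (H v) = ap g (H v)) : f = g := by
  have hs : ∀ v, Z.cells.src n (ap g (H v)) = cellAt (t ≫ cmap g) v := by
    intro v
    rw [← ap_src, hY.src_H]
    rfl
  exact (hY.univ Z (t ≫ cmap g) (fun v => ap g (H v)) hs).unique ⟨h1, h2⟩ ⟨rfl, fun _ => rfl⟩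

theorem IsY1.hvcond (hY : IsY1 n S Y t H) {m : ℕ} (hm : n < m) (x : Cell S.psh m) :
    Y.cells.src n (H (Cell.face S.psh hm false x)) = GM.bface Y hm false (cellAt t x) :=
  (hY.src_H _).trans (cellAt_face t hm false x)

variable (D : UFam C n) (hY : IsY1 n S Y t H) (j : ℕ)

namespace UFam

/-- The map `U_m → Y1` sending `w` to `x` and `H` to `H_v`, `v` the `n`-source of `x`. -/
noncomputable def kap {m : ℕ} (hm : n < m) (x : Cell S.psh m) : D.U m hm ⟶ Y :=
  D.κ m hm (cellAt t x) (H (Cell.face S.psh hm false x)) (hY.hvcond hm x)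

theorem kap_w {m : ℕ} (hm : n < m) (x : Cell S.psh m) :
    ap (D.kap hY hm x) (D.w m hm) = cellAt t x := D.κ_w _ _ _ _ _

theorem kap_H {m : ℕ} (hm : n < m) (x : Cell S.psh m) :
    ap (D.kap hY hm x) (D.H m hm) = H (Cell.face S.psh hm false x) := D.κ_H _ _ _ _ _

theorem ι_kap {m : ℕ} (hm : n < m) (b : Bool) (x : Cell S.psh (m + 1)) :
    D.ι m hm b ≫ D.kap hY (Nat.lt_succ_of_lt hm) x =
      D.kap hY hm (Cell.face S.psh (Nat.lt_succ_self m) b x) := by
  apply (D.isU m hm).hom_ext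
  · rw [ap_comp, ι_w, kap_w]
    refine (GM.map_bface _ _ _ _).trans ?_
    refine (congrArg _ (D.kap_w hY _ x)).trans ?_
    exact (cellAt_face t _ b x).symm
  · rw [ap_comp, ι_H, kap_H, kap_H, Cell.face_face]

open Classical in
/-- The cylinder cell over a generator. -/
noncomputable def toCy (hC : HasFillers C) (j : ℕ) (m : ℕ) (x : Cell S.psh m) : Cy (cellsPsh Y) m :=
  if hm : n < m then (D.Psi hC j m hm).map (cmap (D.kap hY hm x)) else .marked (cellAt t x)

theorem toCy_lt {m : ℕ} (hm : n < m) (x : Cell S.psh m) :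
    D.toCy hY hC j m x = (D.Psi hC j m hm).map (cmap (D.kap hY hm x)) := dif_pos hm

theorem toCy_not {m : ℕ} (hm : ¬ n < m) (x : Cell S.psh m) :
    D.toCy hY hC j m x = .marked (cellAt t x) := dif_neg hm

theorem toCy_bd (m : ℕ) (hm : n < m + 1) (x : Cell S.psh (m + 1)) (b : Bool) :
    (D.bd hC j m hm b).map (cmap (D.kap hY hm x)) =
      D.toCy hY hC j m (Cell.face S.psh (Nat.lt_succ_self m) b x) := by
  by_cases h : n < m
  · rw [bd_lt _ _ _ _ _ h, ← Cy.map_comp, ← cmap_comp, toCy_lt _ _ _ _ h]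
    exact congrArg (fun g => (D.Psi hC j m h).map (cmap g)) (D.ι_kap hY h b x)
  · rw [bd_not _ _ _ _ _ h, toCy_not _ _ _ _ h]
    show Cy.marked (A := cellsPsh _) (ap _ _) = Cy.marked (A := cellsPsh _) _
    congr 1
    refine (GM.map_bface _ _ _ _).trans ?_
    refine (congrArg _ (D.kap_w hY _ x)).trans ?_
    exact (cellAt_face t _ b x).symm

theorem toCy_csrc (m : ℕ) (x : Cell S.psh (m + 1)) :
    (D.toCy hY hC j (m + 1) x).csrc = D.toCy hY hC j m (Cell.face S.psh (Nat.lt_succ_self m) false x) := by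
  by_cases h : n < m + 1
  · rw [toCy_lt _ _ _ _ h, Cy.map_csrc, Psi_csrc]
    exact D.toCy_bd hC hY j m h x false
  · rw [toCy_not _ _ _ _ h, toCy_not _ _ _ _ (by omega)]
    exact congrArg Cy.marked (cellAt_face t _ false x).symm

theorem toCy_ctgt (m : ℕ) (x : Cell S.psh (m + 1)) :
    (D.toCy hY hC j (m + 1) x).ctgt = D.toCy hY hC j m (Cell.face S.psh (Nat.lt_succ_self m) true x) := by
  by_cases h : n < m + 1
  · rw [toCy_lt _ _ _ _ h, Cy.map_ctgt, Psi_ctgt]
    exact D.toCy_bd hC hY j m h x true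
  · rw [toCy_not _ _ _ _ h, toCy_not _ _ _ _ (by omega)]
    exact congrArg Cy.marked (cellAt_face t _ true x).symm

theorem toCy_p0 (m : ℕ) (x : Cell S.psh m) : (D.toCy hY hC j m x).p0 = cellAt t x := by
  by_cases h : n < m
  · rw [toCy_lt _ _ _ _ h, Cy.map_p0, Psi_p0]
    exact D.kap_w hY h x
  · rw [toCy_not _ _ _ _ h]
    rfl

/-- The value of `p1` of the cylinder cell. -/
noncomputable def p1Val (hC : HasFillers C) {n : ℕ} {S : Shape} {Y : GlobModel C}
    (t : uL.obj S.psh ⟶ cellsPsh Y) (H : Cell S.psh n → Y.cells.cell (n + 1)) (m : ℕ)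
    (x : Cell S.psh m) : Y.cells.cell m :=
  open Classical in
  if hm : n < m then dbl hC (H (Cell.face S.psh hm false x)) (cellAt t x) else cellAt t x

theorem p1Val_lt {m : ℕ} (hm : n < m) (x : Cell S.psh m) :
    p1Val hC t H m x = dbl hC (H (Cell.face S.psh hm false x)) (cellAt t x) := dif_pos hm

theorem p1Val_not {m : ℕ} (hm : ¬ n < m) (x : Cell S.psh m) :
    p1Val hC t H m x = cellAt t x := dif_neg hm

theorem toCy_p1 (m : ℕ) (x : Cell S.psh m) :
    (D.toCy hY hC j m x).p1 = p1Val hC t H m x := by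
  by_cases h : n < m
  · rw [toCy_lt _ _ _ _ h, Cy.map_p1, Psi_p1, p1Val_lt hC h]
    refine (map_dbl hC h (D.src_H _ _) (D.kap hY h x)).trans ?_
    exact congrArg₂ _ (D.kap_H hY h x) (D.kap_w hY h x)
  · rw [toCy_not _ _ _ _ h, p1Val_not hC h]
    rfl

theorem toCy_valid (hS : S.dim ≤ j) (hConn : ∀ m hm, m ≤ j → GM.Conn (D.U m hm) m) (m : ℕ)
    (x : Cell S.psh m) : Cy.Valid (zOps hC Y) (n + 1) j (D.toCy hY hC j m x) := by
  by_cases h : n < m
  · rw [toCy_lt _ _ _ _ h]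
    have hmj : m ≤ j := by
      by_contra hc
      exact (shape_empty S (show S.dim < m by omega)).false x
    exact Cy.map_valid (zLaws hC _) (zNat hC _) _ (D.Psi_valid hC j hConn m h hmj)
  · rw [toCy_not _ _ _ _ h]
    trivial

end UFam

include hY in
/-- `(6c)`: the homotopy on `Y1`. -/
theorem exists_homotopy (CM : CylModel hC Y (n + 1) j) (hS : S.dim ≤ j)
    (hConn : ∀ m hm, m ≤ j → GM.Conn (D.U m hm) m) :
    ∃ K : Y ⟶ CM.P, K ≫ CM.p0 = 𝟙 Y ∧
      (∀ (m : ℕ) (x : Cell S.psh m), ap (K ≫ CM.p1) (cellAt t x) = UFam.p1Val hC t H m x) ∧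
      ∀ v, ap (K ≫ CM.p1) (H v) = H v := by
  have hval := D.toCy_valid hC hY j hS hConn
  let φ : ∀ m, (uL.obj S.psh).obj (op (GlobeObj.mk m)) → (cellsPsh CM.P).obj (op (GlobeObj.mk m)) :=
    fun m x => (CM.e m).symm ⟨D.toCy hY hC j m x.down, hval m x.down⟩
  have hφ : ∀ m x, CM.e m (φ m x) = ⟨D.toCy hY hC j m x.down, hval m x.down⟩ :=
    fun m x => Equiv.apply_symm_apply _ _
  have hs : ∀ m x, φ m ((uL.obj S.psh).map (GlobeObj.σ m).op x) =
      (cellsPsh CM.P).map (GlobeObj.σ m).op (φ (m + 1) x) := by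
    intro m x
    apply (CM.e m).injective
    apply Subtype.ext
    refine (congrArg Subtype.val (hφ m _)).trans ?_
    refine Eq.trans ?_ (CM.csrc_e m _)
    refine Eq.trans ?_ (congrArg (fun y => y.1.csrc) (hφ (m + 1) x)).symm
    exact (D.toCy_csrc hC hY j m x.down).symm
  have ht : ∀ m x, φ m ((uL.obj S.psh).map (GlobeObj.τ m).op x) =
      (cellsPsh CM.P).map (GlobeObj.τ m).op (φ (m + 1) x) := by
    intro m x
    apply (CM.e m).injective
    apply Subtype.ext
    refine (congrArg Subtype.val (hφ m _)).trans ?_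
    refine Eq.trans ?_ (CM.ctgt_e m _)
    refine Eq.trans ?_ (congrArg (fun y => y.1.ctgt) (hφ (m + 1) x)).symm
    exact (D.toCy_ctgt hC hY j m x.down).symm
  let t' : uL.obj S.psh ⟶ cellsPsh CM.P := natOfFaces φ hs ht
  have ht' : ∀ m (x : Cell S.psh m), CM.e m (cellAt t' x) = ⟨D.toCy hY hC j m x, hval m x⟩ :=
    fun m x => hφ m (ULift.up x)
  have hcond : ∀ v, CM.P.cells.src n (ap CM.d (H v)) = cellAt t' v := by
    intro v
    apply (CM.e n).injective
    apply Subtype.ext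
    rw [← ap_src, hY.src_H, ht']
    refine (CM.d_e n _).trans ?_
    exact (D.toCy_not hC hY j (lt_irrefl n) v).symm
  obtain ⟨K, ⟨hK1, hK2⟩, -⟩ := hY.univ CM.P t' (fun v => ap CM.d (H v)) hcond
  have hK1c : ∀ m (x : Cell S.psh m), ap K (cellAt t x) = cellAt t' x := by
    intro m x
    rw [← hK1]
    rfl
  have d0 : ∀ {k : ℕ} (z : Y.cells.cell k), ap CM.p0 (ap CM.d z) = z := fun {k} z =>
    congrArg (fun f : Y ⟶ Y => ap f z) CM.d_p0
  have d1 : ∀ {k : ℕ} (z : Y.cells.cell k), ap CM.p1 (ap CM.d z) = z := fun {k} z =>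
    congrArg (fun f : Y ⟶ Y => ap f z) CM.d_p1
  refine ⟨K, ?_, ?_, ?_⟩
  · apply hY.hom_ext
    · apply hom_ext_cell
      intro m x
      show ap CM.p0 (ap K (cellAt t x)) = cellAt t x
      rw [hK1c]
      refine (CM.p0_e _ _).trans ?_
      rw [ht']
      exact D.toCy_p0 hC hY j m x
    · intro v
      rw [ap_comp, hK2]
      exact d0 _
  · intro m x
    show ap CM.p1 (ap K (cellAt t x)) = _
    rw [hK1c]
    refine (CM.p1_e _ _).trans ?_
    rw [ht']
    exact D.toCy_p1 hC hY j m x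
  · intro v
    rw [ap_comp, hK2]
    exact d1 _

end

end Crest.Agent.Henry.Reroute
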