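import Crest.Agent.Henry.Reroute3
import Crest.Agent.Henry.RInsert

/-!
# Section 6 of the S0382 blueprint (reroute), part 4: the shape `S''` and `Conn_j(Y1)`.
-/

set_option autoImplicit false
set_option linter.unusedVariables false

open CategoryTheory CategoryTheory.Limits Opposite
open Crest.GeometryTopology.Coherator
open Crest.GeometryTopology.Coherator.GlobTheory Crest.GeometryTopology.Coherator.GlobTheory.GlobModel

universe u

namespace Crest.Agent.Henry.Reroute

open RInsert (R G Gmap GCell RCell)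

/-! ### The insertion commutes with `ULift` -/

section uLift

variable {n : ℕ} {P : GlobPsh.{0}}

/-- `ULift` on cells of the insertion. -/
def upR : {m : ℕ} → RCell P n m → RCell (uL.{u}.obj P) n m
  | _, .base x => .base (ULift.up x)
  | _, .upv v => .upv (ULift.up v)
  | _, .hh v => .hh (ULift.up v)

/-- The inverse of `upR`. -/
def dnR : {m : ℕ} → RCell (uL.{u}.obj P) n m → RCell P n m
  | _, .base x => .base x.down
  | _, .upv v => .upv v.down
  | _, .hh v => .hh v.down

theorem dnR_upR {m : ℕ} (c : RCell P n m) : dnR.{u} (upR.{u} c) = c := by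
  cases c <;> rfl

theorem upR_dnR {m : ℕ} (c : RCell (uL.{u}.obj P) n m) : upR.{u} (dnR.{u} c) = c := by
  cases c <;> rfl

theorem upR_face {k : ℕ} (c : RCell P n k) (m : ℕ) (h : m < k) (b : Bool) :
    upR.{u} (c.face m h b) = (upR.{u} c).face m h b := by
  cases c with
  | base x =>
    by_cases hm : m = n
    · subst hm
      cases b <;> simp [RCell.face, upR, RCell.upvAt] <;> rfl
    · simp [RCell.face, upR, hm]
      rfl
  | upv v =>
    simp [RCell.face, upR]
    rfl
  | hh v =>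
    by_cases hm : m = n
    · subst hm
      cases b <;> simp [RCell.face, upR, RCell.upvAt, RInsert.castCell]
    · simp [RCell.face, upR, hm]
      rfl

theorem dnR_face {k : ℕ} (c : RCell (uL.{u}.obj P) n k) (m : ℕ) (h : m < k) (b : Bool) :
    dnR.{u} (c.face m h b) = (dnR.{u} c).face m h b := by
  have := upR_face.{u} (dnR.{u} c) m h b
  rw [upR_dnR] at this
  rw [← this, dnR_upR]

variable (n P) in
/-- The insertion commutes with `ULift`. -/
noncomputable def uLR : uL.{u}.obj (R n P) ≅ R n (uL.{u}.obj P) where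
  hom := RInsert.mkHom (fun _ c => upR.{u} (c.down : RCell P n _))
    (fun m k h b c => upR_face (c.down : RCell P n k) m h b)
  inv := RInsert.mkHom (fun _ c => ULift.up (dnR.{u} c))
    (fun m k h b c => ULift.ext _ _ (dnR_face.{u} c m h b))
  hom_inv_id := by
    apply RInsert.hom_ext'
    intro k x
    exact ULift.ext _ _ (dnR_upR x.down)
  inv_hom_id := by
    apply RInsert.hom_ext'
    intro k x
    exact upR_dnR x

end uLift

/-! ### The universal property of `F(S'')` -/

section Shape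

variable {C : GlobTheory.{u}}

/-- Maps out of `F(S'')` as decorated `S`-tuples. -/
noncomputable def EE {n : ℕ} {S S'' : Shape} (i : S''.psh ≅ R n S.psh) {Z : GlobModel C}
    (g : freeOn C S'' ⟶ Z) : uL.{u}.obj S.psh ⟶ G n (cellsPsh Z) :=
  RInsert.toG ((uLR.{u} n S.psh).inv ≫ uL.{u}.map i.inv ≫
    tupleHom Z (yonedaEquiv (X := (⟨S''⟩ : C.Ob)) (F := Z.functor) g))

theorem EE_bijective {n : ℕ} {S S'' : Shape} (i : S''.psh ≅ R n S.psh) (Z : GlobModel C) :
    Function.Bijective (EE (C := C) i (Z := Z)) := by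
  refine RInsert.adjEquiv.bijective.comp ?_
  refine Function.Bijective.comp ?_ ?_
  · exact ⟨fun a b e => by simpa using congrArg (fun φ => (uLR.{u} n S.psh).hom ≫ φ) e,
      fun φ => ⟨(uLR.{u} n S.psh).hom ≫ φ, by simp⟩⟩
  refine Function.Bijective.comp ?_ ?_
  · exact ⟨fun a b e => (cancel_epi (uL.{u}.mapIso i).inv).1 e,
      fun φ => ⟨(uL.{u}.mapIso i).hom ≫ φ, (uL.{u}.mapIso i).inv_hom_id_assoc φ⟩⟩
  · exact (tupleHom_bijective Z S'').comp (yonedaEquiv (X := (⟨S''⟩ : C.Ob)) (F := Z.functor)).bijective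

theorem EE_natural {n : ℕ} {S S'' : Shape} (i : S''.psh ≅ R n S.psh) {Z Z' : GlobModel C}
    (g : freeOn C S'' ⟶ Z) (h : Z ⟶ Z') : EE i (g ≫ h) = EE i g ≫ Gmap n (cmap h) := by
  unfold EE
  rw [← RInsert.toG_natural]
  congr 1
  have e : yonedaEquiv (X := (⟨S''⟩ : C.Ob)) (F := Z'.functor) (g ≫ h) =
      h.app _ (yonedaEquiv (X := (⟨S''⟩ : C.Ob)) (F := Z.functor) g) := yonedaEquiv_comp g h
  have e2 : tupleHom Z' (yonedaEquiv (X := (⟨S''⟩ : C.Ob)) (F := Z'.functor) (g ≫ h)) =
      tupleHom Z (yonedaEquiv (X := (⟨S''⟩ : C.Ob)) (F := Z.functor) g) ≫ cmap h :=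
    (congrArg (tupleHom Z') e).trans (tupleHom_map h _)
  refine (congrArg (fun φ => (uLR.{u} n S.psh).inv ≫ uL.{u}.map i.inv ≫ φ) e2).trans ?_
  simp only [Category.assoc]

/-- The universal property of the insertion shape. -/
theorem exists_shape (C : GlobTheory.{u}) (n : ℕ) (S : Shape) :
    ∃ (S'' : Shape) (u : uL.{u}.obj S.psh ⟶ G n (cellsPsh (freeOn C S''))),
      S''.dim ≤ max S.dim (n + 1) ∧
      ∀ (Z : GlobModel C) (e : uL.{u}.obj S.psh ⟶ G n (cellsPsh Z)),
        ∃! g : freeOn C S'' ⟶ Z, u ≫ Gmap n (cmap g) = e := by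
  obtain ⟨S'', ⟨i⟩, hd⟩ := RInsert.exists_insert n S
  refine ⟨S'', EE i (𝟙 _), hd, ?_⟩
  intro Z e
  have key : ∀ g : freeOn C S'' ⟶ Z, EE i (𝟙 _) ≫ Gmap n (cmap g) = EE i g := by
    intro g
    rw [← EE_natural]
    congr 1
  obtain ⟨g, hg⟩ := (EE_bijective i Z).2 e
  refine ⟨g, (key g).trans hg, ?_⟩
  intro g' hg'
  exact (EE_bijective i Z).1 ((key g').symm.trans (hg'.trans hg.symm))

end Shape

/-! ### The map `lam`: whisker a decorated cell by its source datum -/

section Lam

variable {C : GlobTheory.{u}} (hC : HasFillers C) {n : ℕ}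

/-- The underlying cell of a decorated cell, whiskered by its source datum. -/
noncomputable def lamCell {Z : GlobModel C} :
    {k : ℕ} → GCell (cellsPsh Z) n k → Cell (cellsPsh Z) k
  | _, .low _ x => x
  | _, .mid H => Z.cells.src n H
  | _, .high _ Hs w _ _ _ => GM.L hC n Hs w

theorem lamCell_face {Z : GlobModel C} {k : ℕ} (x : GCell (cellsPsh Z) n k) (m : ℕ) (h : m < k)
    (b : Bool) : lamCell hC (x.face m h b) = RInsert.pole (cellsPsh Z) h b (lamCell hC x) := by
  cases x with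
  | low hk x => rfl
  | mid H =>
    show RInsert.pole (cellsPsh Z) (h.trans (Nat.lt_succ_self n)) b H =
      RInsert.pole (cellsPsh Z) h b (RInsert.pole (cellsPsh Z) (Nat.lt_succ_self n) false H)
    rw [RInsert.pole_pole]
  | high hk Hs w Ht hs ht =>
    have hc : Z.cells.tgt n Hs = GM.bface Z hk false w := hs
    rcases Nat.lt_trichotomy m n with hm | hm | hm
    · rw [GCell.face_high_low _ _ _ _ _ _ _ hm]
      exact (GM.L_bface_below hC hm hk b Hs w hc).symm
    · subst hm
      rw [GCell.face_high_self]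
      cases b with
      | false => exact (GM.L_bface hC hk Hs w hc).1.symm
      | true =>
        refine Eq.trans ?_ (GM.L_bface hC hk Hs w hc).2.symm
        exact ht
    · rw [GCell.face_high_high _ _ _ _ _ _ _ hm]
      exact (L_high hC Z hm h b Hs w (hc.trans (by rfl))).symm

/-- The map `lam`. -/
noncomputable def lam (Z : GlobModel C) : G n (cellsPsh Z) ⟶ cellsPsh Z :=
  RInsert.mkHom (fun _ x => lamCell hC x) (fun m _ h b x => lamCell_face hC x m h b)

theorem lamCell_map {Z Z' : GlobModel C} (g : Z ⟶ Z') {k : ℕ} (x : GCell (cellsPsh Z) n k) :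
    lamCell hC (x.map (cmap g)) = (cmap g).app _ (lamCell hC x) := by
  cases x with
  | low hk x => rfl
  | mid H => exact (ap_src g H).symm
  | high hk Hs w Ht hs ht => exact (GM.map_L hC g hk Hs w hs).symm

theorem lam_natural {Z Z' : GlobModel C} (g : Z ⟶ Z') :
    Gmap n (cmap g) ≫ lam hC Z' = lam hC Z ≫ cmap g := by
  apply RInsert.hom_ext'
  intro k x
  exact lamCell_map hC g x

theorem hS_map {Q Q' : GlobPsh.{u}} (χ : Q ⟶ Q') (y : GCell Q n n) :
    GCell.hS le_rfl (y.map χ) = χ.app _ (GCell.hS le_rfl y) := by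
  cases y with
  | low hm x => omega
  | mid H => rfl
  | high hm Hs w Ht hs ht => omega

end Lam

/-! ### The decorated tuple `ephi` -/

section Ephi

variable {C : GlobTheory.{u}} (hC : HasFillers C) {n : ℕ} {S : Shape} {Y : GlobModel C}
  {t : uL.obj S.psh ⟶ cellsPsh Y} {H : Cell S.psh n → Y.cells.cell (n + 1)} (hY : IsY1 n S Y t H)

include hY in
theorem ephi_hc {k : ℕ} (hk : n < k) (x : Cell S.psh k) :
    Y.cells.tgt n (GM.inv hC (H (Cell.face S.psh hk false x))) = GM.bface Y hk false (cellAt t x) :=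
  inner_compat hC hk (hY.hvcond hk x)

include hY in
theorem ephi_hs {k : ℕ} (hk : n < k) (x : Cell S.psh k) :
    RInsert.pole (cellsPsh Y) (Nat.lt_succ_self n) true (H (Cell.face S.psh hk false x)) =
      RInsert.pole (cellsPsh Y) hk false
        (GM.L hC n (GM.inv hC (H (Cell.face S.psh hk false x))) (cellAt t x)) :=
  outer_compat hC hk (hY.hvcond hk x)

include hY in
theorem ephi_ht {k : ℕ} (hk : n < k) (x : Cell S.psh k) :
    RInsert.pole (cellsPsh Y) (Nat.lt_succ_self n) false (H (Cell.face S.psh hk true x)) =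
      RInsert.pole (cellsPsh Y) hk true
        (GM.L hC n (GM.inv hC (H (Cell.face S.psh hk false x))) (cellAt t x)) := by
  refine (hY.src_H _).trans ?_
  refine (cellAt_face t hk true x).trans ?_
  exact (GM.L_bface hC hk _ _ (ephi_hc hC hY hk x)).2.symm

open Classical in
/-- The decorated tuple of `Y1`: the image of `phi`. -/
noncomputable def ephiCell (k : ℕ) (x : Cell S.psh k) : GCell (cellsPsh Y) n k :=
  if hk : k < n then .low hk (cellAt t x)
  else if hk' : k = n then .midAt hk' (H (RInsert.castCell hk'.symm x))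
  else .high (by omega) (H (Cell.face S.psh (by omega : n < k) false x))
    (GM.L hC n (GM.inv hC (H (Cell.face S.psh (by omega : n < k) false x))) (cellAt t x))
    (H (Cell.face S.psh (by omega : n < k) true x))
    (ephi_hs hC hY (by omega) x) (ephi_ht hC hY (by omega) x)

theorem ephi_low {k : ℕ} (hk : k < n) (x : Cell S.psh k) :
    ephiCell hC hY k x = .low hk (cellAt t x) := by
  simp [ephiCell, hk]

theorem ephi_mid (x : Cell S.psh n) : ephiCell hC hY n x = .mid (H x) := by
  simp [ephiCell, GCell.midAt, RInsert.castCell]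

theorem ephi_high {k : ℕ} (hk : n < k) (x : Cell S.psh k) :
    ephiCell hC hY k x = .high hk (H (Cell.face S.psh hk false x))
      (GM.L hC n (GM.inv hC (H (Cell.face S.psh hk false x))) (cellAt t x))
      (H (Cell.face S.psh hk true x)) (ephi_hs hC hY hk x) (ephi_ht hC hY hk x) := by
  have h1 : ¬ k < n := by omega
  have h2 : k ≠ n := by omega
  simp [ephiCell, h1, h2]

theorem ephi_face {m k : ℕ} (h : m < k) (b : Bool) (x : Cell S.psh k) :
    ephiCell hC hY m (Cell.face S.psh h b x) = (ephiCell hC hY k x).face m h b := by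
  have hct : ∀ (m k : ℕ) (h : m < k) (b : Bool) (x : Cell S.psh k),
      cellAt t (Cell.face S.psh h b x) = RInsert.pole (cellsPsh Y) h b (cellAt t x) :=
    fun m k h b x => cellAt_face t h b x
  rcases Nat.lt_trichotomy k n with hk | hk | hk
  · have hm : m < n := h.trans hk
    rw [ephi_low hC hY hk, ephi_low hC hY hm]
    simp only [GCell.face]
    congr 1
    exact hct _ _ _ _ _
  · subst hk
    rw [ephi_low hC hY h, ephi_mid]
    simp only [GCell.face]
    congr 1
    rw [hct, ← hY.src_H x]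
    exact RInsert.pole_pole (cellsPsh Y) h (Nat.lt_succ_self _) b false (H x)
  · rw [ephi_high hC hY hk]
    rcases Nat.lt_trichotomy m n with hm | hm | hm
    · rw [ephi_low hC hY hm]
      refine Eq.trans ?_ (GCell.face_high_low _ _ _ _ _ _ _ hm b).symm
      congr 1
      rw [hct]
      exact (GM.L_bface_below hC hm hk b _ _ (ephi_hc hC hY hk x)).symm
    · subst hm
      rw [ephi_mid]
      refine Eq.trans ?_ (GCell.face_high_self _ _ _ _ _ _ _ b).symm
      cases b <;> rfl
    · rw [ephi_high hC hY hm]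
      refine Eq.trans ?_ (GCell.face_high_high _ _ _ _ _ _ _ hm b).symm
      have e1 : ∀ b', Cell.face S.psh hm b' (Cell.face S.psh h b x) = Cell.face S.psh hk b' x :=
        fun b' => Cell.face_face S.psh hm h b' b x
      refine RInsert.GCell.high_congr (congrArg H (e1 false)) ?_ (congrArg H (e1 true))
      refine Eq.trans ?_ (L_high hC Y hm h b _ _ (ephi_hc hC hY hk x)).symm
      rw [e1 false, hct]
      rfl

/-- The decorated tuple `ephi`. -/
noncomputable def ephi : uL.obj S.psh ⟶ G n (cellsPsh Y) :=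
  RInsert.mkHom (fun k x => ephiCell hC hY k x.down)
    (fun m k h b x => ephi_face hC hY h b x.down)

theorem lam_ephi (m : ℕ) (x : Cell S.psh m) :
    lamCell hC (ephiCell hC hY m x) = UFam.p1Val hC t H m x := by
  rcases Nat.lt_trichotomy m n with hm | hm | hm
  · rw [ephi_low hC hY hm, UFam.p1Val_not hC (by omega)]
    rfl
  · subst hm
    rw [ephi_mid, UFam.p1Val_not hC (lt_irrefl _)]
    exact hY.src_H x
  · rw [ephi_high hC hY hm, UFam.p1Val_lt hC hm]
    rfl

theorem hS_ephi (v : Cell S.psh n) : GCell.hS le_rfl (ephiCell hC hY n v) = H v := by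
  rw [ephi_mid]
  rfl

/-! ### The conclusion -/

include hY in
/-- `(6d)`: `Conn_j(Y1)`. -/
theorem conn_Y1 {j : ℕ} (hn : n ≤ j) (hS : S.dim ≤ j)
    (CM : ∀ i, i ≤ j → ∀ Z : GlobModel C, Nonempty (CylModel hC Z (n + 1) i))
    (TI : ∀ (Z : GlobModel C) (k : ℕ), k + 1 ≤ j → TransportInv hC Z (n + 1) k) :
    GM.Conn Y j := by
  obtain ⟨D⟩ := nonempty_UFam C n
  have hConn : ∀ m hm, m ≤ j → GM.Conn (D.U m hm) m := by
    intro m hm hmj
    obtain ⟨Q⟩ := CM m hmj (D.U m hm)
    exact conn_U hC hm (D.isU m hm) Q (fun k hk => TI _ k (by omega))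
  obtain ⟨Q⟩ := CM j le_rfl Y
  obtain ⟨K, hK0, hK1, hK2⟩ := exists_homotopy hC D hY j Q hS hConn
  obtain ⟨S'', u, hd, hu⟩ := exists_shape C n S
  have hcond : ∀ v, (freeOn C S'').cells.src n (GCell.hS le_rfl (cellAt u v)) =
      cellAt (u ≫ lam hC (freeOn C S'')) v := by
    intro v
    have hy := GCell.eq_mid (cellAt u v : GCell (cellsPsh (freeOn C S'')) n n)
    show _ = lamCell hC (cellAt u v : GCell (cellsPsh (freeOn C S'')) n n)
    conv_rhs => rw [hy]
    rfl
  obtain ⟨ψ, ⟨hψ1, hψ2⟩, -⟩ := hY.univ (freeOn C S'') (u ≫ lam hC (freeOn C S''))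
    (fun v => GCell.hS le_rfl (cellAt u v)) hcond
  obtain ⟨φ, hφ, -⟩ := hu Y (ephi hC hY)
  have hθ1 : K ≫ Q.p1 = ψ ≫ φ := by
    apply hY.hom_ext
    · apply hom_ext_cell
      intro m x
      have e1 : cellAt (t ≫ cmap (K ≫ Q.p1)) x = UFam.p1Val hC t H m x := hK1 m x
      refine e1.trans ?_
      have e2 : t ≫ cmap (ψ ≫ φ) = u ≫ lam hC (freeOn C S'') ≫ cmap φ := by
        rw [UFam.cmap_comp, ← Category.assoc, hψ1, Category.assoc]
      rw [e2, ← lam_natural, ← Category.assoc, hφ]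
      exact (lam_ephi hC hY m x).symm
    · intro v
      refine (hK2 v).trans ?_
      rw [ap_comp, hψ2]
      have e3 : cellAt (u ≫ Gmap n (cmap φ)) v = cellAt (ephi hC hY) v := congrArg (fun f => cellAt f v) hφ
      have e4 : GCell.hS le_rfl (cellAt (u ≫ Gmap n (cmap φ)) v : GCell (cellsPsh Y) n n) =
          ap φ (GCell.hS le_rfl (cellAt u v : GCell (cellsPsh (freeOn C S'')) n n)) :=
        hS_map (cmap φ) (cellAt u v : GCell (cellsPsh (freeOn C S'')) n n)
      rw [← e4, e3]
      exact (hS_ephi hC hY v).symm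
  have hconn : GM.Conn (freeOn C S'') j := GM.conn_freeOn hC (hd.trans (max_le (by omega) (by omega)))
  refine Q.conn_of_homotopy K hK0 (ψ ≫ φ) hθ1 (fun k hk => TI Y k (by omega)) ?_
  intro u' v' huv
  exact GM.step_map φ (hconn _ _ (GM.parallel_map ψ huv))

end Ephi

/-! ### Existence of `Y1` and the subfamily version -/

section Exists

variable {C : GlobTheory.{u}}

/-- `Y1(V) = F(S)[H_v : v ∈ V]`, for a set `V` of `n`-cells of `S`. -/
structure IsY1V (n : ℕ) (S : Shape) (V : Cell S.psh n → Prop) (Y : GlobModel C)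
    (t : uL.obj S.psh ⟶ cellsPsh Y) (H : ∀ v, V v → Y.cells.cell (n + 1)) : Prop where
  src_H : ∀ v hv, Y.cells.src n (H v hv) = cellAt t v
  univ : ∀ (Z : GlobModel C) (t' : uL.obj S.psh ⟶ cellsPsh Z)
    (z : ∀ v, V v → Z.cells.cell (n + 1)), (∀ v hv, Z.cells.src n (z v hv) = cellAt t' v) →
      ∃! g : Y ⟶ Z, t ≫ cmap g = t' ∧ ∀ v hv, ap g (H v hv) = z v hv

/-- Existence of `Y1(V)`. -/
theorem exists_Y1V (n : ℕ) (S : Shape) (V : Cell S.psh n → Prop) :
    ∃ (Y : GlobModel C) (t : uL.obj S.psh ⟶ cellsPsh Y) (H : ∀ v, V v → Y.cells.cell (n + 1)),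
      IsY1V n S V Y t H := by
  let F := freeOn C S
  let t0 : uL.obj S.psh ⟶ cellsPsh F := tupleHom F (C.one S)
  let K := ULift.{u} {v : Cell S.psh n // V v}
  obtain ⟨Y, i, b, hb, huniv⟩ := exists_attach F (K := K) (fun _ => n) (fun k => cellAt t0 k.down.1)
  have hone : ∀ {Z : GlobModel C} (g : F ⟶ Z), t0 ≫ cmap g = tupleHom Z (g.app _ (C.one S)) :=
    fun g => (tupleHom_map g _).symm
  refine ⟨Y, t0 ≫ cmap i, fun v hv => b (ULift.up ⟨v, hv⟩), fun v hv => hb _, ?_⟩
  intro Z t' z hz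
  obtain ⟨x, hx⟩ := (tupleHom_bijective Z S).2 t'
  let g0 : F ⟶ Z := freeDesc Z x
  have hg0 : t0 ≫ cmap g0 = t' := by
    rw [hone, ← hx]
    congr 1
    exact (yonedaEquiv (X := (⟨S⟩ : C.Ob)) (F := Z.functor)).apply_symm_apply x
  obtain ⟨h, ⟨h1, h2⟩, h3⟩ := huniv Z g0 (fun k => z k.down.1 k.down.2) (fun k => by
    refine (hz _ _).trans ?_
    rw [← hg0]
    rfl)
  refine ⟨h, ⟨?_, fun v hv => h2 (ULift.up ⟨v, hv⟩)⟩, ?_⟩
  · rw [Category.assoc, ← UFam.cmap_comp, h1, hg0]
  · rintro h' ⟨e1, e2⟩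
    apply h3
    refine ⟨?_, fun k => e2 _ _⟩
    apply (yonedaEquiv (X := (⟨S⟩ : C.Ob)) (F := Z.functor)).injective
    apply (tupleHom_bijective Z S).1
    refine (hone (i ≫ h')).symm.trans ?_
    refine Eq.trans ?_ (hone g0)
    rw [hg0, UFam.cmap_comp, ← Category.assoc, e1]

/-- Existence of `Y1`. -/
theorem exists_Y1 (n : ℕ) (S : Shape) :
    ∃ (Y : GlobModel C) (t : uL.obj S.psh ⟶ cellsPsh Y) (H : Cell S.psh n → Y.cells.cell (n + 1)),
      IsY1 n S Y t H := by
  obtain ⟨Y, t, H, h⟩ := exists_Y1V (C := C) n S (fun _ => True)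
  refine ⟨Y, t, fun v => H v trivial, fun v => h.src_H v trivial, ?_⟩
  intro Z t' z hz
  obtain ⟨g, ⟨h1, h2⟩, h3⟩ := h.univ Z t' (fun v _ => z v) (fun v _ => hz v)
  exact ⟨g, ⟨h1, fun v => h2 v trivial⟩, fun g' hg' => h3 g' ⟨hg'.1, fun v _ => hg'.2 v⟩⟩

variable (hC : HasFillers C)

/-- `Conn_j(Y1(V))`: a retract of `Y1`. -/
theorem conn_Y1V {n j : ℕ} {S : Shape} {V : Cell S.psh n → Prop} {Y : GlobModel C}
    {t : uL.obj S.psh ⟶ cellsPsh Y} {H : ∀ v, V v → Y.cells.cell (n + 1)} (hY : IsY1V n S V Y t H)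
    (hn : n ≤ j) (hS : S.dim ≤ j)
    (CM : ∀ i, i ≤ j → ∀ Z : GlobModel C, Nonempty (CylModel hC Z (n + 1) i))
    (TI : ∀ (Z : GlobModel C) (k : ℕ), k + 1 ≤ j → TransportInv hC Z (n + 1) k) :
    GM.Conn Y j := by
  classical
  obtain ⟨Y', t', H', hY'⟩ := exists_Y1 (C := C) n S
  have hconn := conn_Y1 hC hY' hn hS CM TI
  obtain ⟨i, ⟨i1, i2⟩, -⟩ := hY.univ Y' t' (fun v _ => H' v) (fun v _ => hY'.src_H v)
  obtain ⟨r, ⟨r1, r2⟩, -⟩ := hY'.univ Y t
    (fun v => if hv : V v then H v hv else GM.unit hC (cellAt t v)) (fun v => by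
      by_cases hv : V v
      · simp only [hv, dite_true]
        exact hY.src_H v hv
      · simp only [hv, dite_false]
        exact GM.src_unit hC _)
  refine GM.Conn.of_retract i r ?_ hconn
  refine (hY.univ Y t H hY.src_H).unique ⟨?_, ?_⟩ ⟨Category.comp_id _, fun _ _ => rfl⟩
  · rw [UFam.cmap_comp, ← Category.assoc, i1, r1]
  · intro v hv
    rw [ap_comp, i2, r2]
    simp [hv]

end Exists

end Crest.Agent.Henry.Reroute
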