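import Crest.Agent.Henry.UnivDefs
import Crest.Agent.Henry.RepStep

/-!
# Universal objects `M_{S,T}` (S0382, section 2) (helper11)

For a shape `S` of height `≤ j` and a set `T` of "marked" generators, the chain of J-steps
`M 0 = F(S) ⟶ M 1 ⟶ ⋯`, where `M (m+1)` is `M m` with a J-family along `Tr(t0 c)`, `c` the unmarked
generators of dimension `m`, and the model `M_{S,T} = M (S.dim + 1)` representing the tuples of the
cylinder `Cyl^{(n),j}` with marked locus exactly `T`.
-/

set_option autoImplicit false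
set_option linter.unusedVariables false

open CategoryTheory CategoryTheory.Limits Opposite
open Crest.GeometryTopology.Coherator
open Crest.GeometryTopology.Coherator.GlobTheory Crest.GeometryTopology.Coherator.GlobTheory.GlobModel

universe u

namespace Crest.Agent.Henry

variable {C : GlobTheory.{u}}

/-- The value of a tuple at a generator. -/
noncomputable abbrev tc {Z : GlobModel C} {S : Shape} (x : Tuples Z S) {m : ℕ} (c : Cell S.psh m) :
    Cell (cellsPsh Z) m :=
  cellAt (tupleHom Z x) c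

theorem tc_map {Z Z' : GlobModel C} (g : Z ⟶ Z') {S : Shape} (x : Tuples Z S) {m : ℕ}
    (c : Cell S.psh m) : tc (g.app _ x) c = (cmap g).app _ (tc x c) := by
  unfold tc
  rw [tupleHom_map]
  rfl

theorem tc_face {Z : GlobModel C} {S : Shape} (x : Tuples Z S) {m k : ℕ} (h : m < k) (b : Bool)
    (c : Cell S.psh k) : tc x (Cell.face S.psh h b c) = Cell.face (cellsPsh Z) h b (tc x c) :=
  cellAt_face _ h b c

variable (hC : HasFillers C) (n j : ℕ) {S : Shape} (T : ∀ m, Cell S.psh m → Prop)

/-- A stage of the chain: the family of partial tuples up to dimension `m`. -/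
structure Stage (m : ℕ) where
  F : Fam C
  t0 : ∀ {Z : GlobModel C}, F.P Z → Tuples Z S
  t0_map : ∀ {Z Z' : GlobModel C} (g : Z ⟶ Z') (p : F.P Z), t0 (F.map g p) = g.app _ (t0 p)
  cy : ∀ {Z : GlobModel C}, F.P Z → ∀ k, k < m → Cell S.psh k → Cy (cellsPsh Z) k
  cy_map : ∀ {Z Z' : GlobModel C} (g : Z ⟶ Z') (p : F.P Z) (k : ℕ) (hk : k < m) (c : Cell S.psh k),
    cy (F.map g p) k hk c = (cy p k hk c).map (cmap g)
  cy_valid : ∀ {Z : GlobModel C} (p : F.P Z) (k : ℕ) (hk : k < m) (c : Cell S.psh k),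
    Cy.Valid (zOps hC Z) n j (cy p k hk c)
  cy_marked : ∀ {Z : GlobModel C} (p : F.P Z) (k : ℕ) (hk : k < m) (c : Cell S.psh k),
    (cy p k hk c).IsMarked ↔ T k c
  cy_p0 : ∀ {Z : GlobModel C} (p : F.P Z) (k : ℕ) (hk : k < m) (c : Cell S.psh k),
    (cy p k hk c).p0 = tc (t0 p) c
  cy_csrc : ∀ {Z : GlobModel C} (p : F.P Z) (k : ℕ) (hk : k + 1 < m) (c : Cell S.psh (k + 1)),
    (cy p (k + 1) hk c).csrc = cy p k (by omega) (Cell.face S.psh (Nat.lt_succ_self k) false c)
  cy_ctgt : ∀ {Z : GlobModel C} (p : F.P Z) (k : ℕ) (hk : k + 1 < m) (c : Cell S.psh (k + 1)),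
    (cy p (k + 1) hk c).ctgt = cy p k (by omega) (Cell.face S.psh (Nat.lt_succ_self k) true c)
  ext : ∀ {Z : GlobModel C} (p p' : F.P Z), t0 p = t0 p' →
    (∀ k hk c, cy p k hk c = cy p' k hk c) → p = p'

namespace Stage

variable {hC n j T}

/-- The family of tuples in a model. -/
noncomputable def tupFam (S : Shape) : Fam C where
  P Z := Tuples Z S
  map g x := g.app _ x
  map_comp f g x := rfl

variable (hC n j T) in
/-- The initial stage. -/
noncomputable def zero : Stage hC n j T 0 where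
  F := tupFam S
  t0 x := x
  t0_map g x := rfl
  cy _ k hk _ := absurd hk (Nat.not_lt_zero k)
  cy_map _ _ k hk _ := absurd hk (Nat.not_lt_zero k)
  cy_valid _ k hk _ := absurd hk (Nat.not_lt_zero k)
  cy_marked _ k hk _ := absurd hk (Nat.not_lt_zero k)
  cy_p0 _ k hk _ := absurd hk (Nat.not_lt_zero k)
  cy_csrc _ k hk _ := absurd hk (Nat.not_lt_zero _)
  cy_ctgt _ k hk _ := absurd hk (Nat.not_lt_zero _)
  ext _ _ h _ := h

variable {m : ℕ} (St : Stage hC n j T m)

/-- The attaching cell of a generator of dimension `m`. -/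
noncomputable def aCell : {m : ℕ} → (St : Stage hC n j T m) → {Z : GlobModel C} → St.F.P Z →
    Cell S.psh m → Cell (cellsPsh Z) m
  | 0, St, _, p, c => tc (St.t0 p) c
  | m + 1, St, Z, p, c =>
    TrRaw (zOps hC Z) m (St.cy p m (Nat.lt_succ_self m) (Cell.face S.psh (Nat.lt_succ_self m) false c))
      (St.cy p m (Nat.lt_succ_self m) (Cell.face S.psh (Nat.lt_succ_self m) true c)) (m + 1)
      (tc (St.t0 p) c)

/-- The new unmarked cell of a generator of dimension `m`, given its `H`-cell. -/
noncomputable def newCy : {m : ℕ} → (St : Stage hC n j T m) → {Z : GlobModel C} → St.F.P Z →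
    Cell S.psh m → Cell (cellsPsh Z) (m + 1) → Cy (cellsPsh Z) m
  | 0, St, Z, p, c, z => .un0 (tc (St.t0 p) c) (tg _ 0 z) (some z)
  | m + 1, St, Z, p, c, z =>
    .un (St.cy p m (Nat.lt_succ_self m) (Cell.face S.psh (Nat.lt_succ_self m) false c))
      (St.cy p m (Nat.lt_succ_self m) (Cell.face S.psh (Nat.lt_succ_self m) true c))
      (tc (St.t0 p) c) (tg _ (m + 1) z) (some z)

theorem newCy_p0 {Z : GlobModel C} (p : St.F.P Z) (c : Cell S.psh m)
    (z : Cell (cellsPsh Z) (m + 1)) : (St.newCy p c z).p0 = tc (St.t0 p) c := by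
  cases m <;> rfl

theorem newCy_hof {Z : GlobModel C} (p : St.F.P Z) (c : Cell S.psh m)
    (z : Cell (cellsPsh Z) (m + 1)) : (St.newCy p c z).hof = some z := by
  cases m <;> rfl

theorem newCy_not_marked {Z : GlobModel C} (p : St.F.P Z) (c : Cell S.psh m)
    (z : Cell (cellsPsh Z) (m + 1)) : ¬ (St.newCy p c z).IsMarked := by
  cases m <;> exact id

/-- The boundary pair of a generator of dimension `m + 1` is parallel. -/
theorem cy_par {m : ℕ} (St : Stage hC n j T (m + 1)) {Z : GlobModel C} (p : St.F.P Z)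
    (c : Cell S.psh (m + 1)) :
    Cy.Par m (St.cy p m (Nat.lt_succ_self m) (Cell.face S.psh (Nat.lt_succ_self m) false c))
      (St.cy p m (Nat.lt_succ_self m) (Cell.face S.psh (Nat.lt_succ_self m) true c)) := by
  cases m with
  | zero => trivial
  | succ m =>
    refine ⟨?_, ?_⟩
    · rw [St.cy_csrc, St.cy_csrc]
      congr 1
      rw [Cell.face_face, Cell.face_face]
    · rw [St.cy_ctgt, St.cy_ctgt]
      congr 1
      rw [Cell.face_face, Cell.face_face]

theorem face_tc_p0 {m : ℕ} (St : Stage hC n j T (m + 1)) {Z : GlobModel C} (p : St.F.P Z)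
    (c : Cell S.psh (m + 1)) (b : Bool) :
    Cell.face (cellsPsh Z) (Nat.lt_succ_self m) b (tc (St.t0 p) c) =
      (St.cy p m (Nat.lt_succ_self m) (Cell.face S.psh (Nat.lt_succ_self m) b c)).p0 := by
  rw [St.cy_p0, tc_face]

/-- The dimension of a generator is at most the height. -/
theorem dim_le_of_cell {m : ℕ} (c : Cell S.psh m) : m ≤ S.dim := by
  by_contra h
  exact (shape_empty S (not_le.mp h)).false c

variable (hS : S.dim ≤ j) (hT' : IsMarking n S T)

include hS in
theorem aCell_map {Z Z' : GlobModel C} (g : Z ⟶ Z') (p : St.F.P Z) (c : Cell S.psh m) :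
    St.aCell (St.F.map g p) c = (cmap g).app _ (St.aCell p c) := by
  cases m with
  | zero =>
    show tc (St.t0 (St.F.map g p)) c = _
    rw [St.t0_map, tc_map]
    rfl
  | succ m =>
    have hm : m ≤ j := by have := dim_le_of_cell c; omega
    show TrRaw _ m (St.cy _ m _ _) (St.cy _ m _ _) (m + 1) (tc (St.t0 (St.F.map g p)) c) =
      (cmap g).app _ (TrRaw _ m _ _ (m + 1) _)
    rw [St.cy_map, St.cy_map, St.t0_map, tc_map]
    exact (TrRaw_natural (zLaws hC Z) (zNat hC g) (j := j) hm (St.cy_valid p _ _ _)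
      (St.cy_valid p _ _ _) (St.cy_par p c) (Nat.lt_succ_self m) _ (St.face_tc_p0 p c false)
      (St.face_tc_p0 p c true)).symm

include hS in
theorem newCy_valid {Z : GlobModel C} (p : St.F.P Z) (c : Cell S.psh m)
    (z : Cell (cellsPsh Z) (m + 1)) (hnm : n ≤ m) (hz : sr _ m z = St.aCell p c) :
    Cy.Valid (zOps hC Z) n j (St.newCy p c z) := by
  cases m with
  | zero =>
    exact ⟨by omega, z, rfl, hz, rfl⟩
  | succ m =>
    have hm : m + 1 ≤ j := (dim_le_of_cell c).trans hS
    have hb := TrRaw_bdry (zLaws hC Z) (n := n) (j := j) (by omega) (St.cy_valid p _ _ (Cell.face S.psh (Nat.lt_succ_self m) false c))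
      (St.cy_valid p _ _ (Cell.face S.psh (Nat.lt_succ_self m) true c)) (St.cy_par p c) (Nat.lt_succ_self m)
      (tc (St.t0 p) c) (St.face_tc_p0 p c false) (St.face_tc_p0 p c true)
    refine ⟨St.cy_valid p _ _ _, St.cy_valid p _ _ _, St.cy_par p c, hnm, St.face_tc_p0 p c false,
      St.face_tc_p0 p c true, ?_, ?_, Or.inl ⟨hm, z, rfl, hz, rfl⟩⟩
    · refine (Cy.sr_sr _ m z).symm.trans ?_
      refine (congrArg (sr _ m) hz).trans ?_
      exact hb.1
    · refine (Cy.tg_tg _ m z).symm.trans ?_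
      refine (congrArg (tg _ m) hz).trans ?_
      exact hb.2.1

theorem newCy_map {Z Z' : GlobModel C} (g : Z ⟶ Z') (p : St.F.P Z) (c : Cell S.psh m)
    (z : Cell (cellsPsh Z) (m + 1)) :
    (St.newCy p c z).map (cmap g) = St.newCy (St.F.map g p) c ((cmap g).app _ z) := by
  cases m with
  | zero =>
    show Cy.un0 _ _ _ = Cy.un0 _ _ _
    rw [St.t0_map, tc_map]
    have : tg _ 0 ((cmap g).app _ z) = (cmap g).app _ (tg _ 0 z) := (Conx.face_natural _ _ _ _).symm
    rw [this]
    rfl
  | succ m =>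
    show Cy.un _ _ _ _ _ = Cy.un _ _ _ _ _
    rw [St.cy_map, St.cy_map, St.t0_map, tc_map]
    have : tg _ (m + 1) ((cmap g).app _ z) = (cmap g).app _ (tg _ (m + 1) z) :=
      (Conx.face_natural _ _ _ _).symm
    rw [this]
    rfl

/-- The unmarked generators of dimension `m`. -/
def KK (T : ∀ m, Cell S.psh m → Prop) (m : ℕ) : Type u := ULift.{u} { c : Cell S.psh m // ¬ T m c }

/-- The next family of partial tuples. -/
noncomputable def nextFam : Fam C where
  P Z := { q : St.F.P Z × (KK T m → Z.cells.cell (m + 1)) //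
    ∀ k : KK T m, Z.cells.src m (q.2 k) = St.aCell q.1 k.down.1 }
  map g q := ⟨(St.F.map g q.1.1, fun k => (cellsMap g).app _ (q.1.2 k)), fun k => by
    rw [aCell_map St hS g]
    rw [← (cellsMap g).app_src, q.2 k]
    rfl⟩
  map_comp f g q := by
    apply Subtype.ext
    apply Prod.ext
    · exact St.F.map_comp f g q.1.1
    · rfl

open Classical in
/-- The cell of the next stage at a generator of dimension `m`. -/
noncomputable def topCy {Z : GlobModel C} (q : (St.nextFam hS).P Z) (c : Cell S.psh m) :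
    Cy (cellsPsh Z) m :=
  if h : T m c then .marked (tc (St.t0 q.1.1) c) else St.newCy q.1.1 c (q.1.2 ⟨⟨c, h⟩⟩)

/-- Transport along an equality of dimensions. -/
def castCy {A : GlobPsh.{u}} {k m : ℕ} (e : k = m) (c : Cell S.psh k) (f : Cell S.psh m → Cy A m) :
    Cy A k := by
  subst e
  exact f c

open Classical in
/-- The cells of the next stage. -/
noncomputable def nextCy {Z : GlobModel C} (q : (St.nextFam hS).P Z) (k : ℕ) (hk : k < m + 1)
    (c : Cell S.psh k) : Cy (cellsPsh Z) k :=
  if h : k < m then St.cy q.1.1 k h c else castCy (by omega : k = m) c (St.topCy hS q)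

theorem nextCy_lt {Z : GlobModel C} (q : (St.nextFam hS).P Z) (k : ℕ) (hk : k < m + 1) (h : k < m)
    (c : Cell S.psh k) : St.nextCy hS q k hk c = St.cy q.1.1 k h c :=
  dif_pos h

theorem nextCy_eq {Z : GlobModel C} (q : (St.nextFam hS).P Z) (hk : m < m + 1)
    (c : Cell S.psh m) : St.nextCy hS q m hk c = St.topCy hS q c :=
  dif_neg (lt_irrefl m)

theorem topCy_marked {Z : GlobModel C} (q : (St.nextFam hS).P Z) (c : Cell S.psh m) (h : T m c) :
    St.topCy hS q c = .marked (tc (St.t0 q.1.1) c) :=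
  dif_pos h

theorem topCy_new {Z : GlobModel C} (q : (St.nextFam hS).P Z) (c : Cell S.psh m) (h : ¬ T m c) :
    St.topCy hS q c = St.newCy q.1.1 c (q.1.2 ⟨⟨c, h⟩⟩) :=
  dif_neg h

theorem eq_marked_of_isMarked {A : GlobPsh.{u}} {m : ℕ} (x : Cy A m) (h : x.IsMarked) :
    x = .marked x.p0 := by
  cases x with
  | marked z => rfl
  | un0 z0 z1 H => exact h.elim
  | un σ τ z0 z1 H => exact h.elim

/-- The successor stage. -/
noncomputable def succ : Stage hC n j T (m + 1) where
  F := St.nextFam hS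
  t0 q := St.t0 q.1.1
  t0_map g q := St.t0_map g q.1.1
  cy q := St.nextCy hS q
  cy_map g q k hk c := by
    rcases Nat.lt_succ_iff_lt_or_eq.mp hk with h | rfl
    · rw [nextCy_lt St hS _ k hk h, nextCy_lt St hS _ k hk h]
      exact St.cy_map g q.1.1 k h c
    · rw [nextCy_eq, nextCy_eq]
      by_cases hT : T k c
      · rw [topCy_marked St hS _ c hT, topCy_marked St hS _ c hT]
        show Cy.marked _ = Cy.marked _
        congr 1
        rw [show St.t0 (St.nextFam hS |>.map g q).1.1 = _ from St.t0_map g q.1.1, tc_map]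
      · rw [topCy_new St hS _ c hT, topCy_new St hS _ c hT]
        exact (St.newCy_map g q.1.1 c _).symm
  cy_valid q k hk c := by
    rcases Nat.lt_succ_iff_lt_or_eq.mp hk with h | rfl
    · rw [nextCy_lt St hS _ k hk h]
      exact St.cy_valid q.1.1 k h c
    · rw [nextCy_eq]
      by_cases hT : T k c
      · rw [topCy_marked St hS _ c hT]
        trivial
      · rw [topCy_new St hS _ c hT]
        refine St.newCy_valid hS q.1.1 c _ ?_ (q.2 _)
        by_contra hlt
        exact hT (hT'.low k (not_le.mp hlt) c)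
  cy_marked q k hk c := by
    rcases Nat.lt_succ_iff_lt_or_eq.mp hk with h | rfl
    · rw [nextCy_lt St hS _ k hk h]
      exact St.cy_marked q.1.1 k h c
    · rw [nextCy_eq]
      by_cases hT : T k c
      · rw [topCy_marked St hS _ c hT]
        exact ⟨fun _ => hT, fun _ => trivial⟩
      · rw [topCy_new St hS _ c hT]
        exact ⟨fun h => (St.newCy_not_marked _ _ _ h).elim, fun h => (hT h).elim⟩
  cy_p0 q k hk c := by
    rcases Nat.lt_succ_iff_lt_or_eq.mp hk with h | rfl
    · rw [nextCy_lt St hS _ k hk h]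
      exact St.cy_p0 q.1.1 k h c
    · rw [nextCy_eq]
      by_cases hT : T k c
      · rw [topCy_marked St hS _ c hT]
        rfl
      · rw [topCy_new St hS _ c hT]
        exact St.newCy_p0 _ _ _
  cy_csrc q k hk c := by
    rcases Nat.lt_succ_iff_lt_or_eq.mp hk with h | rfl
    · rw [nextCy_lt St hS q (k + 1) hk h, nextCy_lt St hS q k (by omega) (by omega)]
      exact St.cy_csrc q.1.1 k h c
    · rw [nextCy_eq, nextCy_lt St hS q k (by omega) (Nat.lt_succ_self k)]
      by_cases hT : T (k + 1) c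
      · rw [topCy_marked St hS _ c hT]
        have hm := (St.cy_marked q.1.1 k (Nat.lt_succ_self k) (Cell.face S.psh (Nat.lt_succ_self k) false c)).2
          (hT'.down (Nat.lt_succ_self k) false c hT)
        rw [eq_marked_of_isMarked _ hm, St.cy_p0, tc_face]
        rfl
      · rw [topCy_new St hS _ c hT]
        rfl
  cy_ctgt q k hk c := by
    rcases Nat.lt_succ_iff_lt_or_eq.mp hk with h | rfl
    · rw [nextCy_lt St hS q (k + 1) hk h, nextCy_lt St hS q k (by omega) (by omega)]
      exact St.cy_ctgt q.1.1 k h c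
    · rw [nextCy_eq, nextCy_lt St hS q k (by omega) (Nat.lt_succ_self k)]
      by_cases hT : T (k + 1) c
      · rw [topCy_marked St hS _ c hT]
        have hm := (St.cy_marked q.1.1 k (Nat.lt_succ_self k) (Cell.face S.psh (Nat.lt_succ_self k) true c)).2
          (hT'.down (Nat.lt_succ_self k) true c hT)
        rw [eq_marked_of_isMarked _ hm, St.cy_p0, tc_face]
        rfl
      · rw [topCy_new St hS _ c hT]
        rfl
  ext q q' h0 hc := by
    apply Subtype.ext
    apply Prod.ext
    · refine St.ext _ _ h0 (fun k hk c => ?_)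
      have := hc k (by omega) c
      rwa [nextCy_lt St hS q k (by omega) hk, nextCy_lt St hS q' k (by omega) hk] at this
    · funext k
      have h1 := congrArg Cy.hof (hc m (Nat.lt_succ_self m) k.down.1)
      rw [nextCy_eq, nextCy_eq, topCy_new St hS q _ k.down.2, topCy_new St hS q' _ k.down.2] at h1
      exact Option.some.inj ((St.newCy_hof _ _ _).symm.trans (h1.trans (St.newCy_hof _ _ _)))

/-- The step from a stage to the next one adds cells. -/
noncomputable def addCells : AddCells St.F (St.nextFam hS) m (KK T m) where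
  π q := q.1.1
  π_map g q := rfl
  A k p := St.aCell p k.down.1
  A_map g k p := St.aCell_map hS g p k.down.1
  new k q := q.1.2 k
  new_map g k q := rfl
  src_new k q := q.2 k
  exists_q p z hz := ⟨⟨(p, z), hz⟩, rfl, fun _ => rfl⟩
  ext_q q q' h₁ h₂ := Subtype.ext (Prod.ext h₁ (funext h₂))

end Stage

/-- The whole sequence of stages. -/
noncomputable def stage (hS : S.dim ≤ j) (hT : IsMarking n S T) : (m : ℕ) → Stage hC n j T m
  | 0 => Stage.zero hC n j T
  | m + 1 => (stage hS hT m).succ hS hT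

/-- The free model on `S` represents tuples. -/
theorem rep_zero :
    Rep (Stage.zero hC n j T).F (freeOn C S)
      (show (Stage.zero hC n j T).F.P (freeOn C S) from 𝟙 (⟨S⟩ : C.Ob)) := by
  intro Z t
  refine ⟨yonedaEquiv.symm t, ?_, ?_⟩
  · exact yonedaEquiv.apply_symm_apply t
  · intro g hg
    exact yonedaEquiv.injective (hg.trans (yonedaEquiv.apply_symm_apply t).symm)

/-! ### The chain -/

section ChainSec

variable {hC n j T}
variable (hS : S.dim ≤ j) (hT : IsMarking n S T)

/-- A representing object of a stage. -/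
structure RepObj (St : Fam C) where
  M : GlobModel C
  v : St.P M
  rep : Rep St M v

/-- One step of the chain. -/
structure StepData {m : ℕ} (St : Stage hC n j T m) (x : RepObj St.F) where
  Y : GlobModel C
  i : x.M ⟶ Y
  b : Stage.KK T m → Y.cells.cell (m + 1)
  v' : (St.nextFam hS).P Y
  src_b : ∀ k, Y.cells.src m (b k) = (cellsMap i).app m (St.aCell x.v k.down.1)
  univ : ∀ (Z : GlobModel C) (g : x.M ⟶ Z) (z : Stage.KK T m → Z.cells.cell (m + 1)),
    (∀ k, Z.cells.src m (z k) = (cellsMap g).app m (St.aCell x.v k.down.1)) →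
      ∃! h : Y ⟶ Z, i ≫ h = g ∧ ∀ k, (cellsMap h).app (m + 1) (b k) = z k
  v'_fst : v'.1.1 = St.F.map i x.v
  v'_snd : ∀ k, v'.1.2 k = b k
  rep : Rep (St.nextFam hS) Y v'

theorem stepData_nonempty {m : ℕ} (St : Stage hC n j T m) (x : RepObj St.F) :
    Nonempty (StepData hS St x) := by
  obtain ⟨Y, i, b, v', h1, h2, h3, h4, h5⟩ := rep_step (St.addCells hS) x.rep
  exact ⟨⟨Y, i, b, v', h1, h2, h3, h4, h5⟩⟩

/-- The chain of representing objects. -/
noncomputable def chainObj : (m : ℕ) → RepObj (stage hC n j T hS hT m).F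
  | 0 => ⟨freeOn C S, show (Stage.zero hC n j T).F.P (freeOn C S) from 𝟙 (⟨S⟩ : C.Ob), rep_zero hC n j T⟩
  | m + 1 =>
    let D := Classical.choice (stepData_nonempty hS (stage hC n j T hS hT m) (chainObj m))
    ⟨D.Y, D.v', D.rep⟩

/-- The steps of the chain. -/
noncomputable def chainStep (m : ℕ) : StepData hS (stage hC n j T hS hT m) (chainObj hS hT m) :=
  Classical.choice (stepData_nonempty hS (stage hC n j T hS hT m) (chainObj hS hT m))

/-- The model at stage `m` of the chain. -/
noncomputable def chainM (m : ℕ) : GlobModel C := (chainObj (hC := hC) hS hT m).M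

/-- The map from stage `m` to stage `m + 1` of the chain. -/
noncomputable def chainI (m : ℕ) : chainM (hC := hC) hS hT m ⟶ chainM (hC := hC) hS hT (m + 1) :=
  (chainStep hS hT m).i

/-- The J-step from stage `m` to stage `m + 1` of the chain. -/
noncomputable def chainJ (m : ℕ) : JStep (chainI (hC := hC) hS hT m) m where
  K := Stage.KK T m
  a k := (stage hC n j T hS hT m).aCell (chainObj hS hT m).v k.down.1
  b := (chainStep hS hT m).b
  src_b := (chainStep hS hT m).src_b
  univ := (chainStep hS hT m).univ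

end ChainSec

/-! ### From cylinder tuples to stages -/

section Top

variable {hC n j T}

/-- The `0`-end of a cylinder tuple, as a tuple of the model. -/
noncomputable def t00 {Z : GlobModel C} (t : uL.obj S.psh ⟶ mcylPsh hC Z n j) : Tuples Z S :=
  (tupleEquiv Z S).symm (t ≫ cylP0 (zOps hC Z) n j)

theorem tc_t00 {Z : GlobModel C} (t : uL.obj S.psh ⟶ mcylPsh hC Z n j) {m : ℕ} (c : Cell S.psh m) :
    tc (t00 t) c = (cellAt t c : (mcyl hC Z n j).cell m).1.p0 := by
  have h : tupleHom Z (t00 t) = t ≫ cylP0 (zOps hC Z) n j :=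
    (tupleEquiv Z S).apply_symm_apply _
  unfold tc
  rw [h]
  rfl

theorem cellAt_csrc {Z : GlobModel C} (t : uL.obj S.psh ⟶ mcylPsh hC Z n j) {k : ℕ}
    (c : Cell S.psh (k + 1)) :
    (cellAt t (Cell.face S.psh (Nat.lt_succ_self k) false c) : (mcyl hC Z n j).cell k).1 =
      (cellAt t c : (mcyl hC Z n j).cell (k + 1)).1.csrc := by
  rw [cellAt_face]
  exact congrArg Subtype.val (cylPsh_σ (zOps hC Z) n j k _)

theorem cellAt_ctgt {Z : GlobModel C} (t : uL.obj S.psh ⟶ mcylPsh hC Z n j) {k : ℕ}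
    (c : Cell S.psh (k + 1)) :
    (cellAt t (Cell.face S.psh (Nat.lt_succ_self k) true c) : (mcyl hC Z n j).cell k).1 =
      (cellAt t c : (mcyl hC Z n j).cell (k + 1)).1.ctgt := by
  rw [cellAt_face]
  exact congrArg Subtype.val (cylPsh_τ (zOps hC Z) n j k _)

section forms

variable {A : GlobPsh.{u}} {W : WOps A}

theorem un_form0 (x : Cy A 0) (hx : Cy.Valid W n j x) (hu : ¬ x.IsMarked) :
    ∃ H0, x = .un0 x.p0 (tg A 0 H0) (some H0) ∧ sr A 0 H0 = x.p0 := by
  cases x with
  | marked z => exact (hu trivial).elim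
  | un0 z0 z1 H =>
    obtain ⟨-, H0, rfl, h1, rfl⟩ := hx
    exact ⟨H0, rfl, h1⟩

theorem un_form {k : ℕ} (x : Cy A (k + 1)) (hx : Cy.Valid W n j x) (hu : ¬ x.IsMarked) (hk : k + 1 ≤ j) :
    ∃ H0, x = .un x.csrc x.ctgt x.p0 (tg A (k + 1) H0) (some H0) ∧
      sr A (k + 1) H0 = TrRaw W k x.csrc x.ctgt (k + 1) x.p0 := by
  cases x with
  | marked z => exact (hu trivial).elim
  | un σ τ z0 z1 H =>
    obtain ⟨-, -, -, -, -, -, -, -, h⟩ := hx
    rcases h with ⟨-, H0, rfl, h1, rfl⟩ | ⟨h, -⟩
    · exact ⟨H0, rfl, h1⟩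
    · omega

end forms

theorem TrRaw_marked {A : GlobPsh.{u}} (W : WOps A) (k : ℕ) (a b : Cell A k) (h : ℕ) (w : Cell A h) :
    TrRaw W k (.marked a) (.marked b) h w = w := by
  induction k with
  | zero => rfl
  | succ k ih =>
    show rw' W (k + 1) h (lw W (k + 1) h none (TrRaw W k (.marked _) (.marked _) h w)) none = w
    rw [ih]
    rfl

variable (hS : S.dim ≤ j) (hT : IsMarking n S T)

theorem step_of_tup {m : ℕ} (St : Stage hC n j T m) {Z : GlobModel C}
    (t : uL.obj S.psh ⟶ mcylPsh hC Z n j) (ht : marksOf hC t = T) (p : St.F.P Z)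
    (h0 : St.t0 p = t00 t)
    (hc : ∀ k hk c, St.cy p k hk c = (cellAt t c : (mcyl hC Z n j).cell k).1) :
    ∃ p' : (St.succ hS hT).F.P Z, (St.succ hS hT).t0 p' = t00 t ∧
      ∀ k hk c, (St.succ hS hT).cy p' k hk c = (cellAt t c : (mcyl hC Z n j).cell k).1 := by
  have hmk : ∀ {k : ℕ} (c : Cell S.psh k),
      (cellAt t c : (mcyl hC Z n j).cell k).1.IsMarked ↔ T k c := by
    intro k c
    rw [← ht]
    exact Iff.rfl
  have h00 : ∀ {k : ℕ} (c : Cell S.psh k), tc (St.t0 p) c =
      (cellAt t c : (mcyl hC Z n j).cell k).1.p0 := by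
    intro k c
    rw [h0, tc_t00]
  have key : ∀ k : Stage.KK T m, ∃ z : Z.cells.cell (m + 1), Z.cells.src m z = St.aCell p k.down.1 ∧
      (cellAt t k.down.1 : (mcyl hC Z n j).cell m).1 = St.newCy p k.down.1 z := by
    intro k
    obtain ⟨c, hcT⟩ := k.down
    have hu : ¬ (cellAt t c : (mcyl hC Z n j).cell m).1.IsMarked := fun h => hcT ((hmk c).1 h)
    have hv := (cellAt t c : (mcyl hC Z n j).cell m).2
    cases m with
    | zero =>
      obtain ⟨H0, h1, h2⟩ := un_form0 _ hv hu
      refine ⟨H0, ?_, ?_⟩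
      · show sr _ 0 H0 = tc (St.t0 p) c
        rw [h00]; exact h2
      · refine h1.trans ?_
        show Cy.un0 _ _ _ = Cy.un0 _ _ _
        rw [h00]
    | succ m =>
      obtain ⟨H0, h1, h2⟩ := un_form _ hv hu ((Stage.dim_le_of_cell c).trans hS)
      refine ⟨H0, ?_, ?_⟩
      · show sr _ (m + 1) H0 = TrRaw _ m (St.cy p m _ _) (St.cy p m _ _) (m + 1) (tc (St.t0 p) c)
        rw [hc, hc, h00, cellAt_csrc, cellAt_ctgt]
        exact h2
      · refine h1.trans ?_
        show Cy.un _ _ _ _ _ = Cy.un (St.cy p m _ _) (St.cy p m _ _) _ _ _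
        rw [hc, hc, h00, cellAt_csrc, cellAt_ctgt]
  choose z hz₁ hz₂ using key
  let q : (St.nextFam hS).P Z := ⟨(p, z), hz₁⟩
  refine ⟨q, h0, fun k hk c => ?_⟩
  show St.nextCy hS q k hk c = _
  rcases Nat.lt_succ_iff_lt_or_eq.mp hk with h | rfl
  · rw [Stage.nextCy_lt St hS q k hk h]
    exact hc k h c
  · rw [Stage.nextCy_eq]
    by_cases hTc : T k c
    · rw [Stage.topCy_marked St hS _ c hTc,
        Stage.eq_marked_of_isMarked _ ((hmk c).2 hTc)]
      show Cy.marked _ = Cy.marked _
      rw [h00]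
    · rw [Stage.topCy_new St hS _ c hTc]
      exact (hz₂ ⟨⟨c, hTc⟩⟩).symm

theorem exists_of_tup {Z : GlobModel C} (t : uL.obj S.psh ⟶ mcylPsh hC Z n j)
    (ht : marksOf hC t = T) (m : ℕ) :
    ∃ p : (stage hC n j T hS hT m).F.P Z, (stage hC n j T hS hT m).t0 p = t00 t ∧
      ∀ k hk c, (stage hC n j T hS hT m).cy p k hk c = (cellAt t c : (mcyl hC Z n j).cell k).1 := by
  induction m with
  | zero =>
    exact ⟨t00 t, rfl, fun k hk => absurd hk (Nat.not_lt_zero k)⟩
  | succ m ih =>
    obtain ⟨p, h0, hc⟩ := ih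
    exact step_of_tup hS hT _ t ht p h0 hc

end Top

namespace Stage

variable {hC n j T} {m : ℕ} (St : Stage hC n j T m)

/-- The cylinder tuple of a partial tuple, when all the generators are reached. -/
noncomputable def tupOf (hm : S.dim < m) {Z : GlobModel C} (p : St.F.P Z) :
    uL.obj S.psh ⟶ mcylPsh hC Z n j :=
  natOfFaces (fun k c => (⟨St.cy p k ((dim_le_of_cell c.down).trans_lt hm) c.down,
      St.cy_valid p k _ c.down⟩ : (mcyl hC Z n j).cell k))
    (fun k c => (Subtype.ext (St.cy_csrc p k ((dim_le_of_cell c.down).trans_lt hm) c.down).symm).trans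
      (cylPsh_σ (zOps hC Z) n j k _).symm)
    (fun k c => (Subtype.ext (St.cy_ctgt p k ((dim_le_of_cell c.down).trans_lt hm) c.down).symm).trans
      (cylPsh_τ (zOps hC Z) n j k _).symm)

theorem cellAt_tupOf (hm : S.dim < m) {Z : GlobModel C} (p : St.F.P Z) {k : ℕ} (c : Cell S.psh k) :
    (cellAt (St.tupOf hm p) c : (mcyl hC Z n j).cell k).1 =
      St.cy p k ((dim_le_of_cell c).trans_lt hm) c := rfl

theorem marksOf_tupOf (hm : S.dim < m) {Z : GlobModel C} (p : St.F.P Z) :
    marksOf hC (St.tupOf hm p) = T := by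
  funext k c
  exact propext (St.cy_marked p k _ c)

theorem tupOf_map (hm : S.dim < m) {Z Z' : GlobModel C} (g : Z ⟶ Z') (p : St.F.P Z) :
    St.tupOf hm (St.F.map g p) = St.tupOf hm p ≫ mcylMap hC g n j := by
  apply hom_ext_cell
  intro k c
  apply Subtype.ext
  exact St.cy_map g p k _ c

theorem tupOf_inj (hm : S.dim < m) {Z : GlobModel C} (p p' : St.F.P Z)
    (h : St.tupOf hm p = St.tupOf hm p') : p = p' := by
  have hc : ∀ {k : ℕ} (c : Cell S.psh k) (hk : k < m), St.cy p k hk c = St.cy p' k hk c := by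
    intro k c hk
    have := congrArg (fun t => (cellAt t c : (mcyl hC Z n j).cell k).1) h
    exact this
  refine St.ext p p' ?_ (fun k hk c => hc c hk)
  apply (tupleHom_bijective Z S).1
  apply hom_ext_cell
  intro k c
  have hk : k < m := (dim_le_of_cell c).trans_lt hm
  show tc (St.t0 p) c = tc (St.t0 p') c
  rw [← St.cy_p0 p k hk c, ← St.cy_p0 p' k hk c, hc c hk]

end Stage

section Main

variable {hC n j T}

theorem isUniv_of_rep {m : ℕ} (St : Stage hC n j T m) (hm : S.dim < m) (x : RepObj St.F)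
    (hex : ∀ (Z : GlobModel C) (t : uL.obj S.psh ⟶ mcylPsh hC Z n j), marksOf hC t = T →
      ∃ p : St.F.P Z, St.tupOf hm p = t) :
    IsUniv hC n j S T x.M (St.tupOf hm x.v) where
  marks := Stage.marksOf_tupOf _ _ _
  univ Z t ht := by
    obtain ⟨p, ep⟩ := hex Z t ht
    obtain ⟨g, hg, hgu⟩ := x.rep Z p
    refine ⟨g, ?_, ?_⟩
    · show St.tupOf hm x.v ≫ mcylMap hC g n j = t
      rw [← St.tupOf_map, hg, ep]
    · intro g' hg'
      apply hgu
      apply St.tupOf_inj hm
      rw [St.tupOf_map, ep]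
      exact hg'

variable (hS : S.dim ≤ j) (hT : IsMarking n S T)

theorem isUniv_chain (m : ℕ) (hm : S.dim < m) :
    IsUniv hC n j S T (chainObj hS hT m).M
      ((stage hC n j T hS hT m).tupOf hm (chainObj hS hT m).v) := by
  refine isUniv_of_rep _ hm _ (fun Z t ht => ?_)
  obtain ⟨p, -, hp⟩ := exists_of_tup hS hT t ht m
  refine ⟨p, ?_⟩
  apply hom_ext_cell
  intro k c
  apply Subtype.ext
  exact hp k _ c

end Main

/-! ### The export for the induction of section 7 -/

section Export

/-- `i` attaches the cells `b k` along the cells `a k`. -/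
structure IsJ {X Y : GlobModel C} (i : X ⟶ Y) (m : ℕ) {K : Type u} (a : K → X.cells.cell m)
    (b : K → Y.cells.cell (m + 1)) : Prop where
  src_b : ∀ k, Y.cells.src m (b k) = (cellsMap i).app m (a k)
  univ : ∀ (Z : GlobModel C) (g : X ⟶ Z) (z : K → Z.cells.cell (m + 1)),
    (∀ k, Z.cells.src m (z k) = (cellsMap g).app m (a k)) →
      ∃! h : Y ⟶ Z, i ≫ h = g ∧ ∀ k, (cellsMap h).app (m + 1) (b k) = z k

/-- The `JStep` of an `IsJ`. -/
noncomputable def IsJ.toJStep {X Y : GlobModel C} {i : X ⟶ Y} {m : ℕ} {K : Type u}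
    {a : K → X.cells.cell m} {b : K → Y.cells.cell (m + 1)} (h : IsJ i m a b) : JStep i m :=
  ⟨K, a, b, h.src_b, h.univ⟩

/-- A J-step with no attached cell is an isomorphism. -/
theorem JStep.isIso_of_isEmpty {X Y : GlobModel C} {i : X ⟶ Y} {m : ℕ} (J : JStep i m)
    (hK : IsEmpty J.K) : IsIso i := by
  obtain ⟨h, ⟨h₁, -⟩, -⟩ := J.univ X (𝟙 X) (fun k => hK.elim k) (fun k => hK.elim k)
  refine ⟨h, h₁, ?_⟩
  apply J.hom_ext
  · rw [← Category.assoc, h₁]; simp
  · exact fun k => hK.elim k

/-- The generator `c` as a cell of the free model. -/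
noncomputable def genCell {S : Shape} {k : ℕ} (c : Cell S.psh k) : (freeOn C S).cells.cell k :=
  tc (Z := freeOn C S) (show Tuples (freeOn C S) S from 𝟙 (⟨S⟩ : C.Ob)) c

theorem map_genCell {S : Shape} {Z : GlobModel C} (g : freeOn C S ⟶ Z) {k : ℕ} (c : Cell S.psh k) :
    (cellsMap g).app k (genCell c) =
      tc (Z := Z) (g.app _ (show Tuples (freeOn C S) S from 𝟙 (⟨S⟩ : C.Ob))) c :=
  (tc_map g _ c).symm

variable {hC n j T}
variable (hS : S.dim ≤ j) (hT : IsMarking n S T)

namespace Stage

include hT in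
/-- At level `≤ n` the attaching cells are just the cells of the tuple, the boundary being marked. -/
theorem aCell_of_low {m : ℕ} (St : Stage hC n j T m) (hm : m ≤ n) {Z : GlobModel C} (p : St.F.P Z)
    (c : Cell S.psh m) : St.aCell p c = tc (St.t0 p) c := by
  cases m with
  | zero => rfl
  | succ m =>
    have hmk : ∀ b, (St.cy p m (Nat.lt_succ_self m) (Cell.face S.psh (Nat.lt_succ_self m) b c)).IsMarked :=
      fun b => (St.cy_marked p m _ _).2 (hT.low m (by omega) _)
    show TrRaw _ m (St.cy p m _ _) (St.cy p m _ _) (m + 1) _ = _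
    rw [eq_marked_of_isMarked _ (hmk false), eq_marked_of_isMarked _ (hmk true), TrRaw_marked]

end Stage

/-- The composite from the free model to stage `m`. -/
noncomputable def chainF (m : ℕ) : freeOn C S ⟶ (chainObj (hC := hC) hS hT m).M :=
  match m with
  | 0 => 𝟙 (freeOn C S)
  | m + 1 => chainF m ≫ (chainStep hS hT m).i

theorem t0_chain (m : ℕ) :
    (stage hC n j T hS hT m).t0 (chainObj hS hT m).v =
      (chainF hS hT m).app _ (show Tuples (freeOn C S) S from 𝟙 (⟨S⟩ : C.Ob)) := by
  induction m with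
  | zero => rfl
  | succ m ih =>
    show (stage hC n j T hS hT m).t0 (chainStep hS hT m).v'.1.1 = _
    rw [(chainStep hS hT m).v'_fst, (stage hC n j T hS hT m).t0_map, ih]
    rfl

theorem isIso_chainF (m : ℕ) (hm : m ≤ n) : IsIso (chainF (hC := hC) hS hT m) := by
  induction m with
  | zero => exact inferInstanceAs (IsIso (𝟙 _))
  | succ m ih =>
    have := ih (by omega)
    have hi : IsIso (chainStep (hC := hC) hS hT m).i := by
      refine (chainJ hS hT m).isIso_of_isEmpty ?_
      constructor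
      intro k
      exact k.down.2 (hT.low m (by omega) _)
    show IsIso (chainF hS hT m ≫ (chainStep hS hT m).i)
    exact IsIso.comp_isIso

/-- The first non-trivial step of the chain is a J-step over the free model along generators. -/
theorem isJ_chain_n :
    IsJ (chainF (hC := hC) hS hT n ≫ (chainStep hS hT n).i) n
      (fun k : Stage.KK T n => genCell k.down.1) (chainStep hS hT n).b := by
  have hf := isIso_chainF (hC := hC) hS hT n le_rfl
  have ha : ∀ k : Stage.KK T n, (stage hC n j T hS hT n).aCell (chainObj hS hT n).v k.down.1 =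
      (cellsMap (chainF hS hT n)).app n (genCell k.down.1) := by
    intro k
    rw [Stage.aCell_of_low hT _ le_rfl, t0_chain, map_genCell]
  constructor
  · intro k
    rw [(chainStep hS hT n).src_b, ha]
    rfl
  · intro Z g z hz
    obtain ⟨h, ⟨h₁, h₂⟩, hu⟩ := (chainStep hS hT n).univ Z (inv (chainF hS hT n) ≫ g) z (fun k => by
      rw [hz, ha]
      have : g = chainF hS hT n ≫ (inv (chainF hS hT n) ≫ g) := by simp
      conv_lhs => rw [this]
      rfl)
    refine ⟨h, ⟨?_, h₂⟩, ?_⟩
    · rw [Category.assoc, h₁]; simp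
    · rintro h' ⟨h₁', h₂'⟩
      apply hu
      refine ⟨?_, h₂'⟩
      rw [← h₁']
      simp

include hS hT in
/-- Export for the induction of section 7. -/
theorem exists_univ_of_chain {P : GlobModel C → Prop}
    (h0 : ∀ (Y1 : GlobModel C) (i : freeOn C S ⟶ Y1) (b : Stage.KK T n → Y1.cells.cell (n + 1)),
      IsJ i n (fun k : Stage.KK T n => genCell k.down.1) b → P Y1)
    (hstep : ∀ m, n < m → m ≤ S.dim → ∀ (X Y : GlobModel C) (i : X ⟶ Y), JStep i m → P X → P Y) :
    ∃ (M : GlobModel C) (u : uL.obj S.psh ⟶ mcylPsh hC M n j), IsUniv hC n j S T M u ∧ P M := by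
  have hP : ∀ m, n + 1 ≤ m → m ≤ max S.dim n + 1 → P (chainObj (hC := hC) hS hT m).M := by
    intro m hm
    induction m, hm using Nat.le_induction with
    | base =>
      intro _
      exact h0 _ _ _ (isJ_chain_n hS hT)
    | succ m hm ih =>
      intro hle
      refine hstep m (by omega) (by omega) _ _ _ (chainJ hS hT m) (ih (by omega))
  exact ⟨_, _, isUniv_chain hS hT (max S.dim n + 1) (by omega), hP _ (by omega) le_rfl⟩

end Export

end Crest.Agent.Henry
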