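import Crest.Agent.Henry.Induction
import Crest.Agent.Henry.Universal
set_option autoImplicit false
open CategoryTheory CategoryTheory.Limits Opposite
open Crest.GeometryTopology.Coherator
open Crest.GeometryTopology.Coherator.GlobTheory Crest.GeometryTopology.Coherator.GlobTheory.GlobModel
universe u
namespace Crest.Agent.Henry
variable {C : GlobTheory.{u}}

theorem sec2_holds (hC : HasFillers C) : Sec2 hC := by
  intro n j S T hS hT P h0 hstep
  refine exists_univ_of_chain (hC := hC) (j := j) hS hT (fun Y1 i b hJ => h0 Y1 i hJ.toJStep ?_) hstep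
  refine ⟨⟨fun k => k.down, fun v => ⟨v⟩, fun k => rfl, fun v => rfl⟩, fun k => ?_⟩
  exact C.seq_one _

end Crest.Agent.Henry
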