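import Crest.Agent.Henry.TowerLift
import Crest.Agent.Henry.LemmaJ
import Crest.Agent.Henry.UnivDefs

/-!
# Section 3, part A: the family of cylinders as `LiftData` (S0382, helper11)

`CFam C`: a small family of models.  `liftD hC n j F`: the `LiftData` whose presheaves are the tuples in
the cylinders of the family, with all the model maps of the family, the marked map `d` and the two
ends `p0`, `p1`.  `cylModel_of_fillerLift`: a filler lift gives the cylinder model.
-/

set_option autoImplicit false
set_option linter.unusedVariables false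

open CategoryTheory CategoryTheory.Limits Opposite
open Crest.GeometryTopology.Coherator
open Crest.GeometryTopology.Coherator.GlobTheory Crest.GeometryTopology.Coherator.GlobTheory.GlobModel
open Crest.Agent.Henry.TowerLift

universe u

namespace Crest.Agent.Henry

variable {C : GlobTheory.{u}}

/-- A small family of models. -/
structure CFam (C : GlobTheory.{u}) where
  I : Type u
  Z : I → GlobModel C

variable (hC : HasFillers C) (n j : ℕ)

/-- The marked map on tuples. -/
noncomputable def zqf (Z : GlobModel C) : onShapes Z ⟶ tupPsh (mcylPsh hC Z n j) where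
  app S := ↾(fun x => tupleHom Z x ≫ cylD (zOps hC Z) n j)
  naturality {S T} f := by
    refine ConcreteCategory.hom_ext _ _ (fun x => ?_)
    show tupleHom Z (pullTuple Z f.unop x) ≫ cylD (zOps hC Z) n j =
      uL.map f.unop ≫ (tupleHom Z x ≫ cylD (zOps hC Z) n j)
    exact (congrArg (· ≫ cylD (zOps hC Z) n j) (tupleHom_pull Z f.unop x)).trans (Category.assoc _ _ _)

/-- The ends on tuples. -/
noncomputable def qzf (Z : GlobModel C) (b : Bool) : tupPsh (mcylPsh hC Z n j) ⟶ onShapes Z where
  app S := ↾(fun t => (tupleEquiv Z S.unop).symm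
    ((show uL.obj S.unop.psh ⟶ mcylPsh hC Z n j from t) ≫
      (if b then cylP1 (zOps hC Z) n j else cylP0 (zOps hC Z) n j)))
  naturality {S T} f := by
    refine ConcreteCategory.hom_ext _ _ (fun t => ?_)
    apply (tupleHom_bijective Z T.unop).1
    show tupleHom Z ((tupleEquiv Z T.unop).symm ((uL.map f.unop ≫ (show uL.obj S.unop.psh ⟶ mcylPsh hC Z n j from t)) ≫ _)) =
      tupleHom Z (pullTuple Z f.unop ((tupleEquiv Z S.unop).symm _))
    rw [tupleHom_pull]
    have h1 : ∀ {S : Shape} (g : uL.obj S.psh ⟶ cellsPsh Z), tupleHom Z ((tupleEquiv Z S).symm g) = g :=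
      fun g => (tupleEquiv Z _).apply_symm_apply g
    rw [h1, h1, Category.assoc]

/-- The `LiftData` of the cylinders of a family of models. -/
noncomputable def liftD (F : CFam C) : LiftData C where
  J := F.I
  Q i := tupPsh (mcylPsh hC (F.Z i) n j)
  sends i := tupPsh_sends _
  I := F.I
  Z := F.Z
  QQ := Σ (a b : F.I), (F.Z a ⟶ F.Z b)
  QQs k := k.1
  QQt k := k.2.1
  QQf k := tupPshMap (mcylMap hC k.2.2 n j)
  ZQ := F.I
  ZQs a := a
  ZQt a := a
  ZQf a := zqf hC n j (F.Z a)
  QZ := F.I × ULift.{u} Bool
  QZs k := k.1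
  QZt k := k.1
  QZf k := qzf hC n j (F.Z k.1) k.2.down

section Conv

theorem cellAt_face_rep {A : GlobPsh.{u}} {k : ℕ} (t : uL.obj (GlobPsh.globeRep (k + 1)) ⟶ A) (b : Bool) :
    cellAt (uL.map (Shape.faceMap (Nat.lt_succ_self k) b) ≫ t) (topCell k) =
      Cell.face A (Nat.lt_succ_self k) b (cellAt t (topCell (k + 1))) :=
  (congrArg (cellAt t) (face_topCell (Nat.lt_succ_self k) b).symm).trans
    (cellAt_face t (Nat.lt_succ_self k) b (topCell (k + 1)))

variable {hC n j} {F : CFam C}
variable (H : TheoryMap C (liftD hC n j F).E) (hH : H.comp (liftD hC n j F).proj = TheoryMap.id C)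
  (root : F.I)

/-- The model structure on the cylinder at `root`. -/
noncomputable abbrev cylP : GlobModel C := LiftData.model (D := liftD hC n j F) H root

/-- The cells of the model are the maps from representables into the cylinder. -/
noncomputable def eCell (k : ℕ) : (cylP H root).cells.cell k ≃ (cyl (zOps hC (F.Z root)) n j).cell k where
  toFun t := cellAt (t : uL.obj (GlobPsh.globeRep k) ⟶ mcylPsh hC (F.Z root) n j) (topCell k)
  invFun y := repDesc (A := mcylPsh hC (F.Z root) n j) y
  left_inv t := repDesc_cellAt (A := mcylPsh hC (F.Z root) n j) t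
  right_inv y := cellAt_repDesc_top (A := mcylPsh hC (F.Z root) n j) y

theorem cylP_face (k : ℕ) (b : Bool) (x : (cylP H root).cells.cell (k + 1)) :
    (eCell H root k) ((cylP H root).functor.map (C.incl.map (Shape.faceMap (Nat.lt_succ_self k) b)).op x) =
      Cell.face (mcylPsh hC (F.Z root) n j) (Nat.lt_succ_self k) b (eCell H root (k + 1) x) := by
  have h1 := types_congr_hom (LiftData.modelFunctor_incl (D := liftD hC n j F) H root
    (Shape.faceMap (Nat.lt_succ_self k) b)) x
  have h2 : (cylP H root).functor.map (C.incl.map (Shape.faceMap (Nat.lt_succ_self k) b)).op x =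
      (uL.map (Shape.faceMap (Nat.lt_succ_self k) b) ≫
        (x : uL.obj (GlobPsh.globeRep (k + 1)) ⟶ mcylPsh hC (F.Z root) n j)) := h1
  exact (congrArg (eCell H root k) h2).trans (cellAt_face_rep _ b)

/-- The cylinder model of a section. -/
noncomputable def cylModelOfSection : CylModel hC (F.Z root) n j where
  P := cylP H root
  e := eCell H root
  e_src k x := (cylP_face H root k false x).trans (cylPsh_σ (zOps hC (F.Z root)) n j k _)
  e_tgt k x := (cylP_face H root k true x).trans (cylPsh_τ (zOps hC (F.Z root)) n j k _)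
  p0 := LiftData.modelQZ (D := liftD hC n j F) H hH (root, ⟨false⟩)
  p1 := LiftData.modelQZ (D := liftD hC n j F) H hH (root, ⟨true⟩)
  d := LiftData.modelZQ (D := liftD hC n j F) H hH root
  p0_e k x := by
    have h0 : tupleHom (F.Z root) ((cellsMap (LiftData.modelQZ (D := liftD hC n j F) H hH (root, ⟨false⟩))).app k x) =
        (x : uL.obj (GlobPsh.globeRep k) ⟶ mcylPsh hC (F.Z root) n j) ≫ cylP0 (zOps hC (F.Z root)) n j :=
      (tupleEquiv (F.Z root) (Shape.globe k)).apply_symm_apply _
    have h1 := tupleHom_top (F.Z root) ((cellsMap (LiftData.modelQZ (D := liftD hC n j F) H hH (root, ⟨false⟩))).app k x)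
    exact h1.symm.trans (congrArg (fun w => cellAt w (topCell k)) h0)
  p1_e k x := by
    have h0 : tupleHom (F.Z root) ((cellsMap (LiftData.modelQZ (D := liftD hC n j F) H hH (root, ⟨true⟩))).app k x) =
        (x : uL.obj (GlobPsh.globeRep k) ⟶ mcylPsh hC (F.Z root) n j) ≫ cylP1 (zOps hC (F.Z root)) n j :=
      (tupleEquiv (F.Z root) (Shape.globe k)).apply_symm_apply _
    have h1 := tupleHom_top (F.Z root) ((cellsMap (LiftData.modelQZ (D := liftD hC n j F) H hH (root, ⟨true⟩))).app k x)
    exact h1.symm.trans (congrArg (fun w => cellAt w (topCell k)) h0)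
  d_e k z := by
    have h1 : (eCell H root k) ((cellsMap (LiftData.modelZQ (D := liftD hC n j F) H hH root)).app k z) =
        (cylD (zOps hC (F.Z root)) n j).app _ (cellAt (tupleHom (F.Z root) z) (topCell k)) := rfl
    have h2 : cellAt (tupleHom (F.Z root) z) (topCell k) = z := tupleHom_top _ z
    exact congrArg Subtype.val (h1.trans (congrArg (fun w => (cylD (zOps hC (F.Z root)) n j).app _ w) h2))

variable (F) in
/-- **Section 3 part A**: a filler lift gives the cylinder model. -/
theorem cylModel_of_fillerLift (T : C.Tower) (hD : (liftD hC n j F).FillerLift T) (root : F.I) :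
    Nonempty (CylModel hC (F.Z root) n j) := by
  obtain ⟨H, hH⟩ := LiftData.exists_section hD
  exact ⟨cylModelOfSection H hH root⟩

end Conv

end Crest.Agent.Henry
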