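import Crest.Agent.Henry.Sec3A
import Crest.Agent.Henry.TransportInverse
import Crest.Agent.Henry.Induction

/-!
# Section 3, part B: lifting fillers to the cylinders (S0382, helper3)

Given `lo up : (liftD hC n j F).Arr (globe k) S` parallel and a filler `f` of `lo.o`, `up.o` in `C`, with
`S.dim ≤ k + 1`, and universal objects in the family `F`, we construct a filler `w` of `lo`, `up`
with `w.o = f`.  `sec3_holds (T : C.Tower) hC : Sec3 hC`: the cylinder models exist.
-/

set_option autoImplicit false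
set_option linter.unusedVariables false

open CategoryTheory CategoryTheory.Limits Opposite
open Crest.GeometryTopology.Coherator
open Crest.GeometryTopology.Coherator.GlobTheory Crest.GeometryTopology.Coherator.GlobTheory.GlobModel
open Crest.Agent.Henry.TowerLift

universe u

namespace Crest.Agent.Henry

namespace Sec3B

variable {C : GlobTheory.{u}} (hC : HasFillers C) (n j : ℕ)

section Basic

variable {hC n j}

/-- The ends of a cylinder tuple, as tuples of the model. -/
noncomputable def xe (b : Bool) {Z : GlobModel C} {S : Shape} (t : uL.obj S.psh ⟶ mcylPsh hC Z n j) :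
    Tuples Z S :=
  (qzf hC n j Z b).app (op S) t

theorem tupleHom_xe (b : Bool) {Z : GlobModel C} {S : Shape} (t : uL.obj S.psh ⟶ mcylPsh hC Z n j) :
    tupleHom Z (xe b t) = t ≫ (if b then cylP1 (zOps hC Z) n j else cylP0 (zOps hC Z) n j) :=
  (tupleEquiv Z S).apply_symm_apply _

theorem cylP_map (b : Bool) {Z Y : GlobModel C} (g : Z ⟶ Y) :
    mcylMap hC g n j ≫ (if b then cylP1 (zOps hC Y) n j else cylP0 (zOps hC Y) n j) =
      (if b then cylP1 (zOps hC Z) n j else cylP0 (zOps hC Z) n j) ≫ cmap g := by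
  apply NatTrans.ext
  funext G
  rcases G with ⟨⟨m⟩⟩
  ext x
  cases b
  · exact Cy.map_p0 (cmap g) x.1
  · exact Cy.map_p1 (cmap g) x.1

theorem xe_map (b : Bool) {Z Y : GlobModel C} (g : Z ⟶ Y) {S : Shape}
    (t : uL.obj S.psh ⟶ mcylPsh hC Z n j) :
    xe b (t ≫ mcylMap hC g n j) = g.app _ (xe b t) := by
  apply (tupleHom_bijective Y S).1
  rw [tupleHom_xe, tupleHom_map, tupleHom_xe, Category.assoc, Category.assoc, cylP_map]

theorem xe_top (b : Bool) {Z : GlobModel C} {k : ℕ}
    (t : uL.obj (Shape.globe k).psh ⟶ mcylPsh hC Z n j) :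
    xe b t = (if b then (TI.topOf hC n j t).1.p1 else (TI.topOf hC n j t).1.p0) := by
  have h := tupleHom_top Z (xe b t)
  rw [tupleHom_xe] at h
  refine h.symm.trans ?_
  cases b <;> rfl

/-- A tuple is fully marked. -/
def FM {Z : GlobModel C} {S : Shape} (t : uL.obj S.psh ⟶ mcylPsh hC Z n j) : Prop :=
  ∀ m c, marksOf hC t m c

theorem Cy.eq_marked {A : GlobPsh.{u}} {m : ℕ} {x : Cy A m} (hx : x.IsMarked) :
    x = Cy.marked x.p0 := by
  cases x with
  | marked z => rfl
  | un0 z0 z1 H => exact hx.elim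
  | un σ τ z0 z1 H => exact hx.elim

theorem FM_eq {Z : GlobModel C} {S : Shape} {t : uL.obj S.psh ⟶ mcylPsh hC Z n j} (h : FM t) :
    t = tupleHom Z (xe false t) ≫ cylD (zOps hC Z) n j := by
  apply hom_ext_cell
  intro m c
  rw [tupleHom_xe]
  apply Subtype.ext
  exact Cy.eq_marked (h m c)

theorem FM_xe {Z : GlobModel C} {S : Shape} {t : uL.obj S.psh ⟶ mcylPsh hC Z n j} (h : FM t) :
    xe true t = xe false t := by
  apply (tupleHom_bijective Z S).1
  rw [tupleHom_xe]
  conv_lhs => rw [FM_eq h]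
  rw [Category.assoc, if_pos rfl, cylD_P1, Category.comp_id]

theorem xe_zqf (b : Bool) {Z : GlobModel C} {S : Shape} (x : Tuples Z S) :
    xe b (tupleHom Z x ≫ cylD (zOps hC Z) n j) = x := by
  apply (tupleHom_bijective Z S).1
  rw [tupleHom_xe, Category.assoc]
  cases b
  · rw [if_neg (by simp), cylD_P0, Category.comp_id]
  · rw [if_pos rfl, cylD_P1, Category.comp_id]

theorem FM_zqf {Z : GlobModel C} {S : Shape} (x : Tuples Z S) :
    FM (tupleHom Z x ≫ cylD (zOps hC Z) n j : uL.obj S.psh ⟶ mcylPsh hC Z n j) :=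
  fun m c => trivial

theorem FM_comp {Z Y : GlobModel C} (g : Z ⟶ Y) {S : Shape} (t : uL.obj S.psh ⟶ mcylPsh hC Z n j) :
    FM (t ≫ mcylMap hC g n j) ↔ FM t := by
  unfold FM
  rw [marksOf_comp]

/-- The restriction of a tuple along a face of the top globe. -/
theorem top_restrict {Z : GlobModel C} {k : ℕ} (b : Bool)
    (t : uL.obj (Shape.globe (k + 1)).psh ⟶ mcylPsh hC Z n j) :
    TI.topOf hC n j (uL.map (Shape.faceMap (Nat.lt_succ_self k) b) ≫ t) =
      (if b then (mcyl hC Z n j).tgt k else (mcyl hC Z n j).src k) (TI.topOf hC n j t) := by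
  let t' : uL.obj (GlobPsh.globeRep (k + 1)) ⟶ mcylPsh hC Z n j := t
  show cellAt t' ((GlobPsh.globeRepFace (Nat.lt_succ_self k) b).app (op (GlobeObj.mk k)) (topCell k)) = _
  rw [← face_topCell, cellAt_face]
  cases b
  · exact cylPsh_σ (zOps hC Z) n j k _
  · exact cylPsh_τ (zOps hC Z) n j k _

end Basic

section Main

variable {hC n j} {F : CFam C} {k : ℕ} {S : Shape}
  (lo up : (liftD hC n j F).Arr (Shape.globe k) S) (f : C.arr (Shape.globe (k + 1)) S)

/-- The source of the new cell. -/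
noncomputable def sig (i : F.I) (t : uL.obj S.psh ⟶ mcylPsh hC (F.Z i) n j) :
    (mcyl hC (F.Z i) n j).cell k :=
  TI.topOf hC n j (lo.φ i t)

variable {lo} in
theorem sig_map {a b : F.I} (g : F.Z a ⟶ F.Z b) (t : uL.obj S.psh ⟶ mcylPsh hC (F.Z a) n j) :
    TI.mapc g (sig lo a t) = sig lo b (t ≫ mcylMap hC g n j) := by
  have h := lo.qq ⟨a, b, g⟩ t
  exact (TI.topOf_comp g _).symm.trans (congrArg (TI.topOf hC n j) h)

variable {lo} in
theorem p_sig (b : Bool) (i : F.I) (t : uL.obj S.psh ⟶ mcylPsh hC (F.Z i) n j) :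
    (if b then (sig lo i t).1.p1 else (sig lo i t).1.p0) = (F.Z i).act lo.o (xe b t) := by
  have h := lo.qz (i, ULift.up b) t
  exact (xe_top b (lo.φ i t)).symm.trans h

variable {lo} in
theorem sig_FM {i : F.I} {t : uL.obj S.psh ⟶ mcylPsh hC (F.Z i) n j} (h : FM t) :
    (sig lo i t).1 = Cy.marked ((F.Z i).act lo.o (xe false t)) := by
  have h1 := lo.zq i (xe false t)
  have h2 : lo.φ i t = tupleHom (F.Z i) ((F.Z i).act lo.o (xe false t)) ≫ cylD (zOps hC (F.Z i)) n j := by
    refine Eq.trans ?_ h1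
    exact congrArg (lo.φ i) (FM_eq h)
  unfold sig
  rw [h2]
  show Cy.marked (cellAt (tupleHom (F.Z i) (S := Shape.globe k) _) (topCell k)) = _
  rw [tupleHom_top]

/-- The value of the filler on cells at a tuple: source. -/
theorem sr_act {Z : GlobModel C} {g : C.arr (Shape.globe k) S}
    (hf : C.seq (C.ofShape (Shape.σ k)) f = g) (x : Tuples Z S) :
    sr (cellsPsh Z) k (Z.act f x) = Z.act g x := by
  rw [← hf]
  exact (GM.act_seq Z _ _ x).symm

theorem tg_act {Z : GlobModel C} {g : C.arr (Shape.globe k) S}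
    (hf : C.seq (C.ofShape (Shape.τ k)) f = g) (x : Tuples Z S) :
    tg (cellsPsh Z) k (Z.act f x) = Z.act g x := by
  rw [← hf]
  exact (GM.act_seq Z _ _ x).symm

/-- The parallel pair gives a parallel pair of cells of the cylinder. -/
theorem par_sig (hp : (liftD hC n j F).E.OpsParallel k lo up) (i : F.I)
    (t : uL.obj S.psh ⟶ mcylPsh hC (F.Z i) n j) :
    Cy.Par k (sig lo i t).1 (sig up i t).1 := by
  cases k with
  | zero => trivial
  | succ k =>
    have h1 := congrArg (fun A : (liftD hC n j F).Arr _ S => TI.topOf hC n j (A.φ i t)) hp.1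
    have h2 := congrArg (fun A : (liftD hC n j F).Arr _ S => TI.topOf hC n j (A.φ i t)) hp.2
    have e1 := (top_restrict (hC := hC) (n := n) (j := j) false (lo.φ i t)).symm.trans
      (h1.trans (top_restrict false (up.φ i t)))
    have e2 := (top_restrict (hC := hC) (n := n) (j := j) true (lo.φ i t)).symm.trans
      (h2.trans (top_restrict true (up.φ i t)))
    exact ⟨congrArg Subtype.val e1, congrArg Subtype.val e2⟩

/-- The chosen universal cell. -/
structure PkB (T : ∀ m, Cell S.psh m → Prop) where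
  idx : F.I
  u : uL.obj S.psh ⟶ mcylPsh hC (F.Z idx) n j
  w : Cell (cellsPsh (F.Z idx)) (k + 2)
  univ : IsUniv hC n j S T (F.Z idx) u
  s : sr _ (k + 1) w = TrRaw (zOps hC (F.Z idx)) k (sig lo idx u).1 (sig up idx u).1 (k + 1)
    ((F.Z idx).act f (xe false u))
  t : tg _ (k + 1) w = (F.Z idx).act f (xe true u)

open Classical in
/-- A global choice. -/
noncomputable def pickB (T : ∀ m, Cell S.psh m → Prop) : Option (PkB lo up f T) :=
  if h : Nonempty (PkB lo up f T) then some h.some else none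

theorem pickB_some {T : ∀ m, Cell S.psh m → Prop} (h : Nonempty (PkB lo up f T)) :
    ∃ P, pickB lo up f T = some P :=
  ⟨h.some, dif_pos h⟩

variable {lo up f}

/-- The classifying map. -/
noncomputable def PkB.cls {T : ∀ m, Cell S.psh m → Prop} (P : PkB lo up f T) {i : F.I}
    (t : uL.obj S.psh ⟶ mcylPsh hC (F.Z i) n j) (hT : marksOf hC t = T) : F.Z P.idx ⟶ F.Z i :=
  (P.univ.univ (F.Z i) t hT).exists.choose

theorem PkB.cls_spec {T : ∀ m, Cell S.psh m → Prop} (P : PkB lo up f T) {i : F.I}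
    (t : uL.obj S.psh ⟶ mcylPsh hC (F.Z i) n j) (hT : marksOf hC t = T) :
    P.u ≫ mcylMap hC (P.cls t hT) n j = t :=
  (P.univ.univ (F.Z i) t hT).exists.choose_spec

/-- The value at `t` of the universal cell. -/
noncomputable def PkB.eval {T : ∀ m, Cell S.psh m → Prop} (P : PkB lo up f T) {i : F.I}
    (t : uL.obj S.psh ⟶ mcylPsh hC (F.Z i) n j) (hT : marksOf hC t = T) :
    Cell (cellsPsh (F.Z i)) (k + 2) :=
  (cmap (P.cls t hT)).app _ P.w

theorem PkB.eval_natural {T : ∀ m, Cell S.psh m → Prop} (P : PkB lo up f T) {a b : F.I}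
    (g : F.Z a ⟶ F.Z b) (t : uL.obj S.psh ⟶ mcylPsh hC (F.Z a) n j) (hT : marksOf hC t = T)
    (hT' : marksOf hC (t ≫ mcylMap hC g n j) = T) :
    P.eval (t ≫ mcylMap hC g n j) hT' = (cmap g).app _ (P.eval t hT) := by
  have e : P.cls (t ≫ mcylMap hC g n j) hT' = P.cls t hT ≫ g := by
    symm
    apply (P.univ.univ (F.Z b) _ hT').unique _ (P.cls_spec _ hT')
    rw [mcylMap_comp, ← Category.assoc, P.cls_spec t hT]
  unfold PkB.eval
  rw [e]
  rfl

variable (lo up f)

open Classical in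
/-- The homotopy datum at `t`. -/
noncomputable def Hv (i : F.I) (t : uL.obj S.psh ⟶ mcylPsh hC (F.Z i) n j) :
    Option (Cell (cellsPsh (F.Z i)) (k + 2)) :=
  if k + 1 ≤ j then (pickB lo up f (marksOf hC t)).map (fun P => P.eval t rfl) else none

variable {lo up f}

theorem Hv_eq {i : F.I} (t : uL.obj S.psh ⟶ mcylPsh hC (F.Z i) n j) (hk : k + 1 ≤ j)
    {T : ∀ m, Cell S.psh m → Prop} (hT : marksOf hC t = T) :
    Hv lo up f i t = (pickB lo up f T).map (fun P => P.eval t hT) := by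
  unfold Hv
  rw [if_pos hk]
  subst hT
  rfl

theorem Hv_natural {a b : F.I} (g : F.Z a ⟶ F.Z b) (t : uL.obj S.psh ⟶ mcylPsh hC (F.Z a) n j) :
    Hv lo up f b (t ≫ mcylMap hC g n j) = (Hv lo up f a t).map ((cmap g).app _) := by
  by_cases hk : k + 1 ≤ j
  · rw [Hv_eq t hk rfl, Hv_eq _ hk (marksOf_comp t g)]
    cases pickB lo up f (marksOf hC t) with
    | none => rfl
    | some P => exact congrArg some (P.eval_natural g t rfl _)
  · unfold Hv
    rw [if_neg hk, if_neg hk]
    rfl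

variable (f) in
/-- The action of the filler on tuples, with the type of a cell. -/
noncomputable def az {Z : GlobModel C} (x : Tuples Z S) : Cell (cellsPsh Z) (k + 1) := Z.act f x

theorem az_map (c : Bool) {a b : F.I} (g : F.Z a ⟶ F.Z b) (t : uL.obj S.psh ⟶ mcylPsh hC (F.Z a) n j) :
    az f (xe c (t ≫ mcylMap hC g n j)) = (cmap g).app _ (az f (xe c t)) := by
  rw [xe_map]
  exact (GM.map_act g f _).symm

theorem un_congr {A : GlobPsh.{u}} {k : ℕ} {σ σ' τ τ' : Cy A k} {z0 z0' z1 z1' : Cell A (k + 1)}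
    {H H' : Option (Cell A (k + 2))} (h1 : σ = σ') (h2 : τ = τ') (h3 : z0 = z0') (h4 : z1 = z1')
    (h5 : H = H') : Cy.un σ τ z0 z1 H = Cy.un σ' τ' z0' z1' H' := by
  subst h1 h2 h3 h4 h5
  rfl

variable (lo up f)

open Classical in
/-- The raw cell of the filler at `t`. -/
noncomputable def yy (i : F.I) (t : uL.obj S.psh ⟶ mcylPsh hC (F.Z i) n j) :
    Cy (cellsPsh (F.Z i)) (k + 1) :=
  if FM t then Cy.marked (az f (xe false t))
  else Cy.un (sig lo i t).1 (sig up i t).1 (az f (xe false t)) (az f (xe true t)) (Hv lo up f i t)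

variable {lo up f}

theorem yy_map {a b : F.I} (g : F.Z a ⟶ F.Z b) (t : uL.obj S.psh ⟶ mcylPsh hC (F.Z a) n j) :
    yy lo up f b (t ≫ mcylMap hC g n j) = (yy lo up f a t).map (cmap g) := by
  unfold yy
  by_cases h : FM t
  · rw [if_pos h, if_pos ((FM_comp g t).2 h)]
    exact congrArg Cy.marked (az_map false g t)
  · rw [if_neg h, if_neg (fun h' => h ((FM_comp g t).1 h'))]
    exact un_congr (congrArg Subtype.val (sig_map (lo := lo) g t)).symm
      (congrArg Subtype.val (sig_map (lo := up) g t)).symm (az_map false g t) (az_map true g t)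
      (Hv_natural g t)

/-- Validity. -/
theorem exists_PkB (hS : S.dim ≤ k + 1) (hk : k + 1 ≤ j)
    (hp : (liftD hC n j F).E.OpsParallel k lo up)
    (hf1 : C.seq (C.ofShape (Shape.σ k)) f = lo.o) (hf2 : C.seq (C.ofShape (Shape.τ k)) f = up.o)
    (hF : ∀ T, IsMarking n S T → ∃ (idx : F.I) (u : uL.obj S.psh ⟶ mcylPsh hC (F.Z idx) n j),
      IsUniv hC n j S T (F.Z idx) u ∧ GM.Conn (F.Z idx) (k + 1))
    (T : ∀ m, Cell S.psh m → Prop) (hT : IsMarking n S T) : Nonempty (PkB lo up f T) := by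
  obtain ⟨idx, u, hu, hconn⟩ := hF T hT
  have hk' : k ≤ j := Nat.le_of_succ_le hk
  have s0 : sr _ k (az f (xe false u)) = (sig lo idx u).1.p0 :=
    (sr_act f hf1 _).trans (p_sig false idx u).symm
  have t0 : tg _ k (az f (xe false u)) = (sig up idx u).1.p0 :=
    (tg_act f hf2 _).trans (p_sig false idx u).symm
  have s1 : sr _ k (az f (xe true u)) = (sig lo idx u).1.p1 :=
    (sr_act f hf1 _).trans (p_sig true idx u).symm
  have t1 : tg _ k (az f (xe true u)) = (sig up idx u).1.p1 :=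
    (tg_act f hf2 _).trans (p_sig true idx u).symm
  obtain ⟨h1, h2, -⟩ := TrRaw_bdry (zLaws hC (F.Z idx)) hk' (sig lo idx u).2 (sig up idx u).2
    (par_sig lo up hp idx u) (Nat.lt_succ_self k) (az f (xe false u)) s0 t0
  obtain ⟨w, hw1, hw2⟩ := hconn _ (az f (xe true u)) (⟨h1.trans s1.symm, h2.trans t1.symm⟩)
  exact ⟨⟨idx, u, w, hu, hw1, hw2⟩⟩

/-- The universal cell has the right boundary in any model. -/
theorem PkB.key {T : ∀ m, Cell S.psh m → Prop} (P : PkB lo up f T) {i : F.I} (g : F.Z P.idx ⟶ F.Z i)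
    (hk' : k ≤ j) (hp : (liftD hC n j F).E.OpsParallel k lo up)
    (hf1 : C.seq (C.ofShape (Shape.σ k)) f = lo.o) (hf2 : C.seq (C.ofShape (Shape.τ k)) f = up.o) :
    sr _ (k + 1) ((cmap g).app _ P.w) =
      TrRaw (zOps hC (F.Z i)) k (sig lo i (P.u ≫ mcylMap hC g n j)).1
        (sig up i (P.u ≫ mcylMap hC g n j)).1 (k + 1) (az f (xe false (P.u ≫ mcylMap hC g n j))) ∧
    tg _ (k + 1) ((cmap g).app _ P.w) = az f (xe true (P.u ≫ mcylMap hC g n j)) := by
  constructor
  · have e0 : sr _ (k + 1) ((cmap g).app _ P.w) = (cmap g).app _ (sr _ (k + 1) P.w) :=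
      (Conx.face_natural (cmap g) _ _ P.w).symm
    rw [e0, P.s]
    have s0 : sr _ k (az f (xe false P.u)) = (sig lo P.idx P.u).1.p0 :=
      (sr_act f hf1 _).trans (p_sig false P.idx P.u).symm
    have t0 : tg _ k (az f (xe false P.u)) = (sig up P.idx P.u).1.p0 :=
      (tg_act f hf2 _).trans (p_sig false P.idx P.u).symm
    have := TrRaw_natural (zLaws hC (F.Z P.idx)) (zNat hC g) hk' (sig lo P.idx P.u).2 (sig up P.idx P.u).2
      (par_sig lo up hp P.idx P.u) (Nat.lt_succ_self k) (az f (xe false P.u)) s0 t0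
    refine this.trans ?_
    rw [az_map false g P.u]
    rw [← sig_map, ← sig_map]
    rfl
  · have e0 : tg _ (k + 1) ((cmap g).app _ P.w) = (cmap g).app _ (tg _ (k + 1) P.w) :=
      (Conx.face_natural (cmap g) _ _ P.w).symm
    rw [e0, P.t]
    exact (az_map true g P.u).symm

section Valid

variable (hS : S.dim ≤ k + 1) (hp : (liftD hC n j F).E.OpsParallel k lo up)
  (hf1 : C.seq (C.ofShape (Shape.σ k)) f = lo.o) (hf2 : C.seq (C.ofShape (Shape.τ k)) f = up.o)
  (hF : k + 1 ≤ j → ∀ T, IsMarking n S T → ∃ (idx : F.I) (u : uL.obj S.psh ⟶ mcylPsh hC (F.Z idx) n j),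
      IsUniv hC n j S T (F.Z idx) u ∧ GM.Conn (F.Z idx) (k + 1))

include hS hp hf1 hf2 hF

theorem yy_valid (i : F.I) (t : uL.obj S.psh ⟶ mcylPsh hC (F.Z i) n j) :
    Cy.Valid (zOps hC (F.Z i)) n j (yy lo up f i t) := by
  unfold yy
  by_cases h : FM t
  · rw [if_pos h]
    trivial
  · rw [if_neg h]
    refine ⟨(sig lo i t).2, (sig up i t).2, par_sig lo up hp i t, ?_,
      (sr_act f hf1 _).trans (p_sig false i t).symm, (tg_act f hf2 _).trans (p_sig false i t).symm,
      (sr_act f hf1 _).trans (p_sig true i t).symm, (tg_act f hf2 _).trans (p_sig true i t).symm, ?_⟩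
    · by_contra hn
      apply h
      intro m c
      by_cases hm : S.dim < m
      · exact ((shape_empty S hm).false c).elim
      · exact (TI.marksOf_isMarking t).low m (by omega) c
    · by_cases hk : k + 1 ≤ j
      · obtain ⟨P, hP⟩ := pickB_some lo up f (exists_PkB hS hk hp hf1 hf2 (hF hk) (marksOf hC t)
          (TI.marksOf_isMarking t))
        have hv : Hv lo up f i t = some (P.eval t rfl) := by
          rw [Hv_eq t hk rfl, hP]
          rfl
        obtain ⟨k1, k2⟩ := P.key (P.cls t rfl) (Nat.le_of_succ_le hk) hp hf1 hf2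
        rw [P.cls_spec t rfl] at k1 k2
        exact Or.inl ⟨hk, _, hv, k1, k2⟩
      · refine Or.inr ⟨by omega, ?_⟩
        unfold Hv
        rw [if_neg hk]

end Valid


theorem yy_of_FM {i : F.I} {t : uL.obj S.psh ⟶ mcylPsh hC (F.Z i) n j} (h : FM t) :
    yy lo up f i t = Cy.marked (az f (xe false t)) := by
  unfold yy
  rw [if_pos h]

theorem yy_of_nFM {i : F.I} {t : uL.obj S.psh ⟶ mcylPsh hC (F.Z i) n j} (h : ¬ FM t) :
    yy lo up f i t = Cy.un (sig lo i t).1 (sig up i t).1 (az f (xe false t))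
      (az f (xe true t)) (Hv lo up f i t) := by
  unfold yy
  rw [if_neg h]

theorem yy_zqf (a : F.I) (z : Tuples (F.Z a) S) :
    yy lo up f a (tupleHom (F.Z a) z ≫ cylD (zOps hC (F.Z a)) n j) =
      Cy.marked ((F.Z a).act f z) := by
  rw [yy_of_FM (FM_zqf z), xe_zqf]
  rfl

theorem yy_p (b : Bool) (i : F.I) (t : uL.obj S.psh ⟶ mcylPsh hC (F.Z i) n j) :
    (if b then (yy lo up f i t).p1 else (yy lo up f i t).p0) = (F.Z i).act f (xe b t) := by
  by_cases h : FM t
  · rw [yy_of_FM h]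
    cases b
    · rfl
    · show az f (xe false t) = az f (xe true t)
      rw [FM_xe h]
  · rw [yy_of_nFM h]
    cases b <;> rfl

/-- The lifted filler. -/
noncomputable def fillerArr (hS : S.dim ≤ k + 1) (hp : (liftD hC n j F).E.OpsParallel k lo up)
    (hf1 : C.seq (C.ofShape (Shape.σ k)) f = lo.o) (hf2 : C.seq (C.ofShape (Shape.τ k)) f = up.o)
    (hF : k + 1 ≤ j → ∀ T, IsMarking n S T → ∃ (idx : F.I) (u : uL.obj S.psh ⟶ mcylPsh hC (F.Z idx) n j),
      IsUniv hC n j S T (F.Z idx) u ∧ GM.Conn (F.Z idx) (k + 1)) :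
    (liftD hC n j F).Arr (Shape.globe (k + 1)) S where
  o := f
  φ i t := TI.tupleOf hC n j ⟨yy lo up f i t, yy_valid hS hp hf1 hf2 hF i t⟩
  qq := by
    rintro ⟨a, b, g⟩ t
    show TI.tupleOf hC n j _ ≫ mcylMap hC g n j = TI.tupleOf hC n j _
    rw [TI.tupleOf_comp]
    congr 1
    exact Subtype.ext (yy_map g t).symm
  zq := by
    intro (a : F.I) (z : Tuples (F.Z a) S)
    show TI.tupleOf hC n j ⟨yy lo up f a (tupleHom (F.Z a) z ≫ cylD (zOps hC (F.Z a)) n j), _⟩ =
      tupleHom (F.Z a) ((F.Z a).act f z) ≫ cylD (zOps hC (F.Z a)) n j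
    apply TI.tupleOf_ext
    rw [TI.topOf_tupleOf]
    apply Subtype.ext
    show yy lo up f a (tupleHom (F.Z a) z ≫ cylD (zOps hC (F.Z a)) n j) =
      Cy.marked (cellAt (tupleHom (F.Z a) (S := Shape.globe (k + 1)) _) (topCell (k + 1)))
    rw [yy_zqf, tupleHom_top]
  qz := by
    rintro ⟨(a : F.I), ⟨b⟩⟩ t
    show xe b (TI.tupleOf hC n j ⟨yy lo up f a t, _⟩) = (F.Z a).act f (xe b t)
    rw [xe_top, TI.topOf_tupleOf]
    exact yy_p b a t


section Filler

variable (hS : S.dim ≤ k + 1) (hp : (liftD hC n j F).E.OpsParallel k lo up)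
  (hf1 : C.seq (C.ofShape (Shape.σ k)) f = lo.o) (hf2 : C.seq (C.ofShape (Shape.τ k)) f = up.o)
  (hF : k + 1 ≤ j → ∀ T, IsMarking n S T → ∃ (idx : F.I) (u : uL.obj S.psh ⟶ mcylPsh hC (F.Z idx) n j),
      IsUniv hC n j S T (F.Z idx) u ∧ GM.Conn (F.Z idx) (k + 1))

include hf1 in
theorem filler_src_val (i : F.I) (t : uL.obj S.psh ⟶ mcylPsh hC (F.Z i) n j) :
    (yy lo up f i t).csrc = (sig lo i t).1 := by
  by_cases h : FM t
  · rw [yy_of_FM h, sig_FM h]
    exact congrArg Cy.marked (sr_act f hf1 _)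
  · rw [yy_of_nFM h]
    rfl

include hf2 in
theorem filler_tgt_val (i : F.I) (t : uL.obj S.psh ⟶ mcylPsh hC (F.Z i) n j) :
    (yy lo up f i t).ctgt = (sig up i t).1 := by
  by_cases h : FM t
  · rw [yy_of_FM h, sig_FM h]
    exact congrArg Cy.marked (tg_act f hf2 _)
  · rw [yy_of_nFM h]
    rfl

theorem filler_src :
    (liftD hC n j F).E.seq ((liftD hC n j F).E.ofShape (Shape.σ k))
      (fillerArr (lo := lo) (up := up) (f := f) hS hp hf1 hf2 hF) = lo := by
  refine LiftData.Arr.ext hf1 ?_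
  funext (i : F.I) (t : uL.obj S.psh ⟶ mcylPsh hC (F.Z i) n j)
  apply TI.tupleOf_ext
  refine (top_restrict false _).trans ?_
  show (mcyl hC (F.Z i) n j).src k (TI.topOf hC n j (TI.tupleOf hC n j ⟨yy lo up f i t, _⟩)) = sig lo i t
  rw [TI.topOf_tupleOf]
  exact Subtype.ext (filler_src_val hf1 i t)

theorem filler_tgt :
    (liftD hC n j F).E.seq ((liftD hC n j F).E.ofShape (Shape.τ k))
      (fillerArr (lo := lo) (up := up) (f := f) hS hp hf1 hf2 hF) = up := by
  refine LiftData.Arr.ext hf2 ?_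
  funext (i : F.I) (t : uL.obj S.psh ⟶ mcylPsh hC (F.Z i) n j)
  apply TI.tupleOf_ext
  refine (top_restrict true _).trans ?_
  show (mcyl hC (F.Z i) n j).tgt k (TI.topOf hC n j (TI.tupleOf hC n j ⟨yy lo up f i t, _⟩)) = sig up i t
  rw [TI.topOf_tupleOf]
  exact Subtype.ext (filler_tgt_val hf2 i t)

end Filler


theorem opsParallel_map {A B : GlobTheory.{u}} (G : TheoryMap A B) {S : Shape} :
    ∀ (m : ℕ) {f g : A.arr (Shape.globe m) S}, A.OpsParallel m f g →
      B.OpsParallel m (G.map f) (G.map g)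
  | 0, _, _, _ => trivial
  | m + 1, f, g, h => by
    obtain ⟨h1, h2⟩ := h
    constructor
    · have := congrArg G.map h1
      rwa [TheoryMap.map_seq, TheoryMap.map_ofShape, TheoryMap.map_seq, TheoryMap.map_ofShape] at this
    · have := congrArg G.map h2
      rwa [TheoryMap.map_seq, TheoryMap.map_ofShape, TheoryMap.map_seq, TheoryMap.map_ofShape] at this

/-- **Filler lift**, given the universal objects of the family. -/
theorem fillerLift (F : CFam C) (T : C.Tower)
    (hF : ∀ (S : Shape) (T' : ∀ m, Cell S.psh m → Prop) (d : ℕ), S.dim ≤ d → d ≤ j → IsMarking n S T' →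
      ∃ (idx : F.I) (u : uL.obj S.psh ⟶ mcylPsh hC (F.Z idx) n j),
        IsUniv hC n j S T' (F.Z idx) u ∧ GM.Conn (F.Z idx) d) :
    (liftD hC n j F).FillerLift T := by
  intro r G hG g
  let p := T.prob r g
  let lo : (liftD hC n j F).Arr (Shape.globe p.n) p.shape := G.map p.lower
  let up : (liftD hC n j F).Arr (Shape.globe p.n) p.shape := G.map p.upper
  let f : C.arr (Shape.globe (p.n + 1)) p.shape := (T.toEnd (r + 1)).map (T.fill r g)
  have h0 : ∀ {m : ℕ} (a : (T.stage r).arr (Shape.globe m) p.shape),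
      LiftData.Arr.o (D := liftD hC n j F) (G.map a : (liftD hC n j F).Arr (Shape.globe m) p.shape) = (T.toEnd r).map a := by
    intro m a
    rw [← hG]
    rfl
  obtain ⟨e1, e2⟩ := LiftData.toEnd_filler T r g
  have hf1 : C.seq (C.ofShape (Shape.σ p.n)) f = lo.o := e1.trans (h0 _).symm
  have hf2 : C.seq (C.ofShape (Shape.τ p.n)) f = up.o := e2.trans (h0 _).symm
  have hp : (liftD hC n j F).E.OpsParallel p.n lo up := opsParallel_map G p.n p.parallel
  refine ⟨fillerArr (lo := lo) (up := up) (f := f) p.dim_le hp hf1 hf2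
    (fun hk T' hT' => hF p.shape T' (p.n + 1) p.dim_le hk hT'), ⟨?_, ?_⟩, rfl⟩
  · exact filler_src p.dim_le hp hf1 hf2 _
  · exact filler_tgt p.dim_le hp hf1 hf2 _

end Main


/-- The index of a universal object. -/
structure Ix (n j : ℕ) where
  S : Shape
  T : ∀ m, Cell S.psh m → Prop
  d : ℕ
  h1 : S.dim ≤ d
  h2 : d ≤ j
  h3 : IsMarking n S T

variable {hC n j} in
/-- The family of models: the given model and the chosen universal objects. -/
noncomputable def fam (hU : ∀ i ≤ j, ConnAt hC n i) (Y : GlobModel C) : CFam C where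
  I := Option (ULift.{u} (Ix n j))
  Z
    | none => Y
    | some i => (hU i.down.d i.down.h2 i.down.S i.down.T i.down.h1 i.down.h3 j i.down.h2).choose

end Sec3B

open Sec3B in
/-- **Section 3.** -/
theorem sec3_holds {C : GlobTheory.{u}} (T : C.Tower) (hC : HasFillers C) : Sec3 hC := by
  intro n j hU Y
  refine cylModel_of_fillerLift (hC := hC) (n := n) (j := j) (fam hU Y) T ?_ (none : Option (ULift.{u} (Ix n j)))
  refine fillerLift (fam hU Y) T ?_
  intro S T' d h1 h2 h3
  exact ⟨(some ⟨⟨S, T', d, h1, h2, h3⟩⟩ : Option (ULift.{u} (Ix n j))), (hU d h2 S T' h1 h3 j h2).choose_spec⟩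

end Crest.Agent.Henry
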