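import Crest.Agent.Henry.Induction
import Crest.Agent.Henry.Reroute4

/-!
# Section 6 of the S0382 blueprint: the statement `Sec6` of `Induction.lean` from `Sec3`.
-/

set_option autoImplicit false
set_option linter.unusedVariables false

open CategoryTheory CategoryTheory.Limits Opposite
open Crest.GeometryTopology.Coherator
open Crest.GeometryTopology.Coherator.GlobTheory Crest.GeometryTopology.Coherator.GlobTheory.GlobModel

universe u

namespace Crest.Agent.Henry

variable {C : GlobTheory.{u}}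

open Reroute in
/-- A `JStep` over a free model on all `n`-generators has the universal property `Reroute.IsY1`. -/
theorem isY1_of_jstep {S : Shape} {n : ℕ} {Y : GlobModel C} {i : freeOn C S ⟶ Y} {J : JStep i n}
    (hJ : IsY1 S n (fun _ => True) i J) :
    ∃ (t : uL.obj S.psh ⟶ cellsPsh Y) (H : Cell S.psh n → Y.cells.cell (n + 1)),
      Reroute.IsY1 n S Y t H := by
  obtain ⟨e, he⟩ := hJ
  let F := freeOn C S
  let t0 : uL.obj S.psh ⟶ cellsPsh F := tupleHom F (C.one S)
  have ht0 : ∀ v : Cell S.psh n, cellAt t0 v = freeCell v := fun v => C.seq_one _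
  have hone : ∀ {Z : GlobModel C} (g : F ⟶ Z), t0 ≫ cmap g = tupleHom Z (g.app _ (C.one S)) :=
    fun g => (tupleHom_map g _).symm
  have hee : ∀ k : J.K, e.symm ⟨(e k).1, trivial⟩ = k := fun k => by
    rw [Subtype.coe_eta, e.symm_apply_apply]
  have he2 : ∀ v : {v : Cell S.psh n // True}, (e (e.symm v)).1 = v.1 := fun v => by
    rw [e.apply_symm_apply]
  refine ⟨t0 ≫ cmap i, fun v => J.b (e.symm ⟨v, trivial⟩), fun v => ?_, ?_⟩
  · refine (J.src_b _).trans ?_
    rw [he, he2]
    exact congrArg _ (ht0 v).symm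
  · intro Z t' z hz
    obtain ⟨x, hx⟩ := (tupleHom_bijective Z S).2 t'
    let g0 : F ⟶ Z := freeDesc Z x
    have hg0 : t0 ≫ cmap g0 = t' := by
      rw [hone, ← hx]
      congr 1
      exact (yonedaEquiv (X := (⟨S⟩ : C.Ob)) (F := Z.functor)).apply_symm_apply x
    obtain ⟨h, ⟨h1, h2⟩, h3⟩ := J.univ Z g0 (fun k => z (e k).1) (fun k => by
      refine (hz _).trans ?_
      rw [he, ← hg0, ← ht0]
      rfl)
    refine ⟨h, ⟨?_, fun v => (h2 _).trans ?_⟩, ?_⟩
    · rw [Category.assoc, ← UFam.cmap_comp, h1, hg0]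
    · exact congrArg z (he2 _)
    · rintro h' ⟨e1, e2⟩
      apply h3
      refine ⟨?_, fun k => ?_⟩
      · apply (yonedaEquiv (X := (⟨S⟩ : C.Ob)) (F := Z.functor)).injective
        apply (tupleHom_bijective Z S).1
        refine (hone (i ≫ h')).symm.trans ?_
        refine Eq.trans ?_ (hone g0)
        rw [hg0, UFam.cmap_comp, ← Category.assoc, e1]
      · refine Eq.trans ?_ (e2 (e k).1)
        rw [hee]

/-- `Sec6` follows from `Sec3` (and the transport inverse). -/
theorem sec6_holds (hC : HasFillers C) (h3 : Sec3 hC) : Sec6 hC := by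
  intro n j S Y i J hJ hU hn hS
  obtain ⟨t, H, hY⟩ := isY1_of_jstep hJ
  exact Reroute.conn_Y1 hC hY hn hS
    (fun i' hi' Z => h3 (n + 1) i' (fun i'' hi'' => hU i'' (hi''.trans hi')) Z)
    (fun Z k hk => transportInv_of_connAt hC (fun i'' hi'' => hU i'' (hi''.trans hk)))

end Crest.Agent.Henry
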