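import Crest.Prelude.Def_GlobularCoherator

/-!
# Shapes: tuples, cells and universal properties of gluing (S0382, helper3)

Cross-universe maps out of `S.psh` (valued in `Type 0`) into a globular presheaf `A : GlobPsh.{u}` are
maps `uL.obj S.psh ⟶ A`, where `uL` post-composes with `uliftFunctor`.
-/

set_option autoImplicit false

open CategoryTheory CategoryTheory.Limits Opposite
open Crest.GeometryTopology.Coherator
open Crest.GeometryTopology.Coherator.GlobPsh

universe u

namespace Crest.Agent.Henry

/-- Cells of a globular presheaf. -/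
abbrev Cell (A : GlobPsh.{u}) (m : ℕ) : Type u := A.obj (op (GlobeObj.mk m))

/-- Iterated faces of a globular presheaf. -/
def Cell.face (A : GlobPsh.{u}) {m n : ℕ} (h : m < n) (upper : Bool) : Cell A n → Cell A m :=
  A.map (GlobeObj.faceArrow h upper).op

theorem Cell.face_face (A : GlobPsh.{u}) {m n k : ℕ} (h : m < n) (h' : n < k) (a b : Bool)
    (x : Cell A k) :
    Cell.face A h a (Cell.face A h' b x) = Cell.face A (h.trans h') a x := by
  unfold Cell.face
  have : (GlobeObj.faceArrow h' b).op ≫ (GlobeObj.faceArrow h a).op =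
      (GlobeObj.faceArrow (h.trans h') a).op := rfl
  rw [← this, A.map_comp]
  rfl

/-- Post-composition with `ULift` on presheaves. -/
abbrev uL : GlobPsh.{0} ⥤ GlobPsh.{u} :=
  (Functor.whiskeringRight GlobeObjᵒᵖ (Type) (Type u)).obj uliftFunctor.{u, 0}

/-- The value at a cell of a cross-universe presheaf map. -/
def cellAt {P : GlobPsh.{0}} {A : GlobPsh.{u}} (f : uL.obj P ⟶ A) {m : ℕ} (c : Cell P m) : Cell A m :=
  f.app (op (GlobeObj.mk m)) (ULift.up c)

theorem cellAt_face {P : GlobPsh.{0}} {A : GlobPsh.{u}} (f : uL.obj P ⟶ A) {m n : ℕ} (h : m < n)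
    (u : Bool) (c : Cell P n) :
    cellAt f (Cell.face P h u c) = Cell.face A h u (cellAt f c) :=
  (types_congr_hom (f.naturality (GlobeObj.faceArrow h u).op) (ULift.up c))

@[ext]
theorem hom_ext_cell {P : GlobPsh.{0}} {A : GlobPsh.{u}} {f g : uL.obj P ⟶ A}
    (h : ∀ (m : ℕ) (c : Cell P m), cellAt f c = cellAt g c) : f = g := by
  ext X x
  rcases X with ⟨⟨m⟩⟩
  rcases x with ⟨c⟩
  exact h m c

@[simp] theorem cellAt_comp {P Q : GlobPsh.{0}} {A : GlobPsh.{u}} (g : P ⟶ Q) (f : uL.obj Q ⟶ A) {m : ℕ}
    (c : Cell P m) : cellAt (uL.map g ≫ f) c = cellAt f (g.app _ c) := rfl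

@[simp] theorem cellAt_comp' {P : GlobPsh.{0}} {A B : GlobPsh.{u}} (f : uL.obj P ⟶ A) (g : A ⟶ B)
    {m : ℕ} (c : Cell P m) : cellAt (f ≫ g) c = g.app _ (cellAt f c) := rfl

/-- Maps out of the representable: the image of the top cell. -/
noncomputable def repDesc {A : GlobPsh.{u}} {h : ℕ} (y : Cell A h) : uL.obj (globeRep h) ⟶ A where
  app X := TypeCat.ofHom (fun c => A.map (ULift.down c : X.unop ⟶ GlobeObj.mk h).op y)
  naturality X Y a := by
    ext c
    rcases c with ⟨c⟩
    show A.map (a.unop ≫ c).op y = A.map a (A.map (Quiver.Hom.op c) y)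
    rw [op_comp, A.map_comp]
    rfl

/-- The top cell of the representable globe. -/
def topCell (h : ℕ) : Cell (globeRep h) h := 𝟙 (GlobeObj.mk h)

@[simp] theorem cellAt_repDesc_top {A : GlobPsh.{u}} {h : ℕ} (y : Cell A h) :
    cellAt (repDesc y) (topCell h) = y := by
  show A.map (𝟙 (GlobeObj.mk h)).op y = y
  rw [op_id, A.map_id]
  rfl

theorem rep_app_up {A : GlobPsh.{u}} {h m : ℕ} (f : uL.obj (globeRep h) ⟶ A)
    (c : GlobeObj.mk m ⟶ GlobeObj.mk h) :
    cellAt f (A := A) (P := globeRep h) (m := m) c = A.map (Quiver.Hom.op c) (cellAt f (topCell h)) := by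
  have hf := types_congr_hom (f.naturality (Quiver.Hom.op c)) (ULift.up (topCell h))
  have hc : (uL.obj (globeRep h)).map (Quiver.Hom.op c) (ULift.up (topCell h)) = ULift.up c := by
    show ULift.up (c ≫ 𝟙 _) = ULift.up c
    rw [Category.comp_id]
  exact (congrArg (fun x => f.app (op (GlobeObj.mk m)) x) hc).symm.trans hf

theorem rep_hom_ext {A : GlobPsh.{u}} {h : ℕ} {f g : uL.obj (globeRep h) ⟶ A}
    (e : cellAt f (topCell h) = cellAt g (topCell h)) : f = g := by
  apply hom_ext_cell
  intro m c
  rw [rep_app_up f c, rep_app_up g c, e]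

theorem repDesc_cellAt {A : GlobPsh.{u}} {h : ℕ} (f : uL.obj (globeRep h) ⟶ A) :
    repDesc (cellAt f (topCell h)) = f :=
  rep_hom_ext (cellAt_repDesc_top _)

/-- Faces of the top cell are the representable face maps. -/
theorem face_topCell {m n : ℕ} (h : m < n) (upper : Bool) :
    Cell.face (globeRep n) h upper (topCell n) =
      (globeRepFace h upper).app (op (GlobeObj.mk m)) (topCell m) := by
  show (GlobeObj.faceArrow h upper ≫ 𝟙 (GlobeObj.mk n)) = 𝟙 (GlobeObj.mk m) ≫ GlobeObj.faceArrow h upper
  rw [Category.comp_id, Category.id_comp]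

/-- The apex of a pasting scheme, as a cell of its presheaf. -/
noncomputable def apexCell (S : Shape) : Cell S.psh S.last := S.apex.app _ (topCell S.last)

/-! ### Pushout structure -/

instance : PreservesColimitsOfSize.{0, 0} (uL.{u}) := inferInstance

/-- The gluing pushout after ulift. -/
theorem glue_isPushout (S : Shape) (b h : ℕ) (hb : b < S.last) (hh : b < h) :
    IsPushout (uL.{u}.map (globeRepFace hb true ≫ S.apex)) (uL.{u}.map (globeRepFace hh false))
      (uL.{u}.map (S.inLeft b h hb hh : S.psh ⟶ (S.glue b h hb hh).psh))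
      (uL.{u}.map (S.inRight b h hb hh : globeRep h ⟶ (S.glue b h hb hh).psh)) :=
  (IsPushout.of_hasPushout (globeRepFace hb true ≫ S.apex) (globeRepFace hh false)).map uL.{u}

/-- The compatibility condition of the pushout in terms of cells. -/
theorem glue_cond {A : GlobPsh.{u}} {S : Shape} {b h : ℕ} (hb : b < S.last) (hh : b < h)
    (f : uL.obj S.psh ⟶ A) (y : Cell A h)
    (cond : Cell.face A hb true (cellAt f (apexCell S)) = Cell.face A hh false y) :
    uL.map (globeRepFace hb true ≫ S.apex) ≫ f = uL.map (globeRepFace hh false) ≫ repDesc y := by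
  apply rep_hom_ext
  have h1 : cellAt (uL.map (globeRepFace hb true ≫ S.apex) ≫ f) (topCell b) =
      Cell.face A hb true (cellAt f (apexCell S)) := by
    rw [cellAt_comp, ← cellAt_face]
    congr 1
    show (S.apex.app _ ((globeRepFace hb true).app _ (topCell b))) =
      Cell.face S.psh hb true (S.apex.app _ (topCell S.last))
    rw [← face_topCell]
    exact (types_congr_hom (S.apex.naturality (GlobeObj.faceArrow hb true).op) _)
  have h2 : cellAt (uL.map (globeRepFace hh false) ≫ repDesc y) (topCell b) =
      Cell.face A hh false y := by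
    rw [cellAt_comp]
    rw [← face_topCell, cellAt_face, cellAt_repDesc_top]
  rw [h1, h2, cond]

/-- The universal map out of a glued shape. -/
noncomputable def glueDesc {A : GlobPsh.{u}} {S : Shape} {b h : ℕ} {hb : b < S.last} {hh : b < h}
    (f : uL.obj S.psh ⟶ A) (y : Cell A h)
    (cond : Cell.face A hb true (cellAt f (apexCell S)) = Cell.face A hh false y) :
    uL.obj (S.glue b h hb hh).psh ⟶ A :=
  (glue_isPushout S b h hb hh).desc f (repDesc y) (glue_cond hb hh f y cond)

/-- The inclusion of `S` in the glued shape as a presheaf map. -/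
noncomputable abbrev inlHom (S : Shape) (b h : ℕ) (hb : b < S.last) (hh : b < h) :
    S.psh ⟶ (S.glue b h hb hh).psh := S.inLeft b h hb hh

/-- The inclusion of the new globe as a presheaf map. -/
noncomputable abbrev inrHom (S : Shape) (b h : ℕ) (hb : b < S.last) (hh : b < h) :
    globeRep h ⟶ (S.glue b h hb hh).psh := S.inRight b h hb hh

/-- the inclusion of `S` in the glued shape at the level of cells -/
noncomputable def inlCell {S : Shape} {b h : ℕ} {hb : b < S.last} {hh : b < h} {m : ℕ}
    (c : Cell S.psh m) : Cell (S.glue b h hb hh).psh m := (inlHom S b h hb hh).app _ c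

/-- The new top cell of a glued shape. -/
noncomputable def newCell (S : Shape) (b h : ℕ) (hb : b < S.last) (hh : b < h) :
    Cell (S.glue b h hb hh).psh h := (inrHom S b h hb hh).app _ (topCell h)

@[simp] theorem apexCell_glue (S : Shape) (b h : ℕ) (hb : b < S.last) (hh : b < h) :
    apexCell (S.glue b h hb hh) = newCell S b h hb hh := rfl

theorem inlCell_face {S : Shape} {b h : ℕ} {hb : b < S.last} {hh : b < h} {m k : ℕ} (hm : k < m)
    (u : Bool) (c : Cell S.psh m) :
    inlCell (hb := hb) (hh := hh) (Cell.face S.psh hm u c) =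
      Cell.face (S.glue b h hb hh).psh hm u (inlCell c) :=
  (types_congr_hom ((inlHom S b h hb hh).naturality (GlobeObj.faceArrow hm u).op) c)

/-- The gluing relation in the glued shape. -/
theorem glue_face_eq (S : Shape) (b h : ℕ) (hb : b < S.last) (hh : b < h) :
    Cell.face (S.glue b h hb hh).psh hb true (inlCell (apexCell S)) =
      Cell.face (S.glue b h hb hh).psh hh false (newCell S b h hb hh) := by
  have hw : (globeRepFace hb true ≫ S.apex) ≫ inlHom S b h hb hh =
      globeRepFace hh false ≫ inrHom S b h hb hh := pushout.condition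
  have hw' := types_congr_hom (NatTrans.congr_app hw (op (GlobeObj.mk b))) (topCell b)
  have e1 : Cell.face (S.glue b h hb hh).psh hb true (inlCell (apexCell S)) =
      (((globeRepFace hb true ≫ S.apex) ≫ inlHom S b h hb hh).app (op (GlobeObj.mk b))) (topCell b) := by
    rw [← inlCell_face]
    show inlCell (Cell.face S.psh hb true (S.apex.app _ (topCell S.last))) = _
    have : Cell.face S.psh hb true (S.apex.app _ (topCell S.last)) =
        S.apex.app _ (Cell.face (globeRep S.last) hb true (topCell S.last)) :=
      (types_congr_hom (S.apex.naturality (GlobeObj.faceArrow hb true).op) _).symm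
    rw [this, face_topCell]
    rfl
  have e2 : Cell.face (S.glue b h hb hh).psh hh false (newCell S b h hb hh) =
      ((globeRepFace hh false ≫ inrHom S b h hb hh).app (op (GlobeObj.mk b))) (topCell b) := by
    show Cell.face (S.glue b h hb hh).psh hh false ((inrHom S b h hb hh).app _ (topCell h)) = _
    have : Cell.face (S.glue b h hb hh).psh hh false ((inrHom S b h hb hh).app _ (topCell h)) =
        (inrHom S b h hb hh).app _ (Cell.face (globeRep h) hh false (topCell h)) :=
      (types_congr_hom ((inrHom S b h hb hh).naturality (GlobeObj.faceArrow hh false).op) _).symm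
    rw [this, face_topCell]
    rfl
  rw [e1, e2]
  exact hw'

@[simp] theorem cellAt_glueDesc_inl {A : GlobPsh.{u}} {S : Shape} {b h : ℕ} {hb : b < S.last}
    {hh : b < h} (f : uL.obj S.psh ⟶ A) (y : Cell A h)
    (cond : Cell.face A hb true (cellAt f (apexCell S)) = Cell.face A hh false y) {m : ℕ}
    (c : Cell S.psh m) :
    cellAt (glueDesc f y cond) (inlCell (hb := hb) (hh := hh) c) = cellAt f c := by
  have := (glue_isPushout S b h hb hh).inl_desc f (repDesc y) (glue_cond hb hh f y cond)
  exact congrArg (fun φ => cellAt φ c) this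

@[simp] theorem cellAt_glueDesc_new {A : GlobPsh.{u}} {S : Shape} {b h : ℕ} {hb : b < S.last}
    {hh : b < h} (f : uL.obj S.psh ⟶ A) (y : Cell A h)
    (cond : Cell.face A hb true (cellAt f (apexCell S)) = Cell.face A hh false y) :
    cellAt (glueDesc f y cond) (newCell S b h hb hh) = y := by
  have := (glue_isPushout S b h hb hh).inr_desc f (repDesc y) (glue_cond hb hh f y cond)
  have h2 := congrArg (fun φ => cellAt φ (topCell h)) this
  exact h2.trans (cellAt_repDesc_top y)

/-- Maps out of a glued shape are determined by their values on the old cells and the new top cell. -/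
theorem glue_hom_ext {A : GlobPsh.{u}} {S : Shape} {b h : ℕ} {hb : b < S.last} {hh : b < h}
    {f g : uL.obj (S.glue b h hb hh).psh ⟶ A}
    (h1 : ∀ (m : ℕ) (c : Cell S.psh m), cellAt f (inlCell c) = cellAt g (inlCell c))
    (h2 : cellAt f (newCell S b h hb hh) = cellAt g (newCell S b h hb hh)) : f = g := by
  apply (glue_isPushout S b h hb hh).hom_ext
  · exact hom_ext_cell h1
  · exact rep_hom_ext h2

/-- Every cell of a glued shape is old or in the new globe. -/
theorem glue_cell_cases (S : Shape) (b h : ℕ) (hb : b < S.last) (hh : b < h) {m : ℕ}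
    (c : Cell (S.glue b h hb hh).psh m) :
    (∃ c' : Cell S.psh m, c = inlCell c') ∨
      (∃ c' : Cell (globeRep h) m, c = (inrHom S b h hb hh).app _ c') := by
  have hP := (IsPushout.of_hasPushout (globeRepFace hb true ≫ S.apex) (globeRepFace hh false)).map
    ((evaluation GlobeObjᵒᵖ (Type)).obj (op (GlobeObj.mk m)))
  rcases Types.eq_or_eq_of_isPushout hP c with ⟨x, hx⟩ | ⟨x, hx⟩
  · exact Or.inl ⟨x, hx.symm⟩
  · exact Or.inr ⟨x, hx.symm⟩

/-- Induction principle on shapes. -/
theorem Shape_induction {motive : Shape → Prop} (single : ∀ h, motive (Shape.globe h))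
    (glue : ∀ (S : Shape) (b h : ℕ) (hb : b < S.last) (hh : b < h), motive S →
      motive (S.glue b h hb hh)) (S : Shape) : motive S := by
  rcases S with ⟨last, P⟩
  induction P with
  | single h => exact single h
  | glue P b h hb hh ih => exact glue ⟨_, P⟩ b h hb hh ih

/-- The representable globe has no cells above its dimension. -/
theorem globeRep_empty {h m : ℕ} (hm : h < m) : IsEmpty (Cell (globeRep h) m) := by
  constructor
  intro c
  change GlobeObj.Arrow m h at c
  cases c with
  | refl => exact lt_irrefl _ hm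
  | pole lt _ => exact lt_asymm lt hm

/-- Shapes have no cells above their height. -/
theorem shape_empty (S : Shape) {m : ℕ} (hm : S.dim < m) : IsEmpty (Cell S.psh m) := by
  induction S using Shape_induction generalizing m with
  | single h => exact globeRep_empty hm
  | glue S b h hb hh ih =>
    have h1 : S.dim ≤ (S.glue b h hb hh).dim := le_max_left _ _
    have h2 : h ≤ (S.glue b h hb hh).dim := le_max_right _ _
    constructor
    intro c
    rcases glue_cell_cases S b h hb hh c with ⟨c', -⟩ | ⟨c', -⟩
    · exact (ih (lt_of_le_of_lt h1 hm)).false c'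
    · exact (globeRep_empty (lt_of_le_of_lt h2 hm)).false c'

/-! ### Tuples of a model -/

section Tuples

open GlobTheory GlobTheory.GlobModel

variable {C : GlobTheory.{u}}

/-- The globular presheaf of cells of a model. -/
noncomputable abbrev cellsPsh (Z : GlobModel C) : GlobPsh.{u} := C.globes.op ⋙ Z.functor

/-- `S`-tuples of a model. -/
abbrev Tuples (Z : GlobModel C) (S : Shape) : Type u := Z.functor.obj (op (⟨S⟩ : C.Ob))

/-- Pulling back tuples along a map of shapes. -/
noncomputable def pullTuple (Z : GlobModel C) {S T : Shape} (g : S ⟶ T) : Tuples Z T → Tuples Z S :=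
  Z.functor.map (C.incl.map g).op

theorem pullTuple_comp (Z : GlobModel C) {R S T : Shape} (g : R ⟶ S) (h : S ⟶ T) (x : Tuples Z T) :
    pullTuple Z (g ≫ h) x = pullTuple Z g (pullTuple Z h x) := by
  unfold pullTuple
  rw [C.incl.map_comp, op_comp, Z.functor.map_comp]
  rfl

theorem pullTuple_id (Z : GlobModel C) {S : Shape} (x : Tuples Z S) :
    pullTuple Z (𝟙 S) x = x := by
  unfold pullTuple
  rw [C.incl.map_id, op_id, Z.functor.map_id]
  rfl

/-- A cell of a shape, as a map of shapes from a globe. -/
noncomputable def cellShape {S : Shape} {m : ℕ} (c : Cell S.psh m) : Shape.globe m ⟶ S :=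
  (yonedaEquiv.symm c : globeRep m ⟶ S.psh)

theorem cellShape_top (m : ℕ) : cellShape (S := Shape.globe m) (topCell m) = 𝟙 (Shape.globe m) := by
  apply yonedaEquiv.injective
  simp only [cellShape]
  exact (yonedaEquiv_yoneda_map (𝟙 (GlobeObj.mk m))).symm.trans
    (congrArg _ (yoneda.map_id (GlobeObj.mk m)))

theorem cellShape_map {S : Shape} {X Y : GlobeObj} (a : X ⟶ Y) (c : Cell S.psh Y.dim) :
    cellShape (S := S) (m := X.dim) (S.psh.map a.op c) = globeShapes.map a ≫ cellShape c :=
  (yonedaEquiv_symm_naturality_left (X := GlobeObj.mk Y.dim) (X' := GlobeObj.mk X.dim) a S.psh c).symm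

theorem cellShape_comp {S T : Shape} (g : S ⟶ T) {m : ℕ} (c : Cell S.psh m) :
    cellShape (S := T) (g.app _ c) = cellShape c ≫ g :=
  (yonedaEquiv_symm_naturality_right (GlobeObj.mk m) (F := S.psh) (F' := T.psh) g c).symm

/-- The presheaf map into the cells of a model given by a tuple. -/
noncomputable def tupleHom (Z : GlobModel C) {S : Shape} (x : Tuples Z S) :
    uL.obj S.psh ⟶ cellsPsh Z where
  app X := TypeCat.ofHom (fun c => pullTuple Z (cellShape (m := X.unop.dim) c.down) x)
  naturality X Y a := by
    ext c
    show pullTuple Z (cellShape (m := Y.unop.dim) (S.psh.map a c.down)) x =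
      Z.functor.map (C.globes.op.map a) (pullTuple Z (cellShape (m := X.unop.dim) c.down) x)
    have h1 := cellShape_map (S := S) (X := Y.unop) (Y := X.unop) a.unop c.down
    have h2 : cellShape (m := Y.unop.dim) (S.psh.map a c.down) =
      globeShapes.map a.unop ≫ cellShape (m := X.unop.dim) c.down := h1
    exact (congrArg (fun g => pullTuple Z g x) h2).trans (pullTuple_comp Z _ _ x)

@[simp] theorem cellAt_tupleHom (Z : GlobModel C) {S : Shape} (x : Tuples Z S) {m : ℕ}
    (c : Cell S.psh m) : cellAt (tupleHom Z x) c = pullTuple Z (cellShape c) x := rfl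

theorem tupleHom_pull (Z : GlobModel C) {S T : Shape} (g : S ⟶ T) (x : Tuples Z T) :
    tupleHom Z (pullTuple Z g x) = uL.map g ≫ tupleHom Z x := by
  apply hom_ext_cell
  intro m c
  rw [cellAt_comp, cellAt_tupleHom, cellAt_tupleHom, ← pullTuple_comp]
  congr 1
  exact (cellShape_comp g c).symm

theorem tupleHom_top (Z : GlobModel C) {m : ℕ} (x : Tuples Z (Shape.globe m)) :
    cellAt (tupleHom Z x) (topCell m) = x := by
  rw [cellAt_tupleHom, cellShape_top, pullTuple_id]

theorem pull_face (Z : GlobModel C) {m n : ℕ} (h : m < n) (u : Bool) (y : Tuples Z (Shape.globe n)) :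
    pullTuple Z (Shape.faceMap h u) y = Cell.face (cellsPsh Z) h u y := rfl

theorem cellShape_apex (S : Shape) : cellShape (apexCell S) = S.apex := by
  have : apexCell S = yonedaEquiv S.apex := rfl
  unfold cellShape
  rw [this, Equiv.symm_apply_apply]

theorem cellShape_new (S : Shape) (b h : ℕ) (hb : b < S.last) (hh : b < h) :
    cellShape (newCell S b h hb hh) = S.inRight b h hb hh := by
  have h1 := cellShape_comp (S := Shape.globe h) (T := S.glue b h hb hh) (S.inRight b h hb hh) (topCell h)
  rw [cellShape_top] at h1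
  exact h1.trans (Category.id_comp _)

theorem cellShape_inl (S : Shape) (b h : ℕ) (hb : b < S.last) (hh : b < h) {m : ℕ} (c : Cell S.psh m) :
    cellShape (inlCell (hb := hb) (hh := hh) c) = cellShape c ≫ S.inLeft b h hb hh :=
  cellShape_comp (S.inLeft b h hb hh) c

/-- The hinge restriction of a tuple is the face of its apex cell. -/
theorem pull_hinge (Z : GlobModel C) (S : Shape) {b : ℕ} (hb : b < S.last) (x : Tuples Z S) :
    pullTuple Z (S.hinge hb) x =
      Cell.face (cellsPsh Z) hb true (cellAt (tupleHom Z x) (apexCell S)) := by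
  rw [← pull_face, cellAt_tupleHom, ← pullTuple_comp, cellShape_apex]
  rfl

/-- Tuples are presheaf maps: `Z(S) ≃ Hom(S.psh, cells Z)`. -/
theorem tupleHom_bijective (Z : GlobModel C) (S : Shape) :
    Function.Bijective (tupleHom Z (S := S)) := by
  induction S using Shape_induction with
  | single h =>
    constructor
    · intro x y e
      rw [← tupleHom_top Z x, ← tupleHom_top Z y, e]
    · intro f
      refine ⟨cellAt f (topCell h), rep_hom_ext ?_⟩
      exact tupleHom_top Z _
  | glue S b h hb hh ih =>
    have hpb := Z.sums S b h hb hh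
    constructor
    · intro x y e
      apply Types.ext_of_isPullback hpb
      · apply ih.1
        have := tupleHom_pull Z (S.inLeft b h hb hh) x
        have h2 := tupleHom_pull Z (S.inLeft b h hb hh) y
        exact this.trans ((congrArg (fun φ => uL.map (S.inLeft b h hb hh) ≫ φ) e).trans h2.symm)
      · have h1 := tupleHom_top Z (pullTuple Z (S.inRight b h hb hh) x)
        have h2 := tupleHom_top Z (pullTuple Z (S.inRight b h hb hh) y)
        have h3 := tupleHom_pull Z (S.inRight b h hb hh) x
        have h4 := tupleHom_pull Z (S.inRight b h hb hh) y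
        have h5 : tupleHom Z (pullTuple Z (S.inRight b h hb hh) x) =
            tupleHom Z (pullTuple Z (S.inRight b h hb hh) y) :=
          h3.trans ((congrArg (fun φ => uL.map (S.inRight b h hb hh) ≫ φ) e).trans h4.symm)
        exact h1.symm.trans ((congrArg (fun φ => cellAt φ (topCell h)) h5).trans h2)
    · intro f
      obtain ⟨x, hx⟩ := ih.2 (uL.map (S.inLeft b h hb hh) ≫ f)
      have hcond : Z.functor.map (C.incl.map (S.hinge hb)).op x =
          Z.functor.map (C.incl.map (Shape.faceMap hh false)).op
            (cellAt f (newCell S b h hb hh)) := by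
        have h1 := pull_hinge Z S hb x
        have h2 : cellAt (tupleHom Z x) (apexCell S) = cellAt f (inlCell (apexCell S)) := by
          rw [hx]; rfl
        rw [h2, ← cellAt_face, glue_face_eq, cellAt_face] at h1
        exact h1
      obtain ⟨w, hw1, hw2⟩ := Types.exists_of_isPullback hpb x _ hcond
      refine ⟨w, glue_hom_ext ?_ ?_⟩
      · intro m c
        rw [cellAt_tupleHom, cellShape_inl, pullTuple_comp]
        have : pullTuple Z (S.inLeft b h hb hh) w = x := hw1
        rw [this, ← cellAt_tupleHom, hx]
        rfl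
      · rw [cellAt_tupleHom, cellShape_new]
        exact hw2

/-- The equivalence between tuples and presheaf maps. -/
noncomputable def tupleEquiv (Z : GlobModel C) (S : Shape) :
    Tuples Z S ≃ (uL.obj S.psh ⟶ cellsPsh Z) :=
  Equiv.ofBijective _ (tupleHom_bijective Z S)

/-- Naturality in the model. -/
theorem tupleHom_map {Z W : GlobModel C} (φ : Z ⟶ W) {S : Shape} (x : Tuples Z S) :
    tupleHom W (φ.app _ x) = tupleHom Z x ≫ Functor.whiskerLeft C.globes.op φ := by
  apply hom_ext_cell
  intro m c
  exact (types_congr_hom (φ.naturality (C.incl.map (cellShape c)).op) x).symm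

end Tuples

end Crest.Agent.Henry
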