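import Mathlib
import Crest.Prelude.Def_GlobularCoherator

/-!
# Model structures from a tower (S0382, section 3, abstract engine) (helper8)

Let `C` be a globular theory with a `Tower`.  Suppose given a small family `Q j` of presheaves on
the category of shapes sending gluing squares to pullbacks, a small family of `C`-models `Z i`, and
small families of natural transformations between them (`Q → Q`, `Z → Q`, `Q → Z`).

The theory `LiftData.E` has as operations `S → T` an operation `o` of `C` together with, for each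
`j`, a function `Q j T → Q j S`, compatible with all the given natural transformations (on the
`Z`-side the operation acts by `o`).  It is a globular theory, with a projection to `C`.

`LiftData.exists_section`: if at each stage of the tower the fillers can be lifted to `E`, then the
projection `E → C` has a section.  Hence each `Q j` becomes a `C`-model (`LiftData.model`) and all
the given natural transformations are maps of models.
-/

namespace Crest.Agent.Henry.TowerLift

open CategoryTheory CategoryTheory.Limits Opposite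
open Crest.GeometryTopology.Coherator Crest.GeometryTopology.Coherator.GlobTheory

universe u

/-- The restriction of a model to shapes. -/
noncomputable abbrev onShapes {C : GlobTheory.{u}} (Z : GlobModel C) : Shapeᵒᵖ ⥤ Type u :=
  C.incl.op ⋙ Z.functor

/-- A presheaf on shapes sends gluing squares to pullbacks. -/
def SendsGluingToPullback (P : Shapeᵒᵖ ⥤ Type u) : Prop :=
  ∀ (S : Shape) (b h : ℕ) (hb : b < S.last) (hh : b < h),
    IsPullback (P.map (S.inLeft b h hb hh).op) (P.map (S.inRight b h hb hh).op)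
      (P.map (S.hinge hb).op) (P.map (Shape.faceMap hh false).op)

theorem onShapes_sends {C : GlobTheory.{u}} (Z : GlobModel C) :
    SendsGluingToPullback (onShapes Z) := fun S b h hb hh => Z.sums S b h hb hh

/-- Lifting presheaves on globes to universe `u`. -/
noncomputable abbrev ulift₀ : GlobPsh.{0} ⥤ GlobPsh.{u} :=
  (Functor.whiskeringRight _ _ _).obj uliftFunctor.{u, 0}

/-- A map of shapes as a map of presheaves. -/
def pshMap {S T : Shape} (f : S ⟶ T) : S.psh ⟶ T.psh := f

@[simp] theorem pshMap_id (S : Shape) : pshMap (𝟙 S) = 𝟙 S.psh := rfl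

@[simp] theorem pshMap_comp {S T V : Shape} (f : S ⟶ T) (g : T ⟶ V) :
    pshMap (f ≫ g) = pshMap f ≫ pshMap g := rfl

/-- The presheaf on shapes of "tuples" in a globular presheaf `A`: maps from the shape. -/
noncomputable def tupPsh (A : GlobPsh.{u}) : Shapeᵒᵖ ⥤ Type u where
  obj S := ulift₀.{u}.obj S.unop.psh ⟶ A
  map {S T} f := ↾(fun t => ulift₀.{u}.map (pshMap f.unop) ≫ t)
  map_id S := by
    refine ConcreteCategory.hom_ext _ _ (fun t => ?_)
    show ulift₀.{u}.map (pshMap (𝟙 S.unop)) ≫ t = t
    rw [pshMap_id, ulift₀.{u}.map_id, Category.id_comp]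
  map_comp {S T V} f g := by
    refine ConcreteCategory.hom_ext _ _ (fun t => ?_)
    show ulift₀.{u}.map (pshMap (g.unop ≫ f.unop)) ≫ t = ulift₀.{u}.map (pshMap g.unop) ≫
      (ulift₀.{u}.map (pshMap f.unop) ≫ t)
    rw [pshMap_comp, ulift₀.{u}.map_comp, Category.assoc]

/-- The gluing square as a pushout of globular presheaves. -/
theorem glue_isPushout (S : Shape) (b h : ℕ) (hb : b < S.last) (hh : b < h) :
    IsPushout (C := GlobPsh.{0}) (S.hinge hb) (Shape.faceMap hh false)
      (S.inLeft b h hb hh) (S.inRight b h hb hh) :=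
  IsPushout.of_hasPushout _ _

/-- Tuples in a globular presheaf send gluing squares to pullbacks. -/
theorem tupPsh_sends (A : GlobPsh.{u}) : SendsGluingToPullback (tupPsh A) := by
  intro S b h hb hh
  have h₁ := (glue_isPushout S b h hb hh).map ulift₀.{u}
  exact (h₁.op.map (yoneda.obj A)).flip

/-- The map of tuples induced by a map of globular presheaves. -/
noncomputable def tupPshMap {A B : GlobPsh.{u}} (f : A ⟶ B) : tupPsh A ⟶ tupPsh B where
  app S := ↾(fun t => t ≫ f)
  naturality {S T} g := by
    refine ConcreteCategory.hom_ext _ _ (fun t => ?_)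
    exact Category.assoc (ulift₀.{u}.map (pshMap g.unop)) (show _ ⟶ A from t) f

/-- The data of a family to be lifted. -/
structure LiftData (C : GlobTheory.{u}) where
  /-- index of the presheaves to be given a model structure -/
  J : Type u
  /-- the presheaves to be given a model structure -/
  Q : J → (Shapeᵒᵖ ⥤ Type u)
  sends : ∀ j, SendsGluingToPullback (Q j)
  /-- index of the models -/
  I : Type u
  /-- the models -/
  Z : I → GlobModel C
  /-- natural maps among the presheaves -/
  QQ : Type u
  QQs : QQ → J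
  QQt : QQ → J
  QQf : ∀ k, Q (QQs k) ⟶ Q (QQt k)
  /-- natural maps from models to presheaves -/
  ZQ : Type u
  ZQs : ZQ → I
  ZQt : ZQ → J
  ZQf : ∀ k, onShapes (Z (ZQs k)) ⟶ Q (ZQt k)
  /-- natural maps from presheaves to models -/
  QZ : Type u
  QZs : QZ → J
  QZt : QZ → I
  QZf : ∀ k, Q (QZs k) ⟶ onShapes (Z (QZt k))

namespace LiftData

variable {C : GlobTheory.{u}} (D : LiftData C)

/-- The action of an operation `o : S → T` of `C` on a model, on shapes. -/
def actZ (Z : GlobModel C) {S T : Shape} (o : C.arr S T) :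
    (onShapes Z).obj (op T) → (onShapes Z).obj (op S) :=
  Z.act o

/-- Operations of the lifted theory. -/
@[ext]
structure Arr (S T : Shape) where
  /-- the underlying operation of `C` -/
  o : C.arr S T
  /-- the action on each presheaf -/
  φ : ∀ j, (D.Q j).obj (op T) → (D.Q j).obj (op S)
  qq : ∀ (k : D.QQ) (t : (D.Q (D.QQs k)).obj (op T)),
    (D.QQf k).app (op S) (φ (D.QQs k) t) = φ (D.QQt k) ((D.QQf k).app (op T) t)
  zq : ∀ (k : D.ZQ) (z : (onShapes (D.Z (D.ZQs k))).obj (op T)),
    φ (D.ZQt k) ((D.ZQf k).app (op T) z) = (D.ZQf k).app (op S) (actZ (D.Z (D.ZQs k)) o z)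
  qz : ∀ (k : D.QZ) (t : (D.Q (D.QZs k)).obj (op T)),
    (D.QZf k).app (op S) (φ (D.QZs k) t) = actZ (D.Z (D.QZt k)) o ((D.QZf k).app (op T) t)

theorem actZ_one (Z : GlobModel C) (S : Shape) :
    actZ Z (C.one S) = id := by
  funext z
  show Z.functor.map (Quiver.Hom.op (X := (⟨S⟩ : C.Ob)) (Y := (⟨S⟩ : C.Ob)) (C.one S)) z = z
  have : Quiver.Hom.op (X := (⟨S⟩ : C.Ob)) (Y := (⟨S⟩ : C.Ob)) (C.one S) = 𝟙 _ := rfl
  rw [this, Z.functor.map_id]; rfl

theorem actZ_seq (Z : GlobModel C) {R S T : Shape} (f : C.arr R S) (g : C.arr S T) (z) :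
    actZ Z (C.seq f g) z = actZ Z f (actZ Z g z) := by
  show Z.functor.map (Quiver.Hom.op (X := (⟨R⟩ : C.Ob)) (Y := (⟨T⟩ : C.Ob)) (C.seq f g)) z = _
  have : Quiver.Hom.op (X := (⟨R⟩ : C.Ob)) (Y := (⟨T⟩ : C.Ob)) (C.seq f g) =
      Quiver.Hom.op (X := (⟨S⟩ : C.Ob)) (Y := (⟨T⟩ : C.Ob)) g ≫
        Quiver.Hom.op (X := (⟨R⟩ : C.Ob)) (Y := (⟨S⟩ : C.Ob)) f := rfl
  rw [this, Z.functor.map_comp]; rfl

theorem actZ_ofShape (Z : GlobModel C) {S T : Shape} (f : S ⟶ T) (z) :
    actZ Z (C.ofShape f) z = (onShapes Z).map f.op z := rfl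

/-- The pre-theory of lifted operations. -/
noncomputable def prE : PreTheory.{u} where
  arr S T := D.Arr S T
  one S :=
    { o := C.one S
      φ := fun _ => id
      qq := fun _ _ => rfl
      zq := fun k z => by rw [actZ_one]; rfl
      qz := fun k t => by rw [actZ_one]; rfl }
  seq {R S T} f g :=
    { o := C.seq f.o g.o
      φ := fun j t => f.φ j (g.φ j t)
      qq := fun k t => by rw [f.qq, g.qq]
      zq := fun k z => by rw [g.zq, f.zq, actZ_seq]
      qz := fun k t => by rw [f.qz, g.qz, actZ_seq] }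
  one_seq f := by
    ext <;> simp [C.one_seq]
  seq_one f := by
    ext <;> simp [C.seq_one]
  seq_assoc f g h := by
    ext <;> simp [C.seq_assoc]
  ofShape {S T} f :=
    { o := C.ofShape f
      φ := fun j t => (D.Q j).map f.op t
      qq := fun k t => NatTrans.naturality_apply (D.QQf k) f.op t
      zq := fun k z => (NatTrans.naturality_apply (D.ZQf k) f.op z).symm
      qz := fun k t => NatTrans.naturality_apply (D.QZf k) f.op t }
  ofShape_id S := by
    ext j t
    · exact C.ofShape_id S
    · show (D.Q j).map (𝟙 S).op t = t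
      have : (𝟙 S : S ⟶ S).op = 𝟙 (op S) := rfl
      rw [this, (D.Q j).map_id]; rfl
  ofShape_comp f g := by
    ext j t
    · exact C.ofShape_comp f g
    · show (D.Q j).map (f ≫ g).op t = (D.Q j).map f.op ((D.Q j).map g.op t)
      have : (f ≫ g).op = g.op ≫ f.op := rfl
      rw [this, (D.Q j).map_comp]; rfl


/-- Composition in the category of the pre-theory of lifted operations is `seq`. -/
theorem prE_comp_o {R S T : D.prE.Ob} (f : R ⟶ S) (g : S ⟶ T) :
    Arr.o (f ≫ g : D.Arr R.shape T.shape) = C.seq (Arr.o (f : D.Arr R.shape S.shape))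
      (Arr.o (g : D.Arr S.shape T.shape)) := rfl

theorem prE_comp_φ {R S T : D.prE.Ob} (f : R ⟶ S) (g : S ⟶ T) (j)
    (t : (D.Q j).obj (op T.shape)) :
    Arr.φ (f ≫ g : D.Arr R.shape T.shape) j t = Arr.φ (f : D.Arr R.shape S.shape) j
      (Arr.φ (g : D.Arr S.shape T.shape) j t) := rfl

/-- Restriction in a presheaf along the shape maps agree with the action on a model. -/
theorem actZ_incl (Z : GlobModel C) {S T : Shape} (f : S ⟶ T) (z) :
    actZ Z (C.ofShape f) z = (onShapes Z).map f.op z := rfl

section Sums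

variable (S : Shape) (b h : ℕ) (hb : b < S.last) (hh : b < h)

theorem E_w : D.prE.incl.map (S.hinge hb) ≫ D.prE.incl.map (S.inLeft b h hb hh) =
    D.prE.incl.map (Shape.faceMap hh false) ≫ D.prE.incl.map (S.inRight b h hb hh) := by
  have h₁ := (C.respectsSums S b h hb hh).w
  refine Arr.ext h₁ ?_
  funext j t
  have h₂ := (D.sends j S b h hb hh).w
  exact types_congr_hom h₂ t


variable {S b h hb hh}

/-- Two elements on a glued shape agree if their restrictions agree. -/
theorem glue_ext {P : Shapeᵒᵖ ⥤ Type u} (hP : SendsGluingToPullback P)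
    {x y : P.obj (op (S.glue b h hb hh))}
    (h₁ : P.map (S.inLeft b h hb hh).op x = P.map (S.inLeft b h hb hh).op y)
    (h₂ : P.map (S.inRight b h hb hh).op x = P.map (S.inRight b h hb hh).op y) : x = y :=
  Types.ext_of_isPullback (hP S b h hb hh) h₁ h₂

/-- Elements on a glued shape exist given compatible restrictions. -/
theorem glue_exists {P : Shapeᵒᵖ ⥤ Type u} (hP : SendsGluingToPullback P)
    (x : P.obj (op S)) (y : P.obj (op (Shape.globe h)))
    (hxy : P.map (S.hinge hb).op x = P.map (Shape.faceMap hh false).op y) :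
    ∃ z : P.obj (op (S.glue b h hb hh)),
      P.map (S.inLeft b h hb hh).op z = x ∧ P.map (S.inRight b h hb hh).op z = y :=
  Types.exists_of_isPullback (hP S b h hb hh) x y hxy

/-- The operation of `C` underlying a morphism of the lifted theory. -/
def homO {X Y : D.prE.Ob} (f : X ⟶ Y) : (⟨X.shape⟩ : C.Ob) ⟶ ⟨Y.shape⟩ :=
  Arr.o (show D.Arr X.shape Y.shape from f)

/-- The action underlying a morphism of the lifted theory. -/
def homφ {X Y : D.prE.Ob} (f : X ⟶ Y) (j : D.J) :
    (D.Q j).obj (op Y.shape) → (D.Q j).obj (op X.shape) :=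
  Arr.φ (show D.Arr X.shape Y.shape from f) j

theorem homO_comp {X Y W : D.prE.Ob} (f : X ⟶ Y) (g : Y ⟶ W) :
    D.homO (f ≫ g) = D.homO f ≫ D.homO g := rfl

theorem homφ_comp {X Y W : D.prE.Ob} (f : X ⟶ Y) (g : Y ⟶ W) (j) (t) :
    D.homφ (f ≫ g) j t = D.homφ f j (D.homφ g j t) := rfl

@[simp] theorem homO_incl {S T : Shape} (f : S ⟶ T) :
    D.homO (D.prE.incl.map f) = C.incl.map f := rfl

theorem homφ_incl {S T : Shape} (f : S ⟶ T) (j) (t) :
    D.homφ (D.prE.incl.map f) j t = (D.Q j).map f.op t := rfl

/-- The descent of a cocone in the lifted theory, on operations. -/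
noncomputable def descO (s : PushoutCocone (D.prE.incl.map (S.hinge hb))
    (D.prE.incl.map (Shape.faceMap hh false))) :
    (⟨S.glue b h hb hh⟩ : C.Ob) ⟶ ⟨s.pt.shape⟩ :=
  (C.respectsSums S b h hb hh).desc (D.homO s.inl) (D.homO s.inr)
    (congrArg D.homO s.condition)

theorem inl_descO (s : PushoutCocone (D.prE.incl.map (S.hinge hb))
    (D.prE.incl.map (Shape.faceMap hh false))) :
    C.incl.map (S.inLeft b h hb hh) ≫ D.descO s = D.homO s.inl :=
  (C.respectsSums S b h hb hh).inl_desc _ _ _

theorem inr_descO (s : PushoutCocone (D.prE.incl.map (S.hinge hb))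
    (D.prE.incl.map (Shape.faceMap hh false))) :
    C.incl.map (S.inRight b h hb hh) ≫ D.descO s = D.homO s.inr :=
  (C.respectsSums S b h hb hh).inr_desc _ _ _

theorem desc_aux (s : PushoutCocone (D.prE.incl.map (S.hinge hb))
    (D.prE.incl.map (Shape.faceMap hh false))) (j) (t : (D.Q j).obj (op s.pt.shape)) :
    ∃ z : (D.Q j).obj (op (S.glue b h hb hh)),
      (D.Q j).map (S.inLeft b h hb hh).op z = D.homφ s.inl j t ∧
      (D.Q j).map (S.inRight b h hb hh).op z = D.homφ s.inr j t := by
  refine glue_exists (D.sends j) _ _ ?_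
  exact congrArg (fun f => D.homφ f j t) s.condition

/-- The descent of a cocone in the lifted theory, on the presheaves. -/
noncomputable def descφ (s : PushoutCocone (D.prE.incl.map (S.hinge hb))
    (D.prE.incl.map (Shape.faceMap hh false))) (j) (t : (D.Q j).obj (op s.pt.shape)) :
    (D.Q j).obj (op (S.glue b h hb hh)) :=
  (D.desc_aux s j t).choose

theorem inl_descφ (s : PushoutCocone (D.prE.incl.map (S.hinge hb))
    (D.prE.incl.map (Shape.faceMap hh false))) (j) (t) :
    (D.Q j).map (S.inLeft b h hb hh).op (D.descφ s j t) = D.homφ s.inl j t :=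
  (D.desc_aux s j t).choose_spec.1

theorem inr_descφ (s : PushoutCocone (D.prE.incl.map (S.hinge hb))
    (D.prE.incl.map (Shape.faceMap hh false))) (j) (t) :
    (D.Q j).map (S.inRight b h hb hh).op (D.descφ s j t) = D.homφ s.inr j t :=
  (D.desc_aux s j t).choose_spec.2

/-- Facts about the model side: `actZ` of a composite. -/
theorem actZ_comp (Z : GlobModel C) {X Y W : Shape}
    (f : (⟨X⟩ : C.Ob) ⟶ ⟨Y⟩) (g : (⟨Y⟩ : C.Ob) ⟶ ⟨W⟩) (z) :
    actZ Z (f ≫ g : (⟨X⟩ : C.Ob) ⟶ ⟨W⟩) z = actZ Z f (actZ Z g z) :=
  actZ_seq Z f g z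

/-- `Arr.qq` for morphisms -/
theorem homφ_qq {X Y : D.prE.Ob} (f : X ⟶ Y) (k : D.QQ) (t) :
    (D.QQf k).app (op X.shape) (D.homφ f (D.QQs k) t) =
      D.homφ f (D.QQt k) ((D.QQf k).app (op Y.shape) t) :=
  Arr.qq (show D.Arr X.shape Y.shape from f) k t

theorem homφ_zq {X Y : D.prE.Ob} (f : X ⟶ Y) (k : D.ZQ) (z) :
    D.homφ f (D.ZQt k) ((D.ZQf k).app (op Y.shape) z) =
      (D.ZQf k).app (op X.shape) (actZ (D.Z (D.ZQs k)) (D.homO f) z) :=
  Arr.zq (show D.Arr X.shape Y.shape from f) k z

theorem homφ_qz {X Y : D.prE.Ob} (f : X ⟶ Y) (k : D.QZ) (t) :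
    (D.QZf k).app (op X.shape) (D.homφ f (D.QZs k) t) =
      actZ (D.Z (D.QZt k)) (D.homO f) ((D.QZf k).app (op Y.shape) t) :=
  Arr.qz (show D.Arr X.shape Y.shape from f) k t

/-- The descent of a cocone in the lifted theory. -/
noncomputable def E_desc (s : PushoutCocone (D.prE.incl.map (S.hinge hb))
    (D.prE.incl.map (Shape.faceMap hh false))) :
    D.Arr (S.glue b h hb hh) s.pt.shape where
  o := D.descO s
  φ := D.descφ s
  qq k t := by
    refine glue_ext (D.sends (D.QQt k)) ?_ ?_
    · rw [← NatTrans.naturality_apply, inl_descφ, inl_descφ]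
      exact D.homφ_qq s.inl k t
    · rw [← NatTrans.naturality_apply, inr_descφ, inr_descφ]
      exact D.homφ_qq s.inr k t
  zq k z := by
    refine glue_ext (D.sends (D.ZQt k)) ?_ ?_
    · rw [inl_descφ, ← NatTrans.naturality_apply, D.homφ_zq]
      congr 1
      rw [← inl_descO]
      exact (actZ_comp _ _ _ z).trans rfl
    · rw [inr_descφ, ← NatTrans.naturality_apply, D.homφ_zq]
      congr 1
      rw [← inr_descO]
      exact (actZ_comp _ _ _ z).trans rfl
  qz k t := by
    refine glue_ext (onShapes_sends (D.Z (D.QZt k))) ?_ ?_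
    · rw [← NatTrans.naturality_apply, inl_descφ]
      refine (D.homφ_qz s.inl k t).trans ?_
      rw [← inl_descO]
      exact actZ_comp _ _ _ _
    · rw [← NatTrans.naturality_apply, inr_descφ]
      refine (D.homφ_qz s.inr k t).trans ?_
      rw [← inr_descO]
      exact actZ_comp _ _ _ _


theorem prE_respects : D.prE.RespectsSums := by
  intro S b h hb hh
  refine IsPushout.of_isColimit' ⟨D.E_w S b h hb hh⟩ ?_
  refine PushoutCocone.IsColimit.mk (D.E_w S b h hb hh) (fun s => D.E_desc s) ?_ ?_ ?_
  · intro s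
    refine Arr.ext (D.inl_descO s) ?_
    funext j t
    exact D.inl_descφ s j t
  · intro s
    refine Arr.ext (D.inr_descO s) ?_
    funext j t
    exact D.inr_descφ s j t
  · intro s m hl hr
    refine Arr.ext ?_ ?_
    · show D.homO m = D.descO s
      refine (C.respectsSums S b h hb hh).hom_ext ?_ ?_
      · refine Eq.trans ?_ (D.inl_descO s).symm
        exact congrArg D.homO hl
      · refine Eq.trans ?_ (D.inr_descO s).symm
        exact congrArg D.homO hr
    · funext j t
      refine glue_ext (D.sends j) ?_ ?_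
      · refine Eq.trans ?_ (D.inl_descφ s j t).symm
        exact congrArg (fun f => D.homφ f j t) hl
      · refine Eq.trans ?_ (D.inr_descφ s j t).symm
        exact congrArg (fun f => D.homφ f j t) hr

end Sums

/-- The lifted theory. -/
noncomputable def E : GlobTheory.{u} where
  toPreTheory := D.prE
  respectsSums := D.prE_respects

/-- The projection of the lifted theory to `C`. -/
def proj : TheoryMap D.E C where
  map f := Arr.o f
  map_one _ := rfl
  map_seq _ _ := rfl
  map_ofShape _ := rfl

section Section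

variable (T : C.Tower)

/-- The filler-lifting hypothesis at a stage. -/
def FillerLift : Prop :=
  ∀ (r : ℕ) (F : TheoryMap (T.stage r) D.E), F.comp D.proj = T.toEnd r → ∀ g : T.gen r,
    ∃ w : D.E.arr (Shape.globe ((T.prob r g).n + 1)) (T.prob r g).shape,
      IsFillerAlong F (T.prob r g) w ∧ D.proj.map w = (T.toEnd (r + 1)).map (T.fill r g)

/-- A lift of stage `r`. -/
def StageLift (r : ℕ) : Type u := { F : TheoryMap (T.stage r) D.E // F.comp D.proj = T.toEnd r }

/-- The images in `C` of the fillers are fillers along `toEnd r`. -/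
theorem toEnd_filler (r : ℕ) (g : T.gen r) :
    IsFillerAlong (T.toEnd r) (T.prob r g) ((T.toEnd (r + 1)).map (T.fill r g)) := by
  obtain ⟨h₁, h₂⟩ := (T.free r).1 g
  have hc : ∀ {S V : Shape} (o : (T.stage r).arr S V),
      (T.toEnd (r + 1)).map ((T.next r).map o) = (T.toEnd r).map o := by
    intro S V o
    rw [← T.toEnd_comm r]; rfl
  constructor
  · have := congrArg (T.toEnd (r + 1)).map h₁
    rw [TheoryMap.map_seq, TheoryMap.map_ofShape, hc] at this
    exact this
  · have := congrArg (T.toEnd (r + 1)).map h₂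
    rw [TheoryMap.map_seq, TheoryMap.map_ofShape, hc] at this
    exact this

variable {D T}

theorem step_exists (hD : D.FillerLift T) (r : ℕ) (F : D.StageLift T r) :
    ∃ G : D.StageLift T (r + 1), (T.next r).comp G.1 = F.1 := by
  choose w hw₁ hw₂ using hD r F.1 F.2
  obtain ⟨H, ⟨hH₁, hH₂⟩, -⟩ := (T.free r).2 D.E F.1 w hw₁
  refine ⟨⟨H, ?_⟩, hH₁⟩
  obtain ⟨H', -, hu⟩ := (T.free r).2 C (T.toEnd r)
    (fun g => (T.toEnd (r + 1)).map (T.fill r g)) (fun g => toEnd_filler T r g)
  have h₁ := hu (H.comp D.proj) ⟨by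
    show ((T.next r).comp H).comp D.proj = T.toEnd r
    rw [hH₁]; exact F.2, fun g => by
    show D.proj.map (H.map (T.fill r g)) = _
    rw [hH₂, hw₂]⟩
  have h₂ := hu (T.toEnd (r + 1)) ⟨T.toEnd_comm r, fun g => rfl⟩
  exact h₁.trans h₂.symm

theorem base_exists : Nonempty (D.StageLift T 0) := by
  obtain ⟨u⟩ := T.stage_zero D.E
  obtain ⟨v⟩ := T.stage_zero C
  exact ⟨⟨u.default, (v.uniq _).trans (v.uniq _).symm⟩⟩

/-- **The section of the lifted theory over `C`.** -/
theorem exists_section (hD : D.FillerLift T) :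
    ∃ H : TheoryMap C D.E, H.comp D.proj = TheoryMap.id C := by
  classical
  -- the recursive lift
  let G : (r : ℕ) → D.StageLift T r := fun r =>
    Nat.rec (Classical.choice base_exists) (fun r F => (step_exists hD r F).choose) r
  have hG : ∀ r, (T.next r).comp (G (r + 1)).1 = (G r).1 :=
    fun r => (step_exists hD r (G r)).choose_spec
  obtain ⟨H, hH, -⟩ := T.colim D.E (fun r => (G r).1) hG
  refine ⟨H, ?_⟩
  obtain ⟨H', -, hu⟩ := T.colim C (fun r => T.toEnd r) T.toEnd_comm
  have h₁ := hu (H.comp D.proj) (fun r => by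
    show ((T.toEnd r).comp H).comp D.proj = T.toEnd r
    rw [hH r]; exact (G r).2)
  have h₂ := hu (TheoryMap.id C) (fun r => rfl)
  exact h₁.trans h₂.symm

end Section

section Model

variable {D}
variable (H : TheoryMap C D.E) (hH : H.comp D.proj = TheoryMap.id C)

/-- The underlying operation of `H.map o` is `o`. -/
theorem section_o (hH : H.comp D.proj = TheoryMap.id C) {S T : Shape} (o : C.arr S T) :
    Arr.o (H.map o) = o :=
  congrArg (fun F : TheoryMap C C => F.map o) hH

/-- The functor of the model structure on `Q j` given by a section. -/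
noncomputable def modelFunctor (j : D.J) : C.Obᵒᵖ ⥤ Type u where
  obj S := (D.Q j).obj (op S.unop.shape)
  map {S T} o := ↾(fun t => Arr.φ (H.map o.unop) j t)
  map_id S := by
    have : H.map (C.one S.unop.shape) = D.E.one S.unop.shape := H.map_one _
    ext t
    show Arr.φ (H.map (C.one S.unop.shape)) j t = t
    rw [this]; rfl
  map_comp {S T V} f g := by
    have : H.map (C.seq g.unop f.unop) = D.E.seq (H.map g.unop) (H.map f.unop) := H.map_seq _ _
    ext t
    show Arr.φ (H.map (C.seq g.unop f.unop)) j t = _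
    rw [this]; rfl

theorem modelFunctor_incl (j : D.J) {S T : Shape} (f : S ⟶ T) :
    (modelFunctor H j).map (C.incl.map f).op = (D.Q j).map f.op := by
  have : H.map (C.ofShape f) = D.E.ofShape f := H.map_ofShape f
  ext t
  show Arr.φ (H.map (C.ofShape f)) j t = _
  rw [this]; rfl

/-- The model structure on `Q j` given by a section. -/
noncomputable def model (j : D.J) : GlobModel C where
  functor := modelFunctor H j
  sums S b h hb hh := by
    simp only [modelFunctor_incl]
    exact D.sends j S b h hb hh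

/-- The maps of models given by the `QQ` natural maps. -/
noncomputable def modelQQ (k : D.QQ) : model H (D.QQs k) ⟶ model H (D.QQt k) where
  app S := (D.QQf k).app (op S.unop.shape)
  naturality {S T} o := by
    ext t
    exact Arr.qq (H.map o.unop) k t

/-- The maps of models given by the `ZQ` natural maps. -/
noncomputable def modelZQ (k : D.ZQ) : D.Z (D.ZQs k) ⟶ model H (D.ZQt k) where
  app S := (D.ZQf k).app (op S.unop.shape)
  naturality {S T} o := by
    ext z
    have := Arr.zq (H.map o.unop) k z
    rw [section_o H hH] at this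
    exact this.symm

/-- The maps of models given by the `QZ` natural maps. -/
noncomputable def modelQZ (k : D.QZ) : model H (D.QZs k) ⟶ D.Z (D.QZt k) where
  app S := (D.QZf k).app (op S.unop.shape)
  naturality {S T} o := by
    ext t
    have := Arr.qz (H.map o.unop) k t
    rw [section_o H hH] at this
    exact this

end Model

end LiftData

end Crest.Agent.Henry.TowerLift
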