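import Crest.Agent.Henry.PshOfGlob

/-!
# Abstract transport along a "connection" (S0382, helper3)

`W : WOps A` are total whisker operations on a globular presheaf `A`, satisfying the laws `WLaws W`.
A `Conx A` is a globular set `C` with two globular maps `pa pb : C → A` and an optional
cell `Hof x` in dimension one higher.  `TrG` is the iterated whiskering of cells of `A`
by the chosen cells; `Good` says that the chosen cells go from the transport of `pa x` to `pb x`
(and `Hof x = none` means `x` is marked).  The main results are `TrG_marked`, `TrG_bdry`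
(boundary of a transported cell, and faces of it are transports of the faces).

The instance with `pa = p0`, `pb = p1` is the transport of the marked cylinder; the instance
with `pa = p1`, `pb = p0` is the reversed transport of section 4.
-/

set_option autoImplicit false

open CategoryTheory CategoryTheory.Limits Opposite
open Crest.GeometryTopology.Coherator
open Crest.GeometryTopology.Coherator.GlobPsh

universe u

namespace Crest.Agent.Henry

/-- Source of a cell of a globular presheaf. -/
abbrev sr (A : GlobPsh.{u}) (k : ℕ) : Cell A (k + 1) → Cell A k :=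
  Cell.face A (Nat.lt_succ_self k) false

/-- Target of a cell of a globular presheaf. -/
abbrev tg (A : GlobPsh.{u}) (k : ℕ) : Cell A (k + 1) → Cell A k :=
  Cell.face A (Nat.lt_succ_self k) true

/-- Total whisker operations on a globular presheaf: `inv k x`, `wl k h x w = L_k(x,w)` (first
`x : a → b` in dimension `k+1`, then `w`, a cell of dimension `h` with `k`-source `b`), and
`wr k h w x = R_k(w,x)`. -/
structure WOps (A : GlobPsh.{u}) where
  inv : ∀ k, Cell A (k + 1) → Cell A (k + 1)
  wl : ∀ k h, Cell A (k + 1) → Cell A h → Cell A h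
  wr : ∀ k h, Cell A h → Cell A (k + 1) → Cell A h

/-- The face laws of whisker operations. -/
structure WLaws {A : GlobPsh.{u}} (W : WOps A) : Prop where
  inv_s : ∀ k x, sr A k (W.inv k x) = tg A k x
  inv_t : ∀ k x, tg A k (W.inv k x) = sr A k x
  wl_high : ∀ {k i h : ℕ} (hki : k < i) (hih : i < h) (b : Bool) (x : Cell A (k + 1)) (w : Cell A h),
    tg A k x = Cell.face A (hki.trans hih) false w →
      Cell.face A hih b (W.wl k h x w) = W.wl k i x (Cell.face A hih b w)
  wl_src : ∀ {k h : ℕ} (hkh : k < h) (x : Cell A (k + 1)) (w : Cell A h),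
    tg A k x = Cell.face A hkh false w → Cell.face A hkh false (W.wl k h x w) = sr A k x
  wl_tgt : ∀ {k h : ℕ} (hkh : k < h) (x : Cell A (k + 1)) (w : Cell A h),
    tg A k x = Cell.face A hkh false w → Cell.face A hkh true (W.wl k h x w) = Cell.face A hkh true w
  wr_high : ∀ {k i h : ℕ} (hki : k < i) (hih : i < h) (b : Bool) (w : Cell A h) (x : Cell A (k + 1)),
    Cell.face A (hki.trans hih) true w = sr A k x →
      Cell.face A hih b (W.wr k h w x) = W.wr k i (Cell.face A hih b w) x
  wr_src : ∀ {k h : ℕ} (hkh : k < h) (w : Cell A h) (x : Cell A (k + 1)),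
    Cell.face A hkh true w = sr A k x → Cell.face A hkh false (W.wr k h w x) = Cell.face A hkh false w
  wr_tgt : ∀ {k h : ℕ} (hkh : k < h) (w : Cell A h) (x : Cell A (k + 1)),
    Cell.face A hkh true w = sr A k x → Cell.face A hkh true (W.wr k h w x) = tg A k x

variable {A : GlobPsh.{u}} (W : WOps A)

/-- Whisker on the left by the inverse of an optional cell. -/
def lw (k h : ℕ) (o : Option (Cell A (k + 1))) (w : Cell A h) : Cell A h :=
  match o with
  | none => w
  | some H => W.wl k h (W.inv k H) w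

/-- Whisker on the right by an optional cell. -/
def rw' (k h : ℕ) (w : Cell A h) (o : Option (Cell A (k + 1))) : Cell A h :=
  match o with
  | none => w
  | some H => W.wr k h w H

variable {W}

section Opt

variable (L : WLaws W) {k h : ℕ}

include L

theorem lw_src (hkh : k < h) (o : Option (Cell A (k + 1))) (w : Cell A h) (p : Cell A k)
    (hn : o = none → Cell.face A hkh false w = p)
    (hs : ∀ H, o = some H → sr A k H = Cell.face A hkh false w ∧ tg A k H = p) :
    Cell.face A hkh false (lw W k h o w) = p := by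
  cases o with
  | none => exact hn rfl
  | some H =>
    obtain ⟨h1, h2⟩ := hs H rfl
    show Cell.face A hkh false (W.wl k h (W.inv k H) w) = p
    rw [L.wl_src hkh _ _ (by rw [L.inv_t, h1]), L.inv_s, h2]

theorem lw_tgt (hkh : k < h) (o : Option (Cell A (k + 1))) (w : Cell A h)
    (hs : ∀ H, o = some H → sr A k H = Cell.face A hkh false w) :
    Cell.face A hkh true (lw W k h o w) = Cell.face A hkh true w := by
  cases o with
  | none => rfl
  | some H =>
    have h1 := hs H rfl
    show Cell.face A hkh true (W.wl k h (W.inv k H) w) = _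
    rw [L.wl_tgt hkh _ _ (by rw [L.inv_t, h1])]

theorem lw_high {i : ℕ} (hki : k < i) (hih : i < h) (b : Bool) (o : Option (Cell A (k + 1)))
    (w : Cell A h) (hs : ∀ H, o = some H → sr A k H = Cell.face A (hki.trans hih) false w) :
    Cell.face A hih b (lw W k h o w) = lw W k i o (Cell.face A hih b w) := by
  cases o with
  | none => rfl
  | some H =>
    have h1 := hs H rfl
    exact L.wl_high hki hih b _ _ (by rw [L.inv_t, h1])

theorem rw_tgt (hkh : k < h) (o : Option (Cell A (k + 1))) (w : Cell A h) (p : Cell A k)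
    (hn : o = none → Cell.face A hkh true w = p)
    (hs : ∀ H, o = some H → sr A k H = Cell.face A hkh true w ∧ tg A k H = p) :
    Cell.face A hkh true (rw' W k h w o) = p := by
  cases o with
  | none => exact hn rfl
  | some H =>
    obtain ⟨h1, h2⟩ := hs H rfl
    show Cell.face A hkh true (W.wr k h w H) = p
    rw [L.wr_tgt hkh _ _ h1.symm, h2]

theorem rw_src (hkh : k < h) (o : Option (Cell A (k + 1))) (w : Cell A h)
    (hs : ∀ H, o = some H → sr A k H = Cell.face A hkh true w) :
    Cell.face A hkh false (rw' W k h w o) = Cell.face A hkh false w := by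
  cases o with
  | none => rfl
  | some H =>
    have h1 := hs H rfl
    exact L.wr_src hkh _ _ h1.symm

theorem rw_high {i : ℕ} (hki : k < i) (hih : i < h) (b : Bool) (o : Option (Cell A (k + 1)))
    (w : Cell A h) (hs : ∀ H, o = some H → sr A k H = Cell.face A (hki.trans hih) true w) :
    Cell.face A hih b (rw' W k h w o) = rw' W k i (Cell.face A hih b w) o := by
  cases o with
  | none => rfl
  | some H =>
    have h1 := hs H rfl
    exact L.wr_high hki hih b _ _ h1.symm

end Opt

/-- A connection on a globular presheaf `A`: a globular set with two maps to `A` and optional cells. -/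
structure Conx (A : GlobPsh.{u}) where
  /-- the globular set of cells -/
  C : GlobSet.{u}
  /-- the first projection -/
  pa : ∀ m, C.cell m → Cell A m
  /-- the second projection -/
  pb : ∀ m, C.cell m → Cell A m
  pa_s : ∀ k x, pa k (C.src k x) = sr A k (pa (k + 1) x)
  pa_t : ∀ k x, pa k (C.tgt k x) = tg A k (pa (k + 1) x)
  pb_s : ∀ k x, pb k (C.src k x) = sr A k (pb (k + 1) x)
  pb_t : ∀ k x, pb k (C.tgt k x) = tg A k (pb (k + 1) x)
  /-- the chosen cell -/
  Hof : ∀ m, C.cell m → Option (Cell A (m + 1))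

namespace Conx

variable (X : Conx A) (W)

/-- Transport over a parallel pair. -/
def TrG : (k : ℕ) → X.C.cell k → X.C.cell k → ∀ h, Cell A h → Cell A h
  | 0, σ, τ, h, w => rw' W 0 h (lw W 0 h (X.Hof 0 σ) w) (X.Hof 0 τ)
  | k + 1, σ, τ, h, w =>
    rw' W (k + 1) h (lw W (k + 1) h (X.Hof (k + 1) σ) (TrG k (X.C.src k σ) (X.C.tgt k σ) h w))
      (X.Hof (k + 1) τ)

/-- Transport over the boundary of a cell. -/
def TrS : (m : ℕ) → X.C.cell m → ∀ h, Cell A h → Cell A h
  | 0, _, _, w => w
  | k + 1, x, h, w => X.TrG W k (X.C.src k x) (X.C.tgt k x) h w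

/-- The goodness of a cell. -/
structure GoodAt (m : ℕ) (x : X.C.cell m) : Prop where
  none_eq : X.Hof m x = none → X.pa m x = X.pb m x
  none_faces : ∀ (k : ℕ) (hk : m = k + 1) (b : Bool), X.Hof m x = none →
    X.Hof k ((if b then X.C.tgt k else X.C.src k) (hk ▸ x)) = none
  some_s : ∀ H, X.Hof m x = some H → sr A m H = X.TrS W m x m (X.pa m x)
  some_t : ∀ H, X.Hof m x = some H → tg A m H = X.pb m x

/-- All cells up to dimension `j` are good. -/
def Good (j : ℕ) : Prop := ∀ m ≤ j, ∀ x, X.GoodAt W m x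

/-- Parallel pairs. -/
def Par : (k : ℕ) → X.C.cell k → X.C.cell k → Prop
  | 0, _, _ => True
  | k + 1, σ, τ => X.C.src k σ = X.C.src k τ ∧ X.C.tgt k σ = X.C.tgt k τ

theorem par_bdry (k : ℕ) (x : X.C.cell (k + 1)) : X.Par k (X.C.src k x) (X.C.tgt k x) := by
  cases k with
  | zero => trivial
  | succ k => exact ⟨X.C.src_src k x, X.C.tgt_tgt k x⟩

variable {W}

theorem TrG_marked {j : ℕ} (hG : X.Good W j) {k : ℕ} (hk : k ≤ j) (σ τ : X.C.cell k)
    (hσ : X.Hof k σ = none) (hτ : X.Hof k τ = none) (h : ℕ) (w : Cell A h) :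
    X.TrG W k σ τ h w = w := by
  induction k with
  | zero => simp only [TrG, hσ, hτ, lw, rw']
  | succ k ih =>
    have h1 := (hG (k + 1) hk σ).none_faces k rfl false hσ
    have h2 := (hG (k + 1) hk σ).none_faces k rfl true hσ
    simp only [TrG, hσ, hτ, lw, rw']
    exact ih (Nat.le_of_succ_le hk) _ _ h1 h2

/-- Boundary of a transported cell, and its higher faces. -/
theorem TrG_bdry (L : WLaws W) {j : ℕ} (hG : X.Good W j) {k : ℕ} (hk : k ≤ j) (σ τ : X.C.cell k)
    (hpar : X.Par k σ τ) {h : ℕ} (hkh : k < h) (w : Cell A h)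
    (h0 : Cell.face A hkh false w = X.pa k σ) (h1 : Cell.face A hkh true w = X.pa k τ) :
    Cell.face A hkh false (X.TrG W k σ τ h w) = X.pb k σ ∧
      Cell.face A hkh true (X.TrG W k σ τ h w) = X.pb k τ ∧
      ∀ (i : ℕ) (hki : k < i) (hih : i < h) (b : Bool),
        Cell.face A hih b (X.TrG W k σ τ h w) = X.TrG W k σ τ i (Cell.face A hih b w) := by
  induction k generalizing h with
  | zero =>
    have gσ := hG 0 hk σ
    have gτ := hG 0 hk τ
    have hs1 : ∀ H, X.Hof 0 σ = some H → sr A 0 H = Cell.face A hkh false w ∧ tg A 0 H = X.pb 0 σ := by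
      intro H e
      refine ⟨?_, gσ.some_t H e⟩
      rw [gσ.some_s H e, h0]
      rfl
    have a1 : Cell.face A hkh false (lw W 0 h (X.Hof 0 σ) w) = X.pb 0 σ :=
      lw_src L hkh _ w _ (fun e => by rw [h0, gσ.none_eq e]) hs1
    have a2 : Cell.face A hkh true (lw W 0 h (X.Hof 0 σ) w) = Cell.face A hkh true w :=
      lw_tgt L hkh _ w (fun H e => (hs1 H e).1)
    have hs2 : ∀ H, X.Hof 0 τ = some H →
        sr A 0 H = Cell.face A hkh true (lw W 0 h (X.Hof 0 σ) w) ∧ tg A 0 H = X.pb 0 τ := by
      intro H e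
      refine ⟨?_, gτ.some_t H e⟩
      rw [a2, gτ.some_s H e, h1]
      rfl
    refine ⟨?_, ?_, ?_⟩
    · show Cell.face A hkh false (rw' W 0 h (lw W 0 h (X.Hof 0 σ) w) (X.Hof 0 τ)) = _
      rw [rw_src L hkh _ _ (fun H e => (hs2 H e).1), a1]
    · show Cell.face A hkh true (rw' W 0 h (lw W 0 h (X.Hof 0 σ) w) (X.Hof 0 τ)) = _
      exact rw_tgt L hkh _ _ _ (fun e => by rw [a2, h1, gτ.none_eq e]) hs2
    · intro i hki hih b
      show Cell.face A hih b (rw' W 0 h (lw W 0 h (X.Hof 0 σ) w) (X.Hof 0 τ)) =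
        rw' W 0 i (lw W 0 i (X.Hof 0 σ) (Cell.face A hih b w)) (X.Hof 0 τ)
      rw [rw_high L hki hih b _ _ (fun H e => (hs2 H e).1),
        lw_high L hki hih b _ _ (fun H e => (hs1 H e).1)]
  | succ k ih =>
    have gσ := hG (k + 1) hk σ
    have gτ := hG (k + 1) hk τ
    have hk' : k ≤ j := Nat.le_of_succ_le hk
    have hkh' : k < h := Nat.lt_of_succ_lt hkh
    -- the inner transport
    set base := X.TrG W k (X.C.src k σ) (X.C.tgt k σ) h w with hbase
    have i0 : Cell.face A hkh' false w = X.pa k (X.C.src k σ) := by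
      rw [X.pa_s, ← h0]
      exact (Cell.face_face A (Nat.lt_succ_self k) hkh false false w).symm
    have i1 : Cell.face A hkh' true w = X.pa k (X.C.tgt k σ) := by
      rw [X.pa_t, ← h0]
      exact (Cell.face_face A (Nat.lt_succ_self k) hkh true false w).symm
    obtain ⟨-, -, ihigh⟩ := ih hk' _ _ (X.par_bdry k σ) hkh' w i0 i1
    have hb0 : Cell.face A hkh false base = X.TrS W (k + 1) σ (k + 1) (X.pa (k + 1) σ) := by
      have := ihigh (k + 1) (Nat.lt_succ_self k) hkh false
      rw [h0] at this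
      exact this
    have hb1 : Cell.face A hkh true base = X.TrS W (k + 1) τ (k + 1) (X.pa (k + 1) τ) := by
      have := ihigh (k + 1) (Nat.lt_succ_self k) hkh true
      rw [h1] at this
      show _ = X.TrG W k (X.C.src k τ) (X.C.tgt k τ) (k + 1) (X.pa (k + 1) τ)
      rw [← hpar.1, ← hpar.2]
      exact this
    have hmarkedσ : X.Hof (k + 1) σ = none → base = w := by
      intro e
      exact X.TrG_marked hG hk' _ _ ((gσ.none_faces k rfl false e)) ((gσ.none_faces k rfl true e)) h w
    have hmarkedτ : X.Hof (k + 1) τ = none → base = w := by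
      intro e
      have e1 := gτ.none_faces k rfl false e
      have e2 := gτ.none_faces k rfl true e
      have e1' : X.Hof k (X.C.src k τ) = none := e1
      have e2' : X.Hof k (X.C.tgt k τ) = none := e2
      rw [← hpar.1] at e1'
      rw [← hpar.2] at e2'
      exact X.TrG_marked hG hk' _ _ e1' e2' h w
    have hs1 : ∀ H, X.Hof (k + 1) σ = some H →
        sr A (k + 1) H = Cell.face A hkh false base ∧ tg A (k + 1) H = X.pb (k + 1) σ := by
      intro H e
      refine ⟨?_, gσ.some_t H e⟩
      rw [gσ.some_s H e, hb0]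
    have a1 : Cell.face A hkh false (lw W (k + 1) h (X.Hof (k + 1) σ) base) = X.pb (k + 1) σ :=
      lw_src L hkh _ _ _ (fun e => by rw [hmarkedσ e, h0, gσ.none_eq e]) hs1
    have a2 : Cell.face A hkh true (lw W (k + 1) h (X.Hof (k + 1) σ) base) =
        Cell.face A hkh true base :=
      lw_tgt L hkh _ _ (fun H e => (hs1 H e).1)
    have hs2 : ∀ H, X.Hof (k + 1) τ = some H →
        sr A (k + 1) H = Cell.face A hkh true (lw W (k + 1) h (X.Hof (k + 1) σ) base) ∧
          tg A (k + 1) H = X.pb (k + 1) τ := by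
      intro H e
      refine ⟨?_, gτ.some_t H e⟩
      rw [a2, gτ.some_s H e, hb1]
    refine ⟨?_, ?_, ?_⟩
    · show Cell.face A hkh false (rw' W (k + 1) h (lw W (k + 1) h (X.Hof (k + 1) σ) base)
        (X.Hof (k + 1) τ)) = _
      rw [rw_src L hkh _ _ (fun H e => (hs2 H e).1), a1]
    · show Cell.face A hkh true (rw' W (k + 1) h (lw W (k + 1) h (X.Hof (k + 1) σ) base)
        (X.Hof (k + 1) τ)) = _
      exact rw_tgt L hkh _ _ _ (fun e => by rw [a2, hmarkedτ e, h1, gτ.none_eq e]) hs2
    · intro i hki hih b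
      show Cell.face A hih b (rw' W (k + 1) h (lw W (k + 1) h (X.Hof (k + 1) σ) base)
        (X.Hof (k + 1) τ)) = rw' W (k + 1) i (lw W (k + 1) i (X.Hof (k + 1) σ)
          (X.TrG W k (X.C.src k σ) (X.C.tgt k σ) i (Cell.face A hih b w))) (X.Hof (k + 1) τ)
      have e1 := ihigh i (Nat.lt_of_succ_lt hki) hih b
      rw [rw_high L hki hih b _ _ (fun H e => (hs2 H e).1),
        lw_high L hki hih b _ _ (fun H e => (hs1 H e).1), e1]

variable {A' : GlobPsh.{u}} {W' : WOps A'}

/-- A map of globular presheaves commutes with the whisker operations. -/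
structure WNat (W : WOps A) (W' : WOps A') (f : A ⟶ A') : Prop where
  inv : ∀ k (x : Cell A (k + 1)), f.app _ (W.inv k x) = W'.inv k (f.app _ x)
  wl : ∀ {k h : ℕ} (hkh : k < h) (x : Cell A (k + 1)) (w : Cell A h),
    tg A k x = Cell.face A hkh false w → f.app _ (W.wl k h x w) = W'.wl k h (f.app _ x) (f.app _ w)
  wr : ∀ {k h : ℕ} (hkh : k < h) (w : Cell A h) (x : Cell A (k + 1)),
    Cell.face A hkh true w = sr A k x → f.app _ (W.wr k h w x) = W'.wr k h (f.app _ w) (f.app _ x)

/-- A map of connections over a map of globular presheaves. -/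
structure Mor (X : Conx A) (X' : Conx A') (f : A ⟶ A') where
  c : ∀ m, X.C.cell m → X'.C.cell m
  c_src : ∀ k x, c k (X.C.src k x) = X'.C.src k (c (k + 1) x)
  c_tgt : ∀ k x, c k (X.C.tgt k x) = X'.C.tgt k (c (k + 1) x)
  pa : ∀ m x, X'.pa m (c m x) = f.app _ (X.pa m x)
  pb : ∀ m x, X'.pb m (c m x) = f.app _ (X.pb m x)
  Hof : ∀ m x, X'.Hof m (c m x) = (X.Hof m x).map (f.app _)

theorem face_natural (f : A ⟶ A') {m n : ℕ} (h : m < n) (b : Bool) (x : Cell A n) :
    f.app _ (Cell.face A h b x) = Cell.face A' h b (f.app _ x) :=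
  types_congr_hom (f.naturality (GlobeObj.faceArrow h b).op) x

theorem lw_natural (L : WLaws W) {f : A ⟶ A'} (hf : WNat W W' f) {k h : ℕ} (hkh : k < h)
    (o : Option (Cell A (k + 1))) (w : Cell A h)
    (hs : ∀ H, o = some H → sr A k H = Cell.face A hkh false w) :
    f.app _ (lw W k h o w) = lw W' k h (o.map (f.app _)) (f.app _ w) := by
  cases o with
  | none => rfl
  | some H =>
    show f.app _ (W.wl k h (W.inv k H) w) = W'.wl k h (W'.inv k (f.app _ H)) (f.app _ w)
    rw [hf.wl hkh _ _ (by rw [L.inv_t, hs H rfl]), hf.inv]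

theorem rw_natural {f : A ⟶ A'} (hf : WNat W W' f) {k h : ℕ} (hkh : k < h)
    (o : Option (Cell A (k + 1))) (w : Cell A h)
    (hs : ∀ H, o = some H → sr A k H = Cell.face A hkh true w) :
    f.app _ (rw' W k h w o) = rw' W' k h (f.app _ w) (o.map (f.app _)) := by
  cases o with
  | none => rfl
  | some H => exact hf.wr hkh _ _ (hs H rfl).symm

/-- Transport is natural for maps of connections (on cells over the right boundary). -/
theorem TrG_natural (L : WLaws W) {f : A ⟶ A'} (hf : WNat W W' f) {X' : Conx A'} (φ : Mor X X' f)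
    {j : ℕ} (hG : X.Good W j) {k : ℕ} (hk : k ≤ j) (σ τ : X.C.cell k)
    (hpar : X.Par k σ τ) {h : ℕ} (hkh : k < h) (w : Cell A h)
    (h0 : Cell.face A hkh false w = X.pa k σ) (h1 : Cell.face A hkh true w = X.pa k τ) :
    f.app _ (X.TrG W k σ τ h w) = X'.TrG W' k (φ.c k σ) (φ.c k τ) h (f.app _ w) := by
  induction k generalizing h with
  | zero =>
    have gσ := hG 0 hk σ
    have gτ := hG 0 hk τ
    have hs1 : ∀ H, X.Hof 0 σ = some H → sr A 0 H = Cell.face A hkh false w := by
      intro H e
      rw [gσ.some_s H e, h0]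
      rfl
    have a2 : Cell.face A hkh true (lw W 0 h (X.Hof 0 σ) w) = Cell.face A hkh true w :=
      lw_tgt L hkh _ w hs1
    have hs2 : ∀ H, X.Hof 0 τ = some H →
        sr A 0 H = Cell.face A hkh true (lw W 0 h (X.Hof 0 σ) w) := by
      intro H e
      rw [a2, gτ.some_s H e, h1]
      rfl
    show f.app _ (rw' W 0 h (lw W 0 h (X.Hof 0 σ) w) (X.Hof 0 τ)) =
      rw' W' 0 h (lw W' 0 h (X'.Hof 0 (φ.c 0 σ)) (f.app _ w)) (X'.Hof 0 (φ.c 0 τ))
    rw [rw_natural hf hkh _ _ hs2, lw_natural L hf hkh _ _ hs1, φ.Hof, φ.Hof]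
  | succ k ih =>
    have gσ := hG (k + 1) hk σ
    have gτ := hG (k + 1) hk τ
    have hk' : k ≤ j := Nat.le_of_succ_le hk
    have hkh' : k < h := Nat.lt_of_succ_lt hkh
    set base := X.TrG W k (X.C.src k σ) (X.C.tgt k σ) h w with hbase
    have i0 : Cell.face A hkh' false w = X.pa k (X.C.src k σ) := by
      rw [X.pa_s, ← h0]
      exact (Cell.face_face A (Nat.lt_succ_self k) hkh false false w).symm
    have i1 : Cell.face A hkh' true w = X.pa k (X.C.tgt k σ) := by
      rw [X.pa_t, ← h0]
      exact (Cell.face_face A (Nat.lt_succ_self k) hkh true false w).symm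
    obtain ⟨-, -, ihigh⟩ := X.TrG_bdry L hG hk' _ _ (X.par_bdry k σ) hkh' w i0 i1
    have hb0 : Cell.face A hkh false base = X.TrS W (k + 1) σ (k + 1) (X.pa (k + 1) σ) := by
      have := ihigh (k + 1) (Nat.lt_succ_self k) hkh false
      rw [h0] at this
      exact this
    have hb1 : Cell.face A hkh true base = X.TrS W (k + 1) τ (k + 1) (X.pa (k + 1) τ) := by
      have := ihigh (k + 1) (Nat.lt_succ_self k) hkh true
      rw [h1] at this
      show _ = X.TrG W k (X.C.src k τ) (X.C.tgt k τ) (k + 1) (X.pa (k + 1) τ)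
      rw [← hpar.1, ← hpar.2]
      exact this
    have hs1 : ∀ H, X.Hof (k + 1) σ = some H → sr A (k + 1) H = Cell.face A hkh false base := by
      intro H e
      rw [gσ.some_s H e, hb0]
    have a2 : Cell.face A hkh true (lw W (k + 1) h (X.Hof (k + 1) σ) base) =
        Cell.face A hkh true base :=
      lw_tgt L hkh _ _ hs1
    have hs2 : ∀ H, X.Hof (k + 1) τ = some H →
        sr A (k + 1) H = Cell.face A hkh true (lw W (k + 1) h (X.Hof (k + 1) σ) base) := by
      intro H e
      rw [a2, gτ.some_s H e, hb1]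
    have hbase' : f.app _ base = X'.TrG W' k (X'.C.src k (φ.c (k + 1) σ))
        (X'.C.tgt k (φ.c (k + 1) σ)) h (f.app _ w) := by
      rw [← φ.c_src, ← φ.c_tgt]
      exact ih hk' _ _ (X.par_bdry k σ) hkh' w i0 i1
    show f.app _ (rw' W (k + 1) h (lw W (k + 1) h (X.Hof (k + 1) σ) base) (X.Hof (k + 1) τ)) =
      rw' W' (k + 1) h (lw W' (k + 1) h (X'.Hof (k + 1) (φ.c (k + 1) σ))
        (X'.TrG W' k (X'.C.src k (φ.c (k + 1) σ)) (X'.C.tgt k (φ.c (k + 1) σ)) h (f.app _ w)))
        (X'.Hof (k + 1) (φ.c (k + 1) τ))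
    rw [rw_natural hf hkh _ _ hs2, lw_natural L hf hkh _ _ hs1, φ.Hof, φ.Hof, hbase']

end Conx

end Crest.Agent.Henry
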