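import Mathlib
import Crest.Prelude.Def_GlobularCoherator

/-!
# Basic operations in models of a coherator

* `HasFillers C`: the filler half of `IsCoheratorTheory`.
* `bface`: iterated faces of cells; `bface_bface`.
* `Conn Z j`: parallel `j`-cells are joined by a `(j+1)`-cell; `conn_freeOn` (AD), `Conn.of_retract`.
* `Step` is reflexive, symmetric, transitive (`step_refl`, `step_symm`, `step_trans`),
* two-globe shapes `two k p q` and pairs `pair`,
* whiskers `L`, `R`, inverses `inv` with faces and naturality.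
-/

set_option autoImplicit false

open CategoryTheory CategoryTheory.Limits Opposite
open Crest.GeometryTopology.Coherator

universe u

namespace Crest.Agent.Henry

open GlobTheory GlobTheory.GlobModel

/-! ### Shapes -/

lemma faceMap_comp {k h m : ℕ} (hk : k < h) (hm : h < m) (up up' : Bool) :
    Shape.faceMap hk up ≫ Shape.faceMap hm up' = Shape.faceMap (hk.trans hm) up :=
  (yoneda.map_comp (GlobeObj.faceArrow hk up) (GlobeObj.faceArrow hm up')).symm

lemma σ_eq (n : ℕ) : Shape.σ n = Shape.faceMap (Nat.lt_succ_self n) false := rfl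
lemma τ_eq (n : ℕ) : Shape.τ n = Shape.faceMap (Nat.lt_succ_self n) true := rfl

/-- The two-globe shape `D_p +_k D_q`. -/
def two (k p q : ℕ) (hp : k < p) (hq : k < q) : Shape := (Shape.globe p).glue k q hp hq

lemma two_dim (k p q : ℕ) (hp : k < p) (hq : k < q) : (two k p q hp hq).dim = max p q := rfl

section two
variable {k p q : ℕ} {hp : k < p} {hq : k < q}

/-- Inclusion of the first globe. -/
noncomputable def inL (k p q : ℕ) (hp : k < p) (hq : k < q) : Shape.globe p ⟶ two k p q hp hq :=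
  (Shape.globe p).inLeft k q hp hq

/-- Inclusion of the second globe. -/
noncomputable def inR (k p q : ℕ) (hp : k < p) (hq : k < q) : Shape.globe q ⟶ two k p q hp hq :=
  (Shape.globe p).inRight k q hp hq

lemma hinge_globe (hp : k < p) : (Shape.globe p).hinge hp = Shape.faceMap hp true := by
  change (GlobPsh.globeRepFace hp true ≫ 𝟙 _ : GlobPsh.globeRep k ⟶ GlobPsh.globeRep p) = _
  exact Category.comp_id _

lemma two_w : Shape.faceMap hp true ≫ inL k p q hp hq = Shape.faceMap hq false ≫ inR k p q hp hq := by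
  have := pushout.condition (f := GlobPsh.globeRepFace hp true ≫ (Shape.globe p).apex)
    (g := GlobPsh.globeRepFace hq false)
  rw [← hinge_globe]
  exact this

/-- Maps out of a two-globe shape. -/
noncomputable def twoDesc {U : Shape} (l : Shape.globe p ⟶ U) (r : Shape.globe q ⟶ U)
    (w : Shape.faceMap hp true ≫ l = Shape.faceMap hq false ≫ r) : two k p q hp hq ⟶ U :=
  pushout.desc (f := GlobPsh.globeRepFace hp true ≫ (Shape.globe p).apex)
    (g := GlobPsh.globeRepFace hq false) l r (by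
      rw [show GlobPsh.globeRepFace hp true ≫ (Shape.globe p).apex = Shape.faceMap hp true from
        hinge_globe hp]
      exact w)

@[simp] lemma inL_twoDesc {U : Shape} (l : Shape.globe p ⟶ U) (r : Shape.globe q ⟶ U)
    (w : Shape.faceMap hp true ≫ l = Shape.faceMap hq false ≫ r) :
    inL k p q hp hq ≫ twoDesc l r w = l :=
  pushout.inl_desc (f := GlobPsh.globeRepFace hp true ≫ (Shape.globe p).apex)
    (g := GlobPsh.globeRepFace hq false) l r _

@[simp] lemma inR_twoDesc {U : Shape} (l : Shape.globe p ⟶ U) (r : Shape.globe q ⟶ U)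
    (w : Shape.faceMap hp true ≫ l = Shape.faceMap hq false ≫ r) :
    inR k p q hp hq ≫ twoDesc l r w = r :=
  pushout.inr_desc (f := GlobPsh.globeRepFace hp true ≫ (Shape.globe p).apex)
    (g := GlobPsh.globeRepFace hq false) l r _

lemma two_hom_ext {U : Shape} {f g : two k p q hp hq ⟶ U}
    (h₁ : inL k p q hp hq ≫ f = inL k p q hp hq ≫ g)
    (h₂ : inR k p q hp hq ≫ f = inR k p q hp hq ≫ g) : f = g :=
  pushout.hom_ext (f := GlobPsh.globeRepFace hp true ≫ (Shape.globe p).apex)
    (g := GlobPsh.globeRepFace hq false) h₁ h₂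

end two

/-! ### Fillers -/

/-- The filler half of a coherator. -/
def HasFillers (C : GlobTheory.{u}) : Prop :=
  ∀ p : C.Admissible, ∃ z, IsFillerAlong (TheoryMap.id C) p z

variable {C : GlobTheory.{u}}

lemma exists_filler (hC : HasFillers C) {n : ℕ} {S : Shape} (hS : S.dim ≤ n + 1)
    (f g : C.arr (Shape.globe n) S) (hp : C.OpsParallel n f g) :
    ∃ z : C.arr (Shape.globe (n + 1)) S,
      C.seq (C.ofShape (Shape.σ n)) z = f ∧ C.seq (C.ofShape (Shape.τ n)) z = g :=
  hC ⟨n, S, hS, f, g, hp⟩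

/-- Parallelism of shape maps from a globe. -/
def ShapePar {S : Shape} : (n : ℕ) → (Shape.globe n ⟶ S) → (Shape.globe n ⟶ S) → Prop
  | 0, _, _ => True
  | n + 1, f, g => Shape.σ n ≫ f = Shape.σ n ≫ g ∧ Shape.τ n ≫ f = Shape.τ n ≫ g

lemma ShapePar.ops {S : Shape} {n : ℕ} {f g : Shape.globe n ⟶ S} (h : ShapePar n f g) :
    C.OpsParallel n (C.ofShape f) (C.ofShape g) := by
  cases n with
  | zero => trivial
  | succ n =>
    refine ⟨?_, ?_⟩
    · rw [← C.ofShape_comp, ← C.ofShape_comp, h.1]
    · rw [← C.ofShape_comp, ← C.ofShape_comp, h.2]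

/-! ### The coglobular engine -/

/-- A coglobular tower of shapes above dimension `k`, with a parallel pair at the bottom. -/
structure CoGlobShapes (k : ℕ) where
  U : (h : ℕ) → k + 1 ≤ h → Shape
  dim_le : ∀ h hk, (U h hk).dim ≤ h
  m : ∀ h (hk : k + 1 ≤ h) (_ : Bool), U h hk ⟶ U (h + 1) (Nat.le_succ_of_le hk)
  l0 : Shape.globe k ⟶ U (k + 1) le_rfl
  u0 : Shape.globe k ⟶ U (k + 1) le_rfl
  base_par : ShapePar k l0 u0
  base_l : l0 ≫ m (k + 1) le_rfl false = l0 ≫ m (k + 1) le_rfl true
  base_u : u0 ≫ m (k + 1) le_rfl false = u0 ≫ m (k + 1) le_rfl true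
  ss : ∀ h hk up, m h hk up ≫ m (h + 1) (Nat.le_succ_of_le hk) false =
    m h hk up ≫ m (h + 1) (Nat.le_succ_of_le hk) true

namespace CoGlobShapes

variable {k : ℕ} (D : CoGlobShapes k) (hC : HasFillers C)

/-- Property used in the recursion: the pair at the next level is parallel. -/
def Good (h : ℕ) (hk : k + 1 ≤ h) (z : C.arr (Shape.globe h) (D.U h hk)) : Prop :=
  C.OpsParallel h (C.seq z (C.ofShape (D.m h hk false))) (C.seq z (C.ofShape (D.m h hk true)))

include hC in
lemma exists_base : ∃ z : C.arr (Shape.globe (k + 1)) (D.U (k + 1) le_rfl),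
    C.seq (C.ofShape (Shape.σ k)) z = C.ofShape D.l0 ∧
    C.seq (C.ofShape (Shape.τ k)) z = C.ofShape D.u0 :=
  exists_filler hC (D.dim_le _ _) _ _ D.base_par.ops

lemma good_base (z : C.arr (Shape.globe (k + 1)) (D.U (k + 1) le_rfl))
    (h₁ : C.seq (C.ofShape (Shape.σ k)) z = C.ofShape D.l0)
    (h₂ : C.seq (C.ofShape (Shape.τ k)) z = C.ofShape D.u0) : D.Good (k + 1) le_rfl z := by
  refine ⟨?_, ?_⟩
  · rw [← C.seq_assoc, ← C.seq_assoc, h₁, ← C.ofShape_comp, ← C.ofShape_comp, D.base_l]
  · rw [← C.seq_assoc, ← C.seq_assoc, h₂, ← C.ofShape_comp, ← C.ofShape_comp, D.base_u]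

include hC in
lemma exists_step (h : ℕ) (hk : k + 1 ≤ h) (z : C.arr (Shape.globe h) (D.U h hk)) (hz : D.Good h hk z) :
    ∃ z' : C.arr (Shape.globe (h + 1)) (D.U (h + 1) (Nat.le_succ_of_le hk)),
      C.seq (C.ofShape (Shape.σ h)) z' = C.seq z (C.ofShape (D.m h hk false)) ∧
      C.seq (C.ofShape (Shape.τ h)) z' = C.seq z (C.ofShape (D.m h hk true)) :=
  exists_filler hC (D.dim_le _ _) _ _ hz

lemma good_step (h : ℕ) (hk : k + 1 ≤ h) (z : C.arr (Shape.globe h) (D.U h hk))
    (z' : C.arr (Shape.globe (h + 1)) (D.U (h + 1) (Nat.le_succ_of_le hk)))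
    (h₁ : C.seq (C.ofShape (Shape.σ h)) z' = C.seq z (C.ofShape (D.m h hk false)))
    (h₂ : C.seq (C.ofShape (Shape.τ h)) z' = C.seq z (C.ofShape (D.m h hk true))) :
    D.Good (h + 1) (Nat.le_succ_of_le hk) z' := by
  refine ⟨?_, ?_⟩
  · rw [← C.seq_assoc, ← C.seq_assoc, h₁, C.seq_assoc, C.seq_assoc, ← C.ofShape_comp,
      ← C.ofShape_comp, D.ss]
  · rw [← C.seq_assoc, ← C.seq_assoc, h₂, C.seq_assoc, C.seq_assoc, ← C.ofShape_comp,
      ← C.ofShape_comp, D.ss]

/-- The operations of the coglobular tower, with the recursion invariant. -/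
noncomputable def opG (h : ℕ) (hk : k + 1 ≤ h) :
    { z : C.arr (Shape.globe h) (D.U h hk) // D.Good h hk z } :=
  Nat.leRec (motive := fun h hk => { z : C.arr (Shape.globe h) (D.U h hk) // D.Good h hk z })
    ⟨Classical.choose (D.exists_base hC),
      D.good_base _ (Classical.choose_spec (D.exists_base hC)).1
        (Classical.choose_spec (D.exists_base hC)).2⟩
    (fun h hk z => ⟨Classical.choose (D.exists_step hC h hk z.1 z.2),
      D.good_step h hk z.1 _ (Classical.choose_spec (D.exists_step hC h hk z.1 z.2)).1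
        (Classical.choose_spec (D.exists_step hC h hk z.1 z.2)).2⟩) hk

/-- The operations of the coglobular tower. -/
noncomputable def op (h : ℕ) (hk : k + 1 ≤ h) : C.arr (Shape.globe h) (D.U h hk) :=
  (D.opG hC h hk).1

lemma opG_base : D.opG hC (k + 1) le_rfl = ⟨Classical.choose (D.exists_base hC),
      D.good_base _ (Classical.choose_spec (D.exists_base hC)).1
        (Classical.choose_spec (D.exists_base hC)).2⟩ :=
  Nat.leRec_self _ _

lemma opG_succ (h : ℕ) (hk : k + 1 ≤ h) : D.opG hC (h + 1) (Nat.le_succ_of_le hk) =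
    ⟨Classical.choose (D.exists_step hC h hk (D.opG hC h hk).1 (D.opG hC h hk).2),
      D.good_step h hk (D.opG hC h hk).1 _
        (Classical.choose_spec (D.exists_step hC h hk (D.opG hC h hk).1 (D.opG hC h hk).2)).1
        (Classical.choose_spec (D.exists_step hC h hk (D.opG hC h hk).1 (D.opG hC h hk).2)).2⟩ :=
  Nat.leRec_succ _ _ _

lemma op_base_src :
    C.seq (C.ofShape (Shape.σ k)) (D.op hC (k + 1) le_rfl) = C.ofShape D.l0 := by
  unfold op
  rw [opG_base]
  exact (Classical.choose_spec (D.exists_base hC)).1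

lemma op_base_tgt :
    C.seq (C.ofShape (Shape.τ k)) (D.op hC (k + 1) le_rfl) = C.ofShape D.u0 := by
  unfold op
  rw [opG_base]
  exact (Classical.choose_spec (D.exists_base hC)).2

lemma op_succ_src (h : ℕ) (hk : k + 1 ≤ h) :
    C.seq (C.ofShape (Shape.σ h)) (D.op hC (h + 1) (Nat.le_succ_of_le hk)) =
      C.seq (D.op hC h hk) (C.ofShape (D.m h hk false)) := by
  unfold op
  rw [opG_succ]
  exact (Classical.choose_spec (D.exists_step hC h hk (D.opG hC h hk).1 (D.opG hC h hk).2)).1

lemma op_succ_tgt (h : ℕ) (hk : k + 1 ≤ h) :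
    C.seq (C.ofShape (Shape.τ h)) (D.op hC (h + 1) (Nat.le_succ_of_le hk)) =
      C.seq (D.op hC h hk) (C.ofShape (D.m h hk true)) := by
  unfold op
  rw [opG_succ]
  exact (Classical.choose_spec (D.exists_step hC h hk (D.opG hC h hk).1 (D.opG hC h hk).2)).2

end CoGlobShapes

/-! ### Models: acts, faces, pairs -/

namespace GM

variable (Z : GlobModel C)

lemma act_seq {R S T : Shape} (f : C.arr R S) (g : C.arr S T) (t) :
    Z.act (C.seq f g) t = Z.act f (Z.act g t) := by
  have := Z.functor.map_comp (Quiver.Hom.op (X := (⟨S⟩ : C.Ob)) (Y := (⟨T⟩ : C.Ob)) g)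
    (Quiver.Hom.op (X := (⟨R⟩ : C.Ob)) (Y := (⟨S⟩ : C.Ob)) f)
  exact types_congr_hom this t

variable {Z}

lemma map_act {Y : GlobModel C} (g : Z ⟶ Y) {S T : Shape} (o : C.arr S T) (t) :
    g.app (op (⟨S⟩ : C.Ob)) (Z.act o t) = Y.act o (g.app (op (⟨T⟩ : C.Ob)) t) :=
  types_congr_hom (g.naturality (Quiver.Hom.op (X := (⟨S⟩ : C.Ob)) (Y := (⟨T⟩ : C.Ob)) o)) t

variable (Z)

/-- Iterated face of a cell. -/
noncomputable def bface {k h : ℕ} (hk : k < h) (up : Bool) : Z.cells.cell h → Z.cells.cell k :=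
  Z.act (C.ofShape (Shape.faceMap hk up))

variable {Z}

lemma src_eq {n : ℕ} (x : Z.cells.cell (n + 1)) :
    Z.cells.src n x = Z.act (C.ofShape (Shape.σ n)) x := rfl

lemma tgt_eq {n : ℕ} (x : Z.cells.cell (n + 1)) :
    Z.cells.tgt n x = Z.act (C.ofShape (Shape.τ n)) x := rfl

lemma bface_src {n : ℕ} (x : Z.cells.cell (n + 1)) :
    bface Z (Nat.lt_succ_self n) false x = Z.cells.src n x := rfl

lemma bface_tgt {n : ℕ} (x : Z.cells.cell (n + 1)) :
    bface Z (Nat.lt_succ_self n) true x = Z.cells.tgt n x := rfl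

lemma bface_bface {k h m : ℕ} (hk : k < h) (hm : h < m) (up up' : Bool) (x : Z.cells.cell m) :
    bface Z hk up (bface Z hm up' x) = bface Z (hk.trans hm) up x := by
  have h : C.seq (C.ofShape (Shape.faceMap hk up)) (C.ofShape (Shape.faceMap hm up')) =
      C.ofShape (Shape.faceMap (hk.trans hm) up) := by
    rw [← C.ofShape_comp, faceMap_comp]
  exact (act_seq Z _ _ x).symm.trans (congrArg (fun o => Z.act o x) h)

lemma bface_src' {k h : ℕ} (hk : k < h) (up : Bool) (x : Z.cells.cell (h + 1)) :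
    bface Z hk up (Z.cells.src h x) = bface Z (hk.trans (Nat.lt_succ_self h)) up x :=
  bface_bface hk (Nat.lt_succ_self h) up false x

lemma bface_tgt' {k h : ℕ} (hk : k < h) (up : Bool) (x : Z.cells.cell (h + 1)) :
    bface Z hk up (Z.cells.tgt h x) = bface Z (hk.trans (Nat.lt_succ_self h)) up x :=
  bface_bface hk (Nat.lt_succ_self h) up true x

lemma map_bface {Y : GlobModel C} (g : Z ⟶ Y) {k h : ℕ} (hk : k < h) (up : Bool)
    (x : Z.cells.cell h) :
    (cellsMap g).app k (bface Z hk up x) = bface Y hk up ((cellsMap g).app h x) :=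
  map_act g _ _

/-- `Conn Z j`: any two parallel `j`-cells are joined by a `(j + 1)`-cell. -/
def Conn (Z : GlobModel C) (j : ℕ) : Prop :=
  ∀ u v : Z.cells.cell j, Z.cells.AreParallel j u v → Z.cells.Step j u v

/-- Maps of models preserve parallelism. -/
lemma parallel_map {Y : GlobModel C} (g : Z ⟶ Y) {j : ℕ} {u v : Z.cells.cell j}
    (h : Z.cells.AreParallel j u v) :
    Y.cells.AreParallel j ((cellsMap g).app j u) ((cellsMap g).app j v) := by
  cases j with
  | zero => trivial
  | succ j =>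
    refine ⟨?_, ?_⟩
    · rw [← (cellsMap g).app_src, ← (cellsMap g).app_src, h.1]
    · rw [← (cellsMap g).app_tgt, ← (cellsMap g).app_tgt, h.2]

/-- Maps of models preserve `Step`. -/
lemma step_map {Y : GlobModel C} (g : Z ⟶ Y) {j : ℕ} {u v : Z.cells.cell j}
    (h : Z.cells.Step j u v) : Y.cells.Step j ((cellsMap g).app j u) ((cellsMap g).app j v) := by
  obtain ⟨c, hs, ht⟩ := h
  exact ⟨(cellsMap g).app _ c, by rw [← (cellsMap g).app_src, hs],
    by rw [← (cellsMap g).app_tgt, ht]⟩

/-- A retract of a `Conn` model is `Conn`. -/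
lemma Conn.of_retract {X Y : GlobModel C} (i : X ⟶ Y) (r : Y ⟶ X) (hir : i ≫ r = 𝟙 X) {j : ℕ}
    (hY : Conn Y j) : Conn X j := by
  intro u v huv
  have h := step_map r (hY _ _ (parallel_map i huv))
  have e : ∀ w : X.cells.cell j, (cellsMap r).app j ((cellsMap i).app j w) = w := by
    intro w
    have := congrArg (fun f : X ⟶ X => (cellsMap f).app j w) hir
    exact this
  rwa [e, e] at h

/-- Two parallel operations applied to a tuple are joined by a cell (AD). -/
lemma step_act (hC : HasFillers C) (Z : GlobModel C) {j : ℕ} {S : Shape} (hS : S.dim ≤ j + 1)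
    (f g : C.arr (Shape.globe j) S) (hp : C.OpsParallel j f g) (t) :
    Z.cells.Step j (Z.act f t) (Z.act g t) := by
  obtain ⟨z, h₁, h₂⟩ := exists_filler hC hS f g hp
  refine ⟨Z.act z t, ?_, ?_⟩
  · exact (act_seq Z _ _ t).symm.trans (congrArg (fun o => Z.act o t) h₁)
  · exact (act_seq Z _ _ t).symm.trans (congrArg (fun o => Z.act o t) h₂)

/-- AD: free models on shapes of height `≤ j + 1` are connected in dimension `j`. -/
lemma conn_freeOn (hC : HasFillers C) {j : ℕ} {S : Shape} (hS : S.dim ≤ j + 1) :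
    Conn (freeOn C S) j := by
  intro u v huv
  obtain ⟨z, h₁, h₂⟩ := exists_filler hC hS (n := j) (S := S) u v (by
    cases j with
    | zero => trivial
    | succ j => exact huv)
  exact ⟨z, h₁, h₂⟩

/-- `Step` is reflexive. -/
lemma step_refl (hC : HasFillers C) {j : ℕ} (x : Z.cells.cell j) : Z.cells.Step j x x := by
  have := step_act hC Z (j := j) (S := Shape.globe j) (by
    change j ≤ j + 1; omega) (C.one _) (C.one _) (by
      cases j with
      | zero => trivial
      | succ j => exact ⟨rfl, rfl⟩) x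
  have e : Z.act (C.one (Shape.globe j)) x = x := by
    have := Z.functor.map_id (op (⟨Shape.globe j⟩ : C.Ob))
    exact types_congr_hom this x
  obtain ⟨c, h1, h2⟩ := this
  exact ⟨c, h1.trans e, h2.trans e⟩

/-- The inverse operation: a filler of the pair `(τ, σ)` on the `(n + 1)`-globe. -/
lemma exists_inv (hC : HasFillers C) (n : ℕ) :
    ∃ z : C.arr (Shape.globe (n + 1)) (Shape.globe (n + 1)),
      C.seq (C.ofShape (Shape.σ n)) z = C.ofShape (Shape.τ n) ∧
      C.seq (C.ofShape (Shape.τ n)) z = C.ofShape (Shape.σ n) := by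
  refine exists_filler hC (S := Shape.globe (n + 1)) (by exact le_rfl) _ _ (ShapePar.ops ?_)
  cases n with
  | zero => trivial
  | succ n =>
    refine ⟨?_, ?_⟩
    · exact (faceMap_comp _ _ _ _).trans (faceMap_comp _ _ _ _).symm
    · exact (faceMap_comp _ _ _ _).trans (faceMap_comp _ _ _ _).symm

/-- The chosen inverse operation. -/
noncomputable def invOp (hC : HasFillers C) (n : ℕ) :
    C.arr (Shape.globe (n + 1)) (Shape.globe (n + 1)) := Classical.choose (exists_inv hC n)

/-- Inverse of a cell. -/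
noncomputable def inv (hC : HasFillers C) {n : ℕ} (x : Z.cells.cell (n + 1)) : Z.cells.cell (n + 1) :=
  Z.act (invOp hC n) x

lemma src_inv (hC : HasFillers C) {n : ℕ} (x : Z.cells.cell (n + 1)) :
    Z.cells.src n (inv hC x) = Z.cells.tgt n x :=
  (act_seq Z _ _ x).symm.trans
    (congrArg (fun o => Z.act o x) (Classical.choose_spec (exists_inv hC n)).1)

lemma tgt_inv (hC : HasFillers C) {n : ℕ} (x : Z.cells.cell (n + 1)) :
    Z.cells.tgt n (inv hC x) = Z.cells.src n x :=
  (act_seq Z _ _ x).symm.trans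
    (congrArg (fun o => Z.act o x) (Classical.choose_spec (exists_inv hC n)).2)

lemma map_inv {Y : GlobModel C} (hC : HasFillers C) (g : Z ⟶ Y) {n : ℕ} (x : Z.cells.cell (n + 1)) :
    (cellsMap g).app _ (inv hC x) = inv hC ((cellsMap g).app _ x) :=
  map_act g _ _

/-- `Step` is symmetric. -/
lemma step_symm (hC : HasFillers C) {j : ℕ} {x y : Z.cells.cell j} (h : Z.cells.Step j x y) :
    Z.cells.Step j y x := by
  obtain ⟨c, rfl, rfl⟩ := h
  exact ⟨inv hC c, src_inv hC c, tgt_inv hC c⟩

/-! ### Pairs -/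

/-- A compatible pair of cells as a tuple on the two-globe shape. -/
lemma exists_pair (Z : GlobModel C) {k p q : ℕ} (hp : k < p) (hq : k < q) (x : Z.cells.cell p)
    (y : Z.cells.cell q) (hc : bface Z hp true x = bface Z hq false y) :
    ∃ t : Z.functor.obj (op (⟨two k p q hp hq⟩ : C.Ob)),
      Z.act (C.ofShape (inL k p q hp hq)) t = x ∧ Z.act (C.ofShape (inR k p q hp hq)) t = y := by
  have hP := Z.sums (Shape.globe p) k q hp hq
  have e : C.incl.map ((Shape.globe p).hinge hp) = C.incl.map (Shape.faceMap hp true) :=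
    congrArg _ (hinge_globe hp)
  exact Types.exists_of_isPullback hP x y (by
    have h2 := congrArg (fun m => Z.functor.map (Quiver.Hom.op m) x) e
    exact (h2.trans hc))

/-- The tuple on the two-globe shape of a compatible pair. -/
noncomputable def pair (Z : GlobModel C) {k p q : ℕ} (hp : k < p) (hq : k < q) (x : Z.cells.cell p)
    (y : Z.cells.cell q) (hc : bface Z hp true x = bface Z hq false y) :
    Z.functor.obj (op (⟨two k p q hp hq⟩ : C.Ob)) :=
  Classical.choose (exists_pair Z hp hq x y hc)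

lemma pair_left {k p q : ℕ} (hp : k < p) (hq : k < q) (x : Z.cells.cell p)
    (y : Z.cells.cell q) (hc : bface Z hp true x = bface Z hq false y) :
    Z.act (C.ofShape (inL k p q hp hq)) (pair Z hp hq x y hc) = x :=
  (Classical.choose_spec (exists_pair Z hp hq x y hc)).1

lemma pair_right {k p q : ℕ} (hp : k < p) (hq : k < q) (x : Z.cells.cell p)
    (y : Z.cells.cell q) (hc : bface Z hp true x = bface Z hq false y) :
    Z.act (C.ofShape (inR k p q hp hq)) (pair Z hp hq x y hc) = y :=
  (Classical.choose_spec (exists_pair Z hp hq x y hc)).2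

lemma pair_ext {k p q : ℕ} (hp : k < p) (hq : k < q)
    {t t' : Z.functor.obj (op (⟨two k p q hp hq⟩ : C.Ob))}
    (h₁ : Z.act (C.ofShape (inL k p q hp hq)) t = Z.act (C.ofShape (inL k p q hp hq)) t')
    (h₂ : Z.act (C.ofShape (inR k p q hp hq)) t = Z.act (C.ofShape (inR k p q hp hq)) t') :
    t = t' :=
  Types.ext_of_isPullback (Z.sums (Shape.globe p) k q hp hq) h₁ h₂

lemma map_pair {Y : GlobModel C} (g : Z ⟶ Y) {k p q : ℕ} (hp : k < p) (hq : k < q)
    (x : Z.cells.cell p) (y : Z.cells.cell q) (hc : bface Z hp true x = bface Z hq false y)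
    (hc' : bface Y hp true ((cellsMap g).app _ x) = bface Y hq false ((cellsMap g).app _ y)) :
    g.app _ (pair Z hp hq x y hc) = pair Y hp hq _ _ hc' := by
  apply pair_ext hp hq
  · rw [pair_left, ← map_act, pair_left]; rfl
  · rw [pair_right, ← map_act, pair_right]; rfl

/-! ### Units -/

lemma exists_unit (hC : HasFillers C) (n : ℕ) :
    ∃ z : C.arr (Shape.globe (n + 1)) (Shape.globe n),
      C.seq (C.ofShape (Shape.σ n)) z = C.one _ ∧ C.seq (C.ofShape (Shape.τ n)) z = C.one _ :=
  exists_filler hC (S := Shape.globe n) (by change n ≤ n + 1; omega) _ _ (by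
    cases n with
    | zero => trivial
    | succ n => exact ⟨rfl, rfl⟩)

/-- The chosen unit operation. -/
noncomputable def unitOp (hC : HasFillers C) (n : ℕ) : C.arr (Shape.globe (n + 1)) (Shape.globe n) :=
  Classical.choose (exists_unit hC n)

/-- Unit of a cell. -/
noncomputable def unit (hC : HasFillers C) {n : ℕ} (x : Z.cells.cell n) : Z.cells.cell (n + 1) :=
  Z.act (unitOp hC n) x

lemma act_one {S : Shape} (t : Z.functor.obj (op (⟨S⟩ : C.Ob))) : Z.act (C.one S) t = t :=
  types_congr_hom (Z.functor.map_id (op (⟨S⟩ : C.Ob))) t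

lemma src_unit (hC : HasFillers C) {n : ℕ} (x : Z.cells.cell n) :
    Z.cells.src n (unit hC x) = x :=
  ((act_seq Z _ _ x).symm.trans
    (congrArg (fun o => Z.act o x) (Classical.choose_spec (exists_unit hC n)).1)).trans (act_one x)

lemma tgt_unit (hC : HasFillers C) {n : ℕ} (x : Z.cells.cell n) :
    Z.cells.tgt n (unit hC x) = x :=
  ((act_seq Z _ _ x).symm.trans
    (congrArg (fun o => Z.act o x) (Classical.choose_spec (exists_unit hC n)).2)).trans (act_one x)

lemma map_unit {Y : GlobModel C} (hC : HasFillers C) (g : Z ⟶ Y) {n : ℕ} (x : Z.cells.cell n) :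
    (cellsMap g).app _ (unit hC x) = unit hC ((cellsMap g).app _ x) :=
  map_act g _ _

end GM

/-! ### Whisker towers -/

section towers

variable (k : ℕ)

lemma two_base_par :
    ShapePar k
      (Shape.σ k ≫ inL k (k + 1) (k + 1) (Nat.lt_succ_self k) (Nat.lt_succ_self k))
      (Shape.τ k ≫ inR k (k + 1) (k + 1) (Nat.lt_succ_self k) (Nat.lt_succ_self k)) := by
  cases k with
  | zero => trivial
  | succ k =>
    have hw := two_w (k := k + 1) (p := k + 2) (q := k + 2) (hp := Nat.lt_succ_self _)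
      (hq := Nat.lt_succ_self _)
    refine ⟨?_, ?_⟩
    · calc Shape.σ k ≫ Shape.σ (k + 1) ≫ inL _ _ _ _ _
          = (Shape.σ k ≫ Shape.σ (k + 1)) ≫ inL _ _ _ _ _ := (Category.assoc _ _ _).symm
        _ = (Shape.σ k ≫ Shape.τ (k + 1)) ≫ inL _ _ _ _ _ := by
            rw [show Shape.σ k ≫ Shape.σ (k + 1) = Shape.σ k ≫ Shape.τ (k + 1) from
              (faceMap_comp _ _ _ _).trans (faceMap_comp _ _ _ _).symm]
        _ = Shape.σ k ≫ (Shape.τ (k + 1) ≫ inL _ _ _ _ _) := Category.assoc _ _ _
        _ = Shape.σ k ≫ (Shape.σ (k + 1) ≫ inR _ _ _ _ _) := by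
            rw [show Shape.τ (k + 1) ≫ inL _ _ _ _ _ = Shape.σ (k + 1) ≫ inR _ _ _ _ _ from hw]
        _ = (Shape.σ k ≫ Shape.σ (k + 1)) ≫ inR _ _ _ _ _ := (Category.assoc _ _ _).symm
        _ = (Shape.σ k ≫ Shape.τ (k + 1)) ≫ inR _ _ _ _ _ := by
            rw [show Shape.σ k ≫ Shape.σ (k + 1) = Shape.σ k ≫ Shape.τ (k + 1) from
              (faceMap_comp _ _ _ _).trans (faceMap_comp _ _ _ _).symm]
        _ = _ := Category.assoc _ _ _
    · calc Shape.τ k ≫ Shape.σ (k + 1) ≫ inL _ _ _ _ _
          = (Shape.τ k ≫ Shape.σ (k + 1)) ≫ inL _ _ _ _ _ := (Category.assoc _ _ _).symm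
        _ = (Shape.τ k ≫ Shape.τ (k + 1)) ≫ inL _ _ _ _ _ := by
            rw [show Shape.τ k ≫ Shape.σ (k + 1) = Shape.τ k ≫ Shape.τ (k + 1) from
              (faceMap_comp _ _ _ _).trans (faceMap_comp _ _ _ _).symm]
        _ = Shape.τ k ≫ (Shape.τ (k + 1) ≫ inL _ _ _ _ _) := Category.assoc _ _ _
        _ = Shape.τ k ≫ (Shape.σ (k + 1) ≫ inR _ _ _ _ _) := by
            rw [show Shape.τ (k + 1) ≫ inL _ _ _ _ _ = Shape.σ (k + 1) ≫ inR _ _ _ _ _ from hw]
        _ = (Shape.τ k ≫ Shape.σ (k + 1)) ≫ inR _ _ _ _ _ := (Category.assoc _ _ _).symm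
        _ = (Shape.τ k ≫ Shape.τ (k + 1)) ≫ inR _ _ _ _ _ := by
            rw [show Shape.τ k ≫ Shape.σ (k + 1) = Shape.τ k ≫ Shape.τ (k + 1) from
              (faceMap_comp _ _ _ _).trans (faceMap_comp _ _ _ _).symm]
        _ = _ := Category.assoc _ _ _

/-- Face of the left whisker shape. -/
noncomputable def Lm (h : ℕ) (hk : k + 1 ≤ h) (up : Bool) :
    two k (k + 1) h (Nat.lt_succ_self k) hk ⟶ two k (k + 1) (h + 1) (Nat.lt_succ_self k) (Nat.le_succ_of_le hk) :=
  twoDesc (inL _ _ _ _ _) (Shape.faceMap (Nat.lt_succ_self h) up ≫ inR _ _ _ _ _) (by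
    rw [two_w, ← Category.assoc, faceMap_comp])

lemma inL_Lm (h : ℕ) (hk : k + 1 ≤ h) (up : Bool) :
    inL _ _ _ _ _ ≫ Lm k h hk up = inL _ _ _ _ _ := inL_twoDesc _ _ _

lemma inR_Lm (h : ℕ) (hk : k + 1 ≤ h) (up : Bool) :
    inR _ _ _ _ _ ≫ Lm k h hk up = Shape.faceMap (Nat.lt_succ_self h) up ≫ inR _ _ _ _ _ :=
  inR_twoDesc _ _ _

/-- The tower for left whiskers: `D_{k+1} +_k D_h`. -/
noncomputable def Ltower : CoGlobShapes k where
  U h hk := two k (k + 1) h (Nat.lt_succ_self k) hk
  dim_le h hk := by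
    rw [two_dim]; exact max_le hk le_rfl
  m h hk up := Lm k h hk up
  l0 := Shape.σ k ≫ inL _ _ _ _ _
  u0 := Shape.τ k ≫ inR _ _ _ _ _
  base_par := two_base_par k
  base_l := by
    rw [Category.assoc, Category.assoc, inL_Lm, inL_Lm]
  base_u := by
    rw [Category.assoc, Category.assoc, inR_Lm, inR_Lm, ← Category.assoc,
      ← Category.assoc, τ_eq, faceMap_comp, faceMap_comp]
  ss h hk up := by
    apply two_hom_ext
    · rw [← Category.assoc, ← Category.assoc, inL_Lm, inL_Lm, inL_Lm]
    · rw [← Category.assoc, ← Category.assoc, inR_Lm, Category.assoc, Category.assoc, inR_Lm,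
        inR_Lm, ← Category.assoc, ← Category.assoc, faceMap_comp, faceMap_comp]

/-- Face of the right whisker shape. -/
noncomputable def Rm (h : ℕ) (hk : k + 1 ≤ h) (up : Bool) :
    two k h (k + 1) hk (Nat.lt_succ_self k) ⟶ two k (h + 1) (k + 1) (Nat.le_succ_of_le hk) (Nat.lt_succ_self k) :=
  twoDesc (Shape.faceMap (Nat.lt_succ_self h) up ≫ inL _ _ _ _ _) (inR _ _ _ _ _) (by
    rw [← two_w, ← Category.assoc, faceMap_comp])

lemma inL_Rm (h : ℕ) (hk : k + 1 ≤ h) (up : Bool) :
    inL _ _ _ _ _ ≫ Rm k h hk up = Shape.faceMap (Nat.lt_succ_self h) up ≫ inL _ _ _ _ _ :=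
  inL_twoDesc _ _ _

lemma inR_Rm (h : ℕ) (hk : k + 1 ≤ h) (up : Bool) :
    inR _ _ _ _ _ ≫ Rm k h hk up = inR _ _ _ _ _ := inR_twoDesc _ _ _

/-- The tower for right whiskers: `D_h +_k D_{k+1}`. -/
noncomputable def Rtower : CoGlobShapes k where
  U h hk := two k h (k + 1) hk (Nat.lt_succ_self k)
  dim_le h hk := by
    rw [two_dim]; exact max_le le_rfl hk
  m h hk up := Rm k h hk up
  l0 := Shape.σ k ≫ inL _ _ _ _ _
  u0 := Shape.τ k ≫ inR _ _ _ _ _
  base_par := two_base_par k
  base_l := by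
    rw [Category.assoc, Category.assoc, inL_Rm, inL_Rm, ← Category.assoc,
      ← Category.assoc, σ_eq, faceMap_comp, faceMap_comp]
  base_u := by
    rw [Category.assoc, Category.assoc, inR_Rm, inR_Rm]
  ss h hk up := by
    apply two_hom_ext
    · rw [← Category.assoc, ← Category.assoc, inL_Rm, Category.assoc, Category.assoc, inL_Rm,
        inL_Rm, ← Category.assoc, ← Category.assoc, faceMap_comp, faceMap_comp]
    · rw [← Category.assoc, ← Category.assoc, inR_Rm, inR_Rm, inR_Rm]

end towers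


/-! ### Whiskers on cells -/

namespace GM

variable {Z : GlobModel C} (hC : HasFillers C)

lemma act_comp_shape {S T U : Shape} (f : S ⟶ T) (g : T ⟶ U) (t) :
    Z.act (C.ofShape (f ≫ g)) t = Z.act (C.ofShape f) (Z.act (C.ofShape g) t) :=
  (congrArg (fun o => Z.act o t) (C.ofShape_comp f g)).trans (act_seq Z _ _ t)

/-- The left whisker operation. -/
noncomputable def Lop (k h : ℕ) (hk : k + 1 ≤ h) :
    C.arr (Shape.globe h) (two k (k + 1) h (Nat.lt_succ_self k) hk) := (Ltower k).op hC h hk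

/-- The right whisker operation. -/
noncomputable def Rop (k h : ℕ) (hk : k + 1 ≤ h) :
    C.arr (Shape.globe h) (two k h (k + 1) hk (Nat.lt_succ_self k)) := (Rtower k).op hC h hk

lemma act_Lm_pair {k h : ℕ} (hk : k + 1 ≤ h) (up : Bool) (x : Z.cells.cell (k + 1))
    (w : Z.cells.cell (h + 1))
    (hc : bface Z (Nat.lt_succ_self k) true x = bface Z (Nat.le_succ_of_le hk) false w)
    (hc' : bface Z (Nat.lt_succ_self k) true x =
      bface Z hk false (bface Z (Nat.lt_succ_self h) up w)) :
    Z.act (C.ofShape (Lm k h hk up)) (pair Z (Nat.lt_succ_self k) (Nat.le_succ_of_le hk) x w hc) =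
      pair Z (Nat.lt_succ_self k) hk x (bface Z (Nat.lt_succ_self h) up w) hc' := by
  apply pair_ext
  · refine ((act_comp_shape _ _ _).symm.trans ?_).trans (pair_left _ _ _ _ _).symm
    rw [inL_Lm]
    exact pair_left _ _ _ _ _
  · refine ((act_comp_shape _ _ _).symm.trans ?_).trans (pair_right _ _ _ _ _).symm
    rw [inR_Lm]
    exact (act_comp_shape _ _ _).trans (congrArg _ (pair_right _ _ _ _ _))

lemma act_Rm_pair {k h : ℕ} (hk : k + 1 ≤ h) (up : Bool) (x : Z.cells.cell (k + 1))
    (w : Z.cells.cell (h + 1))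
    (hc : bface Z (Nat.le_succ_of_le hk) true w = bface Z (Nat.lt_succ_self k) false x)
    (hc' : bface Z hk true (bface Z (Nat.lt_succ_self h) up w) =
      bface Z (Nat.lt_succ_self k) false x) :
    Z.act (C.ofShape (Rm k h hk up)) (pair Z (Nat.le_succ_of_le hk) (Nat.lt_succ_self k) w x hc) =
      pair Z hk (Nat.lt_succ_self k) (bface Z (Nat.lt_succ_self h) up w) x hc' := by
  apply pair_ext
  · refine ((act_comp_shape _ _ _).symm.trans ?_).trans (pair_left _ _ _ _ _).symm
    rw [inL_Rm]
    exact (act_comp_shape _ _ _).trans (congrArg _ (pair_left _ _ _ _ _))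
  · refine ((act_comp_shape _ _ _).symm.trans ?_).trans (pair_right _ _ _ _ _).symm
    rw [inR_Rm]
    exact pair_right _ _ _ _ _

open Classical in
/-- Left whisker `L_k(x, w)` of a `(k+1)`-cell `x` and an `h`-cell `w`, `h ≥ k + 1`,
with `tgt x` equal to the `k`-source of `w` (total: equals `w` when this fails). -/
noncomputable def L (k : ℕ) {h : ℕ} (x : Z.cells.cell (k + 1)) (w : Z.cells.cell h) :
    Z.cells.cell h :=
  if hk : k + 1 ≤ h then
    if hc : bface Z (Nat.lt_succ_self k) true x = bface Z hk false w then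
      Z.act (Lop hC k h hk) (pair Z (Nat.lt_succ_self k) hk x w hc)
    else w
  else w

open Classical in
/-- Right whisker `R_k(w, x)` of an `h`-cell `w`, `h ≥ k + 1`, and a `(k+1)`-cell `x`,
with the `k`-target of `w` equal to `src x` (total: equals `w` when this fails). -/
noncomputable def R (k : ℕ) {h : ℕ} (w : Z.cells.cell h) (x : Z.cells.cell (k + 1)) :
    Z.cells.cell h :=
  if hk : k + 1 ≤ h then
    if hc : bface Z hk true w = bface Z (Nat.lt_succ_self k) false x then
      Z.act (Rop hC k h hk) (pair Z hk (Nat.lt_succ_self k) w x hc)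
    else w
  else w

lemma L_eq {k h : ℕ} (hk : k + 1 ≤ h) (x : Z.cells.cell (k + 1)) (w : Z.cells.cell h)
    (hc : Z.cells.tgt k x = bface Z hk false w) :
    L hC k x w = Z.act (Lop hC k h hk) (pair Z (Nat.lt_succ_self k) hk x w hc) := by
  unfold L
  rw [dif_pos hk]
  exact dif_pos hc

lemma R_eq {k h : ℕ} (hk : k + 1 ≤ h) (w : Z.cells.cell h) (x : Z.cells.cell (k + 1))
    (hc : bface Z hk true w = Z.cells.src k x) :
    R hC k w x = Z.act (Rop hC k h hk) (pair Z hk (Nat.lt_succ_self k) w x hc) := by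
  unfold R
  rw [dif_pos hk]
  exact dif_pos hc

section faces

variable {k h : ℕ}

/-- The composite case: `L_k(x, w)` for `w` of dimension `k + 1`. -/
lemma L_base_src (x w : Z.cells.cell (k + 1)) (hc : Z.cells.tgt k x = Z.cells.src k w) :
    Z.cells.src k (L hC k x w) = Z.cells.src k x := by
  rw [L_eq hC le_rfl x w hc]
  refine (act_seq Z _ _ _).symm.trans ?_
  refine (congrArg (fun o => Z.act o _) ((Ltower k).op_base_src hC)).trans ?_
  exact (act_comp_shape _ _ _).trans (congrArg _ (pair_left _ _ _ _ _))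

lemma L_base_tgt (x w : Z.cells.cell (k + 1)) (hc : Z.cells.tgt k x = Z.cells.src k w) :
    Z.cells.tgt k (L hC k x w) = Z.cells.tgt k w := by
  rw [L_eq hC le_rfl x w hc]
  refine (act_seq Z _ _ _).symm.trans ?_
  refine (congrArg (fun o => Z.act o _) ((Ltower k).op_base_tgt hC)).trans ?_
  exact (act_comp_shape _ _ _).trans (congrArg _ (pair_right _ _ _ _ _))

lemma R_base_src (w x : Z.cells.cell (k + 1)) (hc : Z.cells.tgt k w = Z.cells.src k x) :
    Z.cells.src k (R hC k w x) = Z.cells.src k w := by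
  rw [R_eq hC le_rfl w x hc]
  refine (act_seq Z _ _ _).symm.trans ?_
  refine (congrArg (fun o => Z.act o _) ((Rtower k).op_base_src hC)).trans ?_
  exact (act_comp_shape _ _ _).trans (congrArg _ (pair_left _ _ _ _ _))

lemma R_base_tgt (w x : Z.cells.cell (k + 1)) (hc : Z.cells.tgt k w = Z.cells.src k x) :
    Z.cells.tgt k (R hC k w x) = Z.cells.tgt k x := by
  rw [R_eq hC le_rfl w x hc]
  refine (act_seq Z _ _ _).symm.trans ?_
  refine (congrArg (fun o => Z.act o _) ((Rtower k).op_base_tgt hC)).trans ?_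
  exact (act_comp_shape _ _ _).trans (congrArg _ (pair_right _ _ _ _ _))

/-- Compatibility descends to the faces of `w`. -/
lemma compat_L_face (hk : k + 1 ≤ h) (up : Bool) {x : Z.cells.cell (k + 1)} {w : Z.cells.cell (h + 1)}
    (hc : Z.cells.tgt k x = bface Z (Nat.le_succ_of_le hk) false w) :
    Z.cells.tgt k x = bface Z hk false (bface Z (Nat.lt_succ_self h) up w) :=
  hc.trans (bface_bface hk (Nat.lt_succ_self h) false up w).symm

lemma compat_R_face (hk : k + 1 ≤ h) (up : Bool) {x : Z.cells.cell (k + 1)} {w : Z.cells.cell (h + 1)}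
    (hc : bface Z (Nat.le_succ_of_le hk) true w = Z.cells.src k x) :
    bface Z hk true (bface Z (Nat.lt_succ_self h) up w) = Z.cells.src k x :=
  (bface_bface hk (Nat.lt_succ_self h) true up w).trans hc

lemma L_succ_face (hk : k + 1 ≤ h) (up : Bool) (x : Z.cells.cell (k + 1)) (w : Z.cells.cell (h + 1))
    (hc : Z.cells.tgt k x = bface Z (Nat.le_succ_of_le hk) false w) :
    bface Z (Nat.lt_succ_self h) up (L hC k x w) = L hC k x (bface Z (Nat.lt_succ_self h) up w) := by
  rw [L_eq hC (Nat.le_succ_of_le hk) x w hc, L_eq hC hk x _ (compat_L_face hk up hc)]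
  refine (act_seq Z _ _ _).symm.trans ?_
  cases up with
  | false =>
    refine (congrArg (fun o => Z.act o _) ((Ltower k).op_succ_src hC h hk)).trans ?_
    exact (act_seq Z _ _ _).trans (congrArg _ (act_Lm_pair hk false x w hc _))
  | true =>
    refine (congrArg (fun o => Z.act o _) ((Ltower k).op_succ_tgt hC h hk)).trans ?_
    exact (act_seq Z _ _ _).trans (congrArg _ (act_Lm_pair hk true x w hc _))

lemma R_succ_face (hk : k + 1 ≤ h) (up : Bool) (w : Z.cells.cell (h + 1)) (x : Z.cells.cell (k + 1))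
    (hc : bface Z (Nat.le_succ_of_le hk) true w = Z.cells.src k x) :
    bface Z (Nat.lt_succ_self h) up (R hC k w x) = R hC k (bface Z (Nat.lt_succ_self h) up w) x := by
  rw [R_eq hC (Nat.le_succ_of_le hk) w x hc, R_eq hC hk _ x (compat_R_face hk up hc)]
  refine (act_seq Z _ _ _).symm.trans ?_
  cases up with
  | false =>
    refine (congrArg (fun o => Z.act o _) ((Rtower k).op_succ_src hC h hk)).trans ?_
    exact (act_seq Z _ _ _).trans (congrArg _ (act_Rm_pair hk false x w hc _))
  | true =>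
    refine (congrArg (fun o => Z.act o _) ((Rtower k).op_succ_tgt hC h hk)).trans ?_
    exact (act_seq Z _ _ _).trans (congrArg _ (act_Rm_pair hk true x w hc _))

lemma L_succ_src (hk : k + 1 ≤ h) (x : Z.cells.cell (k + 1)) (w : Z.cells.cell (h + 1))
    (hc : Z.cells.tgt k x = bface Z (Nat.le_succ_of_le hk) false w) :
    Z.cells.src h (L hC k x w) = L hC k x (Z.cells.src h w) := L_succ_face hC hk false x w hc

lemma L_succ_tgt (hk : k + 1 ≤ h) (x : Z.cells.cell (k + 1)) (w : Z.cells.cell (h + 1))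
    (hc : Z.cells.tgt k x = bface Z (Nat.le_succ_of_le hk) false w) :
    Z.cells.tgt h (L hC k x w) = L hC k x (Z.cells.tgt h w) := L_succ_face hC hk true x w hc

lemma R_succ_src (hk : k + 1 ≤ h) (w : Z.cells.cell (h + 1)) (x : Z.cells.cell (k + 1))
    (hc : bface Z (Nat.le_succ_of_le hk) true w = Z.cells.src k x) :
    Z.cells.src h (R hC k w x) = R hC k (Z.cells.src h w) x := R_succ_face hC hk false w x hc

lemma R_succ_tgt (hk : k + 1 ≤ h) (w : Z.cells.cell (h + 1)) (x : Z.cells.cell (k + 1))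
    (hc : bface Z (Nat.le_succ_of_le hk) true w = Z.cells.src k x) :
    Z.cells.tgt h (R hC k w x) = R hC k (Z.cells.tgt h w) x := R_succ_face hC hk true w x hc

/-- The `k`-boundary of a left whisker. -/
lemma L_bface (hk : k + 1 ≤ h) (x : Z.cells.cell (k + 1)) (w : Z.cells.cell h)
    (hc : Z.cells.tgt k x = bface Z hk false w) :
    bface Z hk false (L hC k x w) = Z.cells.src k x ∧
      bface Z hk true (L hC k x w) = bface Z hk true w := by
  induction h, hk using Nat.le_induction with
  | base => exact ⟨L_base_src hC x w hc, L_base_tgt hC x w hc⟩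
  | succ h hk ih =>
    have hc1 := compat_L_face hk false hc
    have := ih (bface Z (Nat.lt_succ_self h) false w) hc1
    constructor
    · rw [← bface_bface hk (Nat.lt_succ_self h) false false, L_succ_face hC hk false x w hc]
      exact this.1
    · rw [← bface_bface hk (Nat.lt_succ_self h) true false, L_succ_face hC hk false x w hc]
      exact this.2.trans (bface_bface hk (Nat.lt_succ_self h) true false w)

/-- The `k`-boundary of a right whisker. -/
lemma R_bface (hk : k + 1 ≤ h) (w : Z.cells.cell h) (x : Z.cells.cell (k + 1))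
    (hc : bface Z hk true w = Z.cells.src k x) :
    bface Z hk false (R hC k w x) = bface Z hk false w ∧
      bface Z hk true (R hC k w x) = Z.cells.tgt k x := by
  induction h, hk using Nat.le_induction with
  | base => exact ⟨R_base_src hC w x hc, R_base_tgt hC w x hc⟩
  | succ h hk ih =>
    have hc1 := compat_R_face hk false hc
    have := ih (bface Z (Nat.lt_succ_self h) false w) hc1
    constructor
    · rw [← bface_bface hk (Nat.lt_succ_self h) false false, R_succ_face hC hk false w x hc]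
      exact this.1.trans (bface_bface hk (Nat.lt_succ_self h) false false w)
    · rw [← bface_bface hk (Nat.lt_succ_self h) true false, R_succ_face hC hk false w x hc]
      exact this.2

/-- Lower faces of a left whisker are those of `w`. -/
lemma L_bface_below {m : ℕ} (hm : m < k) (hk : k + 1 ≤ h) (up : Bool) (x : Z.cells.cell (k + 1))
    (w : Z.cells.cell h) (hc : Z.cells.tgt k x = bface Z hk false w) :
    bface Z (hm.trans hk) up (L hC k x w) = bface Z (hm.trans hk) up w := by
  rw [← bface_bface hm hk up false, (L_bface hC hk x w hc).1, ← bface_bface hm hk up false, ← hc]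
  exact (bface_src' hm up x).trans (bface_tgt' hm up x).symm

/-- Lower faces of a right whisker are those of `w`. -/
lemma R_bface_below {m : ℕ} (hm : m < k) (hk : k + 1 ≤ h) (up : Bool) (w : Z.cells.cell h)
    (x : Z.cells.cell (k + 1)) (hc : bface Z hk true w = Z.cells.src k x) :
    bface Z (hm.trans hk) up (R hC k w x) = bface Z (hm.trans hk) up w := by
  rw [← bface_bface hm hk up false, (R_bface hC hk w x hc).1, ← bface_bface hm hk up false]

end faces

lemma map_L {Y : GlobModel C} (g : Z ⟶ Y) {k h : ℕ} (hk : k + 1 ≤ h) (x : Z.cells.cell (k + 1))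
    (w : Z.cells.cell h) (hc : Z.cells.tgt k x = bface Z hk false w) :
    (cellsMap g).app h (L hC k x w) = L hC k ((cellsMap g).app _ x) ((cellsMap g).app _ w) := by
  have hc' : Y.cells.tgt k ((cellsMap g).app _ x) = bface Y hk false ((cellsMap g).app _ w) := by
    rw [← (cellsMap g).app_tgt, hc]; exact map_bface g hk false w
  rw [L_eq hC hk x w hc, L_eq hC hk _ _ hc']
  exact (map_act g _ _).trans (congrArg _ (map_pair g _ _ x w hc hc'))

lemma map_R {Y : GlobModel C} (g : Z ⟶ Y) {k h : ℕ} (hk : k + 1 ≤ h) (w : Z.cells.cell h)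
    (x : Z.cells.cell (k + 1)) (hc : bface Z hk true w = Z.cells.src k x) :
    (cellsMap g).app h (R hC k w x) = R hC k ((cellsMap g).app _ w) ((cellsMap g).app _ x) := by
  have hc' : bface Y hk true ((cellsMap g).app _ w) = Y.cells.src k ((cellsMap g).app _ x) := by
    rw [← (cellsMap g).app_src, ← hc]; exact (map_bface g hk true w).symm
  rw [R_eq hC hk w x hc, R_eq hC hk _ _ hc']
  exact (map_act g _ _).trans (congrArg _ (map_pair g _ _ w x hc hc'))

include hC in
/-- `Step` is transitive. -/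
lemma step_trans {j : ℕ} {x y z : Z.cells.cell j} (h₁ : Z.cells.Step j x y)
    (h₂ : Z.cells.Step j y z) : Z.cells.Step j x z := by
  obtain ⟨c₁, rfl, rfl⟩ := h₁
  obtain ⟨c₂, hs, rfl⟩ := h₂
  exact ⟨L hC j c₁ c₂, L_base_src hC c₁ c₂ hs.symm, L_base_tgt hC c₁ c₂ hs.symm⟩

end GM

end Crest.Agent.Henry
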