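import Crest.Agent.Henry.Transport
import Crest.Agent.Henry.Whisker

/-!
# The whisker operations of a model as `WOps` (S0382, helper3)
-/

set_option autoImplicit false

open CategoryTheory CategoryTheory.Limits Opposite
open Crest.GeometryTopology.Coherator
open Crest.GeometryTopology.Coherator.GlobTheory Crest.GeometryTopology.Coherator.GlobTheory.GlobModel

universe u

namespace Crest.Agent.Henry

variable {C : GlobTheory.{u}}

theorem cell_face_eq_bface (Z : GlobModel C) {k h : ℕ} (hk : k < h) (b : Bool) (x : Z.cells.cell h) :
    Cell.face (cellsPsh Z) hk b x = GM.bface Z hk b x := rfl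

/-- The whisker operations of a model. -/
noncomputable def zOps (hC : HasFillers C) (Z : GlobModel C) : WOps (cellsPsh Z) where
  inv _ x := GM.inv hC x
  wl k _ x w := GM.L hC k x w
  wr k _ w x := GM.R hC k w x

theorem L_high (hC : HasFillers C) (Z : GlobModel C) {k i h : ℕ} (hki : k < i) (hih : i < h) (b : Bool)
    (x : Z.cells.cell (k + 1)) (w : Z.cells.cell h)
    (hc : Z.cells.tgt k x = GM.bface Z (hki.trans hih) false w) :
    GM.bface Z hih b (GM.L hC k x w) = GM.L hC k x (GM.bface Z hih b w) := by
  induction h with
  | zero => exact absurd hih (Nat.not_lt_zero _)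
  | succ h ih =>
    by_cases e : i = h
    · subst e
      exact GM.L_succ_face hC hki b x w hc
    · have hih' : i < h := by omega
      have hk1 : k + 1 ≤ h := by omega
      have hc' : Z.cells.tgt k x = GM.bface Z (hki.trans hih') false (GM.bface Z (Nat.lt_succ_self h) false w) := by
        rw [GM.bface_bface]; exact hc
      rw [← GM.bface_bface hih' (Nat.lt_succ_self h) b false,
        GM.L_succ_face hC hk1 false x w hc, ih hih' _ hc', GM.bface_bface]

theorem R_high (hC : HasFillers C) (Z : GlobModel C) {k i h : ℕ} (hki : k < i) (hih : i < h) (b : Bool)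
    (w : Z.cells.cell h) (x : Z.cells.cell (k + 1))
    (hc : GM.bface Z (hki.trans hih) true w = Z.cells.src k x) :
    GM.bface Z hih b (GM.R hC k w x) = GM.R hC k (GM.bface Z hih b w) x := by
  induction h with
  | zero => exact absurd hih (Nat.not_lt_zero _)
  | succ h ih =>
    by_cases e : i = h
    · subst e
      exact GM.R_succ_face hC hki b w x hc
    · have hih' : i < h := by omega
      have hk1 : k + 1 ≤ h := by omega
      have hc' : GM.bface Z (hki.trans hih') true (GM.bface Z (Nat.lt_succ_self h) false w) = Z.cells.src k x := by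
        rw [GM.bface_bface]; exact hc
      rw [← GM.bface_bface hih' (Nat.lt_succ_self h) b false,
        GM.R_succ_face hC hk1 false w x hc, ih hih' _ hc', GM.bface_bface]

theorem zLaws (hC : HasFillers C) (Z : GlobModel C) : WLaws (zOps hC Z) where
  inv_s _ x := GM.src_inv hC x
  inv_t _ x := GM.tgt_inv hC x
  wl_high hki hih b x w hc := L_high hC Z hki hih b x w hc
  wl_src hkh x w hc := (GM.L_bface hC hkh x w hc).1
  wl_tgt hkh x w hc := (GM.L_bface hC hkh x w hc).2
  wr_high hki hih b w x hc := R_high hC Z hki hih b w x hc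
  wr_src hkh w x hc := (GM.R_bface hC hkh w x hc).1
  wr_tgt hkh w x hc := (GM.R_bface hC hkh w x hc).2

theorem zNat (hC : HasFillers C) {Z Y : GlobModel C} (g : Z ⟶ Y) :
    Conx.WNat (zOps hC Z) (zOps hC Y) (Functor.whiskerLeft C.globes.op g) where
  inv _ x := GM.map_inv hC g x
  wl hkh x w hc := GM.map_L hC g hkh x w hc
  wr hkh w x hc := GM.map_R hC g hkh w x hc

end Crest.Agent.Henry
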